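import Vale.Agent.Lib.P232.Defs

/-! JOB B1: measure theory: Fubini for a.e. statements, measurability of parametric integrals, essential bounds. -/

open MeasureTheory Set Filter Topology
open scoped ENNReal

noncomputable section

namespace Vale.Agent.Lib.P232

/-- Fubini for a.e. statements: rows. -/
theorem ae_rows {P : ℝ → ℝ → Prop} (h : ∀ᵐ p : ℝ × ℝ, P p.1 p.2) : ∀ᵐ y : ℝ, ∀ᵐ x : ℝ, P x y := by
  have h' : ∀ᵐ p : ℝ × ℝ, P p.2 p.1 :=
    (Measure.measurePreserving_swap (μ := volume) (ν := volume)).quasiMeasurePreserving.ae h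
  exact Measure.ae_ae_of_ae_prod h'

/-- Fubini for a.e. statements: columns. -/
theorem ae_cols {P : ℝ → ℝ → Prop} (h : ∀ᵐ p : ℝ × ℝ, P p.1 p.2) : ∀ᵐ x : ℝ, ∀ᵐ y : ℝ, P x y :=
  Measure.ae_ae_of_ae_prod h

/-- Fubini for a.e. statements: horizontal slices. -/
theorem ae_slices {P : ℝ → ℝ → ℝ → Prop} (h : ∀ᵐ p : R3, P p.1 p.2.1 p.2.2) :
    ∀ᵐ t : ℝ, ∀ᵐ q : ℝ × ℝ, P q.1 q.2 t := by
  have h1 : ∀ᵐ r : (ℝ × ℝ) × ℝ, P r.1.1 r.1.2 r.2 :=
    (measurePreserving_prodAssoc (volume : Measure ℝ) (volume : Measure ℝ)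
      (volume : Measure ℝ)).quasiMeasurePreserving.ae h
  have h2 : ∀ᵐ r : ℝ × (ℝ × ℝ), P r.2.1 r.2.2 r.1 :=
    (Measure.measurePreserving_swap (μ := (volume : Measure ℝ))
      (ν := ((volume : Measure ℝ).prod (volume : Measure ℝ)))).quasiMeasurePreserving.ae h1
  exact Measure.ae_ae_of_ae_prod h2

/-- Swapping the coordinates preserves the a.e. statement on the plane. -/
theorem ae_swap {P : ℝ → ℝ → Prop} (h : ∀ᵐ p : ℝ × ℝ, P p.1 p.2) : ∀ᵐ p : ℝ × ℝ, P p.2 p.1 :=
  (Measure.measurePreserving_swap (μ := volume) (ν := volume)).quasiMeasurePreserving.ae h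

/-- Cyclic permutation preserves the a.e. statement in space. -/
theorem ae_perm {P : ℝ → ℝ → ℝ → Prop} (h : ∀ᵐ p : R3, P p.1 p.2.1 p.2.2) :
    ∀ᵐ p : R3, P p.2.1 p.2.2 p.1 := by
  have h1 : ∀ᵐ r : (ℝ × ℝ) × ℝ, P r.1.1 r.1.2 r.2 :=
    (measurePreserving_prodAssoc (volume : Measure ℝ) (volume : Measure ℝ)
      (volume : Measure ℝ)).quasiMeasurePreserving.ae h
  exact (Measure.measurePreserving_swap (μ := (volume : Measure ℝ))
      (ν := ((volume : Measure ℝ).prod (volume : Measure ℝ)))).quasiMeasurePreserving.ae h1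

/-- A measurable function on a product has a measurable interval integral in the parameter. -/
theorem measurable_intervalIntegral_param {α : Type*} [MeasurableSpace α] {F : α → ℝ → ℝ}
    (hF : Measurable (fun p : α × ℝ => F p.1 p.2)) :
    Measurable (fun a => ∫ x in (0 : ℝ)..1, F a x) := by
  have h : Measurable (fun a => ∫ x, F a x ∂(volume.restrict (Ioc (0 : ℝ) 1))) :=
    (hF.stronglyMeasurable.integral_prod_right' (ν := volume.restrict (Ioc (0 : ℝ) 1))).measurable
  convert h using 2 with a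
  rw [intervalIntegral.integral_of_le zero_le_one]

/-- Bounded measurable functions are integrable on the unit interval. -/
theorem intervalIntegrable_of_bdd {f : ℝ → ℝ} (hm : Measurable f) {C : ℝ} (hC : ∀ x, |f x| ≤ C) :
    IntervalIntegrable f volume 0 1 := by
  rw [intervalIntegrable_iff]
  exact Measure.integrableOn_of_bounded (M := C) (by simp) hm.aestronglyMeasurable
    (ae_of_all _ (fun t => by simpa using hC t))

/-- Swap of two interval integrals for bounded jointly measurable functions. -/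
theorem interval_swap {F : ℝ → ℝ → ℝ} (hF : Measurable (fun p : ℝ × ℝ => F p.1 p.2)) {C : ℝ}
    (hC : ∀ x y, |F x y| ≤ C) :
    ∫ y in (0 : ℝ)..1, ∫ x in (0 : ℝ)..1, F x y = ∫ x in (0 : ℝ)..1, ∫ y in (0 : ℝ)..1, F x y := by
  set μ : Measure ℝ := volume.restrict (Ioc (0 : ℝ) 1) with hμ
  have : IsFiniteMeasure μ := ⟨by simp [hμ]⟩
  have hint : Integrable (Function.uncurry F) (μ.prod μ) := by
    refine Integrable.of_bound (C := C) ?_ ?_
    · exact (show Measurable (Function.uncurry F) from hF).aestronglyMeasurable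
    · exact ae_of_all _ (fun p => by simpa [Function.uncurry] using hC p.1 p.2)
  simp only [intervalIntegral.integral_of_le (zero_le_one' ℝ)]
  exact (integral_integral_swap (μ := μ) (ν := μ) hint).symm

/-- The lower essential bound of a bounded measurable function. -/
private theorem eb_low {a : ℝ → ℝ} (hm : Measurable a) {C : ℝ} (hC : ∀ t, |a t| ≤ C) :
    ∃ m, (∀ᵐ t ∂(volume.restrict (Ioc (0 : ℝ) 1)), m ≤ a t) ∧
      ∀ ε > 0, 0 < volume {t ∈ Ioc (0 : ℝ) 1 | a t < m + ε} := by
  set μ : Measure ℝ := volume.restrict (Ioc (0 : ℝ) 1) with hμ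
  set S : Set ℝ := {c | ∀ᵐ t ∂μ, c ≤ a t} with hS
  have hne : NeBot (ae μ) := by
    refine ae_neBot.2 ?_
    intro h0
    have := congrArg (fun ν : Measure ℝ => ν univ) h0
    simp [hμ] at this
  have hSne : S.Nonempty := ⟨-C, ae_of_all _ (fun t => by
    have := abs_le.1 (hC t)
    exact this.1)⟩
  have hSbd : BddAbove S := ⟨C, fun c hc => by
    obtain ⟨t, ht⟩ := (show ∀ᵐ t ∂μ, c ≤ a t from hc).exists
    exact ht.trans (abs_le.1 (hC t)).2⟩
  refine ⟨sSup S, ?_, ?_⟩
  · have hseq : ∀ n : ℕ, ∃ c ∈ S, sSup S - 1 / ((n : ℝ) + 1) < c := by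
      intro n
      exact exists_lt_of_lt_csSup hSne (by
        have : (0 : ℝ) < 1 / ((n : ℝ) + 1) := by positivity
        linarith)
    choose c hcS hc using hseq
    have hall : ∀ᵐ t ∂μ, ∀ n, c n ≤ a t := ae_all_iff.2 hcS
    filter_upwards [hall] with t ht
    refine le_of_forall_pos_lt_add ?_
    intro ε hε
    obtain ⟨n, hn⟩ := exists_nat_one_div_lt hε
    have h1 := hc n
    have h2 := ht n
    linarith
  · intro ε hε
    by_contra hzero
    have hz : volume {t ∈ Ioc (0 : ℝ) 1 | a t < sSup S + ε} = 0 := by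
      simpa using hzero
    have hmem : sSup S + ε ∈ S := by
      have hmeas : MeasurableSet {t | a t < sSup S + ε} := measurableSet_lt hm measurable_const
      show ∀ᵐ t ∂μ, sSup S + ε ≤ a t
      rw [hμ, ae_restrict_iff' measurableSet_Ioc]
      have hnull : ∀ᵐ t ∂(volume : Measure ℝ), t ∉ {t ∈ Ioc (0 : ℝ) 1 | a t < sSup S + ε} :=
        measure_eq_zero_iff_ae_notMem.1 hz
      filter_upwards [hnull] with t ht htI
      by_contra hlt
      exact ht ⟨htI, not_le.1 hlt⟩
    have := le_csSup hSbd hmem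
    linarith

/-- Existence of the essential bounds of a bounded measurable function on the unit interval. -/
theorem exists_essBounds {a : ℝ → ℝ} (hm : Measurable a) {C : ℝ} (hC : ∀ t, |a t| ≤ C) :
    ∃ m M, m ≤ M ∧ EssBounds a m M := by
  obtain ⟨m, hm1, hm2⟩ := eb_low hm hC
  have hm' : Measurable (fun t => -a t) := hm.neg
  obtain ⟨M', hM1, hM2⟩ := eb_low hm' (C := C) (fun t => by simpa using hC t)
  have hge : ∀ᵐ t ∂(volume.restrict (Ioc (0 : ℝ) 1)), a t ≤ -M' := by
    filter_upwards [hM1] with t ht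
    linarith
  have hne : NeBot (ae (volume.restrict (Ioc (0 : ℝ) 1))) := by
    refine ae_neBot.2 ?_
    intro h0
    have := congrArg (fun μ : Measure ℝ => μ univ) h0
    simp at this
  have hle : m ≤ -M' := by
    obtain ⟨t, ht1, ht2⟩ := (hm1.and hge).exists
    linarith
  refine ⟨m, -M', hle, hm1, hge, hm2, ?_⟩
  intro ε hε
  have := hM2 ε hε
  have hset : {t ∈ Ioc (0 : ℝ) 1 | -M' - ε < a t} = {t ∈ Ioc (0 : ℝ) 1 | -a t < M' + ε} := by
    ext t
    constructor
    · rintro ⟨h1, h2⟩; exact ⟨h1, by linarith⟩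
    · rintro ⟨h1, h2⟩; exact ⟨h1, by linarith⟩
  rw [hset]
  exact this

/-- The essential bounds enclose the mean. -/
theorem EssBounds.mean_mem {a : ℝ → ℝ} {m M : ℝ} (h : EssBounds a m M) (hm : Measurable a) {C : ℝ}
    (hC : ∀ t, |a t| ≤ C) : m ≤ ∫ t in (0 : ℝ)..1, a t ∧ ∫ t in (0 : ℝ)..1, a t ≤ M := by
  set μ : Measure ℝ := volume.restrict (Ioc (0 : ℝ) 1) with hμ
  have hfin : IsFiniteMeasure μ := ⟨by simp [hμ]⟩
  have hmass : μ.real univ = 1 := by simp [hμ, Measure.real]
  have hint : Integrable a μ := by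
    refine Integrable.of_bound (C := C) hm.aestronglyMeasurable ?_
    exact ae_of_all _ (fun t => by simpa using hC t)
  rw [intervalIntegral.integral_of_le (zero_le_one' ℝ)]
  constructor
  · have := integral_mono_ae (integrable_const m) hint h.ge_m
    simpa [hmass] using this
  · have := integral_mono_ae hint (integrable_const M) h.le_M
    simpa [hmass] using this

end Vale.Agent.Lib.P232
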