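import Vale.Agent.Lib.P232.Basics1

/-! JOB B2: calculus of parametric integrals and trivial closure properties of the classes. -/

open MeasureTheory Set Filter Topology
open scoped ENNReal

noncomputable section

namespace Vale.Agent.Lib.P232

/-! Parametric integrals. -/

/-- Chain rule along a curve for a `C¹` function. -/
private theorem b2_hasDerivAt_curve {E : Type*} [NormedAddCommGroup E] [NormedSpace ℝ E] {F : E → ℝ}
    (hF : ContDiff ℝ 1 F) {γ : ℝ → E} {γ' : E} {s : ℝ} (hγ : HasDerivAt γ γ' s) :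
    HasDerivAt (fun r => F (γ r)) (fderiv ℝ F (γ s) γ') s :=
  ((hF.differentiable (by norm_num)) (γ s)).hasFDerivAt.comp_hasDerivAt s hγ

/-- The directional derivative is continuous. -/
private theorem b2_continuous_dir {E : Type*} [NormedAddCommGroup E] [NormedSpace ℝ E] {F : E → ℝ}
    (hF : ContDiff ℝ 1 F) (v : E) : Continuous (fun p => fderiv ℝ F p v) :=
  (hF.continuous_fderiv (by norm_num)).clm_apply continuous_const

private theorem b2_d1_eq {w : ℝ → ℝ → ℝ} (h : C1P2 w) (x y : ℝ) :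
    d1 w x y = fderiv ℝ (fun p : ℝ × ℝ => w p.1 p.2) (x, y) ((1 : ℝ), (0 : ℝ)) := by
  have hγ : HasDerivAt (fun r : ℝ => (r, y)) ((1 : ℝ), (0 : ℝ)) x :=
    (hasDerivAt_id x).prodMk (hasDerivAt_const x y)
  exact (b2_hasDerivAt_curve h.smooth hγ).deriv

private theorem b2_d2_eq {w : ℝ → ℝ → ℝ} (h : C1P2 w) (x y : ℝ) :
    d2 w x y = fderiv ℝ (fun p : ℝ × ℝ => w p.1 p.2) (x, y) ((0 : ℝ), (1 : ℝ)) := by
  have hγ : HasDerivAt (fun r : ℝ => (x, r)) ((0 : ℝ), (1 : ℝ)) y :=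
    (hasDerivAt_const y x).prodMk (hasDerivAt_id y)
  exact (b2_hasDerivAt_curve h.smooth hγ).deriv

/-- The first derivative of a jointly `C¹` function is jointly continuous. -/
theorem C1P2.continuous_d1 {w : ℝ → ℝ → ℝ} (h : C1P2 w) :
    Continuous (fun p : ℝ × ℝ => d1 w p.1 p.2) := by
  have : (fun p : ℝ × ℝ => d1 w p.1 p.2) =
      fun p => fderiv ℝ (fun p : ℝ × ℝ => w p.1 p.2) p ((1 : ℝ), (0 : ℝ)) := by
    funext p; exact b2_d1_eq h p.1 p.2
  rw [this]; exact b2_continuous_dir h.smooth _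

theorem C1P2.continuous_d2 {w : ℝ → ℝ → ℝ} (h : C1P2 w) :
    Continuous (fun p : ℝ × ℝ => d2 w p.1 p.2) := by
  have : (fun p : ℝ × ℝ => d2 w p.1 p.2) =
      fun p => fderiv ℝ (fun p : ℝ × ℝ => w p.1 p.2) p ((0 : ℝ), (1 : ℝ)) := by
    funext p; exact b2_d2_eq h p.1 p.2
  rw [this]; exact b2_continuous_dir h.smooth _

private theorem b2_dX_eq {W : ℝ → ℝ → ℝ → ℝ} (h : C1P3 W) (x y t : ℝ) :
    dX W x y t = fderiv ℝ (fun p : R3 => W p.1 p.2.1 p.2.2) (x, y, t) ((1 : ℝ), (0 : ℝ), (0 : ℝ)) := by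
  have hγ : HasDerivAt (fun r : ℝ => ((r, y, t) : R3)) ((1 : ℝ), (0 : ℝ), (0 : ℝ)) x :=
    (hasDerivAt_id x).prodMk ((hasDerivAt_const x y).prodMk (hasDerivAt_const x t))
  exact (b2_hasDerivAt_curve h.smooth hγ).deriv

private theorem b2_dY_eq {W : ℝ → ℝ → ℝ → ℝ} (h : C1P3 W) (x y t : ℝ) :
    dY W x y t = fderiv ℝ (fun p : R3 => W p.1 p.2.1 p.2.2) (x, y, t) ((0 : ℝ), (1 : ℝ), (0 : ℝ)) := by
  have hγ : HasDerivAt (fun r : ℝ => ((x, r, t) : R3)) ((0 : ℝ), (1 : ℝ), (0 : ℝ)) y :=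
    (hasDerivAt_const y x).prodMk ((hasDerivAt_id y).prodMk (hasDerivAt_const y t))
  exact (b2_hasDerivAt_curve h.smooth hγ).deriv

private theorem b2_dT_eq {W : ℝ → ℝ → ℝ → ℝ} (h : C1P3 W) (x y t : ℝ) :
    dT W x y t = fderiv ℝ (fun p : R3 => W p.1 p.2.1 p.2.2) (x, y, t) ((0 : ℝ), (0 : ℝ), (1 : ℝ)) := by
  have hγ : HasDerivAt (fun r : ℝ => ((x, y, r) : R3)) ((0 : ℝ), (0 : ℝ), (1 : ℝ)) t :=
    (hasDerivAt_const t x).prodMk ((hasDerivAt_const t y).prodMk (hasDerivAt_id t))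
  exact (b2_hasDerivAt_curve h.smooth hγ).deriv

theorem C1P3.continuous_dX {W : ℝ → ℝ → ℝ → ℝ} (h : C1P3 W) :
    Continuous (fun p : R3 => dX W p.1 p.2.1 p.2.2) := by
  have : (fun p : R3 => dX W p.1 p.2.1 p.2.2) =
      fun p => fderiv ℝ (fun p : R3 => W p.1 p.2.1 p.2.2) p ((1 : ℝ), (0 : ℝ), (0 : ℝ)) := by
    funext p; exact b2_dX_eq h p.1 p.2.1 p.2.2
  rw [this]; exact b2_continuous_dir h.smooth _

theorem C1P3.continuous_dY {W : ℝ → ℝ → ℝ → ℝ} (h : C1P3 W) :
    Continuous (fun p : R3 => dY W p.1 p.2.1 p.2.2) := by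
  have : (fun p : R3 => dY W p.1 p.2.1 p.2.2) =
      fun p => fderiv ℝ (fun p : R3 => W p.1 p.2.1 p.2.2) p ((0 : ℝ), (1 : ℝ), (0 : ℝ)) := by
    funext p; exact b2_dY_eq h p.1 p.2.1 p.2.2
  rw [this]; exact b2_continuous_dir h.smooth _

theorem C1P3.continuous_dT {W : ℝ → ℝ → ℝ → ℝ} (h : C1P3 W) :
    Continuous (fun p : R3 => dT W p.1 p.2.1 p.2.2) := by
  have : (fun p : R3 => dT W p.1 p.2.1 p.2.2) =
      fun p => fderiv ℝ (fun p : R3 => W p.1 p.2.1 p.2.2) p ((0 : ℝ), (0 : ℝ), (1 : ℝ)) := by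
    funext p; exact b2_dT_eq h p.1 p.2.1 p.2.2
  rw [this]; exact b2_continuous_dir h.smooth _

/-- Horizontal slices. -/
theorem C1P3.slice {W : ℝ → ℝ → ℝ → ℝ} (h : C1P3 W) (t : ℝ) : C1P2 (slc W t) := by
  refine ⟨?_, fun x y => h.per_x x y t, fun x y => h.per_y x y t, fun x y => h.nonneg x y t,
    fun x y => h.le_one x y t⟩
  have hc : ContDiff ℝ 1 (fun p : ℝ × ℝ => ((p.1, p.2, t) : R3)) :=
    contDiff_fst.prodMk (contDiff_snd.prodMk contDiff_const)
  exact h.smooth.comp hc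

/-- Lines of a function on the two-torus. -/
theorem C1P2.line {w : ℝ → ℝ → ℝ} (h : C1P2 w) (y : ℝ) : C1P1 (fun x => w x y) := by
  refine ⟨?_, fun x => h.per_x x y, fun x => h.nonneg x y, fun x => h.le_one x y⟩
  have hc : ContDiff ℝ 1 (fun x : ℝ => (x, y)) := contDiff_id.prodMk contDiff_const
  exact h.smooth.comp hc

/-- Differentiation under the integral sign, one parameter. -/
theorem hasDerivAt_param {F F' : ℝ → ℝ → ℝ} (hF : Continuous (fun p : ℝ × ℝ => F p.1 p.2))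
    (hF' : Continuous (fun p : ℝ × ℝ => F' p.1 p.2)) (hd : ∀ x t, HasDerivAt (fun s => F x s) (F' x t) t)
    (t : ℝ) : HasDerivAt (fun s => ∫ x in (0 : ℝ)..1, F x s) (∫ x in (0 : ℝ)..1, F' x t) t := by
  have hcomp : IsCompact (Icc (0 : ℝ) 1 ×ˢ Icc (t - 1) (t + 1)) := isCompact_Icc.prod isCompact_Icc
  obtain ⟨C, hC⟩ := hcomp.exists_bound_of_continuousOn hF'.continuousOn
  have hFs : ∀ s, Continuous (fun x => F x s) := fun s =>
    hF.comp (continuous_id.prodMk continuous_const)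
  have hFs' : ∀ s, Continuous (fun x => F' x s) := fun s =>
    hF'.comp (continuous_id.prodMk continuous_const)
  have hs : Icc (t - 1) (t + 1) ∈ 𝓝 t := Icc_mem_nhds (by linarith) (by linarith)
  refine (intervalIntegral.hasDerivAt_integral_of_dominated_loc_of_deriv_le
    (F := fun s x => F x s) (F' := fun s x => F' x s) (bound := fun _ => C) (x₀ := t)
    (μ := volume) (a := 0) (b := 1) hs ?_ ?_ ?_ ?_ ?_ ?_).2
  · exact Filter.Eventually.of_forall fun s => (hFs s).aestronglyMeasurable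
  · exact (hFs t).intervalIntegrable _ _
  · exact (hFs' t).aestronglyMeasurable
  · refine Filter.Eventually.of_forall fun x hx s hs' => ?_
    have hx' : x ∈ Icc (0 : ℝ) 1 := by
      rw [uIoc_of_le zero_le_one] at hx
      exact ⟨hx.1.le, hx.2⟩
    exact hC (x, s) ⟨hx', hs'⟩
  · exact intervalIntegrable_const
  · exact Filter.Eventually.of_forall fun x _ s _ => hd x s

/-- Swap of interval integrals for continuous integrands. -/
private theorem b2_swap_cont {F : ℝ → ℝ → ℝ} (hF : Continuous (fun p : ℝ × ℝ => F p.1 p.2)) :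
    ∫ y in (0 : ℝ)..1, ∫ x in (0 : ℝ)..1, F x y = ∫ x in (0 : ℝ)..1, ∫ y in (0 : ℝ)..1, F x y := by
  have h := MeasureTheory.intervalIntegral_intervalIntegral_swap
    (F := fun y x => F x y) (a := 0) (b := 1) (c := 0) (d := 1) ?_
  · exact h
  · have hc : Continuous (Function.uncurry (fun y x => F x y)) := by
      have : Function.uncurry (fun y x => F x y) = fun p : ℝ × ℝ => F p.2 p.1 := by
        funext p; rfl
      rw [this]; exact hF.comp continuous_swap
    have hcomp : IsCompact (Icc (0 : ℝ) 1 ×ˢ Icc (0 : ℝ) 1) := isCompact_Icc.prod isCompact_Icc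
    have hI := hc.continuousOn.integrableOn_compact (μ := volume) hcomp
    refine hI.mono_set ?_
    rw [uIoc_of_le zero_le_one]
    exact prod_mono Ioc_subset_Icc_self Ioc_subset_Icc_self

theorem C1P2.swap {w : ℝ → ℝ → ℝ} (h : C1P2 w) : C1P2 (fun x y => w y x) := by
  refine ⟨?_, fun x y => h.per_y y x, fun x y => h.per_x y x, fun x y => h.nonneg y x,
    fun x y => h.le_one y x⟩
  exact h.smooth.comp (contDiff_snd.prodMk contDiff_fst)

/-- Swap of the two integrals of the energy for a function on the two-torus. -/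
theorem En2_swap {w : ℝ → ℝ → ℝ} (h : C1P2 w) : En2 (fun x y => w y x) = En2 w := by
  have hc : Continuous (fun p : ℝ × ℝ => Real.sqrt (d1 w p.1 p.2 ^ 2 + d2 w p.1 p.2 ^ 2)) :=
    Real.continuous_sqrt.comp (((h.continuous_d1).pow 2).add ((h.continuous_d2).pow 2))
  unfold En2
  have := b2_swap_cont (F := fun x y => Real.sqrt (d1 w x y ^ 2 + d2 w x y ^ 2)) hc
  rw [this]
  refine intervalIntegral.integral_congr fun y _ => ?_
  refine intervalIntegral.integral_congr fun x _ => ?_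
  have e1 : d1 (fun x y => w y x) x y = d2 w y x := rfl
  have e2 : d2 (fun x y => w y x) x y = d1 w y x := rfl
  simp only [e1, e2]
  rw [add_comm]

theorem Ind2.swap {χ : ℝ → ℝ → ℝ} (h : Ind2 χ) : Ind2 (fun x y => χ y x) :=
  ⟨h.meas.comp measurable_swap, fun x y => h.bool y x, fun x y => h.per_y y x,
    fun x y => h.per_x y x⟩

theorem Approx2.swap {w : ℕ → ℝ → ℝ → ℝ} {χ : ℝ → ℝ → ℝ} (h : Approx2 w χ) :
    Approx2 (fun k x y => w k y x) (fun x y => χ y x) :=
  ⟨fun k => (h.c1 k).swap, h.ind.swap,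
    ae_swap (P := fun x y => Tendsto (fun k => w k x y) atTop (𝓝 (χ x y))) h.conv⟩

/-- Complement: `1 - w` approximates `1 - χ`, with the same energy. -/
theorem Approx2.compl {w : ℕ → ℝ → ℝ → ℝ} {χ : ℝ → ℝ → ℝ} (h : Approx2 w χ) :
    Approx2 (fun k x y => 1 - w k x y) (fun x y => 1 - χ x y) := by
  refine ⟨fun k => ?_, ?_, ?_⟩
  · have hk := h.c1 k
    refine ⟨contDiff_const.sub hk.smooth, ?_, ?_, ?_, ?_⟩
    · intro x y; simp only [hk.per_x]
    · intro x y; simp only [hk.per_y]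
    · intro x y; have := hk.le_one x y; linarith
    · intro x y; have := hk.nonneg x y; linarith
  · have hi := h.ind
    refine ⟨measurable_const.sub hi.meas, ?_, ?_, ?_⟩
    · intro x y
      rcases hi.bool x y with h0 | h1
      · right; simp [h0]
      · left; simp [h1]
    · intro x y; simp only [hi.per_x]
    · intro x y; simp only [hi.per_y]
  · filter_upwards [h.conv] with p hp
    exact tendsto_const_nhds.sub hp

theorem En2_compl {w : ℝ → ℝ → ℝ} (_h : C1P2 w) : En2 (fun x y => 1 - w x y) = En2 w := by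
  unfold En2
  refine intervalIntegral.integral_congr fun y _ => ?_
  refine intervalIntegral.integral_congr fun x _ => ?_
  have e1 : d1 (fun x y => 1 - w x y) x y = - d1 w x y := by
    simp only [d1]
    rw [deriv_const_sub]
  have e2 : d2 (fun x y => 1 - w x y) x y = - d2 w x y := by
    simp only [d2]
    rw [deriv_const_sub]
  simp only [e1, e2, neg_sq]

/-- The energy is nonnegative. -/
theorem En2_nonneg (w : ℝ → ℝ → ℝ) : 0 ≤ En2 w :=
  intervalIntegral.integral_nonneg zero_le_one fun _ _ =>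
    intervalIntegral.integral_nonneg zero_le_one fun _ _ => Real.sqrt_nonneg _

/-- Basic facts on the indicator data. -/
theorem Ind2.measurable_rowM {χ : ℝ → ℝ → ℝ} (h : Ind2 χ) : Measurable (rowM χ) :=
  measurable_intervalIntegral_param (F := fun y x => χ x y) (h.meas.comp measurable_swap)

theorem Ind2.measurable_colM {χ : ℝ → ℝ → ℝ} (h : Ind2 χ) : Measurable (colM χ) :=
  measurable_intervalIntegral_param (F := fun x y => χ x y) h.meas

private theorem b2_abs_le {χ : ℝ → ℝ → ℝ} (h : Ind2 χ) (x y : ℝ) : |χ x y| ≤ 1 := by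
  rcases h.bool x y with h0 | h1
  · simp [h0]
  · simp [h1]

private theorem b2_nonneg {χ : ℝ → ℝ → ℝ} (h : Ind2 χ) (x y : ℝ) : 0 ≤ χ x y := by
  rcases h.bool x y with h0 | h1
  · simp [h0]
  · simp [h1]

private theorem b2_le_one {χ : ℝ → ℝ → ℝ} (h : Ind2 χ) (x y : ℝ) : χ x y ≤ 1 := by
  rcases h.bool x y with h0 | h1
  · simp [h0]
  · simp [h1]

private theorem b2_meas_row {χ : ℝ → ℝ → ℝ} (h : Ind2 χ) (y : ℝ) : Measurable (fun x => χ x y) :=
  h.meas.comp (measurable_id.prodMk measurable_const)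

private theorem b2_meas_col {χ : ℝ → ℝ → ℝ} (h : Ind2 χ) (x : ℝ) : Measurable (fun y => χ x y) :=
  h.meas.comp (measurable_const.prodMk measurable_id)

private theorem b2_mem_of {f : ℝ → ℝ} (hm : Measurable f) (h0 : ∀ x, 0 ≤ f x) (h1 : ∀ x, f x ≤ 1) :
    0 ≤ ∫ x in (0 : ℝ)..1, f x ∧ ∫ x in (0 : ℝ)..1, f x ≤ 1 := by
  refine ⟨intervalIntegral.integral_nonneg zero_le_one fun x _ => h0 x, ?_⟩
  have hab : ∀ x, |f x| ≤ 1 := fun x => abs_le.mpr ⟨by linarith [h0 x], h1 x⟩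
  have hi := intervalIntegrable_of_bdd hm hab
  have := intervalIntegral.integral_mono_on (a := 0) (b := 1) zero_le_one hi
    (intervalIntegrable_const (c := (1 : ℝ))) (fun x _ => h1 x)
  simpa using this

theorem Ind2.rowM_mem {χ : ℝ → ℝ → ℝ} (h : Ind2 χ) (y : ℝ) : 0 ≤ rowM χ y ∧ rowM χ y ≤ 1 :=
  b2_mem_of (b2_meas_row h y) (fun x => b2_nonneg h x y) (fun x => b2_le_one h x y)

theorem Ind2.colM_mem {χ : ℝ → ℝ → ℝ} (h : Ind2 χ) (x : ℝ) : 0 ≤ colM χ x ∧ colM χ x ≤ 1 :=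
  b2_mem_of (b2_meas_col h x) (fun y => b2_nonneg h x y) (fun y => b2_le_one h x y)

theorem Ind2.area_mem {χ : ℝ → ℝ → ℝ} (h : Ind2 χ) : 0 ≤ area χ ∧ area χ ≤ 1 :=
  b2_mem_of h.measurable_rowM (fun y => (h.rowM_mem y).1) (fun y => (h.rowM_mem y).2)

/-- Area by columns. -/
theorem Ind2.area_eq_cols {χ : ℝ → ℝ → ℝ} (h : Ind2 χ) : area χ = ∫ x in (0 : ℝ)..1, colM χ x :=
  interval_swap h.meas (b2_abs_le h)

/-- Rows and columns of the swapped set and of the complement. -/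
theorem rowM_swap (χ : ℝ → ℝ → ℝ) (y : ℝ) : rowM (fun x y => χ y x) y = colM χ y := rfl

theorem colM_swap (χ : ℝ → ℝ → ℝ) (x : ℝ) : colM (fun x y => χ y x) x = rowM χ x := rfl

theorem rowM_compl {χ : ℝ → ℝ → ℝ} (h : Ind2 χ) (y : ℝ) :
    rowM (fun x y => 1 - χ x y) y = 1 - rowM χ y := by
  unfold rowM
  rw [intervalIntegral.integral_sub intervalIntegrable_const
    (intervalIntegrable_of_bdd (b2_meas_row h y) fun x => b2_abs_le h x y)]
  simp

theorem area_compl {χ : ℝ → ℝ → ℝ} (h : Ind2 χ) : area (fun x y => 1 - χ x y) = 1 - area χ := by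
  have hr : ∀ y, |rowM χ y| ≤ 1 := fun y =>
    abs_le.mpr ⟨by linarith [(h.rowM_mem y).1], (h.rowM_mem y).2⟩
  have : area (fun x y => 1 - χ x y) = ∫ y in (0 : ℝ)..1, (1 - rowM χ y) :=
    intervalIntegral.integral_congr fun y _ => rowM_compl h y
  rw [this, intervalIntegral.integral_sub intervalIntegrable_const
    (intervalIntegrable_of_bdd h.measurable_rowM hr)]
  simp [area, rowM]

end Vale.Agent.Lib.P232
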