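import Vale.Agent.Lib.P232.CellSound
import Vale.Agent.Lib.P232.CellData

/-!
# P232: the bulk region of the one-dimensional inequality
-/

namespace Vale.Agent.Lib.P232.Cells

open Real

/-- The certificate covers the region `h ≤ 1/2`, `577/1024 ≤ k ≤ 1` outside `{h ≤ .09 k, π k² ≤ 2}`. -/
theorem bulk_cover {h k : ℝ} (h0 : 0 ≤ h) (h1 : h ≤ 1 / 2) (k0 : 577 / 1024 ≤ k) (k1 : k ≤ 1)
    (hn : ¬ (100 * h ≤ 9 * k ∧ π * k ^ 2 ≤ 2)) : BulkConcl h k := by
  have := checkTree_sound cellData 0 512 577 1024 cellData_ok h k (by simpa using h0)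
    (by norm_num; linarith) (by norm_num; linarith) (by norm_num; linarith)
  rcases this with h2 | h2
  · exact absurd h2 hn
  · exact h2

end Vale.Agent.Lib.P232.Cells
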