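import Vale.Agent.Lib.P232.CertCycleData

/-! P232: the cycle certificate. -/

namespace Vale.Agent.Lib.P232

open Vale.Agent.Lib.P232.Cells Vale.Agent.Lib.P232.CyC

/-- The cycle certificate, strict form. -/
theorem certCycle_strict {V m M : ℝ} (hV1 : 1 / 4 ≤ V) (hV2 : V ≤ 37 / 100) (hm : 0 ≤ m) (hmt : m < tstar)
    (hVM : V ≤ M) (hM1 : M ≤ 1) :
    ∃ l b B : ℝ, B ≤ 0 ∧ LineAdm ICp l b m M ∧ (∀ s ∈ Set.Icc m M, B ≤ gain ICp IT l b s) ∧
      Jf V < lineValue ICp l b V m M + tstar * B := by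
  have h1 : sn 0 ≤ m := by simpa [sn] using hm
  have h2 : m ≤ sn 324 := by
    have : sn 324 = ((324 : ℝ) / 1024) ^ 2 := by simp [sn]
    rw [this]
    have h3 : m < 1 / 10 := by simpa [tstar] using hmt
    norm_num
    norm_num at h3
    linarith
  have h3 : sn 512 ≤ M := by
    have : sn 512 = ((512 : ℝ) / 1024) ^ 2 := by simp [sn]
    rw [this]
    norm_num
    linarith
  have h4 : M ≤ sn 1024 := by
    have : sn 1024 = ((1024 : ℝ) / 1024) ^ 2 := by simp [sn]
    rw [this]
    norm_num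
    linarith
  exact checkTree_sound cycData 0 324 512 1024 cycData_ok m M h1 h2 h3 h4 V hV1 hV2 hVM

/-- The cycle certificate (only the second alternative is used). -/
theorem certCycle : CertCycle := by
  intro V m M hV1 hV2 hm hmt hVM hM1
  right
  obtain ⟨l, b, B, h1, h2, h3, h4⟩ := certCycle_strict hV1 hV2 hm hmt hVM hM1
  exact ⟨l, b, B, h1, h2, h3, h4.le⟩

end Vale.Agent.Lib.P232
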