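import Vale.Agent.Lib.P232.CertHumpCorner
import Vale.Agent.Lib.P232.CertHumpD1
import Vale.Agent.Lib.P232.CertHumpD2
import Vale.Agent.Lib.P232.CertHumpD3
import Vale.Agent.Lib.P232.CertHumpD4
import Vale.Agent.Lib.P232.CertHumpD5

/-!
# P232: the hump certificate

For `M ≥ 511/512` the corner lemma gives a line for the torus profile; for smaller `M` the tree of boxes in
`(M, d)` gives a fixed line on every box, with the gain term.
-/

namespace Vale.Agent.Lib.P232

open Hump Cells

/-- The box certificate on the whole range. -/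
theorem hump_boxes {M d : ℝ} (h1 : sn 512 ≤ M) (h2 : M ≤ sn 1023) (hd : 0 ≤ d) (hdM : d ≤ M) :
    HConcl M d := by
  have hB : DBox 0 1048576 d := by
    constructor
    · simpa using hd
    · have h3 : sn 1023 ≤ 1 := sn_le_one (by norm_num)
      norm_num
      linarith
  rcases le_total M (sn 830) with c1 | c1
  · exact humpBox1 M d h1 c1 hB hdM
  rcases le_total M (sn 858) with c2 | c2
  · exact humpBox2 M d c1 c2 hB hdM
  rcases le_total M (sn 885) with c3 | c3
  · exact humpBox3 M d c2 c3 hB hdM
  rcases le_total M (sn 912) with c4 | c4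
  · exact humpBox4 M d c3 c4 hB hdM
  · exact humpBox5 M d c4 h2 hB hdM

/-- The hump certificate. -/
theorem certHump : CertHump := by
  intro V m M d hV hV2 hm hm1 hVM hM hd hdM
  by_cases hc : M ≤ sn 1023
  · right
    have h1 : sn 512 ≤ M := by
      have : sn 512 = 1 / 4 := by norm_num [sn]
      linarith
    obtain ⟨l, b, B, hA, hG, hW⟩ := hump_boxes h1 hc hd hdM
    exact ⟨l, b, B, hA, hG V hV, hW V hV⟩
  · left
    have h3 : (511 : ℝ) / 512 ≤ M := by
      have : (511 : ℝ) / 512 ≤ sn 1023 := by norm_num [sn]
      linarith [not_le.mp hc]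
    exact hump_corner hV hV2 hm (by simpa [ezero] using hm1) h3 hM

end Vale.Agent.Lib.P232
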