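import Vale.Agent.Lib.P232.Profiles

/-!
# P232, one-dimensional inequality: the chord of the disc profile

For `0 ≤ h ≤ k` the chord of `s ↦ 2√(πs)` between `h²` and `k²` is the line
`q(s) = 2√π (s + hk) / (h + k)`.  Its value is computed by the integral
`Om h k = ∫_{h²}^{k²} √((s - h²)(k² - s)/s) ds`, for which we prove the sharp lower bound
`Om h k ≥ 2 (k-h)² ((k-h)/3 + π h / 4)`.  This closes the range `M ≤ 1/π` (alternative `IT`), and the
range `M ≤ 2/π`, `√m ≤ (9/100) √M` (alternative `IE` with the penalty `4m`).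
-/

namespace Vale.Agent.Lib.P232

open Real MeasureTheory Set

/-- The model integral. -/
noncomputable def Om (h k : ℝ) : ℝ := ∫ s in h ^ 2..k ^ 2, √((s - h ^ 2) * (k ^ 2 - s) / s)

lemma integral_sqrt_y_one_sub_y : ∫ y in (0:ℝ)..1, √(y * (1 - y)) = π / 8 := by
  have key : ∀ y : ℝ, √(y * (1 - y)) = (1 / 2) * √(1 - (2 * y - 1) ^ 2) := by
    intro y
    have h1 : 1 - (2 * y - 1) ^ 2 = 2 ^ 2 * (y * (1 - y)) := by ring
    rw [h1, Real.sqrt_mul (by positivity : (0:ℝ) ≤ 2 ^ 2), Real.sqrt_sq (by norm_num)]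
    ring
  simp_rw [key]
  rw [intervalIntegral.integral_const_mul,
    intervalIntegral.integral_comp_mul_sub (fun x => √(1 - x ^ 2)) (by norm_num : (2:ℝ) ≠ 0) 1]
  have h2 : (2:ℝ) * 0 - 1 = -1 := by norm_num
  have h3 : (2:ℝ) * 1 - 1 = 1 := by norm_num
  rw [h2, h3, integral_sqrt_one_sub_sq]
  simp only [smul_eq_mul]
  ring

lemma integral_y_sqrt : ∫ y in (0:ℝ)..1, y * √(1 - y ^ 2) = 1 / 3 := by
  have h1 : ∫ y in (0:ℝ)..1, (fun u => √u) ((fun y => 1 - y ^ 2) y) * ((fun y => -2 * y) y)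
      = ∫ u in (fun y : ℝ => 1 - y ^ 2) 0..(fun y : ℝ => 1 - y ^ 2) 1, (fun u => √u) u := by
    have := intervalIntegral.integral_comp_mul_deriv (a := 0) (b := 1)
      (f := fun y : ℝ => 1 - y ^ 2) (f' := fun y => -2 * y) (g := fun u => √u)
      (fun x _ => by
        have := ((hasDerivAt_id x).pow 2).const_sub 1
        simpa using this)
      (by fun_prop) Real.continuous_sqrt
    simpa using this
  have h2 : ∫ u in (0:ℝ)..1, √u = 2 / 3 := by
    have h3 : ∀ u : ℝ, √u = u ^ ((1:ℝ) / 2) := fun u => Real.sqrt_eq_rpow u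
    simp_rw [h3]
    rw [integral_rpow (Or.inl (by norm_num))]
    norm_num
  have h4 : (fun y : ℝ => 1 - y ^ 2) 0 = 1 := by norm_num
  have h5 : (fun y : ℝ => 1 - y ^ 2) 1 = 0 := by norm_num
  rw [h4, h5] at h1
  have h8 : ∫ u in (1:ℝ)..0, √u = -(2 / 3) := by
    rw [intervalIntegral.integral_symm, h2]
  have h6 : ∫ y in (0:ℝ)..1, √(1 - y ^ 2) * (-2 * y) = -2 * ∫ y in (0:ℝ)..1, y * √(1 - y ^ 2) := by
    rw [← intervalIntegral.integral_const_mul]
    congr 1
    funext y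
    ring
  have h7 : ∫ y in (0:ℝ)..1, √(1 - y ^ 2) * (-2 * y) = -(2 / 3) := h1.trans h8
  rw [h6] at h7
  linarith

/-- The pointwise bound behind the key lemma. -/
lemma omega_pointwise {h w y : ℝ} (hh : 0 ≤ h) (hw : 0 < w) (hy0 : 0 ≤ y) (hy1 : y ≤ 1) :
    w * (w * (y * √(1 - y ^ 2)) + 2 * h * √(y * (1 - y)))
      ≤ √(((h + w * y) ^ 2 - h ^ 2) * ((h + w) ^ 2 - (h + w * y) ^ 2)) := by
  set a := √(y * (1 - y)) with ha
  set b := √(y * (1 + y)) with hb
  have ha2 : a ^ 2 = y * (1 - y) := Real.sq_sqrt (mul_nonneg hy0 (by linarith))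
  have hb2 : b ^ 2 = y * (1 + y) := Real.sq_sqrt (mul_nonneg hy0 (by linarith))
  have ha0 : 0 ≤ a := Real.sqrt_nonneg _
  have hb0 : 0 ≤ b := Real.sqrt_nonneg _
  have hab : y * √(1 - y ^ 2) = a * b := by
    rw [ha, hb, ← Real.sqrt_mul (mul_nonneg hy0 (by linarith))]
    have h1 : y * (1 - y) * (y * (1 + y)) = y ^ 2 * (1 - y ^ 2) := by ring
    rw [h1, Real.sqrt_mul (sq_nonneg y), Real.sqrt_sq hy0]
  rw [hab]
  apply Real.le_sqrt_of_sq_le
  have h2b : 2 * b ≤ 1 + 2 * y := by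
    by_contra hcon
    push Not at hcon
    nlinarith
  have h3 : (w * b + 2 * h) ^ 2 ≤ (w * y + 2 * h) * (w * (1 + y) + 2 * h) := by
    have h4 : 0 ≤ h * w := mul_nonneg hh hw.le
    have h7 : (w * b + 2 * h) ^ 2 = w ^ 2 * (y * (1 + y)) + 4 * (h * w) * b + 4 * h ^ 2 := by
      rw [← hb2]; ring
    rw [h7]
    nlinarith [mul_nonneg h4 (sub_nonneg.mpr h2b)]
  have h5 : (w * (w * (a * b) + 2 * h * a)) ^ 2 = w ^ 2 * a ^ 2 * (w * b + 2 * h) ^ 2 := by ring
  have h6 : ((h + w * y) ^ 2 - h ^ 2) * ((h + w) ^ 2 - (h + w * y) ^ 2)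
      = w ^ 2 * (y * (1 - y)) * ((w * y + 2 * h) * (w * (1 + y) + 2 * h)) := by ring
  rw [h5, h6, ha2]
  exact mul_le_mul_of_nonneg_left h3 (mul_nonneg (sq_nonneg _) (mul_nonneg hy0 (by linarith)))

/-- The integrand of `Om` is bounded by `k`. -/
lemma om_integrand_bound {h k s : ℝ} (hh : 0 ≤ h) (hs0 : h ^ 2 ≤ s) (hs1 : s ≤ k ^ 2) (hk : 0 ≤ k) :
    |√((s - h ^ 2) * (k ^ 2 - s) / s)| ≤ k := by
  rw [abs_of_nonneg (Real.sqrt_nonneg _)]
  apply Real.sqrt_le_iff.mpr
  refine ⟨hk, ?_⟩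
  have hs : 0 ≤ s := le_trans (sq_nonneg _) hs0
  rcases hs.eq_or_lt with h0 | h0
  · rw [← h0]
    simp
    positivity
  · rw [div_le_iff₀ h0]
    have h1 : 0 ≤ h ^ 2 := sq_nonneg _
    nlinarith [mul_nonneg (sub_nonneg.mpr hs0) (sub_nonneg.mpr hs1), mul_nonneg h1 (sub_nonneg.mpr hs1)]

lemma om_measurable (h k : ℝ) : Measurable fun s : ℝ => √((s - h ^ 2) * (k ^ 2 - s) / s) := by
  fun_prop

lemma om_integrableOn {h k : ℝ} (hh : 0 ≤ h) (hk : 0 ≤ k) :
    IntegrableOn (fun s : ℝ => √((s - h ^ 2) * (k ^ 2 - s) / s)) (Icc (h ^ 2) (k ^ 2)) := by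
  refine Measure.integrableOn_of_bounded (M := k) (by simp) (om_measurable h k).aestronglyMeasurable ?_
  refine (ae_restrict_iff' measurableSet_Icc).mpr (Filter.Eventually.of_forall ?_)
  intro s hs
  simpa [Real.norm_eq_abs] using om_integrand_bound hh hs.1 hs.2 hk

/-- The key lemma. -/
theorem omega_ge {h k : ℝ} (hh : 0 ≤ h) (hk : h ≤ k) :
    2 * (k - h) ^ 2 * ((k - h) / 3 + π * h / 4) ≤ Om h k := by
  rcases hk.eq_or_lt with rfl | hlt
  · simp [Om]
  set w := k - h with hw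
  have hw0 : 0 < w := by rw [hw]; linarith
  have hk' : k = h + w := by rw [hw]; ring
  have hk0 : 0 ≤ k := by linarith
  set φ : ℝ → ℝ := fun y => (h + w * y) ^ 2 with hφ
  set φ' : ℝ → ℝ := fun y => 2 * w * (h + w * y) with hφ'
  set G : ℝ → ℝ := fun s => √((s - h ^ 2) * (k ^ 2 - s) / s) with hG
  have hφ0 : φ 0 = h ^ 2 := by simp [hφ]
  have hφ1 : φ 1 = k ^ 2 := by simp [hφ, hk']
  have hφmem : ∀ y ∈ Icc (0:ℝ) 1, φ y ∈ Icc (h ^ 2) (k ^ 2) := by
    intro y hy
    have hy1 : 0 ≤ w * y := mul_nonneg hw0.le hy.1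
    have hy2 : w * y ≤ w := by nlinarith [hy.2]
    simp only [hφ, mem_Icc]
    constructor
    · nlinarith
    · rw [hk']
      nlinarith
  have hcontφ : Continuous φ := by fun_prop
  have hderiv : ∀ x, HasDerivAt φ (φ' x) x := by
    intro x
    have h1 : HasDerivAt (fun y : ℝ => h + w * y) w x := by
      simpa using ((hasDerivAt_id x).const_mul w).const_add h
    have hφeq : φ = fun y => (h + w * y) * (h + w * y) := by
      funext y
      simp [hφ, sq]
    rw [hφeq]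
    have h3 : HasDerivAt (fun y => (h + w * y) * (h + w * y)) (w * (h + w * x) + (h + w * x) * w) x :=
      h1.mul h1
    exact h3.congr_deriv (by simp only [hφ']; ring)
  have hGint : IntegrableOn G (Icc (h ^ 2) (k ^ 2)) := om_integrableOn hh hk0
  have huIcc : uIcc (0:ℝ) 1 = Icc 0 1 := uIcc_of_le zero_le_one
  have hsub : ∫ y in (0:ℝ)..1, (G ∘ φ) y * φ' y = ∫ s in φ 0..φ 1, G s := by
    apply intervalIntegral.integral_comp_mul_deriv'''
    · exact hcontφ.continuousOn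
    · intro x _
      exact (hderiv x).hasDerivWithinAt
    · have hcont : ∀ s ∈ φ '' Ioo (min (0:ℝ) 1) (max (0:ℝ) 1), ContinuousWithinAt G (φ '' Ioo (min (0:ℝ) 1) (max (0:ℝ) 1)) s := by
        rintro s ⟨y, hy, rfl⟩
        have hy0 : 0 < y := by simpa using hy.1
        have hpos : 0 < h + w * y := by
          have := mul_pos hw0 hy0
          linarith
        have hne : φ y ≠ 0 := by
          simp only [hφ]
          positivity
        apply ContinuousAt.continuousWithinAt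
        apply ContinuousAt.sqrt
        apply ContinuousAt.div _ continuousAt_id hne
        fun_prop
      exact hcont
    · rw [huIcc]
      refine hGint.mono_set ?_
      rintro s ⟨y, hy, rfl⟩
      exact hφmem y hy
    · rw [huIcc]
      have hmeas : Measurable fun y => (G ∘ φ) y * φ' y :=
        ((om_measurable h k).comp hcontφ.measurable).mul (by fun_prop)
      refine Measure.integrableOn_of_bounded (M := k * (2 * w * k)) (by simp) hmeas.aestronglyMeasurable ?_
      refine (ae_restrict_iff' measurableSet_Icc).mpr (Filter.Eventually.of_forall ?_)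
      intro y hy
      have hm := hφmem y hy
      have h1 : |G (φ y)| ≤ k := om_integrand_bound hh hm.1 hm.2 hk0
      have hy1 : 0 ≤ w * y := mul_nonneg hw0.le hy.1
      have hy2 : w * y ≤ w := by nlinarith [hy.2]
      have h2 : |φ' y| ≤ 2 * w * k := by
        simp only [hφ']
        rw [abs_of_nonneg (by positivity)]
        apply mul_le_mul_of_nonneg_left _ (by positivity)
        rw [hk']
        linarith
      simp only [Function.comp, Real.norm_eq_abs, abs_mul]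
      exact mul_le_mul h1 h2 (abs_nonneg _) hk0
  rw [hφ0, hφ1] at hsub
  have hOm : Om h k = ∫ y in (0:ℝ)..1, (G ∘ φ) y * φ' y := by
    rw [hsub]
    rfl
  rw [hOm]
  -- the lower function
  set L : ℝ → ℝ := fun y => 2 * w ^ 2 * (w * (y * √(1 - y ^ 2)) + 2 * h * √(y * (1 - y))) with hL
  have hLcont : Continuous L := by fun_prop
  have hLint : ∫ y in (0:ℝ)..1, L y = 2 * w ^ 2 * (w / 3 + π * h / 4) := by
    simp only [hL]
    rw [intervalIntegral.integral_const_mul, intervalIntegral.integral_add, intervalIntegral.integral_const_mul,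
      intervalIntegral.integral_const_mul, integral_y_sqrt, integral_sqrt_y_one_sub_y]
    · ring
    · exact Continuous.intervalIntegrable (by fun_prop) _ _
    · exact Continuous.intervalIntegrable (by fun_prop) _ _
  rw [← hLint]
  apply intervalIntegral.integral_mono_on zero_le_one (hLcont.intervalIntegrable _ _)
  · have hmeas : Measurable fun y => (G ∘ φ) y * φ' y :=
      ((om_measurable h k).comp hcontφ.measurable).mul (by fun_prop)
    rw [intervalIntegrable_iff_integrableOn_Icc_of_le zero_le_one]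
    refine Measure.integrableOn_of_bounded (M := k * (2 * w * k)) (by simp) hmeas.aestronglyMeasurable ?_
    refine (ae_restrict_iff' measurableSet_Icc).mpr (Filter.Eventually.of_forall ?_)
    intro y hy
    have hm := hφmem y hy
    have h1 : |G (φ y)| ≤ k := om_integrand_bound hh hm.1 hm.2 hk0
    have hy1 : 0 ≤ w * y := mul_nonneg hw0.le hy.1
    have hy2 : w * y ≤ w := by nlinarith [hy.2]
    have h2 : |φ' y| ≤ 2 * w * k := by
      simp only [hφ']
      rw [abs_of_nonneg (by positivity)]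
      apply mul_le_mul_of_nonneg_left _ (by positivity)
      rw [hk']
      linarith
    simp only [Function.comp, Real.norm_eq_abs, abs_mul]
    exact mul_le_mul h1 h2 (abs_nonneg _) hk0
  · intro y hy
    have hy0 := hy.1
    have hy1 := hy.2
    have hx0 : 0 ≤ h + w * y := by
      have := mul_nonneg hw0.le hy0
      linarith
    simp only [hL, Function.comp]
    rcases hx0.eq_or_lt with hx | hx
    · -- then `h = 0` and `y = 0`
      have hwy : w * y = 0 := by
        have := mul_nonneg hw0.le hy0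
        linarith
      have hy00 : y = 0 := by
        rcases mul_eq_zero.mp hwy with h1 | h1
        · exact absurd h1 hw0.ne'
        · exact h1
      simp [hy00, hφ', hφ, hx.symm]
      rw [hy00] at hx
      have hh0 : h = 0 := by
        simpa using hx.symm
      simp [hh0]
    · have h1 := omega_pointwise hh hw0 hy0 hy1
      have hGφ : G (φ y) * φ' y
          = 2 * w * √(((h + w * y) ^ 2 - h ^ 2) * ((h + w) ^ 2 - (h + w * y) ^ 2)) := by
        simp only [hG, hφ, hφ']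
        rw [← hk']
        have h2 : (((h + w * y) ^ 2 - h ^ 2) * (k ^ 2 - (h + w * y) ^ 2) / (h + w * y) ^ 2)
            = ((((h + w * y) ^ 2 - h ^ 2) * (k ^ 2 - (h + w * y) ^ 2))) / (h + w * y) ^ 2 := rfl
        rw [Real.sqrt_div' _ (sq_nonneg _), Real.sqrt_sq hx.le]
        field_simp
      rw [hGφ]
      calc 2 * w ^ 2 * (w * (y * √(1 - y ^ 2)) + 2 * h * √(y * (1 - y)))
          = 2 * w * (w * (w * (y * √(1 - y ^ 2)) + 2 * h * √(y * (1 - y)))) := by ring
        _ ≤ _ := mul_le_mul_of_nonneg_left h1 (by positivity)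

/-! ### Tangent lines of `JJ` -/

lemma chord_JJ_le_ball (V : ℝ) : JJ V ≤ (36 * π) ^ ((1 : ℝ) / 3) * V ^ ((2 : ℝ) / 3) := min_le_left _ _

lemma chord_JJ_le_tube (V : ℝ) : JJ V ≤ 2 * √(π * V) := min_le_right _ _

/-- Tangent bound from the tube. -/
theorem tangent_tube {l V : ℝ} (hl : 0 < l) (hV : 0 ≤ V) : JJ V ≤ l * V + π / l := by
  refine (chord_JJ_le_tube V).trans ?_
  have h1 : √(π * V) = √π * √V := Real.sqrt_mul pi_pos.le V
  rw [h1]
  have hs : √V ^ 2 = V := Real.sq_sqrt hV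
  have hp : √π ^ 2 = π := Real.sq_sqrt pi_pos.le
  have h2 : l * V + π / l = (l ^ 2 * V + π) / l := by
    field_simp
  rw [h2, le_div_iff₀ hl]
  nlinarith [sq_nonneg (l * √V - √π)]

/-- The cube root facts for `JJ`. -/
lemma ball_cube_facts {V : ℝ} (hV : 0 ≤ V) :
    ((36 * π) ^ ((1 : ℝ) / 3)) ^ 3 = 36 * π ∧ 0 < (36 * π) ^ ((1 : ℝ) / 3) ∧
    (V ^ ((1 : ℝ) / 3)) ^ 3 = V ∧ (V ^ ((1 : ℝ) / 3)) ^ 2 = V ^ ((2 : ℝ) / 3) ∧ 0 ≤ V ^ ((1 : ℝ) / 3) := by
  have hpi : (0:ℝ) < 36 * π := by positivity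
  refine ⟨?_, by positivity, ?_, ?_, by positivity⟩
  · rw [← Real.rpow_natCast, ← Real.rpow_mul hpi.le]
    norm_num
  · rw [← Real.rpow_natCast, ← Real.rpow_mul hV]
    norm_num
  · rw [← Real.rpow_natCast, ← Real.rpow_mul hV]
    norm_num

/-- Tangent bound from the ball. -/
theorem tangent_ball {l V : ℝ} (hl : 0 < l) (hV : 0 ≤ V) :
    JJ V ≤ l * V + (16 * π / 3) / l ^ 2 := by
  refine (chord_JJ_le_ball V).trans ?_
  obtain ⟨hA3, hA0, hx3, hx2, hx0⟩ := ball_cube_facts hV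
  set A := (36 * π) ^ ((1 : ℝ) / 3) with hA
  set x := V ^ ((1 : ℝ) / 3) with hx
  rw [← hx2]
  have h1 : l * V + (16 * π / 3) / l ^ 2 = (l ^ 3 * x ^ 3 + (4 / 27) * A ^ 3) / l ^ 2 := by
    rw [hA3, hx3]
    field_simp
    ring
  rw [h1, le_div_iff₀ (by positivity)]
  have hX : 0 ≤ l * x := by positivity
  have h2 : 0 ≤ (l * x - 2 / 3 * A) ^ 2 * (l * x + A / 3) := by positivity
  nlinarith [h2]

/-- Tangent bound at the kink `V₀ = 4π/81` (ball radius `1/3`, tube radius `2/9`). -/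
theorem tangent_kink {l V : ℝ} (hl1 : 9 / 2 ≤ l) (hl2 : l ≤ 6) (hV : 0 ≤ V) :
    JJ V ≤ l * V + (4 * π / 9 - l * (4 * π / 81)) := by
  have hpi := pi_pos
  rcases le_total V (4 * π / 81) with h | h
  · -- ball side
    refine (chord_JJ_le_ball V).trans ?_
    obtain ⟨hA3, hA0, hx3, hx2, hx0⟩ := ball_cube_facts hV
    obtain ⟨-, -, hy3, -, hy0⟩ := ball_cube_facts (V := 4 * π / 81) (by positivity)
    set A := (36 * π) ^ ((1 : ℝ) / 3) with hA
    set x := V ^ ((1 : ℝ) / 3) with hx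
    set y := (4 * π / 81) ^ ((1 : ℝ) / 3) with hy
    have hAy : A = 9 * y := by
      have h1 : (9 * y) ^ 3 = A ^ 3 := by
        rw [hA3, mul_pow, hy3]
        ring
      have h2 : 0 ≤ 9 * y := by positivity
      exact ((pow_left_inj₀ h2 hA0.le (by norm_num)).mp h1).symm
    have hxy : x ≤ y := by
      have h1 : x ^ 3 ≤ y ^ 3 := by rw [hx3, hy3]; exact h
      exact le_of_pow_le_pow_left₀ (by norm_num) hy0 h1
    rw [← hx2]
    have h4 : 4 * π / 9 = 9 * y ^ 3 := by
      rw [hy3]; ring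
    have h5 : 4 * π / 81 = y ^ 3 := hy3.symm
    rw [h4, h5, hAy]
    nth_rewrite 1 [← hx3]
    have h6 : 0 ≤ (y - x) * (3 * y ^ 2 + 3 * y * x - 6 * x ^ 2) :=
      mul_nonneg (by linarith) (by nlinarith)
    have h7 : 0 ≤ (y - x) * ((6 - l) * (y ^ 2 + y * x + x ^ 2)) :=
      mul_nonneg (by linarith) (mul_nonneg (by linarith) (by positivity))
    nlinarith [h6, h7]
  · -- tube side
    refine (chord_JJ_le_tube V).trans ?_
    have hsp := Real.sq_sqrt hpi.le
    have hsp0 : 0 < √π := Real.sqrt_pos.mpr hpi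
    have hs := Real.sq_sqrt hV
    have hs0 := Real.sqrt_nonneg V
    have h1 : √(π * V) = √π * √V := Real.sqrt_mul hpi.le V
    rw [h1]
    set sp := √π with hsp'
    set y := √V with hy
    -- `y ≥ 2 sp / 9`
    have hy1 : 2 * sp / 9 ≤ y := by
      apply le_of_pow_le_pow_left₀ (n := 2) (by norm_num) hs0
      have : (2 * sp / 9) ^ 2 = 4 * π / 81 := by
        rw [div_pow, mul_pow, hsp]; norm_num
      rw [this, hs]
      exact h
    have h3 : 0 ≤ (y - 2 * sp / 9) * (l * (y + 2 * sp / 9) - 2 * sp) := by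
      apply mul_nonneg (by linarith)
      nlinarith
    have hV' : V = y ^ 2 := hs.symm
    rw [hV']
    have hπ : π = sp ^ 2 := hsp.symm
    rw [hπ]
    nlinarith [h3]

/-- Tangent bound for `V ≤ 1/4` and small slope. -/
theorem tangent_quarter {l V : ℝ} (hl : l ≤ 2 * √π) (hV : 0 ≤ V) (hV' : V ≤ 1 / 4) :
    JJ V ≤ l * V + (√π - l / 4) := by
  refine (chord_JJ_le_tube V).trans ?_
  have hpi := pi_pos
  have hs := Real.sq_sqrt hV
  have hs0 := Real.sqrt_nonneg V
  have hsp0 : 0 < √π := Real.sqrt_pos.mpr hpi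
  have h1 : √(π * V) = √π * √V := Real.sqrt_mul hpi.le V
  rw [h1]
  set sp := √π with hsp'
  set y := √V with hy
  have hy2 : y ≤ 1 / 2 := by
    apply le_of_pow_le_pow_left₀ (n := 2) (by norm_num) (by norm_num)
    rw [hs]
    linarith
  have h3 : 0 ≤ (1 / 2 - y) * (2 * sp - l * (1 / 2 + y)) := by
    apply mul_nonneg (by linarith)
    rcases le_total 0 l with h | h
    · nlinarith
    · nlinarith
  have hV2 : V = y ^ 2 := hs.symm
  rw [hV2]
  nlinarith [h3]

/-! ### The chord -/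

/-- Admissibility and value of the chord. -/
theorem chord_facts (I : ℝ → ℝ) {h k : ℝ} (hh : 0 ≤ h) (hk : h ≤ k) (hk0 : 0 < k)
    (hI : ∀ s ∈ Icc (h ^ 2) (k ^ 2), I s = 2 * √(π * s)) :
    LineAdm I (2 * √π / (h + k)) (2 * √π / (h + k) * (h * k)) (h ^ 2) (k ^ 2) ∧
    ∀ V, lineValue I (2 * √π / (h + k)) (2 * √π / (h + k) * (h * k)) V (h ^ 2) (k ^ 2)
      = 2 * √π / (h + k) * V + (2 * √π * (h * k) + 2 * Om h k) / (h + k) := by
  have hu : 0 < h + k := by linarith
  have hsp0 : 0 < √π := Real.sqrt_pos.mpr pi_pos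
  have hfacts : ∀ s ∈ Icc (h ^ 2) (k ^ 2), √s ^ 2 = s ∧ h ≤ √s ∧ √s ≤ k ∧ √(π * s) = √π * √s := by
    intro s hs
    have hs0 : 0 ≤ s := le_trans (sq_nonneg _) hs.1
    refine ⟨Real.sq_sqrt hs0, ?_, ?_, Real.sqrt_mul pi_pos.le s⟩
    · exact Real.le_sqrt_of_sq_le hs.1
    · exact Real.sqrt_le_iff.mpr ⟨hk0.le, hs.2⟩
  have hline : ∀ s, 2 * √π / (h + k) * s + 2 * √π / (h + k) * (h * k) = 2 * √π * (s + h * k) / (h + k) := by
    intro s
    field_simp
  constructor
  · intro s hs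
    obtain ⟨hr2, hr1, hr3, hr4⟩ := hfacts s hs
    rw [hline, hI s hs, hr4]
    have hq : 0 ≤ 2 * √π * (s + h * k) / (h + k) := by
      have hs0 : 0 ≤ s := le_trans (sq_nonneg _) hs.1
      have : 0 ≤ h * k := by positivity
      positivity
    rw [max_eq_left hq, div_le_iff₀ hu]
    have h1 : 0 ≤ (√s - h) * (k - √s) := mul_nonneg (by linarith) (by linarith)
    have h2 : s + h * k ≤ √s * (h + k) := by nlinarith
    calc 2 * √π * (s + h * k) ≤ 2 * √π * (√s * (h + k)) :=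
          mul_le_mul_of_nonneg_left h2 (by positivity)
      _ = 2 * (√π * √s) * (h + k) := by ring
  · intro V
    unfold lineValue
    have hint : ∫ s in h ^ 2..k ^ 2, √(1 - (max (2 * √π / (h + k) * s + 2 * √π / (h + k) * (h * k)) 0 / I s) ^ 2)
        = Om h k / (h + k) := by
      unfold Om
      rw [← intervalIntegral.integral_div]
      apply intervalIntegral.integral_congr_ae
      refine Filter.Eventually.of_forall ?_
      intro s hs
      have hle : h ^ 2 ≤ k ^ 2 := pow_le_pow_left₀ hh hk 2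
      rw [uIoc_of_le hle] at hs
      have hsI : s ∈ Icc (h ^ 2) (k ^ 2) := ⟨hs.1.le, hs.2⟩
      obtain ⟨hr2, hr1, hr3, hr4⟩ := hfacts s hsI
      have hs0 : 0 < s := lt_of_le_of_lt (sq_nonneg _) hs.1
      have hr0 : 0 < √s := Real.sqrt_pos.mpr hs0
      rw [hline, hI s hsI, hr4]
      have hq : 0 ≤ 2 * √π * (s + h * k) / (h + k) := by
        have : 0 ≤ h * k := by positivity
        positivity
      rw [max_eq_left hq]
      set r := √s with hr
      have hsr : s = r ^ 2 := hr2.symm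
      have h3 : 1 - (2 * √π * (s + h * k) / (h + k) / (2 * (√π * r))) ^ 2
          = ((s - h ^ 2) * (k ^ 2 - s) / s) / (h + k) ^ 2 := by
        rw [hsr]
        field_simp
        ring
      rw [h3, Real.sqrt_div' _ (by positivity), Real.sqrt_sq hu.le]
    rw [hint]
    field_simp
    ring

/-- The model lemma: `Ω` may be any real with `Ω ≥ (2/3)(k-h)²(k+h)`. -/
theorem model_value {h k V Ω : ℝ} (hh : 0 ≤ h) (hk : h ≤ k) (hk0 : 0 < k) (hV : 0 ≤ V)
    (hΩ : 2 / 3 * (k - h) ^ 2 * (k + h) ≤ Ω) :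
    JJ V ≤ 2 * √π / (h + k) * V + (2 * √π * (h * k) + 2 * Ω) / (h + k) := by
  have hu : 0 < h + k := by linarith
  have hpi := pi_pos
  have hsp0 : 0 < √π := Real.sqrt_pos.mpr hpi
  have hsp : √π ^ 2 = π := Real.sq_sqrt hpi.le
  set sp := √π with hsp'
  set u := h + k with huu
  have hl : 0 < 2 * sp / u := by positivity
  rcases le_total (sp / 2) (4 / 3 * u) with hc | hc
  · -- tube
    refine (tangent_tube hl hV).trans ?_
    have h1 : π / (2 * sp / u) = sp / 2 * u := by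
      rw [← hsp]
      field_simp
    rw [h1]
    apply add_le_add_right
    rw [le_div_iff₀ hu]
    have h2 : 0 ≤ (k - h) ^ 2 * (4 / 3 * u - sp / 2) := mul_nonneg (sq_nonneg _) (by linarith)
    have h3 : 2 * sp * (h * k) = sp / 2 * (u ^ 2 - (k - h) ^ 2) := by
      rw [huu]; ring
    rw [h3]
    have h4 : k + h = u := by rw [huu]; ring
    rw [h4] at hΩ
    nlinarith [h2, hΩ]
  · -- ball
    refine (tangent_ball hl hV).trans ?_
    have h1 : (16 * π / 3) / (2 * sp / u) ^ 2 = 4 / 3 * u ^ 2 := by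
      rw [← hsp]
      field_simp
      ring
    rw [h1]
    apply add_le_add_right
    rw [le_div_iff₀ hu]
    have h3 : 2 * sp * (h * k) = sp / 2 * (u ^ 2 - (k - h) ^ 2) := by
      rw [huu]; ring
    have h5 : 0 ≤ u ^ 2 - (k - h) ^ 2 := by
      rw [huu]
      have : 0 ≤ h * k := by positivity
      nlinarith
    have h6 : 0 ≤ (u ^ 2 - (k - h) ^ 2) * (sp / 2 - 4 / 3 * u) := mul_nonneg h5 (by linarith)
    rw [h3]
    have h4 : k + h = u := by rw [huu]; ring
    rw [h4] at hΩ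
    nlinarith [h6, hΩ]

lemma IT_eq_of_le {s : ℝ} (hs : s ≤ 1 / π) : IT s = 2 * √(π * s) := by
  have hpi := pi_pos
  have h3 : 3 < π := pi_gt_three
  have h1 : π * s ≤ 1 := by
    rw [le_div_iff₀ hpi] at hs
    linarith
  have h2 : s ≤ 1 / 3 := by
    refine hs.trans ?_
    apply one_div_le_one_div_of_le (by norm_num) h3.le
  unfold IT
  have h4 : 2 * √(π * s) ≤ 2 := by
    have : √(π * s) ≤ 1 := Real.sqrt_le_one.mpr h1
    linarith
  rw [min_eq_left h4, min_eq_left]
  apply mul_le_mul_of_nonneg_left _ (by norm_num)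
  apply Real.sqrt_le_sqrt
  apply mul_le_mul_of_nonneg_left _ hpi.le
  linarith

lemma IE_eq_of_le {s : ℝ} (hs : s ≤ 2 / π) : IE s = 2 * √(π * s) := by
  have hpi := pi_pos
  have h1 : π * s ≤ 2 := by
    rw [le_div_iff₀ hpi] at hs
    linarith
  unfold IE
  rw [min_eq_left]
  apply mul_le_mul_of_nonneg_left _ (by norm_num)
  exact Real.sqrt_le_sqrt h1

/-- **Range `M ≤ 1/π`**: the chord gives the `IT` alternative. -/
theorem final_small_M {V m M : ℝ} (hV : 0 < V) (hm : 0 ≤ m) (hmV : m ≤ V) (hVM : V ≤ M)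
    (hM : M ≤ 1 / π) : ∃ l b, LineAdm IT l b m M ∧ JJ V ≤ lineValue IT l b V m M := by
  have hM0 : 0 < M := lt_of_lt_of_le hV hVM
  set h := √m with hh
  set k := √M with hk
  have hh0 : 0 ≤ h := Real.sqrt_nonneg _
  have hk0 : 0 < k := Real.sqrt_pos.mpr hM0
  have hhk : h ≤ k := Real.sqrt_le_sqrt (hmV.trans hVM)
  have hm2 : m = h ^ 2 := (Real.sq_sqrt hm).symm
  have hM2 : M = k ^ 2 := (Real.sq_sqrt hM0.le).symm
  have hI : ∀ s ∈ Icc (h ^ 2) (k ^ 2), IT s = 2 * √(π * s) := by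
    intro s hs
    apply IT_eq_of_le
    rw [← hM2] at hs
    exact hs.2.trans hM
  obtain ⟨hadm, hval⟩ := chord_facts IT hh0 hhk hk0 hI
  rw [hm2, hM2]
  refine ⟨_, _, hadm, ?_⟩
  rw [hval]
  apply model_value hh0 hhk hk0 hV.le
  refine le_trans ?_ (omega_ge hh0 hhk)
  have hpi : 3 < π := pi_gt_three
  have h1 : 0 ≤ (k - h) ^ 2 * h := by positivity
  nlinarith [h1, mul_le_mul_of_nonneg_left hpi.le h1]

/-- **Range `M ≤ 2/π`, `√m ≤ (9/100)√M`**: the chord gives the `IE` alternative. -/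
theorem final_small_u {V m M : ℝ} (hV : 0 < V) (hm : 0 ≤ m) (hmV : m ≤ V) (hVM : V ≤ M)
    (hM : M ≤ 2 / π) (hu : √m ≤ 9 / 100 * √M) :
    ∃ l b, LineAdm IE l b m M ∧ JJ V + 4 * m ≤ lineValue IE l b V m M := by
  have hM0 : 0 < M := lt_of_lt_of_le hV hVM
  set h := √m with hh
  set k := √M with hk
  have hh0 : 0 ≤ h := Real.sqrt_nonneg _
  have hk0 : 0 < k := Real.sqrt_pos.mpr hM0
  have hhk : h ≤ k := Real.sqrt_le_sqrt (hmV.trans hVM)
  have hm2 : m = h ^ 2 := (Real.sq_sqrt hm).symm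
  have hM2 : M = k ^ 2 := (Real.sq_sqrt hM0.le).symm
  have hI : ∀ s ∈ Icc (h ^ 2) (k ^ 2), IE s = 2 * √(π * s) := by
    intro s hs
    apply IE_eq_of_le
    rw [← hM2] at hs
    exact hs.2.trans hM
  obtain ⟨hadm, hval⟩ := chord_facts IE hh0 hhk hk0 hI
  have hm3 := hm2
  rw [hm2, hM2]
  refine ⟨_, _, hadm, ?_⟩
  rw [hval]
  have hupos : 0 < h + k := by linarith
  have hkey : 2 / 3 * (k - h) ^ 2 * (k + h) ≤ Om h k - 2 * h ^ 2 * (h + k) := by
    refine le_trans ?_ (sub_le_sub_right (omega_ge hh0 hhk) _)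
    -- `(π/2 - 4/3) w² h ≥ 2 h² u`
    have hpi : 3.1415 < π := pi_gt_d4
    have hw : 91 / 100 * k ≤ k - h := by linarith
    have hw2 : (91 / 100 * k) ^ 2 ≤ (k - h) ^ 2 := pow_le_pow_left₀ (by positivity) hw 2
    have hc : (237 / 1000 : ℝ) ≤ π / 2 - 4 / 3 := by linarith
    have h1 : 2 * h * (h + k) ≤ (237 / 1000) * (k - h) ^ 2 := by
      have h2 : 2 * h * (h + k) ≤ 2 * (9 / 100 * k) * (9 / 100 * k + k) := by
        apply mul_le_mul (by linarith) (by linarith) (by positivity) (by positivity)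
      nlinarith
    have h3 : 0 ≤ h * ((237 / 1000) * (k - h) ^ 2 - 2 * h * (h + k)) :=
      mul_nonneg hh0 (by linarith)
    have h4 : 0 ≤ (π / 2 - 4 / 3 - 237 / 1000) * ((k - h) ^ 2 * h) :=
      mul_nonneg (by linarith) (by positivity)
    nlinarith [h3, h4]
  have hmodel := model_value (Ω := Om h k - 2 * h ^ 2 * (h + k)) (V := V) hh0 hhk hk0 hV.le hkey
  have heq : (2 * √π * (h * k) + 2 * (Om h k - 2 * h ^ 2 * (h + k))) / (h + k)
      = (2 * √π * (h * k) + 2 * Om h k) / (h + k) - 4 * h ^ 2 := by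
    field_simp
    ring
  rw [heq] at hmodel
  linarith

end Vale.Agent.Lib.P232
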