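import Vale.Agent.Lib.P232.S3Defs
import Vale.Agent.Lib.P232.Chord

/-! CERT THIN, analytic part: for `M ≤ 39/100` the profile `ICp` is the disc profile on `[0, M]`, and the
chord of the disc profile gives the line. -/

open MeasureTheory Set

noncomputable section

namespace Vale.Agent.Lib.P232

open Real

private theorem thinS_mem_foldr (A : ℝ) (c : ℝ) {j : ℕ} :
    ∀ L : List ℕ, j ∈ L → xline j A ≤ L.foldr (fun j acc => max (xline j A) acc) c := by
  intro L
  induction L with
  | nil => intro h; simp at h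
  | cons a t ih =>
    intro h
    simp only [List.foldr_cons]
    rcases List.mem_cons.mp h with h | h
    · subst h
      exact le_max_left _ _
    · exact le_max_of_le_right (ih h)

private theorem thinS_xline14_le (A : ℝ) : xline 14 A ≤ xhat A := by
  unfold xhat
  exact thinS_mem_foldr A 2 _ (by simp)

private theorem thinS_xline14_eq (A : ℝ) :
    xline 14 A = 2 * ((14 : ℝ) / 20) * A + 2 * (91091 / 100000) := by
  have h : (thetaTab.getD 14 0 : ℚ) = 91091 / 100000 := by
    simp [thetaTab]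
  unfold xline
  rw [h]
  push_cast
  ring

/-- On `[0, 39/100]` the profile `ICp` is the disc. -/
theorem thinS_ICp_eq {s : ℝ} (hs0 : 0 ≤ s) (hs : s ≤ 39 / 100) : ICp s = 2 * √(π * s) := by
  have hpi := Real.pi_lt_d4
  have hpi0 := Real.pi_pos
  have hs1 : π * s ≤ 3.1416 * s := mul_le_mul_of_nonneg_right hpi.le hs0
  have hE : IE s = 2 * √(π * s) := by
    apply IE_eq_of_le
    rw [le_div_iff₀ hpi0]
    nlinarith
  have hX : 2 * √(π * s) ≤ xhat (s - tstar) := by
    refine le_trans ?_ (thinS_xline14_le _)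
    rw [thinS_xline14_eq]
    unfold tstar
    have h1 : √(π * s) ≤ (14 / 20) * (s - 1 / 10) + 91091 / 100000 := by
      apply Real.sqrt_le_iff.mpr
      constructor
      · nlinarith
      · nlinarith
    nlinarith
  have hC : 2 * √(π * s) ≤ 2 * √2 * (1 - tstar) := by
    unfold tstar
    have h2 : (1414 : ℝ) / 1000 ≤ √2 := by
      apply Real.le_sqrt_of_sq_le
      norm_num
    have h1 : √(π * s) ≤ 1.2 := by
      apply Real.sqrt_le_iff.mpr
      constructor
      · norm_num
      · nlinarith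
    nlinarith
  unfold ICp
  rw [hE, min_eq_left (le_min hX hC)]

/-- **Thin direction, `M ≤ 39/100`.** -/
theorem certThin_small {V m M : ℝ} (hV : 0 < V) (hm : 0 ≤ m) (hmV : m ≤ V) (hVM : V ≤ M)
    (hM : M ≤ 39 / 100) : ∃ l b, LineAdm ICp l b m M ∧ Jf V ≤ lineValue ICp l b V m M := by
  have hM0 : 0 < M := lt_of_lt_of_le hV hVM
  set h := √m with hh
  set k := √M with hk
  have hh0 : 0 ≤ h := Real.sqrt_nonneg _
  have hk0 : 0 < k := Real.sqrt_pos.mpr hM0
  have hhk : h ≤ k := Real.sqrt_le_sqrt (hmV.trans hVM)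
  have hm2 : m = h ^ 2 := (Real.sq_sqrt hm).symm
  have hM2 : M = k ^ 2 := (Real.sq_sqrt hM0.le).symm
  have hI : ∀ s ∈ Icc (h ^ 2) (k ^ 2), ICp s = 2 * √(π * s) := by
    intro s hs
    apply thinS_ICp_eq (le_trans (sq_nonneg _) hs.1)
    rw [← hM2] at hs
    exact hs.2.trans hM
  obtain ⟨hadm, hval⟩ := chord_facts ICp hh0 hhk hk0 hI
  rw [hm2, hM2]
  refine ⟨_, _, hadm, ?_⟩
  rw [hval]
  refine (min_le_left _ _).trans ?_
  apply model_value hh0 hhk hk0 hV.le
  refine le_trans ?_ (omega_ge hh0 hhk)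
  have hpi : 3 < π := pi_gt_three
  have h1 : 0 ≤ (k - h) ^ 2 * h := by positivity
  nlinarith [h1, mul_le_mul_of_nonneg_left hpi.le h1]

end Vale.Agent.Lib.P232
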