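import Vale.Agent.Lib.P232.CertThinLData
import Vale.Agent.Lib.P232.CertThinSmall

/-! P232, stage 3: the certificate for thin directions. -/

namespace Vale.Agent.Lib.P232

/-- The certificate for thin directions. -/
theorem certThin : CertThin := by
  intro V m M hV1 hV2 hm hmV hVM hM
  right
  rcases le_total M (39 / 100) with h | h
  · exact certThin_small (by linarith) hm hmV hVM h
  · exact certThin_large hV1 hV2 hm hmV h hM

end Vale.Agent.Lib.P232
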