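import Vale.Agent.Lib.P232.SlabData

/-! The one-dimensional inequality for the slab range `370/1024 ≤ V ≤ 1/2`. -/

namespace Vale.Agent.Lib.P232

open Cells

/-- The one-dimensional inequality for the slab range: some line for `IT` has value at least `2`. -/
theorem slab_statement {V m M : ℝ} (hV : 370 / 1024 ≤ V) (hV2 : V ≤ 1 / 2) (hm : 0 ≤ m) (hmV : m ≤ V)
    (hVM : V ≤ M) (hM : M ≤ 1) :
    ∃ l b, LineAdm IT l b m M ∧ 2 ≤ lineValue IT l b V m M := by
  have hM0 : 0 ≤ M := by linarith
  have hs : Real.sqrt m ^ 2 = m := Real.sq_sqrt hm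
  have hs2 : Real.sqrt M ^ 2 = M := Real.sq_sqrt hM0
  have hh0 := Real.sqrt_nonneg m
  have hh1 : Real.sqrt m ≤ 725 / 1024 := by
    apply Real.sqrt_le_iff.mpr
    constructor
    · norm_num
    · norm_num
      linarith
  have hk1 : Real.sqrt M ≤ 1 := by
    rw [Real.sqrt_le_one]
    exact hM
  have hk2 : (615 : ℝ) / 1024 ≤ Real.sqrt M := by
    apply Real.le_sqrt_of_sq_le
    norm_num at hV ⊢
    linarith
  have := checkSlab_sound slabData 0 725 615 1024 370 512 slabData_ok (Real.sqrt m) (Real.sqrt M) V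
    (by simp [hh0]) (by norm_num; linarith) (by norm_num; linarith) (by norm_num; linarith)
    (by norm_num at hV ⊢; linarith) (by norm_num; linarith) (by rw [hs]; exact hmV)
    (by rw [hs2]; exact hVM)
  rw [hs, hs2] at this
  exact this

end Vale.Agent.Lib.P232
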