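import Vale.Agent.Lib.P232.CertBand
import Vale.Agent.Lib.P232.CertHump
import Vale.Agent.Lib.P232.CertThin
import Vale.Agent.Lib.P232.CertCycle
import Vale.Agent.Lib.P232.SlabFinal

/-! The certificates. -/

namespace Vale.Agent.Lib.P232

theorem certSlab : CertSlab := by
  intro V m M hV hV2 hm hmV hVM hM
  have h1 : (370 / 1024 : ℝ) ≤ V := by
    have : (370 / 1024 : ℝ) ≤ 37 / 100 := by norm_num
    linarith
  exact slab_statement h1 hV2 hm hmV hVM hM

end Vale.Agent.Lib.P232
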