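import Vale.Agent.Lib.P232.S3Defs

/-! JOB MONO (helper89): bookkeeping for coordinate-monotone sets. -/

open MeasureTheory Set Filter Topology
open scoped ENNReal

noncomputable section

namespace Vale.Agent.Lib.P232

variable {χ : ℝ → ℝ → ℝ → ℝ} {w : ℝ → ℝ → ℝ}

theorem uu_measurable : Measurable uu := by
  unfold uu
  exact ((measurable_const.mul measurable_fract).sub_const 1).abs

theorem uu_nonneg (x : ℝ) : 0 ≤ uu x := abs_nonneg _

theorem uu_le_one (x : ℝ) : uu x ≤ 1 := by
  unfold uu
  have h0 := Int.fract_nonneg x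
  have h1 := Int.fract_lt_one x
  rw [abs_le]
  constructor <;> linarith

theorem uu_add_one (x : ℝ) : uu (x + 1) = uu x := by
  unfold uu
  rw [Int.fract_add_one]

private theorem uu_of_mem {x : ℝ} (h0 : 0 ≤ x) (h1 : x < 1) : uu x = |2 * x - 1| := by
  unfold uu
  rw [Int.fract_eq_self.mpr ⟨h0, h1⟩]

theorem uu_half : uu (1 / 2) = 0 := by
  rw [uu_of_mem (by norm_num) (by norm_num)]
  norm_num

private theorem uu_one : uu 1 = 1 := by
  have := uu_add_one 0
  rw [zero_add] at this
  rw [this, uu_of_mem le_rfl zero_lt_one]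
  norm_num

/-- The point of `[1/2, 1)` with a given tent coordinate. -/
private theorem uu_point {s : ℝ} (h0 : 0 ≤ s) (h1 : s < 1) : uu ((1 + s) / 2) = s := by
  rw [uu_of_mem (by linarith) (by linarith)]
  have : 2 * ((1 + s) / 2) - 1 = s := by ring
  rw [this, abs_of_nonneg h0]

/-- The sublevel sets. -/
theorem volume_uu_lt {T : ℝ} (h0 : 0 ≤ T) (h1 : T ≤ 1) :
    volume ({t | uu t < T} ∩ Ioc (0 : ℝ) 1) = ENNReal.ofReal T := by
  have : {t | uu t < T} ∩ Ioc (0 : ℝ) 1 = Ioo ((1 - T) / 2) ((1 + T) / 2) := by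
    ext t
    simp only [mem_inter_iff, mem_ofPred_eq, mem_Ioc, mem_Ioo]
    constructor
    · rintro ⟨h, ht0, ht1⟩
      rcases lt_or_eq_of_le ht1 with ht1 | rfl
      · rw [uu_of_mem ht0.le ht1, abs_lt] at h
        constructor <;> linarith [h.1, h.2]
      · rw [uu_one] at h
        linarith
    · rintro ⟨ha, hb⟩
      have ht0 : 0 < t := by linarith
      have ht1 : t < 1 := by linarith
      refine ⟨?_, ht0, ht1.le⟩
      rw [uu_of_mem ht0.le ht1, abs_lt]
      constructor <;> linarith
  rw [this, Real.volume_Ioo]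
  congr 1
  ring

theorem measurableSet_uu_lt (T : ℝ) : MeasurableSet {t | uu t < T} :=
  measurableSet_lt uu_measurable measurable_const

/-- Integral form of `volume_uu_lt`. -/
theorem integral_uu_lt {T : ℝ} (h0 : 0 ≤ T) (h1 : T ≤ 1) :
    ∫ t in (0 : ℝ)..1, (if uu t < T then (1 : ℝ) else 0) = T := by
  rw [intervalIntegral.integral_of_le zero_le_one]
  have : (fun t => if uu t < T then (1 : ℝ) else 0) = {t | uu t < T}.indicator (fun _ => (1 : ℝ)) := by
    ext t
    simp [indicator]
  rw [this, setIntegral_indicator (measurableSet_uu_lt T), setIntegral_const]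
  simp only [smul_eq_mul, mul_one]
  rw [Measure.real, inter_comm, volume_uu_lt h0 h1, ENNReal.toReal_ofReal h0]

/-- Upper bound for the non-strict sublevel sets. -/
theorem integral_uu_le_le {T : ℝ} (h0 : 0 ≤ T) :
    ∫ t in (0 : ℝ)..1, (if uu t ≤ T then (1 : ℝ) else 0) ≤ T := by
  have hm : Measurable (fun t => if uu t ≤ T then (1 : ℝ) else 0) :=
    Measurable.ite (measurableSet_le uu_measurable measurable_const) measurable_const measurable_const
  have hb : ∀ t, |(if uu t ≤ T then (1 : ℝ) else 0)| ≤ 1 := fun t => by split_ifs <;> simp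
  have hi := intervalIntegrable_of_bdd hm hb
  by_cases hT : 1 ≤ T
  · have := intervalIntegral.integral_mono_on (a := 0) (b := 1) zero_le_one hi
      (intervalIntegrable_const (c := (1 : ℝ))) (fun t _ => (le_abs_self _).trans (hb t))
    simp only [intervalIntegral.integral_const, sub_zero, smul_eq_mul, mul_one] at this
    linarith
  · push Not at hT
    refine le_of_forall_pos_le_add fun ε hε => ?_
    set T' := min (T + ε) 1 with hT'
    have hT0 : T < T' := lt_min (by linarith) hT
    have h2 := integral_uu_lt (T := T') (by linarith) (min_le_right _ _)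
    have hm2 : Measurable (fun t => if uu t < T' then (1 : ℝ) else 0) :=
      Measurable.ite (measurableSet_uu_lt T') measurable_const measurable_const
    have hb2 : ∀ t, |(if uu t < T' then (1 : ℝ) else 0)| ≤ 1 := fun t => by split_ifs <;> simp
    have hi2 := intervalIntegrable_of_bdd hm2 hb2
    have := intervalIntegral.integral_mono_on (a := 0) (b := 1) zero_le_one hi hi2 (fun t _ => by
      by_cases h : uu t ≤ T
      · rw [if_pos h, if_pos (lt_of_le_of_lt h hT0)]
      · rw [if_neg h]
        split_ifs <;> norm_num)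
    rw [h2] at this
    exact this.trans (min_le_left _ _)

theorem Mono3.slice (h : Mono3 χ) (t : ℝ) : Mono2 (slc χ t) where
  ind := h.ind.slice_ind t
  mono x y x' y' hx hy hc := h.mono x y t x' y' t hx hy le_rfl hc

theorem Mono3.perm (h : Mono3 χ) : Mono3 (perm χ) where
  ind := h.ind.perm
  mono x y t x' y' t' hx hy ht hc := h.mono y t x y' t' x' hy ht hx hc

/-! ### One dimensional facts -/

/-- An indicator that is monotone in the tent coordinate is supported below any point where it vanishes. -/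
theorem mass_le_of_not {f : ℝ → ℝ} (hm : Measurable f) (hb : ∀ t, f t = 0 ∨ f t = 1)
    (hmono : ∀ t t', uu t' ≤ uu t → f t = 1 → f t' = 1) {t : ℝ} (ht : f t ≠ 1) :
    ∫ s in (0 : ℝ)..1, f s ≤ uu t := by
  have hab : ∀ s, |f s| ≤ 1 := fun s => by rcases hb s with h | h <;> simp [h]
  have hi := intervalIntegrable_of_bdd hm hab
  have hm2 : Measurable (fun s => if uu s < uu t then (1 : ℝ) else 0) :=
    Measurable.ite (measurableSet_uu_lt (uu t)) measurable_const measurable_const
  have hb2 : ∀ s, |(if uu s < uu t then (1 : ℝ) else 0)| ≤ 1 := fun s => by split_ifs <;> simp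
  have hi2 := intervalIntegrable_of_bdd hm2 hb2
  have h3 := intervalIntegral.integral_mono_on (a := 0) (b := 1) zero_le_one hi hi2 (fun s _ => by
    by_cases h : uu s < uu t
    · rw [if_pos h]
      rcases hb s with h0 | h1 <;> simp [*]
    · rw [if_neg h]
      rcases hb s with h0 | h1
      · exact h0.le
      · exact absurd (hmono s t (not_lt.mp h) h1) ht)
  rwa [integral_uu_lt (uu_nonneg t) (uu_le_one t)] at h3

/-- Mass one from the values on the open interval. -/
theorem mass_eq_one_of {f : ℝ → ℝ} (h : ∀ t, uu t < 1 → f t = 1) : ∫ s in (0 : ℝ)..1, f s = 1 := by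
  rw [intervalIntegral.integral_of_le zero_le_one, integral_Ioc_eq_integral_Ioo]
  have : ∀ s ∈ Ioo (0 : ℝ) 1, f s = 1 := fun s hs => by
    apply h
    rw [uu_of_mem hs.1.le hs.2, abs_lt]
    constructor <;> linarith [hs.1, hs.2]
  rw [setIntegral_congr_fun measurableSet_Ioo this]
  simp

/-- The open unit interval minus the centre has positive tent coordinate. -/
theorem ae_uu_pos : ∀ᵐ y ∂(volume.restrict (Ioc (0 : ℝ) 1)), 0 < uu y := by
  have h1 : ∀ᵐ y ∂(volume.restrict (Ioc (0 : ℝ) 1)), y ≠ 1 / 2 :=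
    ae_restrict_of_ae (by simp [ae_iff, measure_singleton])
  filter_upwards [h1, ae_restrict_mem measurableSet_Ioc] with y hy hy2
  rcases lt_or_eq_of_le hy2.2 with h | rfl
  · rw [uu_of_mem hy2.1.le h, abs_pos]
    intro h0
    apply hy
    linarith
  · rw [uu_one]
    exact zero_lt_one

/-- Positive measure of the zero set when the integral is below one. -/
theorem pos_volume_zero {f : ℝ → ℝ} (hm : Measurable f) (hb : ∀ t, f t = 0 ∨ f t = 1)
    (h : ∫ s in (0 : ℝ)..1, f s < 1) : 0 < volume ({y | f y = 0} ∩ Ioc (0 : ℝ) 1) := by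
  by_contra h0
  have h0 : volume ({y | f y = 0} ∩ Ioc (0 : ℝ) 1) = 0 := by simpa using h0
  have h1 : ∀ᵐ y ∂(volume.restrict (Ioc (0 : ℝ) 1)), f y = 1 := by
    rw [ae_restrict_iff' measurableSet_Ioc]
    have : ∀ᵐ y : ℝ, y ∉ {y | f y = 0} ∩ Ioc (0 : ℝ) 1 := measure_eq_zero_iff_ae_notMem.mp h0
    filter_upwards [this] with y hy hy2
    rcases hb y with h2 | h2
    · exact absurd ⟨h2, hy2⟩ hy
    · exact h2
  rw [intervalIntegral.integral_of_le zero_le_one, integral_congr_ae h1] at h
  simp at h

/-! ### Level two: rows and columns are balls of the tent coordinate -/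

private theorem i2_bool (h : Mono2 w) (x y : ℝ) : w x y = 0 ∨ w x y = 1 := h.ind.bool x y

private theorem i2_nonneg (h : Mono2 w) (x y : ℝ) : 0 ≤ w x y := by
  rcases h.ind.bool x y with h0 | h1 <;> simp [*]

private theorem i2_le_one (h : Mono2 w) (x y : ℝ) : w x y ≤ 1 := by
  rcases h.ind.bool x y with h0 | h1 <;> simp [*]

/-- The reflected set. -/
theorem Mono2.swap (h : Mono2 w) : Mono2 (fun x y => w y x) where
  ind := h.ind.swap
  mono x y x' y' hx hy hc := h.mono y x y' x' hy hx hc

/-- A row is inside the ball up to any point outside. -/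
theorem Mono2.rowM_le (h : Mono2 w) {x y : ℝ} (hxy : w x y ≠ 1) : rowM w y ≤ uu x :=
  mass_le_of_not (f := fun s => w s y) (h.ind.meas.comp (measurable_id.prodMk measurable_const))
    (fun s => h.ind.bool s y) (fun s s' hs hc => h.mono s y s' y hs le_rfl hc) hxy

/-- A column is inside the ball up to any point outside. -/
theorem Mono2.colM_le (h : Mono2 w) {x y : ℝ} (hxy : w x y ≠ 1) : colM w x ≤ uu y :=
  h.swap.rowM_le (x := y) (y := x) hxy

/-- Rows with mass below `ε` exist if there are no full columns. -/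
theorem Mono2.rows_small (h : Mono2 w) (hc : deltaC w = 0) {ε : ℝ} (hε : 0 < ε) :
    0 < volume {y | y ∈ Icc (0 : ℝ) 1 ∧ rowM w y < ε} := by
  set s := min (ε / 2) (1 / 2) with hs
  have hs0 : 0 < s := lt_min (by linarith) (by norm_num)
  have hs1 : s < 1 := (min_le_right _ _).trans_lt (by norm_num)
  have hsε : s < ε := (min_le_left _ _).trans_lt (by linarith)
  set x₀ := (1 + s) / 2 with hx₀
  have hu : uu x₀ = s := uu_point hs0.le hs1
  -- the column at `x₀` is not full
  have hcol : colM w x₀ < 1 := by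
    by_contra hcon
    have hx1 : colM w x₀ = 1 := le_antisymm (h.ind.colM_mem x₀).2 (not_lt.mp hcon)
    have hfull : ∀ x, uu x < s → fullInd (colM w x) = 1 := by
      intro x hx
      have : colM w x = 1 := by
        apply le_antisymm (h.ind.colM_mem x).2
        by_contra hlt
        have : ∃ y, w x y ≠ 1 ∧ True := by
          by_contra hall
          push Not at hall
          have h2 : colM w x = 1 := by
            unfold colM
            have : (fun y => w x y) = fun _ => 1 := funext fun y => by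
              by_contra hne
              exact hall y hne
            rw [this]
            simp
          linarith
        obtain ⟨y, hy, -⟩ := this
        have hy0 : w x₀ y ≠ 1 := fun hc => hy (h.mono x₀ y x y (by rw [hu]; exact hx.le) le_rfl hc)
        -- the column at `x₀` is contained in the one at `x`
        have hle : colM w x₀ ≤ colM w x := by
          unfold colM
          refine intervalIntegral.integral_mono_on zero_le_one ?_ ?_ (fun y _ => ?_)
          · exact intervalIntegrable_of_bdd (h.ind.meas.comp (measurable_const.prodMk measurable_id))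
              (C := 1) (fun y => abs_le.mpr ⟨by linarith [i2_nonneg h x₀ y], i2_le_one h x₀ y⟩)
          · exact intervalIntegrable_of_bdd (h.ind.meas.comp (measurable_const.prodMk measurable_id))
              (C := 1) (fun y => abs_le.mpr ⟨by linarith [i2_nonneg h x y], i2_le_one h x y⟩)
          · rcases h.ind.bool x₀ y with h0 | h1
            · rw [h0]; exact i2_nonneg h x y
            · rw [h1, h.mono x₀ y x y (by rw [hu]; exact hx.le) le_rfl h1]
        linarith
      rw [this]
      simp [fullInd]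
    have hmf : Measurable (fun x => fullInd (colM w x)) :=
      t3_measurable_fullInd.comp h.ind.measurable_colM
    have hbf : ∀ x, |fullInd (colM w x)| ≤ 1 := fun x => by unfold fullInd; split_ifs <;> simp
    have hm2 : Measurable (fun s' => if uu s' < s then (1 : ℝ) else 0) :=
      Measurable.ite (measurableSet_uu_lt s) measurable_const measurable_const
    have hb2 : ∀ s', |(if uu s' < s then (1 : ℝ) else 0)| ≤ 1 := fun s' => by split_ifs <;> simp
    have hle := intervalIntegral.integral_mono_on (a := 0) (b := 1) zero_le_one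
      (intervalIntegrable_of_bdd hm2 hb2) (intervalIntegrable_of_bdd hmf hbf) (fun x _ => by
        by_cases hx : uu x < s
        · rw [if_pos hx, hfull x hx]
        · rw [if_neg hx]
          unfold fullInd
          split_ifs <;> norm_num)
    rw [integral_uu_lt hs0.le hs1.le] at hle
    have : deltaC w = ∫ x in (0 : ℝ)..1, fullInd (colM w x) := rfl
    rw [← this, hc] at hle
    linarith
  have hpos := pos_volume_zero (f := fun y => w x₀ y)
    (h.ind.meas.comp (measurable_const.prodMk measurable_id)) (fun y => h.ind.bool x₀ y) hcol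
  refine hpos.trans_le (measure_mono ?_)
  rintro y ⟨hy0, hy1⟩
  refine ⟨⟨hy1.1.le, hy1.2⟩, ?_⟩
  have hne : w x₀ y ≠ 1 := by
    have : w x₀ y = 0 := hy0
    rw [this]
    norm_num
  have := h.rowM_le hne
  rw [hu] at this
  linarith

/-- Every row has mass at least the width of the full columns. -/
theorem Mono2.deltaC_le_rowM (h : Mono2 w) {y : ℝ} (hy : uu y < 1) : deltaC w ≤ rowM w y := by
  unfold deltaC rowM
  refine intervalIntegral.integral_mono_on zero_le_one ?_ ?_ (fun x _ => ?_)
  · exact intervalIntegrable_of_bdd (t3_measurable_fullInd.comp h.ind.measurable_colM) (C := 1)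
      (fun x => by unfold fullInd; split_ifs <;> simp)
  · exact intervalIntegrable_of_bdd (h.ind.meas.comp (measurable_id.prodMk measurable_const)) (C := 1)
      (fun x => abs_le.mpr ⟨by linarith [i2_nonneg h x y], i2_le_one h x y⟩)
  · unfold fullInd
    split_ifs with hc
    · by_contra hne
      have hne' : w x y ≠ 1 := fun h1 => hne (by rw [h1])
      have := h.colM_le hne'
      linarith
    · exact i2_nonneg h x y

/-- Every column has mass at least the width of the full rows. -/
theorem Mono2.deltaR_le_colM (h : Mono2 w) {x : ℝ} (hx : uu x < 1) : deltaR w ≤ colM w x :=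
  h.swap.deltaC_le_rowM hx

/-- Positive measure of full rows. -/
theorem Mono2.full_rows_pos (h : Mono2 w) (hr : 0 < deltaR w) :
    0 < volume {y | y ∈ Icc (0 : ℝ) 1 ∧ rowM w y = 1} := by
  by_contra h0
  have h0 : volume {y | y ∈ Icc (0 : ℝ) 1 ∧ rowM w y = 1} = 0 := by simpa using h0
  have h1 : ∀ᵐ y ∂(volume.restrict (Ioc (0 : ℝ) 1)), fullInd (rowM w y) = 0 := by
    rw [ae_restrict_iff' measurableSet_Ioc]
    have : ∀ᵐ y : ℝ, y ∉ {y | y ∈ Icc (0 : ℝ) 1 ∧ rowM w y = 1} := measure_eq_zero_iff_ae_notMem.mp h0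
    filter_upwards [this] with y hy hy2
    unfold fullInd
    rw [if_neg]
    intro hc
    exact hy ⟨⟨hy2.1.le, hy2.2⟩, hc⟩
  have : deltaR w = 0 := by
    unfold deltaR
    rw [intervalIntegral.integral_of_le zero_le_one, integral_congr_ae h1]
    simp
  linarith

/-! ### Level three -/

private theorem i3_nonneg (h : Mono3 χ) (x y t : ℝ) : 0 ≤ χ x y t := by
  rcases h.ind.bool x y t with h0 | h1 <;> simp [*]

private theorem i3_le_one (h : Mono3 χ) (x y t : ℝ) : χ x y t ≤ 1 := by
  rcases h.ind.bool x y t with h0 | h1 <;> simp [*]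

private theorem i3_abs (h : Mono3 χ) (x y t : ℝ) : |χ x y t| ≤ 1 :=
  abs_le.mpr ⟨by linarith [i3_nonneg h x y t], i3_le_one h x y t⟩

private theorem i3_meas_x (h : Mono3 χ) (y t : ℝ) : Measurable (fun x => χ x y t) :=
  h.ind.meas.comp (measurable_id.prodMk (measurable_const.prodMk measurable_const))

/-- Pointwise comparison of a line with a smaller one. -/
private theorem i3_le (h : Mono3 χ) {x y t x' y' t' : ℝ} (hx : uu x' ≤ uu x) (hy : uu y' ≤ uu y)
    (ht : uu t' ≤ uu t) : χ x y t ≤ χ x' y' t' := by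
  rcases h.ind.bool x y t with h0 | h1
  · rw [h0]
    exact i3_nonneg h _ _ _
  · rw [h1, h.mono x y t x' y' t' hx hy ht h1]

private theorem fullInd_le_of {a b : ℝ} (hab : a ≤ b) (hb : b ≤ 1) : fullInd a ≤ fullInd b := by
  unfold fullInd
  by_cases ha : a = 1
  · have : b = 1 := le_antisymm hb (ha ▸ hab)
    simp [ha, this]
  · rw [if_neg ha]
    split_ifs <;> norm_num

private theorem fullInd_abs (a : ℝ) : |fullInd a| ≤ 1 := by
  unfold fullInd
  split_ifs <;> simp

private theorem fullInd_nonneg (a : ℝ) : 0 ≤ fullInd a := by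
  unfold fullInd
  split_ifs <;> norm_num

private theorem fullInd_le_one (a : ℝ) : fullInd a ≤ 1 := by
  unfold fullInd
  split_ifs <;> norm_num

private theorem eq_one_of_fullInd_ne {a : ℝ} (h : fullInd a ≠ 0) : a = 1 := by
  unfold fullInd at h
  by_contra hne
  rw [if_neg hne] at h
  exact h rfl

/-- Exchange of the first two coordinates. -/
theorem Mono3.swapxy (h : Mono3 χ) : Mono3 (fun x y t => χ y x t) where
  ind :=
    { meas := h.ind.meas.comp (measurable_snd.fst.prodMk (measurable_fst.prodMk measurable_snd.snd))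
      bool := fun x y t => h.ind.bool y x t
      per_x := fun x y t => h.ind.per_y y x t
      per_y := fun x y t => h.ind.per_x y x t
      per_t := fun x y t => h.ind.per_t y x t }
  mono x y t x' y' t' hx hy ht hc := h.mono y x t y' x' t' hy hx ht hc

private theorem rowM_slc_anti (h : Mono3 χ) {t t' : ℝ} (htt : uu t ≤ uu t') (y : ℝ) :
    rowM (slc χ t') y ≤ rowM (slc χ t) y := by
  unfold rowM slc
  exact intervalIntegral.integral_mono_on zero_le_one
    (intervalIntegrable_of_bdd (i3_meas_x h y t') (fun x => i3_abs h x y t'))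
    (intervalIntegrable_of_bdd (i3_meas_x h y t) (fun x => i3_abs h x y t))
    (fun x _ => i3_le h le_rfl le_rfl htt)

theorem massT_anti (h : Mono3 χ) {t t' : ℝ} (htt : uu t ≤ uu t') : massT χ t' ≤ massT χ t := by
  unfold massT area
  have hb : ∀ t y, |rowM (slc χ t) y| ≤ 1 := fun t y => by
    have := (h.ind.slice_ind t).rowM_mem y
    exact abs_le.mpr ⟨by linarith [this.1], this.2⟩
  exact intervalIntegral.integral_mono_on zero_le_one
    (intervalIntegrable_of_bdd (h.ind.slice_ind t').measurable_rowM (hb t'))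
    (intervalIntegrable_of_bdd (h.ind.slice_ind t).measurable_rowM (hb t))
    (fun y _ => rowM_slc_anti h htt y)

theorem deltaR_anti (h : Mono3 χ) {t t' : ℝ} (htt : uu t ≤ uu t') :
    deltaR (slc χ t') ≤ deltaR (slc χ t) := by
  unfold deltaR
  exact intervalIntegral.integral_mono_on zero_le_one
    (intervalIntegrable_of_bdd (t3_measurable_fullInd.comp (h.ind.slice_ind t').measurable_rowM)
      (fun y => fullInd_abs _))
    (intervalIntegrable_of_bdd (t3_measurable_fullInd.comp (h.ind.slice_ind t).measurable_rowM)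
      (fun y => fullInd_abs _))
    (fun y _ => fullInd_le_of (rowM_slc_anti h htt y) ((h.ind.slice_ind t).rowM_mem y).2)

theorem deltaC_anti (h : Mono3 χ) {t t' : ℝ} (htt : uu t ≤ uu t') :
    deltaC (slc χ t') ≤ deltaC (slc χ t) :=
  deltaR_anti h.swapxy htt

/-! Extents. -/

private theorem extA_bdd (G : ℝ → ℝ → Prop) : BddAbove ({0} ∪ {b | ∃ p q, uu p = b ∧ 0 < uu q ∧ G p q}) := by
  refine ⟨1, ?_⟩
  rintro b (hb | ⟨p, q, rfl, -, -⟩)
  · rw [mem_singleton_iff.mp hb]
    exact zero_le_one
  · exact uu_le_one p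

private theorem extB_bdd (G : ℝ → ℝ → Prop) : BddAbove ({0} ∪ {c | ∃ p q, uu q = c ∧ 0 < uu p ∧ G p q}) := by
  refine ⟨1, ?_⟩
  rintro b (hb | ⟨p, q, rfl, -, -⟩)
  · rw [mem_singleton_iff.mp hb]
    exact zero_le_one
  · exact uu_le_one q

theorem le_extA {G : ℝ → ℝ → Prop} {p q : ℝ} (hq : 0 < uu q) (hG : G p q) : uu p ≤ extA G :=
  le_csSup (extA_bdd G) (Or.inr ⟨p, q, rfl, hq, hG⟩)

theorem le_extB {G : ℝ → ℝ → Prop} {p q : ℝ} (hp : 0 < uu p) (hG : G p q) : uu q ≤ extB G :=
  le_csSup (extB_bdd G) (Or.inr ⟨p, q, rfl, hp, hG⟩)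

theorem extA_nonneg (G : ℝ → ℝ → Prop) : 0 ≤ extA G :=
  le_csSup (extA_bdd G) (Or.inl rfl)

theorem extB_nonneg (G : ℝ → ℝ → Prop) : 0 ≤ extB G :=
  le_csSup (extB_bdd G) (Or.inl rfl)

theorem extA_le_one (G : ℝ → ℝ → Prop) : extA G ≤ 1 := by
  refine csSup_le ⟨0, Or.inl rfl⟩ ?_
  rintro b (hb | ⟨p, q, rfl, -, -⟩)
  · rw [mem_singleton_iff.mp hb]
    exact zero_le_one
  · exact uu_le_one p

theorem extB_le_one (G : ℝ → ℝ → Prop) : extB G ≤ 1 := by
  refine csSup_le ⟨0, Or.inl rfl⟩ ?_
  rintro b (hb | ⟨p, q, rfl, -, -⟩)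
  · rw [mem_singleton_iff.mp hb]
    exact zero_le_one
  · exact uu_le_one q

theorem extA_swap (G : ℝ → ℝ → Prop) : extA (fun p q => G q p) = extB G := by
  unfold extA extB
  congr 1
  ext b
  simp only [mem_union, mem_singleton_iff, mem_ofPred_eq]
  constructor
  · rintro (h | ⟨p, q, h1, h2, h3⟩)
    · exact Or.inl h
    · exact Or.inr ⟨q, p, h1, h2, h3⟩
  · rintro (h | ⟨p, q, h1, h2, h3⟩)
    · exact Or.inl h
    · exact Or.inr ⟨q, p, h1, h2, h3⟩

theorem extB_swap (G : ℝ → ℝ → Prop) : extB (fun p q => G q p) = extA G := by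
  unfold extA extB
  congr 1
  ext b
  simp only [mem_union, mem_singleton_iff, mem_ofPred_eq]
  constructor
  · rintro (h | ⟨p, q, h1, h2, h3⟩)
    · exact Or.inl h
    · exact Or.inr ⟨q, p, h1, h2, h3⟩
  · rintro (h | ⟨p, q, h1, h2, h3⟩)
    · exact Or.inl h
    · exact Or.inr ⟨q, p, h1, h2, h3⟩

private theorem integrable_ite_le (T : ℝ) :
    IntervalIntegrable (fun t => if uu t ≤ T then (1 : ℝ) else 0) volume 0 1 :=
  intervalIntegrable_of_bdd (C := 1)
    (Measurable.ite (measurableSet_le uu_measurable measurable_const) measurable_const measurable_const)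
    (fun t => by split_ifs <;> simp)

private theorem integrable_ite_lt (T : ℝ) :
    IntervalIntegrable (fun t => if uu t < T then (1 : ℝ) else 0) volume 0 1 :=
  intervalIntegrable_of_bdd (C := 1)
    (Measurable.ite (measurableSet_uu_lt T) measurable_const measurable_const)
    (fun t => by split_ifs <;> simp)

theorem deltaR_le_extA (h : Mono3 χ) {t : ℝ} (ht : 0 < uu t) : deltaR (slc χ t) ≤ extA (Gx χ) := by
  refine le_trans ?_ (integral_uu_le_le (extA_nonneg (Gx χ)))
  unfold deltaR
  refine intervalIntegral.integral_mono_on zero_le_one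
    (intervalIntegrable_of_bdd (t3_measurable_fullInd.comp (h.ind.slice_ind t).measurable_rowM)
      (fun y => fullInd_abs _)) (integrable_ite_le _) (fun y _ => ?_)
  by_cases hf : fullInd (rowM (slc χ t) y) = 0
  · rw [hf]
    split_ifs <;> norm_num
  · have hG : Gx χ y t := eq_one_of_fullInd_ne hf
    rw [if_pos (le_extA ht hG)]
    exact fullInd_le_one _

theorem deltaC_le_extA (h : Mono3 χ) {t : ℝ} (ht : 0 < uu t) : deltaC (slc χ t) ≤ extA (Gy χ) :=
  deltaR_le_extA h.swapxy ht

theorem deltaR_pos (h : Mono3 χ) {t : ℝ} (ht : uu t < extB (Gx χ)) : 0 < deltaR (slc χ t) := by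
  have ht' : uu t < sSup ({0} ∪ {c | ∃ p q, uu q = c ∧ 0 < uu p ∧ Gx χ p q}) := ht
  have hne : (({0} : Set ℝ) ∪ {c | ∃ p q, uu q = c ∧ 0 < uu p ∧ Gx χ p q}).Nonempty :=
    ⟨0, Or.inl rfl⟩
  obtain ⟨c, hc, hlt⟩ := exists_lt_of_lt_csSup hne ht'
  rcases hc with hc | ⟨y₀, t₀, rfl, hy₀, hG⟩
  · rw [mem_singleton_iff.mp hc] at hlt
    exact absurd hlt (not_lt.mpr (uu_nonneg t))
  · refine lt_of_lt_of_le hy₀ ?_
    have h1 := integral_uu_lt (uu_nonneg y₀) (uu_le_one y₀)
    rw [← h1]
    unfold deltaR
    refine intervalIntegral.integral_mono_on zero_le_one (integrable_ite_lt _)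
      (intervalIntegrable_of_bdd (t3_measurable_fullInd.comp (h.ind.slice_ind t).measurable_rowM)
        (fun y => fullInd_abs _)) (fun y _ => ?_)
    by_cases hy : uu y < uu y₀
    · rw [if_pos hy]
      have h2 : rowM (slc χ t) y = 1 := by
        apply le_antisymm ((h.ind.slice_ind t).rowM_mem y).2
        have h3 : (∫ x in (0 : ℝ)..1, χ x y₀ t₀) = 1 := hG
        rw [← h3]
        unfold rowM slc
        exact intervalIntegral.integral_mono_on zero_le_one
          (intervalIntegrable_of_bdd (i3_meas_x h y₀ t₀) (fun x => i3_abs h x y₀ t₀))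
          (intervalIntegrable_of_bdd (i3_meas_x h y t) (fun x => i3_abs h x y t))
          (fun x _ => i3_le h le_rfl hy.le hlt.le)
      rw [h2]
      simp [fullInd]
    · rw [if_neg hy]
      exact fullInd_nonneg _

theorem deltaC_pos (h : Mono3 χ) {t : ℝ} (ht : uu t < extB (Gy χ)) : 0 < deltaC (slc χ t) :=
  deltaR_pos h.swapxy ht

theorem deltaR_zero (h : Mono3 χ) {t : ℝ} (ht : extB (Gx χ) < uu t) : deltaR (slc χ t) = 0 := by
  unfold deltaR
  rw [intervalIntegral.integral_of_le zero_le_one]
  have : ∀ᵐ y ∂(volume.restrict (Ioc (0 : ℝ) 1)), fullInd (rowM (slc χ t) y) = 0 := by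
    filter_upwards [ae_uu_pos] with y hy
    by_contra hf
    have hG : Gx χ y t := eq_one_of_fullInd_ne hf
    exact absurd (le_extB hy hG) (not_le.mpr ht)
  rw [integral_congr_ae this]
  simp

theorem deltaC_zero (h : Mono3 χ) {t : ℝ} (ht : extB (Gy χ) < uu t) : deltaC (slc χ t) = 0 :=
  deltaR_zero h.swapxy ht

/-! Essential bounds: finding points in sets of positive measure. -/

private theorem exists_le_M {a : ℝ → ℝ} {m M : ℝ} (hb : EssBounds a m M) {S : Set ℝ}
    (hS : S ⊆ Ioc (0 : ℝ) 1) (hpos : 0 < volume S) : ∃ t ∈ S, a t ≤ M := by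
  by_contra hcon
  push Not at hcon
  have h1 := (ae_restrict_iff' measurableSet_Ioc).mp hb.le_M
  have h2 : volume S = 0 := by
    refine measure_mono_null (t := {t | ¬ (t ∈ Ioc (0 : ℝ) 1 → a t ≤ M)}) ?_ h1
    intro t ht
    simp only [mem_ofPred_eq, not_forall, not_le]
    exact ⟨hS ht, hcon t ht⟩
  rw [h2] at hpos
  exact lt_irrefl _ hpos

private theorem exists_ge_m {a : ℝ → ℝ} {m M : ℝ} (hb : EssBounds a m M) {S : Set ℝ}
    (hS : S ⊆ Ioc (0 : ℝ) 1) (hpos : 0 < volume S) : ∃ t ∈ S, m ≤ a t := by
  by_contra hcon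
  push Not at hcon
  have h1 := (ae_restrict_iff' measurableSet_Ioc).mp hb.ge_m
  have h2 : volume S = 0 := by
    refine measure_mono_null (t := {t | ¬ (t ∈ Ioc (0 : ℝ) 1 → m ≤ a t)}) ?_ h1
    intro t ht
    simp only [mem_ofPred_eq, not_forall, not_le]
    exact ⟨hS ht, hcon t ht⟩
  rw [h2] at hpos
  exact lt_irrefl _ hpos

/-- A full `x`-line at `(y, t)` gives a lower bound of the slices below `t`. -/
private theorem massT_ge_uu (h : Mono3 χ) {y t t' : ℝ} (hG : Gx χ y t) (htt : uu t' ≤ uu t) :
    uu y ≤ massT χ t' := by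
  have h1 := integral_uu_lt (uu_nonneg y) (uu_le_one y)
  rw [← h1]
  unfold massT area
  have hb : ∀ y, |rowM (slc χ t') y| ≤ 1 := fun y => by
    have := (h.ind.slice_ind t').rowM_mem y
    exact abs_le.mpr ⟨by linarith [this.1], this.2⟩
  refine intervalIntegral.integral_mono_on zero_le_one (integrable_ite_lt _)
    (intervalIntegrable_of_bdd (h.ind.slice_ind t').measurable_rowM hb) (fun y' _ => ?_)
  by_cases hy : uu y' < uu y
  · rw [if_pos hy]
    have h3 : (∫ x in (0 : ℝ)..1, χ x y t) = 1 := hG
    have h4 : (∫ x in (0 : ℝ)..1, χ x y t) ≤ ∫ x in (0 : ℝ)..1, slc χ t' x y' :=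
      intervalIntegral.integral_mono_on zero_le_one
        (intervalIntegrable_of_bdd (i3_meas_x h y t) (fun x => i3_abs h x y t))
        (intervalIntegrable_of_bdd (i3_meas_x h y' t') (fun x => i3_abs h x y' t'))
        (fun x _ => i3_le h le_rfl hy.le htt)
    rw [h3] at h4
    exact h4
  · rw [if_neg hy]
    exact ((h.ind.slice_ind t').rowM_mem y').1

/-- Lines of width `l` in the slices near the centre force large slices. -/
theorem extA_Gx_le (h : Mono3 χ) {m M : ℝ} (hb : EssBounds (massT χ) m M) : extA (Gx χ) ≤ M := by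
  refine csSup_le ⟨0, Or.inl rfl⟩ ?_
  rintro b (hb0 | ⟨y, t, rfl, ht, hG⟩)
  · rw [mem_singleton_iff.mp hb0]
    obtain ⟨t, -, ht⟩ := exists_le_M hb (subset_refl _) (by simp)
    exact (h.ind.massT_mem t).1.trans ht
  · have hS : 0 < volume ({t' | uu t' < uu t} ∩ Ioc (0 : ℝ) 1) := by
      rw [volume_uu_lt (uu_nonneg t) (uu_le_one t)]
      simpa using ht
    obtain ⟨t', ht', hle⟩ := exists_le_M hb inter_subset_right hS
    exact (massT_ge_uu h hG (le_of_lt ht'.1)).trans hle

private theorem massT_swapxy (h : Mono3 χ) : massT (fun x y t => χ y x t) = massT χ := by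
  funext t
  exact ((h.ind.slice_ind t).area_eq_cols).symm

theorem extA_Gy_le (h : Mono3 χ) {m M : ℝ} (hb : EssBounds (massT χ) m M) : extA (Gy χ) ≤ M := by
  have hb' : EssBounds (massT (fun x y t => χ y x t)) m M := by
    rw [massT_swapxy h]
    exact hb
  exact extA_Gx_le h.swapxy hb'

/-- Integral of a function carried by a plane set `G`. -/
theorem iint_le_ext {G : ℝ → ℝ → Prop} {f : ℝ → ℝ → ℝ} (hf : Measurable (fun p : ℝ × ℝ => f p.1 p.2))
    (h0 : ∀ p q, 0 ≤ f p q) (h1 : ∀ p q, f p q ≤ 1) (hG : ∀ p q, f p q ≠ 0 → G p q) :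
    ∫ q in (0 : ℝ)..1, ∫ p in (0 : ℝ)..1, f p q ≤ extA G * extB G := by
  set A := extA G with hA
  set B := extB G with hB
  have hA0 : 0 ≤ A := extA_nonneg G
  have hB0 : 0 ≤ B := extB_nonneg G
  have habs : ∀ p q, |f p q| ≤ 1 := fun p q => abs_le.mpr ⟨by linarith [h0 p q], h1 p q⟩
  have hmp : ∀ q, Measurable (fun p => f p q) := fun q => hf.comp (measurable_id.prodMk measurable_const)
  have hmi : Measurable (fun q => ∫ p in (0 : ℝ)..1, f p q) :=
    measurable_intervalIntegral_param (F := fun q p => f p q) (hf.comp measurable_swap)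
  have hbi : ∀ q, |∫ p in (0 : ℝ)..1, f p q| ≤ 1 := fun q => by
    have h2 : ∫ p in (0 : ℝ)..1, f p q ≤ 1 := by
      have := intervalIntegral.integral_mono_on (a := 0) (b := 1) zero_le_one
        (intervalIntegrable_of_bdd (hmp q) (fun p => habs p q)) (intervalIntegrable_const (c := (1 : ℝ)))
        (fun p _ => h1 p q)
      simpa using this
    have h3 : 0 ≤ ∫ p in (0 : ℝ)..1, f p q :=
      intervalIntegral.integral_nonneg zero_le_one (fun p _ => h0 p q)
    exact abs_le.mpr ⟨by linarith, h2⟩
  have hint1 := intervalIntegrable_of_bdd hmi hbi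
  have hint2 : IntervalIntegrable (fun q => A * (if uu q ≤ B then (1 : ℝ) else 0)) volume 0 1 :=
    (integrable_ite_le B).const_mul A
  have key : ∀ᵐ q ∂(volume.restrict (Ioc (0 : ℝ) 1)),
      ∫ p in (0 : ℝ)..1, f p q ≤ A * (if uu q ≤ B then (1 : ℝ) else 0) := by
    filter_upwards [ae_uu_pos] with q hq
    by_cases hqB : uu q ≤ B
    · rw [if_pos hqB, mul_one]
      refine le_trans ?_ (integral_uu_le_le hA0)
      refine intervalIntegral.integral_mono_on zero_le_one
        (intervalIntegrable_of_bdd (hmp q) (fun p => habs p q)) (integrable_ite_le _) (fun p _ => ?_)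
      by_cases hfp : f p q = 0
      · rw [hfp]
        split_ifs <;> norm_num
      · rw [if_pos (le_extA hq (hG p q hfp))]
        exact h1 p q
    · rw [if_neg hqB, mul_zero, intervalIntegral.integral_of_le zero_le_one]
      have : ∀ᵐ p ∂(volume.restrict (Ioc (0 : ℝ) 1)), f p q = 0 := by
        filter_upwards [ae_uu_pos] with p hp
        by_contra hfp
        exact hqB (le_extB hp (hG p q hfp))
      rw [integral_congr_ae this]
      simp
  have h5 : ∫ q in (0 : ℝ)..1, ∫ p in (0 : ℝ)..1, f p q
      ≤ ∫ q in (0 : ℝ)..1, A * (if uu q ≤ B then (1 : ℝ) else 0) := by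
    rw [intervalIntegral.integral_of_le zero_le_one, intervalIntegral.integral_of_le zero_le_one]
    exact integral_mono_ae ((intervalIntegrable_iff_integrableOn_Ioc_of_le zero_le_one).mp hint1)
      ((intervalIntegrable_iff_integrableOn_Ioc_of_le zero_le_one).mp hint2) key
  refine h5.trans ?_
  rw [intervalIntegral.integral_const_mul]
  exact mul_le_mul_of_nonneg_left (integral_uu_le_le hB0) hA0

theorem fx_le_ext (h : Mono3 χ) : fx χ ≤ extA (Gx χ) * extB (Gx χ) := by
  unfold fx
  refine iint_le_ext (G := Gx χ) (f := fun y t => fullInd (∫ x in (0 : ℝ)..1, χ x y t)) ?_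
    (fun _ _ => fullInd_nonneg _) (fun _ _ => fullInd_le_one _) (fun p q hf => eq_one_of_fullInd_ne hf)
  refine t3_measurable_fullInd.comp
    (measurable_intervalIntegral_param (F := fun (q : ℝ × ℝ) x => χ x q.1 q.2) ?_)
  exact h.ind.meas.comp (measurable_snd.prodMk
    ((measurable_fst.comp measurable_fst).prodMk (measurable_snd.comp measurable_fst)))

theorem fy_le_ext (h : Mono3 χ) : fy χ ≤ extA (Gy χ) * extB (Gy χ) := by
  unfold fy
  refine iint_le_ext (G := Gy χ) (f := fun x t => fullInd (∫ y in (0 : ℝ)..1, χ x y t)) ?_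
    (fun _ _ => fullInd_nonneg _) (fun _ _ => fullInd_le_one _) (fun p q hf => eq_one_of_fullInd_ne hf)
  refine t3_measurable_fullInd.comp
    (measurable_intervalIntegral_param (F := fun (q : ℝ × ℝ) y => χ q.1 y q.2) ?_)
  exact h.ind.meas.comp ((measurable_fst.comp measurable_fst).prodMk
    (measurable_snd.prodMk (measurable_snd.comp measurable_fst)))

theorem ft_le_ext (h : Mono3 χ) : ft χ ≤ extA (Gt χ) * extB (Gt χ) := by
  unfold ft
  refine iint_le_ext (G := Gt χ) (f := fun x y => fullInd (∫ t in (0 : ℝ)..1, χ x y t)) ?_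
    (fun _ _ => fullInd_nonneg _) (fun _ _ => fullInd_le_one _) (fun p q hf => eq_one_of_fullInd_ne hf)
  refine t3_measurable_fullInd.comp
    (measurable_intervalIntegral_param (F := fun (q : ℝ × ℝ) t => χ q.1 q.2 t) ?_)
  exact h.ind.meas.comp ((measurable_fst.comp measurable_fst).prodMk
    ((measurable_snd.comp measurable_fst).prodMk measurable_snd))

/-- The essential minimum of the slices is the area of the full lines (`≥` is `ft_le_of_essBounds`). -/
theorem essMin_eq_ft (h : Mono3 χ) {m M : ℝ} (hb : EssBounds (massT χ) m M) : m = ft χ := by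
  refine le_antisymm ?_ (ft_le_of_essBounds h.ind hb)
  -- the levels
  set s : ℕ → ℝ := fun n => 1 - 1 / ((n : ℝ) + 2) with hs
  have hs0 : ∀ n, 0 ≤ s n := fun n => by
    have h2 : (0 : ℝ) ≤ n := Nat.cast_nonneg n
    have : 1 / ((n : ℝ) + 2) ≤ 1 := by
      rw [div_le_one (by linarith)]
      linarith
    simp only [hs]
    linarith
  have hs1 : ∀ n, s n < 1 := fun n => by
    have h2 : (0 : ℝ) ≤ n := Nat.cast_nonneg n
    have : 0 < 1 / ((n : ℝ) + 2) := by positivity
    simp only [hs]
    linarith
  have hsmono : Monotone s := by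
    intro a b hab
    have h2 : (a : ℝ) ≤ b := Nat.cast_le.mpr hab
    have h3 : (0 : ℝ) ≤ a := Nat.cast_nonneg a
    have : 1 / ((b : ℝ) + 2) ≤ 1 / ((a : ℝ) + 2) :=
      one_div_le_one_div_of_le (by linarith) (by linarith)
    simp only [hs]
    linarith
  have hslim : Tendsto s atTop (𝓝 1) := by
    have h1 : Tendsto (fun n : ℕ => 1 / ((n : ℝ) + 2)) atTop (𝓝 0) := by
      have := tendsto_one_div_add_atTop_nhds_zero_nat (𝕜 := ℝ)
      have h2 := (tendsto_add_atTop_iff_nat 1).mpr this
      refine h2.congr fun n => ?_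
      push_cast
      ring_nf
    have h3 : Tendsto (fun n : ℕ => (1 : ℝ) - 1 / ((n : ℝ) + 2)) atTop (𝓝 (1 - 0)) :=
      tendsto_const_nhds.sub h1
    rw [sub_zero] at h3
    exact h3
  set τ : ℕ → ℝ := fun n => (1 + s n) / 2 with hτ
  have huτ : ∀ n, uu (τ n) = s n := fun n => uu_point (hs0 n) (hs1 n)
  -- lower bound along the sequence
  have hlow : ∀ n, m ≤ massT χ (τ n) := by
    intro n
    have hS : Ioo (τ n) 1 ⊆ Ioc (0 : ℝ) 1 := by
      intro t ht
      have : 0 ≤ τ n := by simp only [hτ]; linarith [hs0 n]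
      exact ⟨by linarith [ht.1], ht.2.le⟩
    have hpos : 0 < volume (Ioo (τ n) 1) := by
      rw [Real.volume_Ioo]
      simp only [ENNReal.ofReal_pos, sub_pos, hτ]
      linarith [hs1 n]
    obtain ⟨t', ht', hle⟩ := exists_ge_m hb hS hpos
    refine hle.trans (massT_anti h ?_)
    rw [huτ]
    have h1 : 0 ≤ t' := (hS ht').1.le
    rw [uu_of_mem h1 ht'.2]
    have h2 : τ n < t' := ht'.1
    simp only [hτ] at h2
    refine le_trans ?_ (le_abs_self _)
    linarith
  -- pointwise convergence
  have hpt : ∀ x y, Tendsto (fun n => χ x y (τ n)) atTop (𝓝 (fullInd (∫ t in (0 : ℝ)..1, χ x y t))) := by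
    intro x y
    have hmt : Measurable (fun t => χ x y t) :=
      h.ind.meas.comp (measurable_const.prodMk (measurable_const.prodMk measurable_id))
    by_cases hfull : (∫ t in (0 : ℝ)..1, χ x y t) = 1
    · have : ∀ n, χ x y (τ n) = 1 := by
        intro n
        by_contra hne
        have := mass_le_of_not hmt (fun t => h.ind.bool x y t)
          (fun t t' ht hc => h.mono x y t x y t' le_rfl le_rfl ht hc) hne
        rw [hfull, huτ] at this
        linarith [hs1 n]
      simp only [this, hfull, fullInd, if_true]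
      exact tendsto_const_nhds
    · have hex : ∃ t, uu t < 1 ∧ χ x y t ≠ 1 := by
        by_contra hall
        push Not at hall
        exact hfull (mass_eq_one_of hall)
      obtain ⟨t, ht1, ht2⟩ := hex
      have hev : ∀ᶠ n in atTop, uu t ≤ s n := by
        have := hslim.eventually (lt_mem_nhds ht1)
        filter_upwards [this] with n hn using hn.le
      have hzero : ∀ᶠ n in atTop, χ x y (τ n) = 0 := by
        filter_upwards [hev] with n hn
        rcases h.ind.bool x y (τ n) with h0 | h1
        · exact h0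
        · exact absurd (h.mono x y (τ n) x y t le_rfl le_rfl (by rw [huτ]; exact hn) h1) ht2
      have : fullInd (∫ t in (0 : ℝ)..1, χ x y t) = 0 := by
        unfold fullInd
        rw [if_neg hfull]
      rw [this]
      exact tendsto_const_nhds.congr' (hzero.mono fun n hn => hn.symm)
  -- inner limit
  have hin : ∀ y, Tendsto (fun n => rowM (slc χ (τ n)) y) atTop
      (𝓝 (∫ x in (0 : ℝ)..1, fullInd (∫ t in (0 : ℝ)..1, χ x y t))) := by
    intro y
    refine intervalIntegral.tendsto_integral_filter_of_dominated_convergence (fun _ => (1 : ℝ)) ?_ ?_ ?_ ?_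
    · exact Eventually.of_forall fun n => (i3_meas_x h y (τ n)).aestronglyMeasurable
    · exact Eventually.of_forall fun n => ae_of_all _ fun x _ => by
        simpa [slc] using i3_abs h x y (τ n)
    · exact intervalIntegrable_const
    · exact ae_of_all _ fun x _ => hpt x y
  -- outer limit
  have hout : Tendsto (fun n => massT χ (τ n)) atTop (𝓝 (ft χ)) := by
    unfold massT area ft
    refine intervalIntegral.tendsto_integral_filter_of_dominated_convergence (fun _ => (1 : ℝ)) ?_ ?_ ?_ ?_
    · exact Eventually.of_forall fun n => ((h.ind.slice_ind (τ n)).measurable_rowM).aestronglyMeasurable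
    · exact Eventually.of_forall fun n => ae_of_all _ fun y _ => by
        have := (h.ind.slice_ind (τ n)).rowM_mem y
        show |rowM (slc χ (τ n)) y| ≤ 1
        exact abs_le.mpr ⟨by linarith [this.1], this.2⟩
    · exact intervalIntegrable_const
    · exact ae_of_all _ fun y _ => hin y
  exact ge_of_tendsto' hout hlow

/-- Slices in a central band of length `T` are not small. -/
theorem massT_ge_of_lt (h : Mono3 χ) {m M T : ℝ} (hb : EssBounds (massT χ) m M) (hT0 : 0 ≤ T)
    (hT1 : T < 1) {t : ℝ} (ht : uu t < T) : (vol χ - T * M) / (1 - T) ≤ massT χ t := by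
  set a := massT χ t with ha
  have h1T : 0 < 1 - T := by linarith
  rw [div_le_iff₀ h1T]
  have hC : ∀ t, |massT χ t| ≤ 1 := fun t => by
    have := h.ind.massT_mem t
    exact abs_le.mpr ⟨by linarith [this.1], this.2⟩
  have hi1 := intervalIntegrable_of_bdd h.ind.measurable_massT hC
  have hi2 : IntervalIntegrable (fun s => a + (M - a) * (if uu s < T then (1 : ℝ) else 0)) volume 0 1 :=
    intervalIntegrable_const.add ((integrable_ite_lt T).const_mul (M - a))
  have key : ∀ᵐ s ∂(volume.restrict (Ioc (0 : ℝ) 1)),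
      massT χ s ≤ a + (M - a) * (if uu s < T then (1 : ℝ) else 0) := by
    filter_upwards [hb.le_M] with s hs
    by_cases hsT : uu s < T
    · rw [if_pos hsT]
      linarith
    · rw [if_neg hsT]
      simp only [mul_zero, add_zero]
      exact massT_anti h (ht.le.trans (not_lt.mp hsT))
  have h5 : vol χ ≤ ∫ s in (0 : ℝ)..1, a + (M - a) * (if uu s < T then (1 : ℝ) else 0) := by
    unfold vol
    rw [intervalIntegral.integral_of_le zero_le_one, intervalIntegral.integral_of_le zero_le_one]
    exact integral_mono_ae ((intervalIntegrable_iff_integrableOn_Ioc_of_le zero_le_one).mp hi1)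
      ((intervalIntegrable_iff_integrableOn_Ioc_of_le zero_le_one).mp hi2) key
  rw [intervalIntegral.integral_add intervalIntegrable_const ((integrable_ite_lt T).const_mul (M - a)),
    intervalIntegral.integral_const_mul, integral_uu_lt hT0 hT1.le] at h5
  simp only [intervalIntegral.integral_const, sub_zero, smul_eq_mul, one_mul] at h5
  nlinarith

/-! Permutation: `Gx (perm χ) = Gt χ`, `Gy (perm χ) x t = Gx χ t x`, `Gt (perm χ) x y = Gy χ y x`,
all by `rfl`; with `extA_swap`, `extB_swap`, `fx_perm`, `fy_perm`, `ft_perm` this gives the six extents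
and the three areas of `perm χ` and `perm (perm χ)`. -/

theorem Gx_perm (χ : ℝ → ℝ → ℝ → ℝ) : Gx (perm χ) = Gt χ := rfl
theorem Gy_perm (χ : ℝ → ℝ → ℝ → ℝ) : Gy (perm χ) = fun x t => Gx χ t x := rfl
theorem Gt_perm (χ : ℝ → ℝ → ℝ → ℝ) : Gt (perm χ) = fun x y => Gy χ y x := rfl

end Vale.Agent.Lib.P232
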