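import Vale.Agent.Lib.P232.Profiles3
import Vale.Agent.Lib.P232.MonoFacts

/-! JOB DIR: the direction bound, with a pointwise lower bound `c` for the perimeter of the slices and
a set `S` of levels where `c` differs from the profile `I`. From `generic3` with `κ, g` from `Kappa.kap_gen`
(the line is admissible for `I`, `I ≥ IT`, so `q₊/I` is continuous on `[m, M]` as in `kappa_T`):
`∫ κ(a) c = ∫ κ(a) I(a) + ∫ κ(a) (c - I(a)) ≥ ∫ q₊(a) + |S| B`, `∫ q(a) = l V + b`. -/

open MeasureTheory Set Filter Topology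
open scoped ENNReal

noncomputable section

namespace Vale.Agent.Lib.P232

variable {U : ℕ → ℝ → ℝ → ℝ → ℝ} {χ : ℝ → ℝ → ℝ → ℝ}

private theorem dir_pi_ge_one : (1 : ℝ) ≤ Real.pi := by
  have := Real.pi_gt_three
  linarith

private theorem dir_IT_nonneg (s : ℝ) : 0 ≤ IT s := by
  unfold IT
  refine le_min (le_min (by positivity) (by norm_num)) (by positivity)

private theorem dir_IT_low {t : ℝ} (h0 : 0 ≤ t) (h1 : t ≤ 1 / 2) :
    2 * Real.sqrt t ≤ IT t := by
  have hpi := dir_pi_ge_one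
  unfold IT
  refine le_min (le_min ?_ ?_) ?_
  · have : Real.sqrt t ≤ Real.sqrt (Real.pi * t) := Real.sqrt_le_sqrt (by nlinarith)
    linarith
  · have : Real.sqrt t ≤ 1 := Real.sqrt_le_one.mpr (by linarith)
    linarith
  · have : Real.sqrt t ≤ Real.sqrt (Real.pi * (1 - t)) := Real.sqrt_le_sqrt (by nlinarith)
    linarith

private theorem dir_IT_high {t : ℝ} (h0 : 1 / 2 ≤ t) (h1 : t ≤ 1) :
    2 * Real.sqrt (1 - t) ≤ IT t := by
  have hpi := dir_pi_ge_one
  unfold IT
  refine le_min (le_min ?_ ?_) ?_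
  · have : Real.sqrt (1 - t) ≤ Real.sqrt (Real.pi * t) := Real.sqrt_le_sqrt (by nlinarith)
    linarith
  · have : Real.sqrt (1 - t) ≤ 1 := Real.sqrt_le_one.mpr (by linarith)
    linarith
  · have : Real.sqrt (1 - t) ≤ Real.sqrt (Real.pi * (1 - t)) := Real.sqrt_le_sqrt (by nlinarith)
    linarith

/-- The functions `κ`, `g` for a profile above `IT` on the unit interval. -/
private theorem dir_kappa {I : ℝ → ℝ} {m M l b : ℝ} (hIc : Continuous I)
    (hIT : ∀ s ≤ 1, IT s ≤ I s) (hm : 0 ≤ m) (hmM : m ≤ M) (hM : M ≤ 1)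
    (hline : ∀ s ∈ Icc m M, qpos l b s ≤ I s) :
    ∃ κ g : ℝ → ℝ, Continuous κ ∧ (∀ s, 0 ≤ κ s) ∧ Continuous g ∧ (∀ s, 0 ≤ g s) ∧
      (∀ s, κ s ^ 2 + g s ^ 2 ≤ 1) ∧ (∀ s, κ s ≤ 1) ∧ (∀ s ∈ Icc m M, κ s * I s = qpos l b s) ∧
      (∀ s ∈ Icc m M, κ s = qpos l b s / I s) ∧
      (∀ s ∈ Icc m M, g s = Real.sqrt (1 - (qpos l b s / I s) ^ 2)) := by
  set I' : ℝ → ℝ := fun s => I (min s 1) with hI'
  have hI'c : Continuous I' := hIc.comp (by fun_prop)
  have hI'IT : ∀ s, s ≤ 1 → I' s = I s := fun s hs => by simp [hI', min_eq_left hs]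
  have hI'0 : ∀ s, 0 ≤ I' s := fun s =>
    (dir_IT_nonneg _).trans (hIT (min s 1) (min_le_right _ _))
  have hle : ∀ s, s ≤ 1 → IT s ≤ I' s := fun s hs => by
    rw [hI'IT s hs]
    exact hIT s hs
  have hline' : ∀ s ∈ Icc m M, qpos l b s ≤ I' s := fun s hs => by
    rw [hI'IT s (hs.2.trans hM)]
    exact hline s hs
  have hzero : ∀ s ∈ Icc m M, I' s = 0 →
      ContinuousWithinAt (fun t => qpos l b t / I' t) (Icc m M) s := by
    intro s hs hIs
    have hs0 : 0 ≤ s := hm.trans hs.1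
    have hs1 : s ≤ 1 := hs.2.trans hM
    have hcase : s = 0 ∨ s = 1 := by
      by_contra hcon
      push Not at hcon
      have h0 : 0 < s := lt_of_le_of_ne hs0 (Ne.symm hcon.1)
      have h1 : s < 1 := lt_of_le_of_ne hs1 hcon.2
      have := kap_IT_pos h0 h1
      have h2 := hle s hs1
      linarith
    rcases hcase with rfl | rfl
    · have hm0 : m = 0 := le_antisymm hs.1 hm
      subst hm0
      have hbe : b ≤ 0 := by
        have h1 := hline' 0 hs
        rw [hIs] at h1
        have h2 : l * 0 + b ≤ qpos l b 0 := le_max_left _ _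
        linarith
      exact kap_at_zero I' hI'0 hbe hIs
        (fun t h0 h1 => (dir_IT_low h0 h1).trans (hle t (by linarith)))
    · have hM1 : M = 1 := le_antisymm hM hs.2
      subst hM1
      have hbe : l + b ≤ 0 := by
        have h1 := hline' 1 hs
        rw [hIs] at h1
        have h2 : l * 1 + b ≤ qpos l b 1 := le_max_left _ _
        linarith
      exact kap_at_one I' hI'0 hbe hIs
        (fun t h0 h1 => (dir_IT_high h0 h1).trans (hle t h1))
  obtain ⟨κ, g, h1, h2, h3, h4, h5, h6, h7, h8⟩ :=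
    kap_gen I' hI'c hI'0 hmM hline' hzero
  have h7' : ∀ s ∈ Icc m M, κ s * I s = qpos l b s := fun s hs => by
    rw [← hI'IT s (hs.2.trans hM)]
    exact h7 s hs
  have h8' : ∀ s ∈ Icc m M, g s = Real.sqrt (1 - (qpos l b s / I s) ^ 2) := fun s hs => by
    rw [← hI'IT s (hs.2.trans hM)]
    exact h8 s hs
  refine ⟨κ, g, h1, h2, h3, h4, h5, h6, h7', ?_, h8'⟩
  intro s hs
  by_cases hI0 : I s = 0
  · have hg := h8' s hs
    rw [hI0, div_zero] at hg
    simp only [ne_eq, OfNat.ofNat_ne_zero, not_false_eq_true, zero_pow, sub_zero, Real.sqrt_one] at hg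
    have := h5 s
    rw [hg] at this
    rw [hI0, div_zero]
    have h0 := h2 s
    nlinarith
  · rw [eq_div_iff hI0]
    exact h7' s hs

/-- The direction bound. -/
theorem dir_bound (h : Approx3 U χ) {I c : ℝ → ℝ} {m M l b B P C : ℝ} (hIc : Continuous I)
    (hIT : ∀ s ≤ 1, IT s ≤ I s) (hb : EssBounds (massT χ) m M) (hm : 0 ≤ m) (hmM : m ≤ M) (hM : M ≤ 1)
    (hline : LineAdm I l b m M) (hcm : Measurable c) (hcb : ∀ t, |c t| ≤ C)
    (hc : ∀ᵐ t, ∀ ε > 0, ∀ᶠ k in atTop, c t - ε ≤ En2 (slc (U k) t))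
    {S : Set ℝ} (hS : MeasurableSet S)
    (h1 : ∀ᵐ t, t ∈ S → B ≤ gain I (fun _ => c t) l b (massT χ t))
    (h2 : ∀ᵐ t, t ∉ S → I (massT χ t) ≤ c t)
    (hP : ∃ᶠ k in atTop, En3 (U k) ≤ P) :
    lineValue I l b (vol χ) m M + (volume (S ∩ Ioc (0 : ℝ) 1)).toReal * B ≤ P := by
  have hline' : ∀ s ∈ Icc m M, qpos l b s ≤ I s := hline
  obtain ⟨κ, g, hκ, hκ0, hg, hg0, hκg, hκ1, hκI, hκe, hgI⟩ :=
    dir_kappa hIc hIT hm hmM hM hline'
  have hma := h.ind.measurable_massT
  have hmain := generic3 h (c := c) (κ := κ) (g := g) (C := C) hκ hκ0 hg hg0 hκg hcm hcb hc hb hmM hP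
  have hgeq : ∫ s in m..M, g s = ∫ s in m..M, Real.sqrt (1 - (max (l * s + b) 0 / I s) ^ 2) := by
    apply intervalIntegral.integral_congr
    intro s hs
    rw [uIcc_of_le hmM] at hs
    exact hgI s hs
  rw [hgeq] at hmain
  have hC : 0 ≤ C := (abs_nonneg _).trans (hcb 0)
  -- integrability
  have hi2 : IntervalIntegrable (fun t => κ (massT χ t) * c t) volume 0 1 := by
    apply intervalIntegrable_of_bdd (C := C) ((hκ.measurable.comp hma).mul hcm)
    intro t
    show |κ (massT χ t) * c t| ≤ C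
    rw [abs_mul, abs_of_nonneg (hκ0 _)]
    have h3 := hκ1 (massT χ t)
    have h4 := hcb t
    have h5 := abs_nonneg (c t)
    have h6 := hκ0 (massT χ t)
    nlinarith
  have hiS : IntervalIntegrable (fun t => S.indicator (fun _ => B) t) volume 0 1 := by
    apply intervalIntegrable_of_bdd (C := |B|) (measurable_const.indicator hS)
    intro t
    by_cases ht : t ∈ S
    · simp [ht]
    · simp [ht]
  have hi1 : IntervalIntegrable (fun t => l * massT χ t + b) volume 0 1 :=
    ((intervalIntegrable_of_bdd hma (t3b_massT_abs h.ind)).const_mul l).add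
      intervalIntegrable_const
  have hiSv : ∫ t in (0 : ℝ)..1, S.indicator (fun _ => B) t =
      (volume (S ∩ Ioc (0 : ℝ) 1)).toReal * B := by
    rw [intervalIntegral.integral_of_le zero_le_one, setIntegral_indicator hS, setIntegral_const,
      inter_comm]
    simp [Measure.real]
  -- the pointwise inequality
  have hmean : l * vol χ + b + (volume (S ∩ Ioc (0 : ℝ) 1)).toReal * B ≤
      ∫ t in (0 : ℝ)..1, κ (massT χ t) * c t := by
    rw [← t3b_mean_line h.ind, ← hiSv, ← intervalIntegral.integral_add hi1 hiS]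
    rw [intervalIntegral.integral_of_le zero_le_one, intervalIntegral.integral_of_le zero_le_one]
    apply integral_mono_ae ((hi1.add hiS).1) (hi2.1)
    filter_upwards [hb.ge_m, hb.le_M, ae_restrict_of_ae h1, ae_restrict_of_ae h2] with t t1 t2 t3 t4
    have hmem : massT χ t ∈ Icc m M := ⟨t1, t2⟩
    have hq : l * massT χ t + b ≤ qpos l b (massT χ t) := le_max_left _ _
    have hI := hκI _ hmem
    show l * massT χ t + b + S.indicator (fun _ => B) t ≤ κ (massT χ t) * c t
    by_cases ht : t ∈ S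
    · rw [indicator_of_mem ht]
      have h5 := t3 ht
      unfold gain at h5
      have h6 : max (l * massT χ t + b) 0 / I (massT χ t) = κ (massT χ t) := (hκe _ hmem).symm
      rw [h6] at h5
      nlinarith
    · rw [indicator_of_notMem ht]
      have h5 := t4 ht
      have h6 := hκ0 (massT χ t)
      have h7 := mul_le_mul_of_nonneg_left h5 h6
      linarith
  unfold lineValue
  linarith

end Vale.Agent.Lib.P232
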