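import Vale.Agent.Lib.P232.Slices2
import Vale.Agent.Lib.P232.Dir
import Vale.Agent.Lib.P232.Certs
import Vale.Agent.Lib.P232.MonoFacts2

/-! JOB CASES: each alternative gives `Jf V ≤ P` from its certificate, `dir_bound` and the slice bounds.
`h.slices` (for a.e. `t`, `Approx2 (slc (U k)) t (slc χ t)`); `uu t ≠ 0` and `uu t ≠ ` the relevant extents for a.e. `t`. -/

open MeasureTheory Set Filter Topology
open scoped ENNReal

noncomputable section

namespace Vale.Agent.Lib.P232

variable {U : ℕ → ℝ → ℝ → ℝ → ℝ} {χ : ℝ → ℝ → ℝ → ℝ}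

/-! ### Helpers of part B -/

theorem casesb_ae_of_periodic {P : ℝ → Prop} (hper : ∀ t, P (t + 1) ↔ P t)
    (h : ∀ᵐ t ∂(volume.restrict (Ioc (0 : ℝ) 1)), P t) : ∀ᵐ t : ℝ, P t := by
  have h0 : ∀ᵐ t : ℝ, t ∈ Ioc (0 : ℝ) 1 → P t := (ae_restrict_iff' measurableSet_Ioc).1 h
  have hP : Function.Periodic P 1 := fun t => propext (hper t)
  have hn : ∀ n : ℤ, ∀ᵐ t : ℝ, t + (n : ℝ) ∈ Ioc (0 : ℝ) 1 → P (t + (n : ℝ)) := by
    intro n
    exact (measurePreserving_add_right volume (n : ℝ)).quasiMeasurePreserving.ae h0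
  filter_upwards [ae_all_iff.2 hn] with t ht
  have hmem : t + ((1 - ⌈t⌉ : ℤ) : ℝ) ∈ Ioc (0 : ℝ) 1 := by
    push_cast
    constructor
    · have := Int.ceil_lt_add_one t; linarith
    · have := Int.le_ceil t; linarith
  have hPt := ht (1 - ⌈t⌉) hmem
  have hper2 := (hP.int_mul (1 - ⌈t⌉)) t
  rw [mul_one] at hper2
  rw [hper2] at hPt
  exact hPt

theorem casesb_massT_per (h : Ind3 χ) (t : ℝ) : massT χ (t + 1) = massT χ t := by
  unfold massT area slc
  simp only [h.per_t]

/-- The mass stays in the essential range for a.e. `t` of the whole line. -/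
theorem casesb_ae_mem (h : Ind3 χ) {m M : ℝ} (hb : EssBounds (massT χ) m M) :
    ∀ᵐ t : ℝ, massT χ t ∈ Icc m M := by
  apply casesb_ae_of_periodic (P := fun t => massT χ t ∈ Icc m M)
  · intro t
    rw [casesb_massT_per h]
  · filter_upwards [hb.ge_m, hb.le_M] with t h1 h2
    exact ⟨h1, h2⟩

theorem casesb_massT_abs (h : Ind3 χ) (t : ℝ) : |massT χ t| ≤ 1 := by
  have := h.massT_mem t
  rw [abs_le]
  constructor <;> linarith [this.1, this.2]

/-- The essential bounds of the mass stay in the unit interval. -/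
theorem casesb_essBounds_mem (h : Ind3 χ) {m M : ℝ}
    (hb : EssBounds (massT χ) m M) : 0 ≤ m ∧ M ≤ 1 := by
  constructor
  · by_contra hm
    have hm := not_le.1 hm
    have h1 := hb.near_m (-m) (by linarith)
    have h2 : {t ∈ Ioc (0 : ℝ) 1 | massT χ t < m + -m} = ∅ := by
      ext t
      simp only [Set.mem_ofPred_eq, mem_empty_iff_false, iff_false, not_and, not_lt]
      intro _
      have := (h.massT_mem t).1
      linarith
    rw [h2] at h1
    simp at h1
  · by_contra hM
    have hM := not_le.1 hM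
    have h1 := hb.near_M (M - 1) (by linarith)
    have h2 : {t ∈ Ioc (0 : ℝ) 1 | M - (M - 1) < massT χ t} = ∅ := by
      ext t
      simp only [Set.mem_ofPred_eq, mem_empty_iff_false, iff_false, not_and, not_lt]
      intro _
      have := (h.massT_mem t).2
      linarith
    rw [h2] at h1
    simp at h1

/-- A level of the tent coordinate is a null set. -/
theorem casesb_ae_uu_ne (T : ℝ) : ∀ᵐ t : ℝ, uu t ≠ T := by
  have hsub : {t : ℝ | ¬ uu t ≠ T} ⊆
      (Set.range (fun z : ℤ => (z : ℝ) + (T + 1) / 2)) ∪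
      (Set.range (fun z : ℤ => (z : ℝ) + (1 - T) / 2)) := by
    intro t ht
    have ht' : uu t = T := by simpa using ht
    have hfr : t = (⌊t⌋ : ℝ) + Int.fract t := (Int.floor_add_fract t).symm
    unfold uu at ht'
    rcases abs_cases (2 * Int.fract t - 1) with ⟨h1, _⟩ | ⟨h1, _⟩
    · left
      refine ⟨⌊t⌋, ?_⟩
      show (⌊t⌋ : ℝ) + (T + 1) / 2 = t
      rw [h1] at ht'
      have : Int.fract t = (T + 1) / 2 := by linarith
      rw [← this]
      exact Int.floor_add_fract t
    · right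
      refine ⟨⌊t⌋, ?_⟩
      show (⌊t⌋ : ℝ) + (1 - T) / 2 = t
      rw [h1] at ht'
      have : Int.fract t = (1 - T) / 2 := by linarith
      rw [← this]
      exact Int.floor_add_fract t
  have hcount : (((Set.range (fun z : ℤ => (z : ℝ) + (T + 1) / 2)) ∪
      (Set.range (fun z : ℤ => (z : ℝ) + (1 - T) / 2)))).Countable :=
    (Set.countable_range _).union (Set.countable_range _)
  have hnull := hcount.measure_zero (volume : Measure ℝ)
  exact measure_mono_null hsub hnull

theorem casesb_ICp_le (s : ℝ) : ICp s ≤ 3 := by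
  unfold ICp tstar
  have h1 : min (IE s) (min (xhat (s - 1 / 10)) (2 * Real.sqrt 2 * (1 - 1 / 10))) ≤
      2 * Real.sqrt 2 * (1 - 1 / 10) :=
    (min_le_right _ _).trans (min_le_right _ _)
  have h2 : Real.sqrt 2 ≤ 3 / 2 := by
    rw [Real.sqrt_le_left (by norm_num)]
    norm_num
  linarith

theorem casesb_IT_nonneg (s : ℝ) : 0 ≤ IT s := kap_IT_nonneg s

theorem casesb_IT_le (s : ℝ) : IT s ≤ 2 :=
  (min_le_left _ _).trans (min_le_right _ _)

theorem casesb_IT_cont : Continuous IT := by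
  unfold IT
  fun_prop

theorem casesb_frequently {P : ℝ} (hP : ∀ k, En3 (U k) ≤ P) : ∃ᶠ k in atTop, En3 (U k) ≤ P :=
  Eventually.frequently (Eventually.of_forall hP)

/-- Data of the range of the mass. -/
theorem casesb_range (h : Ind3 χ) {m M : ℝ} (hb : EssBounds (massT χ) m M) :
    m ≤ vol χ ∧ vol χ ≤ M := by
  simpa [vol] using hb.mean_mem h.measurable_massT (casesb_massT_abs h)

/-- A torus line is enough (`slice_T`). -/
theorem case_tline (h : Approx3 U χ) {P m M : ℝ} (hP : ∀ k, En3 (U k) ≤ P)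
    (hb : EssBounds (massT χ) m M) (hm : 0 ≤ m) (hmM : m ≤ M) (hM : M ≤ 1) (hl : TLine (vol χ) m M) :
    Jf (vol χ) ≤ P := by
  obtain ⟨l, b, hadm, hJ⟩ := hl
  exact hJ.trans (slice_T h hb hm hmM hM (lam := l) (be := b) (fun s hs => hadm s hs)
    (casesb_frequently hP))

/-- Thin direction. `c = ICp ∘ a`, `S = ∅`. -/
theorem case_thin (h : Approx3 U χ) (hχ : Mono3 χ) {P m M : ℝ} (hP : ∀ k, En3 (U k) ≤ P)
    (hb : EssBounds (massT χ) m M) (hV1 : 1 / 4 ≤ vol χ) (hV2 : vol χ ≤ 37 / 100)
    (ha : extA (Gx χ) < tstar) (hc : extA (Gy χ) < tstar) :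
    Jf (vol χ) ≤ P := by
  obtain ⟨hm, hM⟩ := casesb_essBounds_mem h.ind hb
  obtain ⟨hmV, hVM⟩ := casesb_range h.ind hb
  have hmM := hmV.trans hVM
  rcases certThin (vol χ) m M hV1 hV2 hm hmV hVM hM with hl | ⟨l, b, hadm, hJ⟩
  · exact case_tline h hP hb hm hmM hM hl
  have hma := h.ind.measurable_massT
  have hcont := ICp_continuous
  have hd := dir_bound h (I := ICp) (c := fun t => ICp (massT χ t)) (S := ∅) (B := 0) (C := 3)
    hcont (fun s _ => IT_le_ICp s) hb hm hmM hM hadm (hcont.measurable.comp hma)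
    (fun t => by
      have h1 := casesb_ICp_le (massT χ t)
      have h2 := IT_le_ICp (massT χ t)
      have h3 := casesb_IT_nonneg (massT χ t)
      rw [abs_le]
      constructor <;> linarith)
    (by
      filter_upwards [h.slices, casesb_ae_uu_ne 0] with t ht h0
      have hpos : 0 < uu t := lt_of_le_of_ne (uu_nonneg t) (Ne.symm h0)
      exact slice_thin ht (hχ.slice t) ((deltaR_le_extA hχ hpos).trans ha.le)
        ((deltaC_le_extA hχ hpos).trans hc.le))
    MeasurableSet.empty
    (Eventually.of_forall (fun t ht => absurd ht (by simp)))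
    (Eventually.of_forall (fun t _ => le_rfl))
    (casesb_frequently hP)
  simp only [empty_inter, measure_empty, ENNReal.toReal_zero, zero_mul, add_zero] at hd
  exact hJ.trans hd

/-- Thin outside a short band `{uu t < T}`, `T < tstar`. -/
theorem casesb_cycle_aux (h : Approx3 U χ) (hχ : Mono3 χ) {P m M T : ℝ} (hP : ∀ k, En3 (U k) ≤ P)
    (hb : EssBounds (massT χ) m M) (hV1 : 1 / 4 ≤ vol χ) (hV2 : vol χ ≤ 37 / 100) (hm0 : m < tstar)
    (hT0 : 0 ≤ T) (hT : T ≤ tstar)
    (hthin : ∀ t, 0 < uu t → T < uu t → deltaR (slc χ t) ≤ tstar ∧ deltaC (slc χ t) ≤ tstar) :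
    Jf (vol χ) ≤ P := by
  obtain ⟨hm, hM⟩ := casesb_essBounds_mem h.ind hb
  obtain ⟨hmV, hVM⟩ := casesb_range h.ind hb
  have hmM := hmV.trans hVM
  rcases certCycle (vol χ) m M hV1 hV2 hm hm0 hVM hM with hl | ⟨l, b, B, hB0, hadm, hgain, hJ⟩
  · exact case_tline h hP hb hm hmM hM hl
  have hma := h.ind.measurable_massT
  have hS : MeasurableSet {t : ℝ | uu t < T} := measurableSet_lt uu_measurable measurable_const
  have hT1 : T ≤ 1 := hT.trans (by unfold tstar; norm_num)
  have hd := dir_bound h (I := ICp)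
    (c := fun t => if uu t < T then IT (massT χ t) else ICp (massT χ t))
    (S := {t : ℝ | uu t < T}) (B := B) (C := 3)
    ICp_continuous (fun s _ => IT_le_ICp s) hb hm hmM hM hadm
    (Measurable.ite hS (casesb_IT_cont.measurable.comp hma) (ICp_continuous.measurable.comp hma))
    (fun t => by
      have h1 := casesb_ICp_le (massT χ t)
      have h2 := IT_le_ICp (massT χ t)
      have h3 := casesb_IT_nonneg (massT χ t)
      have h4 := casesb_IT_le (massT χ t)
      show |if uu t < T then IT (massT χ t) else ICp (massT χ t)| ≤ 3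
      split_ifs <;> rw [abs_le] <;> constructor <;> linarith)
    (by
      filter_upwards [h.slices, casesb_ae_uu_ne 0, casesb_ae_uu_ne T] with t ht h0 hTne ε hε
      have hpos : 0 < uu t := lt_of_le_of_ne (uu_nonneg t) (Ne.symm h0)
      by_cases hlt : uu t < T
      · simp only [if_pos hlt]
        exact E1 ht ε hε
      · simp only [if_neg hlt]
        have hgt : T < uu t := lt_of_le_of_ne (not_lt.1 hlt) (Ne.symm hTne)
        obtain ⟨hr, hc⟩ := hthin t hpos hgt
        exact slice_thin ht (hχ.slice t) hr hc ε hε)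
    hS
    (by
      filter_upwards [casesb_ae_mem h.ind hb] with t hmem hts
      have hts' : uu t < T := hts
      have := hgain _ hmem
      unfold gain at this ⊢
      simp only [if_pos hts']
      exact this)
    (by
      filter_upwards with t hts
      have hts' : ¬ uu t < T := hts
      simp only [if_neg hts']
      exact le_rfl)
    (casesb_frequently hP)
  rw [volume_uu_lt hT0 hT1, ENNReal.toReal_ofReal hT0] at hd
  have hmul : tstar * B ≤ T * B := mul_le_mul_of_nonpos_right hT hB0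
  linarith

/-- Cycle: narrow rows, columns on a short band `S = {uu t < extB (Gy χ)}` only (or exchanged).
`c = IT ∘ a` on `S`, `ICp ∘ a` outside; `|S| B ≥ tstar B` as `B ≤ 0`. -/
theorem case_cycle (h : Approx3 U χ) (hχ : Mono3 χ) {P m M : ℝ} (hP : ∀ k, En3 (U k) ≤ P)
    (hb : EssBounds (massT χ) m M) (hV1 : 1 / 4 ≤ vol χ) (hV2 : vol χ ≤ 37 / 100) (hm0 : m < tstar)
    (hcy : extA (Gx χ) < tstar ∧ extB (Gy χ) < tstar ∨ extA (Gy χ) < tstar ∧ extB (Gx χ) < tstar) :
    Jf (vol χ) ≤ P := by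
  have ht0 : (0 : ℝ) ≤ tstar := by unfold tstar; norm_num
  rcases hcy with ⟨h1, h2⟩ | ⟨h1, h2⟩
  · refine casesb_cycle_aux h hχ hP hb hV1 hV2 hm0 (extB_nonneg _) h2.le ?_
    intro t hpos hgt
    refine ⟨(deltaR_le_extA hχ hpos).trans h1.le, ?_⟩
    rw [deltaC_zero hχ hgt]
    exact ht0
  · refine casesb_cycle_aux h hχ hP hb hV1 hV2 hm0 (extB_nonneg _) h2.le ?_
    intro t hpos hgt
    refine ⟨?_, (deltaC_le_extA hχ hpos).trans h1.le⟩
    rw [deltaR_zero hχ hgt]
    exact ht0

end Vale.Agent.Lib.P232
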