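import Vale.Agent.Lib.P232.S3Defs

/-! JOB TREE: the case distinction, pure logic on reals. `lij` is the extent along `j` of the set of
full `i`-lines: `fX ≤ lxy lxt`, etc., `lij ≤ M_k` for `i, j, k` distinct. -/

open Set

noncomputable section

namespace Vale.Agent.Lib.P232

/-- Core case: the direction `y` carries the smallest `f`. -/
private theorem tree_core {lxy lxt lyx lyt ltx lty fX fY fT MX MY MT : ℝ}
    (h1 : lxy ≤ 1) (h2 : lxt ≤ 1) (_h3 : lyx ≤ 1) (_h4 : lyt ≤ 1) (h5 : ltx ≤ 1) (h6 : lty ≤ 1)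
    (h1' : 0 ≤ lxy) (h2' : 0 ≤ lxt) (_h3' : 0 ≤ lyx) (_h4' : 0 ≤ lyt) (h5' : 0 ≤ ltx) (h6' : 0 ≤ lty)
    (hfX : fX ≤ lxy * lxt) (hfT : fT ≤ ltx * lty)
    (hMY1 : lxt ≤ MY) (hMY2 : ltx ≤ MY) (hMY : 0 < MY)
    (hyx : fY ≤ fX) (hyt : fY ≤ fT) :
    Alt lxy lxt lyx lyt fT MT ∨ Alt ltx lty lxt lxy fY MY ∨ Alt lyt lyx lty ltx fX MX := by
  have ht0 : (0 : ℝ) < tstar := by norm_num [tstar]
  have hXa : lxy < tstar → fX < tstar := fun h => by
    have : lxy * lxt ≤ lxy * 1 := mul_le_mul_of_nonneg_left h2 h1'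
    linarith
  have hXb : lxt < tstar → fX < tstar := fun h => by
    have : lxy * lxt ≤ 1 * lxt := mul_le_mul_of_nonneg_right h1 h2'
    linarith
  have hTa : ltx < tstar → fT < tstar := fun h => by
    have : ltx * lty ≤ ltx * 1 := mul_le_mul_of_nonneg_left h6 h5'
    linarith
  have hTb : lty < tstar → fT < tstar := fun h => by
    have : ltx * lty ≤ 1 * lty := mul_le_mul_of_nonneg_right h5 h6'
    linarith
  by_cases h0 : ezero ≤ fY
  · refine Or.inr (Or.inl (Or.inl ⟨h0, ?_, ?_⟩))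
    · rw [div_le_iff₀ hMY]
      have : ltx * lty ≤ MY * lty := mul_le_mul_of_nonneg_right hMY2 h6'
      nlinarith
    · rw [div_le_iff₀ hMY]
      have : lxy * lxt ≤ lxy * MY := mul_le_mul_of_nonneg_left hMY1 h1'
      nlinarith
  · have hy : fY < tstar := by
      have : ezero ≤ tstar := by norm_num [ezero, tstar]
      linarith [not_le.mp h0]
    by_cases a : tstar ≤ lxy
    · by_cases b : tstar ≤ lty
      · exact Or.inr (Or.inl (Or.inr (Or.inl ⟨hy, b, a⟩)))
      · have b' := not_le.mp b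
        have fT' := hTb b'
        by_cases c : lyt < tstar
        · exact Or.inr (Or.inr (Or.inr (Or.inr (Or.inl ⟨c, b'⟩))))
        · have c' := not_lt.mp c
          by_cases d : tstar ≤ lxt
          · exact Or.inl (Or.inr (Or.inl ⟨fT', d, c'⟩))
          · have d' := not_le.mp d
            have fX' := hXb d'
            by_cases e : ltx < tstar
            · exact Or.inr (Or.inl (Or.inr (Or.inr (Or.inl ⟨e, d'⟩))))
            · have e' := not_lt.mp e
              by_cases g : tstar ≤ lyx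
              · exact Or.inr (Or.inr (Or.inr (Or.inl ⟨fX', g, e'⟩)))
              · exact Or.inr (Or.inr (Or.inr (Or.inr (Or.inr
                  ⟨fX', Or.inr ⟨b', not_le.mp g⟩⟩))))
    · have a' := not_le.mp a
      have fX' := hXa a'
      by_cases c : lyx < tstar
      · exact Or.inl (Or.inr (Or.inr (Or.inl ⟨a', c⟩)))
      · have c' := not_lt.mp c
        by_cases d : tstar ≤ ltx
        · exact Or.inr (Or.inr (Or.inr (Or.inl ⟨fX', c', d⟩)))
        · have d' := not_le.mp d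
          have fT' := hTa d'
          by_cases e : lxt < tstar
          · exact Or.inr (Or.inl (Or.inr (Or.inr (Or.inl ⟨d', e⟩))))
          · have e' := not_lt.mp e
            by_cases g : tstar ≤ lyt
            · exact Or.inl (Or.inr (Or.inl ⟨fT', e', g⟩))
            · have g' := not_le.mp g
              by_cases k : lty < tstar
              · exact Or.inr (Or.inr (Or.inr (Or.inr (Or.inl ⟨g', k⟩))))
              · exact Or.inl (Or.inr (Or.inr (Or.inr ⟨fT', Or.inl ⟨a', g'⟩⟩)))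

/-- Let `y` be the direction of the smallest `f` (three symmetric cases). If `f_y ≥ ezero`: first
alternative in direction `y`, since `l_iy ≥ f_i / M_y ≥ f_y / M_y`. Else: band, thin or cycle, see
report #1943 of the team board; the exhaustive enumeration is on the six comparisons `lij ≥ tstar`;
`f_i ≤ l_ij l_ik < tstar` if `l_ij < tstar` and `l_ik ≤ 1`. -/
theorem tree {lxy lxt lyx lyt ltx lty fX fY fT MX MY MT : ℝ}
    (h1 : lxy ≤ 1) (h2 : lxt ≤ 1) (h3 : lyx ≤ 1) (h4 : lyt ≤ 1) (h5 : ltx ≤ 1) (h6 : lty ≤ 1)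
    (h1' : 0 ≤ lxy) (h2' : 0 ≤ lxt) (h3' : 0 ≤ lyx) (h4' : 0 ≤ lyt) (h5' : 0 ≤ ltx) (h6' : 0 ≤ lty)
    (hfX : fX ≤ lxy * lxt) (hfY : fY ≤ lyx * lyt) (hfT : fT ≤ ltx * lty)
    (hMT1 : lxy ≤ MT) (hMT2 : lyx ≤ MT) (hMY1 : lxt ≤ MY) (hMY2 : ltx ≤ MY)
    (hMX1 : lyt ≤ MX) (hMX2 : lty ≤ MX) (hMX : 0 < MX) (hMY : 0 < MY) (hMT : 0 < MT) :
    Alt lxy lxt lyx lyt fT MT ∨ Alt ltx lty lxt lxy fY MY ∨ Alt lyt lyx lty ltx fX MX := by
  have hY : fY ≤ fX → fY ≤ fT → _ := fun hyx hyt =>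
    tree_core (MX := MX) (MT := MT) (lyx := lyx) (lyt := lyt) h1 h2 h3 h4 h5 h6 h1' h2' h3' h4' h5' h6'
      hfX hfT hMY1 hMY2 hMY hyx hyt
  have hX : fX ≤ fT → fX ≤ fY →
      Alt lxy lxt lyx lyt fT MT ∨ Alt ltx lty lxt lxy fY MY ∨ Alt lyt lyx lty ltx fX MX := fun h h' => by
    rcases tree_core (lxy := ltx) (lxt := lty) (lyx := lxt) (lyt := lxy) (ltx := lyt) (lty := lyx)
        (fX := fT) (fY := fX) (fT := fY) (MX := MT) (MY := MX) (MT := MY)
        h5 h6 h2 h1 h4 h3 h5' h6' h2' h1' h4' h3' hfT (by rw [mul_comm]; exact hfY) hMX2 hMX1 hMX h h'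
      with c | c | c
    · exact Or.inr (Or.inl c)
    · exact Or.inr (Or.inr c)
    · exact Or.inl c
  have hT : fT ≤ fY → fT ≤ fX →
      Alt lxy lxt lyx lyt fT MT ∨ Alt ltx lty lxt lxy fY MY ∨ Alt lyt lyx lty ltx fX MX := fun h h' => by
    rcases tree_core (lxy := lyt) (lxt := lyx) (lyx := lty) (lyt := ltx) (ltx := lxy) (lty := lxt)
        (fX := fY) (fY := fT) (fT := fX) (MX := MY) (MY := MT) (MT := MX)
        h4 h3 h6 h5 h1 h2 h4' h3' h6' h5' h1' h2' (by rw [mul_comm]; exact hfY) hfX hMT2 hMT1 hMT h h'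
      with c | c | c
    · exact Or.inr (Or.inr c)
    · exact Or.inl c
    · exact Or.inr (Or.inl c)
  rcases le_total fX fY with hxy | hyx
  · rcases le_total fX fT with hxt | htx
    · exact hX hxt hxy
    · exact hT (htx.trans hxy) htx
  · rcases le_total fY fT with hyt | hty
    · exact hY hyx hyt
    · exact hT hty (hty.trans hyx)

end Vale.Agent.Lib.P232
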