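import Vale.Agent.Lib.P232.CasesA
import Vale.Agent.Lib.P232.CasesB
import Vale.Agent.Lib.P232.Tree
import Vale.Agent.Lib.P232.MonoFacts2

/-! JOB CASES-C: assembly of the alternatives and the choice of the direction. -/

open MeasureTheory Set Filter Topology
open scoped ENNReal

noncomputable section

namespace Vale.Agent.Lib.P232

variable {U : ℕ → ℝ → ℝ → ℝ → ℝ} {χ : ℝ → ℝ → ℝ → ℝ}

/-- One direction: all alternatives (`essMin_eq_ft`). -/
theorem alt_bound (h : Approx3 U χ) (hχ : Mono3 χ) {P m M : ℝ} (hP : ∀ k, En3 (U k) ≤ P)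
    (hb : EssBounds (massT χ) m M) (hV1 : 1 / 4 ≤ vol χ) (hV2 : vol χ ≤ 37 / 100)
    (halt : Alt (extA (Gx χ)) (extB (Gx χ)) (extA (Gy χ)) (extB (Gy χ)) (ft χ) M) :
    Jf (vol χ) ≤ P := by
  rw [← essMin_eq_ft hχ hb] at halt
  rcases halt with ⟨h1, h2, h3⟩ | ⟨h1, h2, h3⟩ | ⟨h1, h2⟩ | ⟨h1, h2⟩
  · exact case_band h hχ hP hb hV1 hV2 h1 (Or.inl ⟨h2, h3⟩)
  · by_cases h4 : ezero ≤ m
    · exact case_band h hχ hP hb hV1 hV2 h4 (Or.inr ⟨h1, h2, h3⟩)
    · exact case_hump h hχ hP hb hV1 hV2 (not_le.mp h4) ⟨h2, h3⟩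
  · exact case_thin h hχ hP hb hV1 hV2 h1 h2
  · exact case_cycle h hχ hP hb hV1 hV2 h1 h2

private theorem cc_massT_abs (h : Ind3 χ) (t : ℝ) : |massT χ t| ≤ 1 := by
  have := h.massT_mem t
  rw [abs_of_nonneg this.1]
  exact this.2

/-- Monotone sets: choose the direction by `tree`, apply `alt_bound` to `χ`, `perm χ`, `perm (perm χ)`. -/
theorem mono_bound (h : Approx3 U χ) (hχ : Mono3 χ) {P : ℝ} (hP : ∀ k, En3 (U k) ≤ P)
    (hV1 : 1 / 4 ≤ vol χ) (hV2 : vol χ ≤ 37 / 100) : Jf (vol χ) ≤ P := by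
  -- the permuted sets
  have h1 := h.perm
  have h2 := h1.perm
  have hχ1 : Mono3 (perm χ) := hχ.perm
  have hχ2 : Mono3 (perm (perm χ)) := hχ1.perm
  have hv1 : vol (perm χ) = vol χ := vol_perm h.ind
  have hv2 : vol (perm (perm χ)) = vol χ := by
    rw [vol_perm h1.ind, hv1]
  have hP1 : ∀ k, En3 (perm (U k)) ≤ P := fun k => by
    rw [En3_perm (h.c1 k)]
    exact hP k
  have hP2 : ∀ k, En3 (perm (perm (U k))) ≤ P := fun k => by
    rw [En3_perm (h1.c1 k), En3_perm (h.c1 k)]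
    exact hP k
  -- the largest slices
  obtain ⟨mT, MT, -, hbT⟩ := exists_essBounds h.ind.measurable_massT (cc_massT_abs h.ind)
  obtain ⟨mY, MY, -, hbY⟩ := exists_essBounds h1.ind.measurable_massT (cc_massT_abs h1.ind)
  obtain ⟨mX, MX, -, hbX⟩ := exists_essBounds h2.ind.measurable_massT (cc_massT_abs h2.ind)
  have hpos : ∀ {χ' : ℝ → ℝ → ℝ → ℝ} {m' M' : ℝ}, Ind3 χ' → vol χ' = vol χ →
      EssBounds (massT χ') m' M' → 0 < M' := by
    intro χ' m' M' hi hv hb'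
    have h3 := (hb'.mean_mem hi.measurable_massT (cc_massT_abs hi)).2
    have h4 : ∫ t in (0 : ℝ)..1, massT χ' t = vol χ := hv
    rw [h4] at h3
    linarith
  have hMT : 0 < MT := hpos h.ind rfl hbT
  have hMY : 0 < MY := hpos h1.ind hv1 hbY
  have hMX : 0 < MX := hpos h2.ind hv2 hbX
  -- the six extents
  have eY1 : extA (Gx (perm χ)) = extA (Gt χ) := by rw [Gx_perm]
  have eY2 : extB (Gx (perm χ)) = extB (Gt χ) := by rw [Gx_perm]
  have eY3 : extA (Gy (perm χ)) = extB (Gx χ) := by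
    rw [Gy_perm]
    exact extA_swap (Gx χ)
  have eY4 : extB (Gy (perm χ)) = extA (Gx χ) := by
    rw [Gy_perm]
    exact extB_swap (Gx χ)
  have eX1 : extA (Gx (perm (perm χ))) = extB (Gy χ) := by
    rw [Gx_perm, Gt_perm]
    exact extA_swap (Gy χ)
  have eX2 : extB (Gx (perm (perm χ))) = extA (Gy χ) := by
    rw [Gx_perm, Gt_perm]
    exact extB_swap (Gy χ)
  have eX3 : extA (Gy (perm (perm χ))) = extB (Gt χ) := by
    rw [Gy_perm, Gx_perm]
    exact extA_swap (Gt χ)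
  have eX4 : extB (Gy (perm (perm χ))) = extA (Gt χ) := by
    rw [Gy_perm, Gx_perm]
    exact extB_swap (Gt χ)
  have hft1 : ft (perm χ) = fy χ := ft_perm h.ind
  have hft2 : ft (perm (perm χ)) = fx χ := by
    rw [ft_perm h1.ind, fy_perm h.ind]
  have htree := tree (extA_le_one (Gx χ)) (extB_le_one (Gx χ)) (extA_le_one (Gy χ))
    (extB_le_one (Gy χ)) (extA_le_one (Gt χ)) (extB_le_one (Gt χ))
    (extA_nonneg (Gx χ)) (extB_nonneg (Gx χ)) (extA_nonneg (Gy χ))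
    (extB_nonneg (Gy χ)) (extA_nonneg (Gt χ)) (extB_nonneg (Gt χ))
    (fx_le_ext hχ) (fy_le_ext hχ) (ft_le_ext hχ)
    (extA_Gx_le hχ hbT) (extA_Gy_le hχ hbT)
    (by
      have := extA_Gy_le hχ1 hbY
      rwa [eY3] at this)
    (by
      have := extA_Gx_le hχ1 hbY
      rwa [eY1] at this)
    (by
      have := extA_Gx_le hχ2 hbX
      rwa [eX1] at this)
    (by
      have := extA_Gy_le hχ2 hbX
      rwa [eX3] at this)
    hMX hMY hMT
  rcases htree with halt | halt | halt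
  · exact alt_bound h hχ hP hbT hV1 hV2 halt
  · have := alt_bound h1 hχ1 hP1 hbY (by rw [hv1]; exact hV1) (by rw [hv1]; exact hV2)
      (by rw [eY1, eY2, eY3, eY4, hft1]; exact halt)
    rwa [hv1] at this
  · have := alt_bound h2 hχ2 hP2 hbX (by rw [hv2]; exact hV1) (by rw [hv2]; exact hV2)
      (by rw [eX1, eX2, eX3, eX4, hft2]; exact halt)
    rwa [hv2] at this

end Vale.Agent.Lib.P232
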