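import Vale.Agent.Lib.P232.Cells

/-!
# P232: the real-variable side of the bulk certificate
-/

namespace Vale.Agent.Lib.P232.Cells

open Real MeasureTheory Set intervalIntegral

/-! ## Square root of π -/

lemma sqrt_pi_gt : (1772453 : ℝ) / 1000000 ≤ √π := by
  apply Real.le_sqrt_of_sq_le
  have := Real.pi_gt_d6
  norm_num at this ⊢
  linarith

lemma sqrt_pi_lt : √π ≤ (1772454 : ℝ) / 1000000 := by
  rw [Real.sqrt_le_left (by norm_num)]
  have := Real.pi_lt_d6
  norm_num at this ⊢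
  linarith

lemma pi_le_bar : π ≤ (3141593 : ℝ) / 1000000 := by
  have := Real.pi_lt_d6
  norm_num at this ⊢
  linarith

/-! ## Profiles: continuity, concavity, positivity -/

lemma IT_nonneg (s : ℝ) : 0 ≤ IT s := by
  unfold IT
  refine le_min (le_min (by positivity) (by norm_num)) (by positivity)

lemma IE_nonneg (s : ℝ) : 0 ≤ IE s := by
  unfold IE
  refine le_min (by positivity) (by positivity)

lemma IT_continuous : Continuous IT := by
  unfold IT
  fun_prop

lemma IE_continuous : Continuous IE := by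
  unfold IE
  fun_prop

lemma concave_sqrt_aff (α β : ℝ) (hpos : ∀ s ∈ Icc (0 : ℝ) 1, 0 ≤ α * s + β) :
    ConcaveOn ℝ (Icc (0 : ℝ) 1) (fun s => 2 * √(α * s + β)) := by
  refine ⟨convex_Icc _ _, ?_⟩
  intro x hx y hy a b ha hb hab
  have h := Real.strictConcaveOn_sqrt.concaveOn.2 (mem_Ici.mpr (hpos x hx)) (mem_Ici.mpr (hpos y hy))
    ha hb hab
  simp only [smul_eq_mul] at h ⊢
  have e : a * (α * x + β) + b * (α * y + β) = α * (a * x + b * y) + β := by
    have : b = 1 - a := by linarith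
    subst this
    ring
  rw [e] at h
  linarith

lemma IT_concave : ConcaveOn ℝ (Icc (0 : ℝ) 1) IT := by
  have h1 := concave_sqrt_aff π 0 (fun s hs => by have := hs.1; positivity)
  have h2 : ConcaveOn ℝ (Icc (0 : ℝ) 1) (fun _ : ℝ => (2 : ℝ)) := concaveOn_const _ (convex_Icc _ _)
  have h3 := concave_sqrt_aff (-π) π (fun s hs => by
    have := hs.2
    nlinarith [Real.pi_pos])
  have h := (h1.inf h2).inf h3
  have e : IT = ((fun s => 2 * √(π * s + 0)) ⊓ fun _ => 2) ⊓ fun s => 2 * √(-π * s + π) := by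
    funext s
    have e1 : π * s + 0 = π * s := add_zero _
    have e2 : -π * s + π = π * (1 - s) := by ring
    simp only [Pi.inf_apply]
    rw [e1, e2]
    rfl
  rw [e]
  exact h

lemma IE_concave : ConcaveOn ℝ (Icc (0 : ℝ) 1) IE := by
  have h1 := concave_sqrt_aff π 0 (fun s hs => by have := hs.1; positivity)
  have h2 : ConcaveOn ℝ (Icc (0 : ℝ) 1) (fun _ : ℝ => 2 * √2) := concaveOn_const _ (convex_Icc _ _)
  have h := h1.inf h2
  have e : IE = (fun s => 2 * √(π * s + 0)) ⊓ fun _ => 2 * √2 := by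
    funext s
    have e1 : π * s + 0 = π * s := add_zero _
    simp only [Pi.inf_apply]
    rw [e1]
    rfl
  rw [e]
  exact h

/-- A line below `ρ I` at two points stays below between them. -/
lemma line_le_of_ends {I : ℝ → ℝ} (hc : ConcaveOn ℝ (Icc (0 : ℝ) 1) I) {l b s1 s2 ρ s : ℝ}
    (h0 : 0 ≤ s1) (h1 : s2 ≤ 1) (hρ : 0 ≤ ρ) (e1 : l * s1 + b ≤ ρ * I s1)
    (e2 : l * s2 + b ≤ ρ * I s2) (hs : s ∈ Icc s1 s2) : l * s + b ≤ ρ * I s := by
  rcases eq_or_lt_of_le (hs.1.trans hs.2) with heq | hlt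
  · have e3 : s = s1 := le_antisymm (by rw [heq]; exact hs.2) hs.1
    rw [e3]
    exact e1
  · have hd : 0 < s2 - s1 := by linarith
    set a := (s2 - s) / (s2 - s1) with ha
    set c := (s - s1) / (s2 - s1) with hcd
    have ha0 : 0 ≤ a := div_nonneg (by linarith [hs.2]) hd.le
    have hc0 : 0 ≤ c := div_nonneg (by linarith [hs.1]) hd.le
    have hac : a + c = 1 := by
      rw [ha, hcd]
      field_simp
      ring
    have hss : a * s1 + c * s2 = s := by
      rw [ha, hcd]
      field_simp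
      ring
    have hx : s1 ∈ Icc (0 : ℝ) 1 := ⟨h0, by linarith⟩
    have hy : s2 ∈ Icc (0 : ℝ) 1 := ⟨by linarith, h1⟩
    have hconc := hc.2 hx hy ha0 hc0 hac
    simp only [smul_eq_mul] at hconc
    rw [hss] at hconc
    have h3 : l * s + b = a * (l * s1 + b) + c * (l * s2 + b) := by
      have : c = 1 - a := by linarith
      rw [← hss]
      rw [this]
      ring
    rw [h3]
    have h4 := mul_le_mul_of_nonneg_left e1 ha0
    have h5 := mul_le_mul_of_nonneg_left e2 hc0
    have h6 := mul_le_mul_of_nonneg_left hconc hρ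
    nlinarith

/-! ## The integrand -/

/-- The integrand of `lineValue`. -/
noncomputable def gg (I : ℝ → ℝ) (l b s : ℝ) : ℝ := √(1 - (max (l * s + b) 0 / I s) ^ 2)

lemma gg_nonneg (I : ℝ → ℝ) (l b s : ℝ) : 0 ≤ gg I l b s := Real.sqrt_nonneg _

lemma gg_le_one (I : ℝ → ℝ) (l b s : ℝ) : gg I l b s ≤ 1 := by
  unfold gg
  rw [Real.sqrt_le_one]
  nlinarith [sq_nonneg (max (l * s + b) 0 / I s)]

lemma gg_measurable {I : ℝ → ℝ} (hI : Continuous I) (l b : ℝ) : Measurable (gg I l b) := by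
  unfold gg
  have hm : Measurable I := hI.measurable
  have h1 : Measurable (fun s : ℝ => max (l * s + b) 0) := by fun_prop
  have h2 : Measurable (fun s : ℝ => max (l * s + b) 0 / I s) := h1.div hm
  exact ((measurable_const.sub (h2.pow_const 2))).sqrt

lemma gg_intervalIntegrable {I : ℝ → ℝ} (hI : Continuous I) (l b x y : ℝ) :
    IntervalIntegrable (gg I l b) volume x y := by
  rw [intervalIntegrable_iff]
  refine Measure.integrableOn_of_bounded (M := 1) (by simp) (gg_measurable hI l b).aestronglyMeasurable ?_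
  refine Filter.Eventually.of_forall (fun s => ?_)
  rw [Real.norm_of_nonneg (gg_nonneg _ _ _ _)]
  exact gg_le_one _ _ _ _

lemma gg_ge {I : ℝ → ℝ} {l b s ρ c : ℝ} (hI : 0 ≤ I s) (hρ : 0 ≤ ρ)
    (hq : l * s + b ≤ ρ * I s) (hc : 0 ≤ c) (hcρ : c ^ 2 + ρ ^ 2 ≤ 1) : c ≤ gg I l b s := by
  unfold gg
  apply Real.le_sqrt_of_sq_le
  have h0 : 0 ≤ max (l * s + b) 0 / I s := div_nonneg (le_max_right _ _) hI
  have h1 : max (l * s + b) 0 / I s ≤ ρ := by
    rcases eq_or_lt_of_le hI with h | h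
    · rw [← h, div_zero]
      exact hρ
    · rw [div_le_iff₀ h]
      exact max_le hq (mul_nonneg hρ hI)
  have h2 : (max (l * s + b) 0 / I s) ^ 2 ≤ ρ ^ 2 := pow_le_pow_left₀ h0 h1 2
  linarith

lemma lineValue_eq (I : ℝ → ℝ) (l b V m M : ℝ) :
    lineValue I l b V m M = l * V + b + 2 * ∫ s in m..M, gg I l b s := rfl

/-- Restricting the integral to a subinterval only decreases it. -/
lemma integral_gg_mono {I : ℝ → ℝ} (hI : Continuous I) (l b : ℝ) {m x y M : ℝ} (h1 : m ≤ x)
    (h2 : x ≤ y) (h3 : y ≤ M) :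
    ∫ s in x..y, gg I l b s ≤ ∫ s in m..M, gg I l b s := by
  refine intervalIntegral.integral_mono_interval h1 h2 h3 ?_ (gg_intervalIntegrable hI l b m M)
  exact Filter.Eventually.of_forall (fun s => gg_nonneg I l b s)

lemma integral_gg_ge {I : ℝ → ℝ} (hI : Continuous I) (l b : ℝ) {x y c : ℝ} (hxy : x ≤ y)
    (h : ∀ s ∈ Icc x y, c ≤ gg I l b s) :
    c * (y - x) ≤ ∫ s in x..y, gg I l b s := by
  have h1 : ∫ s in x..y, (c : ℝ) ≤ ∫ s in x..y, gg I l b s :=
    intervalIntegral.integral_mono_on hxy intervalIntegrable_const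
      (gg_intervalIntegrable hI l b x y) (fun s hs => h s hs)
  rw [intervalIntegral.integral_const, smul_eq_mul] at h1
  linarith

/-! ## Upper bounds for `JJ` by lines -/

lemma JJ_le_ball {l K V : ℝ} (hl : 0 < l) (hV : 0 < V) (hK : 16 * π / 3 ≤ K * l ^ 2) :
    JJ V ≤ l * V + K := by
  refine (min_le_left _ _).trans ?_
  set c : ℝ := (36 * π) ^ ((1 : ℝ) / 3) with hc
  set x : ℝ := V ^ ((1 : ℝ) / 3) with hx
  have hcpos : 0 < c := by rw [hc]; positivity
  have hxpos : 0 < x := by rw [hx]; positivity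
  have hc3 : c ^ 3 = 36 * π := by
    rw [hc, ← Real.rpow_natCast, ← Real.rpow_mul (by positivity)]
    norm_num
  have hx3 : x ^ 3 = V := by
    rw [hx, ← Real.rpow_natCast, ← Real.rpow_mul hV.le]
    norm_num
  have hx2 : V ^ ((2 : ℝ) / 3) = x ^ 2 := by
    rw [hx, ← Real.rpow_natCast, ← Real.rpow_mul hV.le]
    norm_num
  rw [hx2]
  set x0 : ℝ := 2 * c / (3 * l) with hx0
  have hx0pos : 0 < x0 := by rw [hx0]; positivity
  have hkey : 0 ≤ l * (x - x0) ^ 2 * (x + x0 / 2) := by positivity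
  have he : l * (x - x0) ^ 2 * (x + x0 / 2) = l * x ^ 3 - c * x ^ 2 + 4 * c ^ 3 / (27 * l ^ 2) := by
    rw [hx0]
    field_simp
    ring
  have hK' : 16 * π / 3 / l ^ 2 ≤ K := by
    rw [div_le_iff₀ (by positivity)]
    exact hK
  have he2 : 4 * c ^ 3 / (27 * l ^ 2) = 16 * π / 3 / l ^ 2 := by
    rw [hc3]
    field_simp
    ring
  rw [he, he2] at hkey
  rw [← hx3]
  linarith

lemma JJ_le_tube {l K V : ℝ} (hl : 0 < l) (hV : 0 < V) (hK : π ≤ K * l) :
    JJ V ≤ l * V + K := by
  refine (min_le_right _ _).trans ?_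
  have hs : √(π * V) = √π * √V := Real.sqrt_mul Real.pi_pos.le _
  rw [hs]
  set v := √V with hv
  set sp := √π with hsp
  have hv2 : v ^ 2 = V := Real.sq_sqrt hV.le
  have hsp2 : sp ^ 2 = π := Real.sq_sqrt Real.pi_pos.le
  have h0 : 0 ≤ l * (v - sp / l) ^ 2 := by positivity
  have h1 : l * (v - sp / l) ^ 2 = l * v ^ 2 - 2 * (sp * v) + sp ^ 2 / l := by
    field_simp
    ring
  have hK' : π / l ≤ K := by
    rw [div_le_iff₀ hl]
    exact hK
  rw [h1, hsp2, hv2] at h0
  linarith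

lemma JJ_le_kink {l K V : ℝ} (hV : 0 < V) (h1 : 9 / 2 ≤ l) (h2 : l ≤ 6)
    (hK : 4 * π / 81 * (9 - l) ≤ K) : JJ V ≤ l * V + K := by
  have hpi := Real.pi_pos
  rcases le_total V (4 * π / 81) with h | h
  · have := JJ_le_ball (l := 6) (K := 4 * π / 27) (by norm_num) hV (by nlinarith)
    nlinarith
  · have := JJ_le_tube (l := 9 / 2) (K := 2 * π / 9) (by norm_num) hV (by nlinarith)
    nlinarith

lemma JJ_le_end {l K V : ℝ} (hV : 0 < V) (hV4 : V ≤ 1 / 4) (hl : l ≤ 354 / 100)
    (hK : 1772454 / 1000000 - l / 4 ≤ K) : JJ V ≤ l * V + K := by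
  refine (min_le_right _ _).trans ?_
  have hs : √(π * V) = √π * √V := Real.sqrt_mul Real.pi_pos.le _
  rw [hs]
  set v := √V with hv
  set sp := √π with hsp
  have hv2 : v ^ 2 = V := Real.sq_sqrt hV.le
  have hv0 : 0 ≤ v := Real.sqrt_nonneg _
  have hv1 : v ≤ 1 / 2 := by
    rw [hv, Real.sqrt_le_left (by norm_num)]
    norm_num
    linarith
  have hsp1 : (1772453 : ℝ) / 1000000 ≤ sp := sqrt_pi_gt
  have hsp2 : sp ≤ (1772454 : ℝ) / 1000000 := sqrt_pi_lt
  have h3 : l * (1 + 2 * v) / 4 ≤ sp := by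
    rcases le_total 0 l with h | h
    · have : l * (1 + 2 * v) ≤ 354 / 100 * 2 := by
        apply mul_le_mul hl (by linarith) (by linarith) (by norm_num)
      linarith
    · have : l * (1 + 2 * v) ≤ 0 := mul_nonpos_of_nonpos_of_nonneg h (by linarith)
      linarith
  have h4 : 0 ≤ (1 - 2 * v) * (sp - l * (1 + 2 * v) / 4) :=
    mul_nonneg (by linarith) (by linarith)
  rw [← hv2]
  nlinarith

/-- The rational test `kOK` gives a V-free upper bound for `JJ`. -/
lemma JJ_le_of_kOK {L g : ℤ} (h : kOK L g = true) {V : ℝ} (hV : 0 < V) (hV4 : V ≤ 1 / 4) :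
    JJ V ≤ (L : ℝ) / 65536 * V + (g : ℝ) / 1125899906842624 := by
  have hpi := pi_le_bar
  have hpi0 := Real.pi_pos
  simp only [kOK, Bool.or_eq_true, Bool.and_eq_true, decide_eq_true_eq] at h
  rcases h with ((⟨h0, h1⟩ | ⟨h0, h1⟩) | ⟨⟨h0, h1⟩, h2⟩) | ⟨h0, h1⟩
  · have hL : (0 : ℝ) < L := by exact_mod_cast h0
    have h1' : (16 * 3141593 * 1125899906842624 * (65536 * 65536) : ℝ) ≤
        3 * g * L * L * 1000000 := by exact_mod_cast h1
    apply JJ_le_ball (by positivity) hV
    have e : (g : ℝ) / 1125899906842624 * ((L : ℝ) / 65536) ^ 2 =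
        (3 * g * L * L * 1000000) / (3 * 1000000 * 1125899906842624 * (65536 * 65536)) := by
      field_simp
    rw [e, le_div_iff₀ (by norm_num)]
    nlinarith
  · have hL : (0 : ℝ) < L := by exact_mod_cast h0
    have h1' : (3141593 * 1125899906842624 * 65536 : ℝ) ≤ g * L * 1000000 := by exact_mod_cast h1
    apply JJ_le_tube (by positivity) hV
    have e : (g : ℝ) / 1125899906842624 * ((L : ℝ) / 65536) =
        (g * L * 1000000) / (1000000 * 1125899906842624 * 65536) := by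
      field_simp
    rw [e, le_div_iff₀ (by norm_num)]
    nlinarith
  · have hl0 : (9 * 65536 : ℝ) ≤ 2 * L := by exact_mod_cast h0
    have hl1 : (L : ℝ) ≤ 6 * 65536 := by exact_mod_cast h1
    have h2' : (4 * 3141593 * (9 * 65536 - L) * 1125899906842624 : ℝ) ≤ g * 81 * 65536 * 1000000 := by
      exact_mod_cast h2
    apply JJ_le_kink hV (by linarith) (by linarith)
    have e : (g : ℝ) / 1125899906842624 =
        (g * 81 * 65536 * 1000000) / (81 * 65536 * 1000000 * 1125899906842624) := by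
      field_simp
    rw [e, le_div_iff₀ (by norm_num)]
    have hp : (0 : ℝ) ≤ 9 * 65536 - L := by linarith
    have : π * (9 * 65536 - (L : ℝ)) ≤ 3141593 / 1000000 * (9 * 65536 - L) :=
      mul_le_mul_of_nonneg_right hpi hp
    nlinarith
  · have hl0 : (L : ℝ) * 100 ≤ 354 * 65536 := by exact_mod_cast h0
    have h1' : ((4 * 1772454 * 65536 - L * 1000000) * 1125899906842624 : ℝ) ≤
        g * 65536 * 4 * 1000000 := by exact_mod_cast h1
    apply JJ_le_end hV hV4 (by linarith)
    have e : (g : ℝ) / 1125899906842624 =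
        (g * 65536 * 4 * 1000000) / (65536 * 4 * 1000000 * 1125899906842624) := by
      field_simp
    rw [e, le_div_iff₀ (by norm_num)]
    nlinarith

end Vale.Agent.Lib.P232.Cells
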