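import Vale.Agent.Lib.P232.CellReal

/-!
# P232: soundness of the certificate test
-/

namespace Vale.Agent.Lib.P232.Cells

open Real MeasureTheory Set intervalIntegral

/-- The node `s = (j/1024)²`. -/
noncomputable def sn (j : ℕ) : ℝ := ((j : ℝ) / 1024) ^ 2

lemma sn_nonneg (j : ℕ) : 0 ≤ sn j := by unfold sn; positivity

lemma sn_mono {j j2 : ℕ} (h : j ≤ j2) : sn j ≤ sn j2 := by
  unfold sn
  have : (j : ℝ) ≤ j2 := by exact_mod_cast h
  apply pow_le_pow_left₀ (by positivity)
  linarith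

lemma sn_le_one {j : ℕ} (h : j ≤ 1024) : sn j ≤ 1 := by
  have := sn_mono h
  unfold sn at this ⊢
  norm_num at this ⊢
  linarith

/-- The profile selected by the flag. -/
noncomputable def prof (ty : Bool) : ℝ → ℝ := if ty then IE else IT

lemma prof_nonneg (ty : Bool) (s : ℝ) : 0 ≤ prof ty s := by
  unfold prof
  split_ifs
  · exact IE_nonneg s
  · exact IT_nonneg s

lemma prof_continuous (ty : Bool) : Continuous (prof ty) := by
  unfold prof
  split_ifs
  · exact IE_continuous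
  · exact IT_continuous

lemma prof_concave (ty : Bool) : ConcaveOn ℝ (Icc (0 : ℝ) 1) (prof ty) := by
  unfold prof
  split_ifs
  · exact IE_concave
  · exact IT_concave

lemma disc_node (j : ℕ) : 2 * 1772453 * (j : ℝ) / 1024000000 ≤ 2 * √(π * sn j) := by
  have h1 : √(π * sn j) = √π * ((j : ℝ) / 1024) := by
    unfold sn
    rw [Real.sqrt_mul Real.pi_pos.le, Real.sqrt_sq (by positivity)]
  rw [h1]
  have h2 := sqrt_pi_gt
  have h3 : (0 : ℝ) ≤ (j : ℝ) / 1024 := by positivity
  have h4 := mul_le_mul_of_nonneg_right h2 h3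
  have e : 2 * 1772453 * (j : ℝ) / 1024000000 = 2 * ((1772453 : ℝ) / 1000000 * ((j : ℝ) / 1024)) := by
    ring
  rw [e]
  linarith

lemma tnode_le (ty : Bool) (j : ℕ) : (tnode ty j : ℝ) / 1024000000 ≤ prof ty (sn j) := by
  cases ty with
  | true =>
    simp only [tnode, if_true, prof]
    unfold IE
    apply le_min
    · have h : ((min (2 * 1772453 * j) (2 * 1414213 * 1024) : ℕ) : ℝ) ≤ ((2 * 1772453 * j : ℕ) : ℝ) := by
        exact_mod_cast min_le_left _ _
      push_cast at h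
      have h2 := disc_node j
      have : ((min (2 * 1772453 * j) (2 * 1414213 * 1024) : ℕ) : ℝ) / 1024000000 ≤
          2 * 1772453 * (j : ℝ) / 1024000000 := by
        apply div_le_div_of_nonneg_right _ (by norm_num)
        exact_mod_cast h
      linarith
    · have h : ((min (2 * 1772453 * j) (2 * 1414213 * 1024) : ℕ) : ℝ) ≤ ((2 * 1414213 * 1024 : ℕ) : ℝ) := by
        exact_mod_cast min_le_right _ _
      have h2 : (1414213 : ℝ) / 1000000 ≤ √2 := by
        apply Real.le_sqrt_of_sq_le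
        norm_num
      have h3 : ((2 * 1414213 * 1024 : ℕ) : ℝ) / 1024000000 = 2 * ((1414213 : ℝ) / 1000000) := by
        norm_num
      have : ((min (2 * 1772453 * j) (2 * 1414213 * 1024) : ℕ) : ℝ) / 1024000000 ≤
          ((2 * 1414213 * 1024 : ℕ) : ℝ) / 1024000000 :=
        div_le_div_of_nonneg_right h (by norm_num)
      linarith
  | false =>
    have hprof : prof false = IT := by
      unfold prof
      simp
    rw [hprof]
    by_cases hc : rr j * rr j + j * j ≤ 1048576
    · simp only [tnode, hc, if_true, Bool.false_eq_true, if_false]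
      set T := min (min (2 * 1772453 * j) (2 * 1000000 * 1024)) (2 * 1772453 * rr j) with hT
      have h1 : T ≤ 2 * 1772453 * j := (min_le_left _ _).trans (min_le_left _ _)
      have h2 : T ≤ 2 * 1000000 * 1024 := (min_le_left _ _).trans (min_le_right _ _)
      have h3 : T ≤ 2 * 1772453 * rr j := min_le_right _ _
      unfold IT
      refine le_min (le_min ?_ ?_) ?_
      · have h1' : (T : ℝ) ≤ 2 * 1772453 * (j : ℝ) := by exact_mod_cast h1
        have := disc_node j
        have h5 : (T : ℝ) / 1024000000 ≤ 2 * 1772453 * (j : ℝ) / 1024000000 :=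
          div_le_div_of_nonneg_right h1' (by norm_num)
        linarith
      · have h2' : (T : ℝ) ≤ 2 * 1000000 * 1024 := by exact_mod_cast h2
        rw [div_le_iff₀ (by norm_num)]
        linarith
      · have h3' : (T : ℝ) ≤ 2 * 1772453 * (rr j : ℝ) := by exact_mod_cast h3
        have hc' : (rr j : ℝ) * rr j + (j : ℝ) * j ≤ 1048576 := by exact_mod_cast hc
        have h6 : ((rr j : ℝ) / 1024) ^ 2 ≤ 1 - sn j := by
          unfold sn
          rw [div_pow, div_pow, le_sub_iff_add_le, ← add_div, div_le_one (by norm_num)]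
          nlinarith
        have h7 : √π * ((rr j : ℝ) / 1024) ≤ √(π * (1 - sn j)) := by
          have : √(π * ((rr j : ℝ) / 1024) ^ 2) = √π * ((rr j : ℝ) / 1024) := by
            rw [Real.sqrt_mul Real.pi_pos.le, Real.sqrt_sq (by positivity)]
          rw [← this]
          apply Real.sqrt_le_sqrt
          exact mul_le_mul_of_nonneg_left h6 Real.pi_pos.le
        have h8 := sqrt_pi_gt
        have h9 : (0 : ℝ) ≤ (rr j : ℝ) / 1024 := by positivity
        have h10 := mul_le_mul_of_nonneg_right h8 h9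
        have h11 : (T : ℝ) / 1024000000 ≤ 2 * 1772453 * (rr j : ℝ) / 1024000000 :=
          div_le_div_of_nonneg_right h3' (by norm_num)
        have e : 2 * 1772453 * (rr j : ℝ) / 1024000000 =
            2 * ((1772453 : ℝ) / 1000000 * ((rr j : ℝ) / 1024)) := by ring
        rw [e] at h11
        linarith
    · simp only [tnode, hc, if_false, Bool.false_eq_true]
      simpa using IT_nonneg (sn j)

lemma qn_cast (L B : ℤ) (j : ℕ) :
    ((qn L B j : ℤ) : ℝ) / 68719476736 = (L : ℝ) / 65536 * sn j + (B : ℝ) / 65536 := by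
  unfold qn sn
  push_cast
  ring

/-- A cast integer inequality `q * (P Y) ≤ R T den` gives the real bound for the line at the node. -/
lemma line_node_le {L B : ℤ} {j R : ℕ} (ty : Bool)
    (h : qn L B j * (16384 * 1024000000) ≤ ((R * tnode ty j * 68719476736 : ℕ) : ℤ)) :
    (L : ℝ) / 65536 * sn j + (B : ℝ) / 65536 ≤ ((R : ℝ) / 16384) * prof ty (sn j) := by
  rw [← qn_cast]
  have h' : ((qn L B j : ℤ) : ℝ) * (16384 * 1024000000) ≤ (R : ℝ) * tnode ty j * 68719476736 := by
    exact_mod_cast h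
  have h1 := tnode_le ty j
  have h2 : (0 : ℝ) ≤ (R : ℝ) / 16384 := by positivity
  have h3 := mul_le_mul_of_nonneg_left h1 h2
  refine le_trans ?_ h3
  rw [div_le_iff₀ (by norm_num)]
  have e : (R : ℝ) / 16384 * ((tnode ty j : ℝ) / 1024000000) * 68719476736 =
      ((R : ℝ) * tnode ty j * 68719476736) / (16384 * 1024000000) := by ring
  rw [e, le_div_iff₀ (by norm_num)]
  exact h'

lemma stepC_le (ty : Bool) (L B : ℤ) {j j2 : ℕ} (h12 : j ≤ j2) (h2 : j2 ≤ 1024) {t : ℝ}
    (ht : t ∈ Icc (sn j) (sn j2)) :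
    (stepC ty L B j j2 : ℝ) / 16384 ≤ gg (prof ty) ((L : ℝ) / 65536) ((B : ℝ) / 65536) t := by
  unfold stepC
  simp only
  set R := max (rhoN ty L B j) (rhoN ty L B j2) with hR
  split_ifs with hc
  · obtain ⟨c1, c2, c3⟩ := hc
    have e1 := line_node_le ty c1
    have e2 := line_node_le ty c2
    have hle := line_le_of_ends (prof_concave ty) (sn_nonneg j) (sn_le_one h2)
      (by positivity : (0 : ℝ) ≤ (R : ℝ) / 16384) e1 e2 ht
    apply gg_ge (prof_nonneg ty t) (by positivity) hle (by positivity)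
    have hs := isq_sq_le (16384 * 16384 - R * R)
    have hR2 : R * R ≤ 16384 * 16384 := Nat.mul_le_mul c3 c3
    have hs2 : isq (16384 * 16384 - R * R) * isq (16384 * 16384 - R * R) + R * R ≤ 16384 * 16384 := by
      omega
    have hs3 : (isq (16384 * 16384 - R * R) : ℝ) * isq (16384 * 16384 - R * R) + (R : ℝ) * R ≤
        16384 * 16384 := by exact_mod_cast hs2
    rw [div_pow, div_pow, ← add_div, div_le_one (by norm_num)]
    nlinarith
  · simpa using gg_nonneg _ _ _ _

lemma sumC_le (ty : Bool) (L B : ℤ) (st : ℕ) (j1 : ℕ) (h1 : j1 ≤ 1024) :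
    ∀ (f j : ℕ), j ≤ j1 → (sumC ty L B st f j j1 : ℝ) / (16384 * 1048576) ≤
      ∫ s in sn j..sn j1, gg (prof ty) ((L : ℝ) / 65536) ((B : ℝ) / 65536) s := by
  intro f
  induction f with
  | zero =>
    intro j hj
    simp only [sumC, Nat.cast_zero, zero_div]
    exact intervalIntegral.integral_nonneg (sn_mono hj) (fun s _ => gg_nonneg _ _ _ _)
  | succ f ih =>
    intro j hj
    simp only [sumC]
    split_ifs with hlt
    · set j2 := min (j + st) j1 with hj2
      have hj12 : j ≤ j2 := le_min (Nat.le_add_right _ _) hj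
      have hj21 : j2 ≤ j1 := min_le_right _ _
      have hi := ih j2 hj21
      have hI := prof_continuous ty
      have hsplit := intervalIntegral.integral_add_adjacent_intervals
        (gg_intervalIntegrable hI ((L : ℝ) / 65536) ((B : ℝ) / 65536) (sn j) (sn j2))
        (gg_intervalIntegrable hI ((L : ℝ) / 65536) ((B : ℝ) / 65536) (sn j2) (sn j1))
      have hfirst := integral_gg_ge hI ((L : ℝ) / 65536) ((B : ℝ) / 65536) (sn_mono hj12)
        (fun s hs => stepC_le ty L B hj12 (hj21.trans h1) hs)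
      rw [← hsplit]
      have hwidth : ((j2 * j2 - j * j : ℕ) : ℝ) = (j2 : ℝ) * j2 - (j : ℝ) * j := by
        have : j * j ≤ j2 * j2 := Nat.mul_le_mul hj12 hj12
        rw [Nat.cast_sub this]
        push_cast
        ring
      have he : (stepC ty L B j j2 : ℝ) / 16384 * (sn j2 - sn j) =
          ((stepC ty L B j j2 * (j2 * j2 - j * j) : ℕ) : ℝ) / (16384 * 1048576) := by
        push_cast [hwidth]
        unfold sn
        ring
      push_cast only [Nat.cast_add]
      rw [add_div]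
      rw [he] at hfirst
      linarith
    · simp only [Nat.cast_zero, zero_div]
      exact intervalIntegral.integral_nonneg (sn_mono hj) (fun s _ => gg_nonneg _ _ _ _)

/-- What the certificate proves at the point `(h, k)`. -/
def BulkConcl (h k : ℝ) : Prop :=
  ∀ V : ℝ, 0 < V → V ≤ 1 / 4 → h ^ 2 ≤ V → V ≤ k ^ 2 →
    (∃ l b, LineAdm IT l b (h ^ 2) (k ^ 2) ∧ JJ V ≤ lineValue IT l b V (h ^ 2) (k ^ 2)) ∨
    (∃ l b, LineAdm IE l b (h ^ 2) (k ^ 2) ∧ JJ V + 4 * h ^ 2 ≤ lineValue IE l b V (h ^ 2) (k ^ 2))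

lemma sq_le_sn {h : ℝ} {a : ℕ} (h0 : 0 ≤ h) (ha : h ≤ (a : ℝ) / 1024) : h ^ 2 ≤ sn a := by
  unfold sn
  exact pow_le_pow_left₀ h0 ha 2

lemma sn_le_sq {h : ℝ} {a : ℕ} (ha : (a : ℝ) / 1024 ≤ h) : sn a ≤ h ^ 2 := by
  unfold sn
  exact pow_le_pow_left₀ (by positivity) ha 2

lemma feasible_adm {ty : Bool} {L B : ℤ} {a d : ℕ} {m M : ℝ} (hd : d ≤ 1024)
    (ha : sn a ≤ m) (hM : M ≤ sn d)
    (h1 : qn L B a * 1024000000 ≤ ((tnode ty a * 68719476736 : ℕ) : ℤ))
    (h2 : qn L B d * 1024000000 ≤ ((tnode ty d * 68719476736 : ℕ) : ℤ)) :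
    LineAdm (prof ty) ((L : ℝ) / 65536) ((B : ℝ) / 65536) m M := by
  intro t ht
  have key : ∀ j : ℕ, qn L B j * 1024000000 ≤ ((tnode ty j * 68719476736 : ℕ) : ℤ) →
      (L : ℝ) / 65536 * sn j + (B : ℝ) / 65536 ≤ 1 * prof ty (sn j) := by
    intro j hj
    rw [← qn_cast, one_mul]
    have hj' : ((qn L B j : ℤ) : ℝ) * 1024000000 ≤ (tnode ty j : ℝ) * 68719476736 := by
      exact_mod_cast hj
    have h3 := tnode_le ty j
    refine le_trans ?_ h3
    rw [div_le_div_iff₀ (by norm_num) (by norm_num)]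
    exact hj'
  have hq := line_le_of_ends (prof_concave ty) (sn_nonneg a) (sn_le_one hd) (by norm_num : (0 : ℝ) ≤ 1)
    (key a h1) (key d h2) (⟨ha.trans ht.1, ht.2.trans hM⟩ : t ∈ Icc (sn a) (sn d))
  rw [one_mul] at hq
  exact max_le hq (prof_nonneg ty t)

/-- Soundness on a leaf. -/
lemma leaf_sound {ty : Bool} {L B : ℤ} {st a b c d : ℕ} (hOK : leafOK ty L B st a b c d = true)
    {h k : ℝ} (h1 : (a : ℝ) / 1024 ≤ h) (h2 : h ≤ (b : ℝ) / 1024) (h3 : (c : ℝ) / 1024 ≤ k)
    (h4 : k ≤ (d : ℝ) / 1024) : BulkConcl h k := by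
  simp only [leafOK, Bool.and_eq_true, decide_eq_true_eq] at hOK
  obtain ⟨⟨⟨⟨⟨⟨hab, hbc⟩, hcd⟩, hd⟩, hfa⟩, hfd⟩, hk⟩ := hOK
  have h0 : 0 ≤ h := le_trans (by positivity) h1
  have k0 : 0 ≤ k := le_trans (by positivity) h3
  intro V hV hV4 hhV hVk
  have hadm : LineAdm (prof ty) ((L : ℝ) / 65536) ((B : ℝ) / 65536) (h ^ 2) (k ^ 2) :=
    feasible_adm hd (sn_le_sq h1) (sq_le_sn k0 h4) hfa hfd
  have hJ := JJ_le_of_kOK hk hV hV4
  have hI := prof_continuous ty
  have hsum := sumC_le ty L B st c (hcd.trans hd) 2048 b hbc.le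
  have hmono : ∫ s in sn b..sn c, gg (prof ty) ((L : ℝ) / 65536) ((B : ℝ) / 65536) s ≤
      ∫ s in (h ^ 2)..(k ^ 2), gg (prof ty) ((L : ℝ) / 65536) ((B : ℝ) / 65536) s :=
    integral_gg_mono hI _ _ (sq_le_sn h0 h2) (sn_mono hbc.le) (sn_le_sq h3)
  have hval : lineValue (prof ty) ((L : ℝ) / 65536) ((B : ℝ) / 65536) V (h ^ 2) (k ^ 2) =
      (L : ℝ) / 65536 * V + (B : ℝ) / 65536 +
        2 * ∫ s in (h ^ 2)..(k ^ 2), gg (prof ty) ((L : ℝ) / 65536) ((B : ℝ) / 65536) s := rfl
  set S : ℝ := (sumC ty L B st 2048 b c : ℝ) with hS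
  have hg : ((gnumOf ty L B st b c : ℤ) : ℝ) / 1125899906842624 =
      (B : ℝ) / 65536 + 2 * (S / (16384 * 1048576)) -
        (if ty then 4 * ((b : ℝ) / 1024) ^ 2 else 0) := by
    unfold gnumOf
    cases ty
    · simp only [Bool.false_eq_true, if_false]
      push_cast
      rw [hS]
      ring
    · simp only [if_true]
      push_cast
      rw [hS]
      ring
  rw [hg] at hJ
  cases ty with
  | false =>
    left
    refine ⟨(L : ℝ) / 65536, (B : ℝ) / 65536, ?_, ?_⟩
    · simpa [prof] using hadm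
    · have hval' : lineValue IT ((L : ℝ) / 65536) ((B : ℝ) / 65536) V (h ^ 2) (k ^ 2) =
          lineValue (prof false) ((L : ℝ) / 65536) ((B : ℝ) / 65536) V (h ^ 2) (k ^ 2) := by
        simp [prof]
      rw [hval', hval]
      simp only [Bool.false_eq_true, if_false] at hJ
      linarith
  | true =>
    right
    refine ⟨(L : ℝ) / 65536, (B : ℝ) / 65536, ?_, ?_⟩
    · simpa [prof] using hadm
    · have hval' : lineValue IE ((L : ℝ) / 65536) ((B : ℝ) / 65536) V (h ^ 2) (k ^ 2) =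
          lineValue (prof true) ((L : ℝ) / 65536) ((B : ℝ) / 65536) V (h ^ 2) (k ^ 2) := by
        simp [prof]
      rw [hval', hval]
      simp only [if_true] at hJ
      have hb2 : h ^ 2 ≤ ((b : ℝ) / 1024) ^ 2 := pow_le_pow_left₀ h0 h2 2
      linarith

/-- Soundness of the tree test. -/
theorem checkTree_sound : ∀ (t : CellTree) (a b c d : ℕ), checkTree t a b c d = true →
    ∀ h k : ℝ, (a : ℝ) / 1024 ≤ h → h ≤ (b : ℝ) / 1024 → (c : ℝ) / 1024 ≤ k → k ≤ (d : ℝ) / 1024 →
      (100 * h ≤ 9 * k ∧ π * k ^ 2 ≤ 2) ∨ BulkConcl h k := by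
  intro t
  induction t with
  | skip =>
    intro a b c d hOK h k h1 h2 h3 h4
    left
    simp only [checkTree, Bool.and_eq_true, decide_eq_true_eq] at hOK
    obtain ⟨e1, e2⟩ := hOK
    have e1' : (100 : ℝ) * b ≤ 9 * c := by exact_mod_cast e1
    have e2' : (31416 : ℝ) * ((d : ℝ) * d) ≤ 20000 * 1048576 := by exact_mod_cast e2
    have k0 : 0 ≤ k := le_trans (by positivity) h3
    constructor
    · have h5 : (100 : ℝ) * ((b : ℝ) / 1024) ≤ 9 * ((c : ℝ) / 1024) := by linarith
      linarith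
    · have h5 : k ^ 2 ≤ ((d : ℝ) / 1024) ^ 2 := pow_le_pow_left₀ k0 h4 2
      have h6 : ((d : ℝ) / 1024) ^ 2 = (d : ℝ) * d / 1048576 := by ring
      have h7 := Real.pi_lt_d4
      have h8 : 0 ≤ k ^ 2 := by positivity
      have h9 : π * k ^ 2 ≤ 3.1416 * k ^ 2 := mul_le_mul_of_nonneg_right h7.le h8
      rw [h6] at h5
      have h10 : (d : ℝ) * d / 1048576 ≤ 20000 / 31416 := by
        rw [div_le_div_iff₀ (by norm_num) (by norm_num)]
        linarith
      norm_num at h9 ⊢
      linarith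
  | leaf ty L B st =>
    intro a b c d hOK h k h1 h2 h3 h4
    right
    exact leaf_sound (by simpa [checkTree] using hOK) h1 h2 h3 h4
  | splitH mid l r ihl ihr =>
    intro a b c d hOK h k h1 h2 h3 h4
    simp only [checkTree, Bool.and_eq_true, decide_eq_true_eq] at hOK
    obtain ⟨⟨⟨_, _⟩, e1⟩, e2⟩ := hOK
    rcases le_total h ((mid : ℝ) / 1024) with hm | hm
    · exact ihl _ _ _ _ e1 h k h1 hm h3 h4
    · exact ihr _ _ _ _ e2 h k hm h2 h3 h4
  | splitK mid l r ihl ihr =>
    intro a b c d hOK h k h1 h2 h3 h4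
    simp only [checkTree, Bool.and_eq_true, decide_eq_true_eq] at hOK
    obtain ⟨⟨⟨_, _⟩, e1⟩, e2⟩ := hOK
    rcases le_total k ((mid : ℝ) / 1024) with hm | hm
    · exact ihl _ _ _ _ e1 h k h1 h2 h3 hm
    · exact ihr _ _ _ _ e2 h k h1 h2 hm h4

end Vale.Agent.Lib.P232.Cells
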