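import Vale.Agent.Lib.P232.S3Defs
import Vale.Agent.Lib.P232.CellSound

/-!
# P232, stage 3: the certificate for directions with a band

A tree of boxes in `h = √m`, `k = √M` (corners multiples of `1/1024`), a fixed rational line on every
leaf, and on some leaves a band length `T` with a bonus `B`.  All the tests are strict, so that the
certificate also gives the strict inequality.
-/

namespace Vale.Agent.Lib.P232.Band

open Real MeasureTheory Set intervalIntegral
open Vale.Agent.Lib.P232.Cells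

/-! ## Arithmetic layer -/

/-- The volume-free test: `Jf V ≤ (L/65536) V + G/2^50` by one of five elementary reasons. -/
def kBand (L G : ℤ) (e0 d : ℕ) : Bool :=
  (decide (0 < L) && decide (3141593 * 1125899906842624 * 65536 ≤ G * L * 1000000)) ||
  (decide (0 ≤ L) && decide (L * 1000000 ≤ 3141592 * 65536) &&
    decide ((20000000 * 65536 - 3183098 * L) * 1125899906842624 ≤ G * 65536 * 10000000)) ||
  (decide (L ≤ 0) && decide ((2 * 65536 * 100 - 37 * L) * 1125899906842624 ≤ G * 65536 * 100)) ||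
  (decide (L * (d : ℤ) * 1000000 ≤ 1772453 * 65536 * 1024) &&
    decide ((2 * 1772454 * (d : ℤ) * 1024 * 65536 - L * (d : ℤ) * (d : ℤ) * 1000000) *
      1125899906842624 ≤ G * 65536 * 1048576 * 1000000)) ||
  (decide (1772454 * 65536 * 1024 ≤ L * (e0 : ℤ) * 1000000) &&
    decide ((2 * 1772454 * (e0 : ℤ) * 1024 * 65536 - L * (e0 : ℤ) * (e0 : ℤ) * 1000000) *
      1125899906842624 ≤ G * 65536 * 1048576 * 1000000))

/-- The bonus test on one cell `[sn j, sn j2]`. -/
def gainStep (L B : ℤ) (Bn j j2 : ℕ) : Bool :=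
  let r := isq (1048576 - j2 * j2)
  let U := min (2 * 1772454 * j2) (2 * 1000000 * 1024)
  let W := 2 * 1772453 * r
  decide (r * r + j2 * j2 ≤ 1048576) && decide (U < W) && decide (0 ≤ qn L B j) &&
    decide (0 ≤ qn L B j2) &&
    decide (((Bn * U * 1048576 : ℕ) : ℤ) ≤ qn L B j * (((W - U : ℕ) : ℤ))) &&
    decide (((Bn * U * 1048576 : ℕ) : ℤ) ≤ qn L B j2 * (((W - U : ℕ) : ℤ)))

/-- The bonus test on `[sn j, sn d]` with step `w`. -/
def gainC (L B : ℤ) (Bn w : ℕ) : ℕ → ℕ → ℕ → Bool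
  | 0, _, _ => false
  | f + 1, j, d =>
    if j < d then
      gainStep L B Bn j (min (j + w) d) && gainC L B Bn w f (min (j + w) d) d
    else true

/-- The leaf test with the line alone. -/
def leafT (L B : ℤ) (st a b c d : ℕ) : Bool :=
  decide (d ≤ 1024) && decide (c ≤ d) &&
    decide (qn L B a * 1024000000 ≤ ((tnode false a * 68719476736 : ℕ) : ℤ)) &&
    decide (qn L B d * 1024000000 ≤ ((tnode false d * 68719476736 : ℕ) : ℤ)) &&
    kBand L (gnumOf false L B st b c - 1) (max a 512) d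

/-- The leaf test with a band length `Tn/1024` and a bonus `Bn/65536`. -/
def leafU (L B : ℤ) (st Tn Bn e w a b c d : ℕ) : Bool :=
  decide (d ≤ 1024) && decide (c ≤ d) &&
    decide (qn L B a * 1024000000 ≤ ((tnode false a * 68719476736 : ℕ) : ℤ)) &&
    decide (qn L B d * 1024000000 ≤ ((tnode false d * 68719476736 : ℕ) : ℤ)) &&
    decide (Tn < 1024) && decide (Tn * d * d ≤ 1024 * a * a) &&
    (decide (10 * Tn ≤ 1024) || decide (1048576 ≤ 10 * a * a)) &&
    decide (0 < e) && decide (e < d) &&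
    decide (e * e * (1024 - Tn) + Tn * d * d ≤ 1024 * max 262144 (a * a)) &&
    gainC L B Bn w 2048 e d &&
    kBand L (gnumOf false L B st b c + (Tn : ℤ) * (Bn : ℤ) * 16777216 - 1) (max a 512) d

/-- The tree of boxes. -/
inductive BTree where
  | t (L B : ℤ) (st : ℕ) : BTree
  | u (L B : ℤ) (st Tn Bn e w : ℕ) : BTree
  | h (mid : ℕ) (l r : BTree) : BTree
  | k (mid : ℕ) (l r : BTree) : BTree

/-- The test on a tree. -/
def checkB : BTree → ℕ → ℕ → ℕ → ℕ → Bool
  | .t L B st, a, b, c, d => leafT L B st a b c d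
  | .u L B st Tn Bn e w, a, b, c, d => leafU L B st Tn Bn e w a b c d
  | .h mid l r, a, b, c, d => checkB l a mid c d && checkB r mid b c d
  | .k mid l r, a, b, c, d => checkB l a b c mid && checkB r a b mid d

/-! ## The target -/

lemma Jf_le_JJ (V : ℝ) : Jf V ≤ JJ V := min_le_left _ _

lemma Jf_le_two (V : ℝ) : Jf V ≤ 2 := min_le_right _ _

lemma JJ_le_sq (V : ℝ) : JJ V ≤ 2 * √(π * V) := min_le_right _ _

lemma tube_sq {V : ℝ} (hV : 0 ≤ V) : ∃ v : ℝ, 0 ≤ v ∧ v ^ 2 = V ∧ 2 * √(π * V) = 2 * (√π * v) :=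
  ⟨√V, Real.sqrt_nonneg _, Real.sq_sqrt hV, by rw [Real.sqrt_mul Real.pi_pos.le]⟩

lemma JJ_end {l K V w : ℝ} (hV : 0 ≤ V) (hw : 0 ≤ w) (hVw : V ≤ w ^ 2)
    (hl : l * w ≤ 1772453 / 1000000) (hK : 2 * (1772454 / 1000000) * w - l * w ^ 2 ≤ K) :
    JJ V ≤ l * V + K := by
  refine (JJ_le_sq V).trans ?_
  obtain ⟨v, hv0, hv2, hs⟩ := tube_sq hV
  rw [hs]
  have hsp1 : (1772453 : ℝ) / 1000000 ≤ √π := sqrt_pi_gt
  have hsp2 : √π ≤ (1772454 : ℝ) / 1000000 := sqrt_pi_lt
  set sp := √π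
  have hv1 : v ≤ w := by
    by_contra hc
    have hc := not_le.1 hc
    nlinarith
  have h3 : l * (w + v) ≤ 2 * sp := by
    rcases le_total 0 l with h | h
    · have : l * (w + v) ≤ l * (2 * w) := mul_le_mul_of_nonneg_left (by linarith) h
      linarith
    · have : l * (w + v) ≤ 0 := mul_nonpos_of_nonpos_of_nonneg h (by linarith)
      linarith
  have h4 : 0 ≤ (w - v) * (2 * sp - l * (w + v)) := mul_nonneg (by linarith) (by linarith)
  have h5 : sp * w ≤ (1772454 / 1000000) * w := mul_le_mul_of_nonneg_right hsp2 hw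
  rw [← hv2]
  nlinarith

lemma JJ_low {l K V w : ℝ} (hw : 0 ≤ w) (hVw : w ^ 2 ≤ V)
    (hl : 1772454 / 1000000 ≤ l * w) (hK : 2 * (1772454 / 1000000) * w - l * w ^ 2 ≤ K) :
    JJ V ≤ l * V + K := by
  have hV : 0 ≤ V := le_trans (by positivity) hVw
  refine (JJ_le_sq V).trans ?_
  obtain ⟨v, hv0, hv2, hs⟩ := tube_sq hV
  rw [hs]
  have hsp2 : √π ≤ (1772454 : ℝ) / 1000000 := sqrt_pi_lt
  set sp := √π
  have hv1 : w ≤ v := by
    by_contra hc
    have hc := not_le.1 hc
    nlinarith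
  have hl0 : 0 < l := by
    by_contra hc
    have hc := not_lt.1 hc
    have : l * w ≤ 0 := mul_nonpos_of_nonpos_of_nonneg hc hw
    linarith
  have h3 : 2 * sp ≤ l * (w + v) := by
    have : l * (2 * w) ≤ l * (w + v) := mul_le_mul_of_nonneg_left (by linarith) hl0.le
    linarith
  have h4 : 0 ≤ (v - w) * (l * (w + v) - 2 * sp) := mul_nonneg (by linarith) (by linarith)
  have h5 : sp * w ≤ (1772454 / 1000000) * w := mul_le_mul_of_nonneg_right hsp2 hw
  rw [← hv2]
  nlinarith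

lemma Jf_le_mid {l K V : ℝ} (hV : 0 ≤ V) (hl0 : 0 ≤ l) (hl1 : l ≤ 3141592 / 1000000)
    (hK : 2 - (3183098 / 10000000) * l ≤ K) : Jf V ≤ l * V + K := by
  have hpi1 : (3141592 : ℝ) / 1000000 ≤ π := by
    have := Real.pi_gt_d6
    norm_num at this ⊢
    linarith
  have hpi2 : π ≤ (3141593 : ℝ) / 1000000 := pi_le_bar
  have hpi0 := Real.pi_pos
  obtain ⟨v, hv0, hv2, hs⟩ := tube_sq hV
  set x := √π * v with hx
  have hx0 : 0 ≤ x := by positivity
  have hx2 : x ^ 2 = π * V := by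
    rw [hx, mul_pow, Real.sq_sqrt hpi0.le, hv2]
  set r := l / π with hr
  have hr0 : 0 ≤ r := by positivity
  have hr1 : r ≤ 1 := by
    rw [hr, div_le_one hpi0]
    linarith
  have hlV : l * V = r * x ^ 2 := by
    rw [hx2, hr]
    field_simp
  have hrl : (3183098 / 10000000) * l ≤ r := by
    rw [hr, le_div_iff₀ hpi0]
    nlinarith
  rw [hlV]
  have hK2 : 2 - r ≤ K := by linarith
  rcases le_total 1 x with h | h
  · have h1 := Jf_le_two V
    have : r * 1 ≤ r * x ^ 2 := mul_le_mul_of_nonneg_left (by nlinarith) hr0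
    linarith
  · have h1 : Jf V ≤ 2 * x := by
      have := (Jf_le_JJ V).trans (JJ_le_sq V)
      rw [hs] at this
      exact this
    have : 0 ≤ (1 - x) * (2 - r * (1 + x)) :=
      mul_nonneg (by linarith) (by nlinarith)
    nlinarith

lemma jf_le_of_kBand {L G : ℤ} {e0 d : ℕ} (h : kBand L G e0 d = true) {V : ℝ} (hV : 1 / 4 ≤ V)
    (hV2 : V ≤ 37 / 100) (he : ((e0 : ℝ) / 1024) ^ 2 ≤ V) (hd : V ≤ ((d : ℝ) / 1024) ^ 2) :
    Jf V ≤ (L : ℝ) / 65536 * V + (G : ℝ) / 1125899906842624 := by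
  have hV0 : 0 < V := by linarith
  have hpi := pi_le_bar
  have hpi0 := Real.pi_pos
  simp only [kBand, Bool.or_eq_true, Bool.and_eq_true, decide_eq_true_eq] at h
  rcases h with (((⟨h0, h1⟩ | ⟨⟨h0, h1⟩, h2⟩) | ⟨h0, h1⟩) | ⟨h0, h1⟩) | ⟨h0, h1⟩
  · have hL : (0 : ℝ) < L := by exact_mod_cast h0
    have h1' : (3141593 * 1125899906842624 * 65536 : ℝ) ≤ G * L * 1000000 := by exact_mod_cast h1
    refine (Jf_le_JJ V).trans (JJ_le_tube (by positivity) hV0 ?_)
    have e : (G : ℝ) / 1125899906842624 * ((L : ℝ) / 65536) =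
        (G * L * 1000000) / (1000000 * 1125899906842624 * 65536) := by
      field_simp
    rw [e, le_div_iff₀ (by norm_num)]
    nlinarith
  · have hL : (0 : ℝ) ≤ L := by exact_mod_cast h0
    have h1' : (L : ℝ) * 1000000 ≤ 3141592 * 65536 := by exact_mod_cast h1
    have h2' : ((20000000 * 65536 - 3183098 * L) * 1125899906842624 : ℝ) ≤
        G * 65536 * 10000000 := by exact_mod_cast h2
    apply Jf_le_mid hV0.le (by positivity)
    · rw [div_le_div_iff₀ (by norm_num) (by norm_num)]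
      linarith
    · have e : 2 - 3183098 / 10000000 * ((L : ℝ) / 65536) =
          ((20000000 * 65536 - 3183098 * L) * 1125899906842624) /
            (65536 * 10000000 * 1125899906842624) := by
        field_simp
        ring
      rw [e, div_le_div_iff₀ (by norm_num) (by norm_num)]
      nlinarith
  · have hL : (L : ℝ) ≤ 0 := by exact_mod_cast h0
    have h1' : ((2 * 65536 * 100 - 37 * L) * 1125899906842624 : ℝ) ≤ G * 65536 * 100 := by
      exact_mod_cast h1
    have h2 := Jf_le_two V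
    have h3 : (L : ℝ) * (37 / 100) ≤ (L : ℝ) * V := mul_le_mul_of_nonpos_left hV2 hL
    have e1 : (L : ℝ) / 65536 * V = (L : ℝ) * V / 65536 := by ring
    rw [e1]
    have h4 : (L : ℝ) * (37 / 100) / 65536 ≤ (L : ℝ) * V / 65536 :=
      div_le_div_of_nonneg_right h3 (by norm_num)
    have h5 : 2 - (L : ℝ) * (37 / 100) / 65536 ≤ (G : ℝ) / 1125899906842624 := by
      rw [le_div_iff₀ (by norm_num)]
      nlinarith
    linarith
  · have h0' : (L : ℝ) * d * 1000000 ≤ 1772453 * 65536 * 1024 := by exact_mod_cast h0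
    have h1' : ((2 * 1772454 * (d : ℝ) * 1024 * 65536 - L * d * d * 1000000) * 1125899906842624 : ℝ) ≤
        G * 65536 * 1048576 * 1000000 := by exact_mod_cast h1
    refine (Jf_le_JJ V).trans (JJ_end hV0.le (by positivity) hd ?_ ?_)
    · have e : (L : ℝ) / 65536 * ((d : ℝ) / 1024) = ((L : ℝ) * d * 1000000) / (65536 * 1024 * 1000000) := by
        field_simp
      rw [e, div_le_div_iff₀ (by norm_num) (by norm_num)]
      nlinarith
    · have e : 2 * (1772454 / 1000000) * ((d : ℝ) / 1024) - (L : ℝ) / 65536 * ((d : ℝ) / 1024) ^ 2 =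
          ((2 * 1772454 * (d : ℝ) * 1024 * 65536 - L * d * d * 1000000) * 1125899906842624) /
            (65536 * 1048576 * 1000000 * 1125899906842624) := by
        field_simp
        ring
      rw [e, div_le_div_iff₀ (by norm_num) (by norm_num)]
      nlinarith
  · have h0' : (1772454 * 65536 * 1024 : ℝ) ≤ L * e0 * 1000000 := by exact_mod_cast h0
    have h1' : ((2 * 1772454 * (e0 : ℝ) * 1024 * 65536 - L * e0 * e0 * 1000000) * 1125899906842624 : ℝ) ≤
        G * 65536 * 1048576 * 1000000 := by exact_mod_cast h1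
    refine (Jf_le_JJ V).trans (JJ_low (by positivity) he ?_ ?_)
    · have e : (L : ℝ) / 65536 * ((e0 : ℝ) / 1024) =
          ((L : ℝ) * e0 * 1000000) / (65536 * 1024 * 1000000) := by
        field_simp
      rw [e, div_le_div_iff₀ (by norm_num) (by norm_num)]
      nlinarith
    · have e : 2 * (1772454 / 1000000) * ((e0 : ℝ) / 1024) - (L : ℝ) / 65536 * ((e0 : ℝ) / 1024) ^ 2 =
          ((2 * 1772454 * (e0 : ℝ) * 1024 * 65536 - L * e0 * e0 * 1000000) * 1125899906842624) /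
            (65536 * 1048576 * 1000000 * 1125899906842624) := by
        field_simp
        ring
      rw [e, div_le_div_iff₀ (by norm_num) (by norm_num)]
      nlinarith

/-! ## The value of a line -/

lemma sumC_zero {ty : Bool} {L B : ℤ} {st b c : ℕ} (h : c ≤ b) (f : ℕ) : sumC ty L B st f b c = 0 := by
  cases f with
  | zero => rfl
  | succ f =>
    simp only [sumC]
    rw [if_neg (by omega)]

lemma prof_false : prof false = IT := by simp [prof]

/-- The value of a rational line on a box, from below. -/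
lemma value_ge_band {L B : ℤ} {st b c d : ℕ} (hcd : c ≤ d) (hd : d ≤ 1024)
    {h k : ℝ} (h0 : 0 ≤ h) (h2 : h ≤ (b : ℝ) / 1024) (h3 : (c : ℝ) / 1024 ≤ k)
    (hhk : h ^ 2 ≤ k ^ 2) (V : ℝ) :
    (L : ℝ) / 65536 * V + ((gnumOf false L B st b c : ℤ) : ℝ) / 1125899906842624 ≤
      lineValue IT ((L : ℝ) / 65536) ((B : ℝ) / 65536) V (h ^ 2) (k ^ 2) := by
  have hI : Continuous (prof false) := prof_continuous false
  have hval : lineValue IT ((L : ℝ) / 65536) ((B : ℝ) / 65536) V (h ^ 2) (k ^ 2) =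
      (L : ℝ) / 65536 * V + (B : ℝ) / 65536 +
        2 * ∫ s in (h ^ 2)..(k ^ 2), gg (prof false) ((L : ℝ) / 65536) ((B : ℝ) / 65536) s := by
    rw [prof_false]
    rfl
  set S : ℝ := (sumC false L B st 2048 b c : ℝ) with hS
  have hg : ((gnumOf false L B st b c : ℤ) : ℝ) / 1125899906842624 =
      (B : ℝ) / 65536 + 2 * (S / (16384 * 1048576)) := by
    unfold gnumOf
    simp only [Bool.false_eq_true, if_false]
    push_cast
    rw [hS]
    ring
  rw [hg, hval]
  have key : S / (16384 * 1048576) ≤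
      ∫ s in (h ^ 2)..(k ^ 2), gg (prof false) ((L : ℝ) / 65536) ((B : ℝ) / 65536) s := by
    by_cases hbc : b ≤ c
    · have hsum := sumC_le false L B st c (hcd.trans hd) 2048 b hbc
      have hmono := integral_gg_mono hI ((L : ℝ) / 65536) ((B : ℝ) / 65536)
        (sq_le_sn h0 h2) (sn_mono hbc) (sn_le_sq h3)
      exact hsum.trans hmono
    · have hz : sumC false L B st 2048 b c = 0 := sumC_zero (by omega) _
      have : S = 0 := by rw [hS, hz]; simp
      rw [this, zero_div]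
      exact intervalIntegral.integral_nonneg hhk (fun s _ => gg_nonneg _ _ _ _)
  linarith

/-! ## The bonus -/

lemma IT_le_cell {s : ℝ} {j : ℕ} (hs0 : 0 ≤ s) (hs : s ≤ sn j) :
    IT s ≤ ((min (2 * 1772454 * j) (2 * 1000000 * 1024) : ℕ) : ℝ) / 1024000000 := by
  have hcap : IT s ≤ 2 := (min_le_left _ _).trans (min_le_right _ _)
  have hdisc : IT s ≤ 2 * √(π * s) := (min_le_left _ _).trans (min_le_left _ _)
  have h1 : √(π * s) ≤ √π * ((j : ℝ) / 1024) := by
    have e : √π * ((j : ℝ) / 1024) = √(π * ((j : ℝ) / 1024) ^ 2) := by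
      rw [Real.sqrt_mul Real.pi_pos.le, Real.sqrt_sq (by positivity)]
    rw [e]
    apply Real.sqrt_le_sqrt
    exact mul_le_mul_of_nonneg_left hs Real.pi_pos.le
  have h2 : √π * ((j : ℝ) / 1024) ≤ (1772454 / 1000000) * ((j : ℝ) / 1024) :=
    mul_le_mul_of_nonneg_right sqrt_pi_lt (by positivity)
  rcases le_total (2 * 1772454 * j) (2 * 1000000 * 1024) with h | h
  · rw [min_eq_left h]
    push_cast
    have e : 3544908 * (j : ℝ) / 1024000000 = 2 * ((1772454 / 1000000) * ((j : ℝ) / 1024)) := by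
      ring
    rw [e]
    linarith
  · rw [min_eq_right h]
    norm_num
    norm_num at hcap
    linarith

lemma IL_ge_cell {s : ℝ} {j r : ℕ} (hr : r * r + j * j ≤ 1048576) (hs : s ≤ sn j) :
    ((2 * 1772453 * r : ℕ) : ℝ) / 1024000000 ≤ IL s := by
  have hr' : (r : ℝ) * r + (j : ℝ) * j ≤ 1048576 := by exact_mod_cast hr
  have h6 : ((r : ℝ) / 1024) ^ 2 ≤ 1 - s := by
    have : ((r : ℝ) / 1024) ^ 2 ≤ 1 - sn j := by
      unfold sn
      rw [div_pow, div_pow, le_sub_iff_add_le, ← add_div, div_le_one (by norm_num)]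
      nlinarith
    linarith
  have h7 : √π * ((r : ℝ) / 1024) ≤ √(π * (1 - s)) := by
    have e : √(π * ((r : ℝ) / 1024) ^ 2) = √π * ((r : ℝ) / 1024) := by
      rw [Real.sqrt_mul Real.pi_pos.le, Real.sqrt_sq (by positivity)]
    rw [← e]
    apply Real.sqrt_le_sqrt
    exact mul_le_mul_of_nonneg_left h6 Real.pi_pos.le
  have h8 : (1772453 / 1000000) * ((r : ℝ) / 1024) ≤ √π * ((r : ℝ) / 1024) :=
    mul_le_mul_of_nonneg_right sqrt_pi_gt (by positivity)
  unfold IL
  push_cast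
  have e : 3544906 * (r : ℝ) / 1024000000 = 2 * ((1772453 / 1000000) * ((r : ℝ) / 1024)) := by
    ring
  rw [e]
  linarith

lemma gain_step_sound {L B : ℤ} {Bn j j2 : ℕ} (hOK : gainStep L B Bn j j2 = true) (hj : 0 < j)
    {s : ℝ} (hs1 : sn j ≤ s) (hs2 : s ≤ sn j2) :
    (Bn : ℝ) / 65536 ≤ gain IT IL ((L : ℝ) / 65536) ((B : ℝ) / 65536) s := by
  simp only [gainStep, Bool.and_eq_true, decide_eq_true_eq] at hOK
  obtain ⟨⟨⟨⟨⟨hr, hUW⟩, hq1⟩, hq2⟩, hb1⟩, hb2⟩ := hOK
  set r := isq (1048576 - j2 * j2) with hrdef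
  set U := min (2 * 1772454 * j2) (2 * 1000000 * 1024) with hUdef
  set W := 2 * 1772453 * r with hWdef
  have hsn0 : 0 < sn j := by
    unfold sn
    have : (0 : ℝ) < j := by exact_mod_cast hj
    positivity
  have hs0 : 0 < s := lt_of_lt_of_le hsn0 hs1
  have hIT : IT s ≤ (U : ℝ) / 1024000000 := IT_le_cell hs0.le hs2
  have hIL : (W : ℝ) / 1024000000 ≤ IL s := IL_ge_cell hr hs2
  have hUW' : (U : ℝ) < W := by exact_mod_cast hUW
  set U' : ℝ := (U : ℝ) / 1024000000 with hU'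
  set W' : ℝ := (W : ℝ) / 1024000000 with hW'
  have hUW2 : U' < W' := by
    rw [hU', hW']
    exact div_lt_div_of_pos_right hUW' (by norm_num)
  have hU'0 : 0 ≤ U' := by positivity
  have hIL0 : 0 < IL s := by linarith
  have h1s : 0 < 1 - s := by
    by_contra hc
    have hc := not_lt.1 hc
    have : √(π * (1 - s)) = 0 := Real.sqrt_eq_zero_of_nonpos (by nlinarith [Real.pi_pos])
    unfold IL at hIL0
    rw [this] at hIL0
    simp at hIL0
  have hITpos : 0 < IT s := by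
    unfold IT
    refine lt_min (lt_min ?_ (by norm_num)) ?_
    · have : 0 < √(π * s) := Real.sqrt_pos.2 (by positivity)
      linarith
    · have : 0 < √(π * (1 - s)) := Real.sqrt_pos.2 (by positivity)
      linarith
  have hU'pos : 0 < U' := lt_of_lt_of_le hITpos hIT
  set l : ℝ := (L : ℝ) / 65536 with hl
  set b : ℝ := (B : ℝ) / 65536 with hb
  have hqc : ((qn L B j : ℤ) : ℝ) / 68719476736 = l * sn j + b := qn_cast L B j
  have hqc2 : ((qn L B j2 : ℤ) : ℝ) / 68719476736 = l * sn j2 + b := qn_cast L B j2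
  have hd : ((W - U : ℕ) : ℝ) = (W : ℝ) - U := by
    rw [Nat.cast_sub hUW.le]
  have hb1' : ((Bn : ℝ) * U * 1048576) ≤ ((qn L B j : ℤ) : ℝ) * ((W : ℝ) - U) := by
    have : (((Bn * U * 1048576 : ℕ) : ℤ) : ℝ) ≤ ((qn L B j * ((W - U : ℕ) : ℤ) : ℤ) : ℝ) := by
      exact_mod_cast hb1
    rw [Int.cast_mul, Int.cast_natCast, Int.cast_natCast, hd] at this
    push_cast at this
    exact this
  have hb2' : ((Bn : ℝ) * U * 1048576) ≤ ((qn L B j2 : ℤ) : ℝ) * ((W : ℝ) - U) := by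
    have : (((Bn * U * 1048576 : ℕ) : ℤ) : ℝ) ≤ ((qn L B j2 * ((W - U : ℕ) : ℤ) : ℤ) : ℝ) := by
      exact_mod_cast hb2
    rw [Int.cast_mul, Int.cast_natCast, Int.cast_natCast, hd] at this
    push_cast at this
    exact this
  have hscale : ∀ x : ℝ, ((Bn : ℝ) * U * 1048576) ≤ x * ((W : ℝ) - U) →
      (Bn : ℝ) / 65536 * U' ≤ (x / 68719476736) * (W' - U') := by
    intro x hx
    rw [hU', hW']
    have e1 : (Bn : ℝ) / 65536 * ((U : ℝ) / 1024000000) =
        ((Bn : ℝ) * U * 1048576) / (68719476736 * 1024000000) := by ring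
    have e2 : x / 68719476736 * ((W : ℝ) / 1024000000 - (U : ℝ) / 1024000000) =
        (x * ((W : ℝ) - U)) / (68719476736 * 1024000000) := by ring
    rw [e1, e2]
    exact div_le_div_of_nonneg_right hx (by norm_num)
  have hb1s := hscale _ hb1'
  have hb2s := hscale _ hb2'
  rw [hqc] at hb1s
  rw [hqc2] at hb2s
  have hq1r : 0 ≤ l * sn j + b := by
    rw [← hqc]
    have : (0 : ℝ) ≤ ((qn L B j : ℤ) : ℝ) := by exact_mod_cast hq1
    positivity
  have hq2r : 0 ≤ l * sn j2 + b := by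
    rw [← hqc2]
    have : (0 : ℝ) ≤ ((qn L B j2 : ℤ) : ℝ) := by exact_mod_cast hq2
    positivity
  have hWU : 0 ≤ W' - U' := by linarith
  -- the line at the point is above one of the two end values
  have hq : 0 ≤ l * s + b ∧ (Bn : ℝ) / 65536 * U' ≤ (l * s + b) * (W' - U') := by
    rcases le_total 0 l with h0 | h0
    · have h3 : l * sn j ≤ l * s := mul_le_mul_of_nonneg_left hs1 h0
      refine ⟨by linarith, hb1s.trans (mul_le_mul_of_nonneg_right (by linarith) hWU)⟩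
    · have h3 : l * sn j2 ≤ l * s := mul_le_mul_of_nonpos_left hs2 h0
      refine ⟨by linarith, hb2s.trans (mul_le_mul_of_nonneg_right (by linarith) hWU)⟩
  obtain ⟨hq0, hqB⟩ := hq
  unfold gain
  rw [max_eq_left hq0, div_mul_eq_mul_div, le_div_iff₀ hITpos]
  have hB : (W' - U') * IT s ≤ (IL s - IT s) * U' := by
    have h1 : W' * IT s ≤ IL s * IT s := mul_le_mul_of_nonneg_right hIL hITpos.le
    have h2 : IL s * IT s ≤ IL s * U' := mul_le_mul_of_nonneg_left hIT hIL0.le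
    nlinarith
  have hfin : (Bn : ℝ) / 65536 * IT s * U' ≤ (l * s + b) * (IL s - IT s) * U' := by
    have h1 : (Bn : ℝ) / 65536 * U' * IT s ≤ (l * s + b) * (W' - U') * IT s :=
      mul_le_mul_of_nonneg_right hqB hITpos.le
    have h2 : (l * s + b) * ((W' - U') * IT s) ≤ (l * s + b) * ((IL s - IT s) * U') :=
      mul_le_mul_of_nonneg_left hB hq0
    nlinarith
  exact le_of_mul_le_mul_right hfin hU'pos

lemma gain_chain_sound {L B : ℤ} {Bn w : ℕ} (d : ℕ) : ∀ (f j : ℕ), gainC L B Bn w f j d = true →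
    0 < j → j < d → ∀ s : ℝ, sn j ≤ s → s ≤ sn d →
      (Bn : ℝ) / 65536 ≤ gain IT IL ((L : ℝ) / 65536) ((B : ℝ) / 65536) s := by
  intro f
  induction f with
  | zero =>
    intro j h
    simp [gainC] at h
  | succ f ih =>
    intro j h hj hjd s hs1 hs2
    simp only [gainC] at h
    rw [if_pos hjd] at h
    simp only [Bool.and_eq_true] at h
    obtain ⟨h1, h2⟩ := h
    set j2 := min (j + w) d with hj2
    have hjj : j ≤ j2 := le_min (Nat.le_add_right _ _) hjd.le
    have hj2d : j2 ≤ d := min_le_right _ _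
    rcases le_or_gt s (sn j2) with hc | hc
    · exact gain_step_sound h1 hj hs1 hc
    · have hlt : j2 < d := by
        rcases lt_or_eq_of_le hj2d with hh | hh
        · exact hh
        · exfalso
          rw [hh] at hc
          linarith
      exact ih j2 h2 (by omega) hlt s hc.le hs2

/-! ## Soundness -/

/-- The strict form of the alternative with the line alone. -/
def TLineS (V m M : ℝ) : Prop := ∃ l b, LineAdm IT l b m M ∧ Jf V < lineValue IT l b V m M

/-- The strict form of the conclusion of `CertBand`. -/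
def BandS (V m M : ℝ) : Prop :=
  TLineS V m M ∨ ∃ l b T B : ℝ, 0 ≤ T ∧ T < 1 ∧ T * M ≤ m ∧ (m < tstar → T ≤ tstar) ∧
    LineAdm IT l b m M ∧ (∀ s ∈ Icc ((V - T * M) / (1 - T)) M, B ≤ gain IT IL l b s) ∧
    Jf V < lineValue IT l b V m M + T * B

lemma e0_sq {a : ℕ} {h V : ℝ} (h1 : (a : ℝ) / 1024 ≤ h) (hV : 1 / 4 ≤ V) (hhV : h ^ 2 ≤ V) :
    (((max a 512 : ℕ) : ℝ) / 1024) ^ 2 ≤ V := by
  rcases le_total a 512 with h0 | h0
  · rw [max_eq_right h0]
    norm_num
    norm_num at hV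
    linarith
  · rw [max_eq_left h0]
    have := pow_le_pow_left₀ (by positivity) h1 2
    linarith

lemma adm_IT {L B : ℤ} {a d : ℕ} {h k : ℝ} (hd : d ≤ 1024) (h1 : (a : ℝ) / 1024 ≤ h) (k0 : 0 ≤ k)
    (h4 : k ≤ (d : ℝ) / 1024)
    (hfa : qn L B a * 1024000000 ≤ ((tnode false a * 68719476736 : ℕ) : ℤ))
    (hfd : qn L B d * 1024000000 ≤ ((tnode false d * 68719476736 : ℕ) : ℤ)) :
    LineAdm IT ((L : ℝ) / 65536) ((B : ℝ) / 65536) (h ^ 2) (k ^ 2) := by
  have := feasible_adm (ty := false) hd (sn_le_sq h1) (sq_le_sn k0 h4) hfa hfd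
  rwa [prof_false] at this

lemma leafT_sound {L B : ℤ} {st a b c d : ℕ} (hOK : leafT L B st a b c d = true)
    {h k V : ℝ} (h1 : (a : ℝ) / 1024 ≤ h) (h2 : h ≤ (b : ℝ) / 1024) (h3 : (c : ℝ) / 1024 ≤ k)
    (h4 : k ≤ (d : ℝ) / 1024) (hV : 1 / 4 ≤ V) (hV2 : V ≤ 37 / 100) (hhV : h ^ 2 ≤ V)
    (hVk : V ≤ k ^ 2) : BandS V (h ^ 2) (k ^ 2) := by
  simp only [leafT, Bool.and_eq_true, decide_eq_true_eq] at hOK
  obtain ⟨⟨⟨⟨hd, hcd⟩, hfa⟩, hfd⟩, hK⟩ := hOK
  have h0 : 0 ≤ h := le_trans (by positivity) h1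
  have k0 : 0 ≤ k := le_trans (by positivity) h3
  have hVd : V ≤ ((d : ℝ) / 1024) ^ 2 := hVk.trans (pow_le_pow_left₀ k0 h4 2)
  have hJ := jf_le_of_kBand hK hV hV2 (e0_sq h1 hV hhV) hVd
  have hval := value_ge_band (L := L) (B := B) (st := st) hcd hd h0 h2 h3 (hhV.trans hVk) V
  left
  refine ⟨_, _, adm_IT hd h1 k0 h4 hfa hfd, ?_⟩
  refine lt_of_lt_of_le ?_ hval
  refine lt_of_le_of_lt hJ ?_
  have e : (((gnumOf false L B st b c - 1 : ℤ)) : ℝ) = ((gnumOf false L B st b c : ℤ) : ℝ) - 1 := by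
    push_cast
    ring
  rw [e]
  have : ((gnumOf false L B st b c : ℤ) : ℝ) - 1 < ((gnumOf false L B st b c : ℤ) : ℝ) := by linarith
  have := div_lt_div_of_pos_right this (by norm_num : (0 : ℝ) < 1125899906842624)
  linarith

lemma leafU_sound {L B : ℤ} {st Tn Bn e w a b c d : ℕ}
    (hOK : leafU L B st Tn Bn e w a b c d = true)
    {h k V : ℝ} (h1 : (a : ℝ) / 1024 ≤ h) (h2 : h ≤ (b : ℝ) / 1024) (h3 : (c : ℝ) / 1024 ≤ k)
    (h4 : k ≤ (d : ℝ) / 1024) (hV : 1 / 4 ≤ V) (hV2 : V ≤ 37 / 100) (hhV : h ^ 2 ≤ V)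
    (hVk : V ≤ k ^ 2) : BandS V (h ^ 2) (k ^ 2) := by
  simp only [leafU, Bool.and_eq_true, Bool.or_eq_true, decide_eq_true_eq] at hOK
  obtain ⟨⟨⟨⟨⟨⟨⟨⟨⟨⟨⟨hd, hcd⟩, hfa⟩, hfd⟩, hT⟩, hTM⟩, hTs⟩, he0⟩, hed⟩, hre⟩, hG⟩, hK⟩ := hOK
  have h0 : 0 ≤ h := le_trans (by positivity) h1
  have k0 : 0 ≤ k := le_trans (by positivity) h3
  have hkd : k ^ 2 ≤ ((d : ℝ) / 1024) ^ 2 := pow_le_pow_left₀ k0 h4 2
  have hak : ((a : ℝ) / 1024) ^ 2 ≤ h ^ 2 := pow_le_pow_left₀ (by positivity) h1 2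
  have hVd : V ≤ ((d : ℝ) / 1024) ^ 2 := hVk.trans hkd
  have hJ := jf_le_of_kBand hK hV hV2 (e0_sq h1 hV hhV) hVd
  have hval := value_ge_band (L := L) (B := B) (st := st) hcd hd h0 h2 h3 (hhV.trans hVk) V
  have hTn : (Tn : ℝ) < 1024 := by exact_mod_cast hT
  have hTM' : (Tn : ℝ) * d * d ≤ 1024 * a * a := by exact_mod_cast hTM
  set T : ℝ := (Tn : ℝ) / 1024 with hTdef
  have hT0 : 0 ≤ T := by positivity
  have hT1 : T < 1 := by
    rw [hTdef, div_lt_one (by norm_num)]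
    exact hTn
  have hTd : T * ((d : ℝ) / 1024) ^ 2 ≤ ((a : ℝ) / 1024) ^ 2 := by
    rw [hTdef, div_pow, div_pow]
    have : (Tn : ℝ) / 1024 * ((d : ℝ) ^ 2 / 1024 ^ 2) = ((Tn : ℝ) * d * d) / (1024 * 1024 ^ 2) := by
      ring
    rw [this]
    have : (a : ℝ) ^ 2 / 1024 ^ 2 = (1024 * a * a) / (1024 * 1024 ^ 2) := by ring
    rw [this]
    exact div_le_div_of_nonneg_right hTM' (by positivity)
  have hTk : T * k ^ 2 ≤ T * ((d : ℝ) / 1024) ^ 2 := mul_le_mul_of_nonneg_left hkd hT0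
  right
  refine ⟨(L : ℝ) / 65536, (B : ℝ) / 65536, T, (Bn : ℝ) / 65536, hT0, hT1, by linarith, ?_,
    adm_IT hd h1 k0 h4 hfa hfd, ?_, ?_⟩
  · intro hm
    rcases hTs with hc | hc
    · have hc' : 10 * (Tn : ℝ) ≤ 1024 := by exact_mod_cast hc
      have hts : tstar = 1 / 10 := rfl
      rw [hts, hTdef, div_le_div_iff₀ (by norm_num) (by norm_num)]
      linarith
    · exfalso
      have hc' : (1048576 : ℝ) ≤ 10 * a * a := by exact_mod_cast hc
      have hts : tstar = 1 / 10 := rfl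
      rw [hts] at hm
      have : (1 : ℝ) / 10 ≤ ((a : ℝ) / 1024) ^ 2 := by
        rw [div_pow, div_le_div_iff₀ (by norm_num) (by norm_num)]
        nlinarith
      linarith
  · intro s hs
    have hre' : (e : ℝ) * e * (1024 - Tn) + Tn * d * d ≤ 1024 * ((max 262144 (a * a) : ℕ) : ℝ) := by
      have h5 : (Tn : ℝ) ≤ 1024 := hTn.le
      have h6 : ((e * e * (1024 - Tn) + Tn * d * d : ℕ) : ℝ) ≤
          ((1024 * max 262144 (a * a) : ℕ) : ℝ) := by exact_mod_cast hre
      push_cast [Nat.cast_sub hT.le] at h6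
      exact_mod_cast h6
    have hVl : ((max 262144 (a * a) : ℕ) : ℝ) / 1048576 ≤ V := by
      rcases le_total 262144 (a * a) with h7 | h7
      · rw [max_eq_right h7]
        push_cast
        have : (a : ℝ) * a / 1048576 = ((a : ℝ) / 1024) ^ 2 := by ring
        rw [this]
        linarith
      · rw [max_eq_left h7]
        norm_num
        norm_num at hV
        linarith
    have hlow : sn e ≤ (V - T * k ^ 2) / (1 - T) := by
      rw [le_div_iff₀ (by linarith)]
      have h8 : sn e * (1 - T) + T * ((d : ℝ) / 1024) ^ 2 ≤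
          ((max 262144 (a * a) : ℕ) : ℝ) / 1048576 := by
        unfold sn
        rw [hTdef]
        have e1 : ((e : ℝ) / 1024) ^ 2 * (1 - (Tn : ℝ) / 1024) + (Tn : ℝ) / 1024 * ((d : ℝ) / 1024) ^ 2 =
            ((e : ℝ) * e * (1024 - Tn) + Tn * d * d) / (1024 * 1048576) := by
          field_simp
          ring
        rw [e1]
        have e2 : ((max 262144 (a * a) : ℕ) : ℝ) / 1048576 =
            (1024 * ((max 262144 (a * a) : ℕ) : ℝ)) / (1024 * 1048576) := by ring
        rw [e2]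
        exact div_le_div_of_nonneg_right hre' (by norm_num)
      linarith
    refine gain_chain_sound d 2048 e hG he0 hed s (hlow.trans hs.1) ?_
    exact hs.2.trans (sq_le_sn k0 h4)
  · refine lt_of_le_of_lt hJ ?_
    have e1 : (((gnumOf false L B st b c + (Tn : ℤ) * (Bn : ℤ) * 16777216 - 1 : ℤ)) : ℝ) =
        ((gnumOf false L B st b c : ℤ) : ℝ) + (Tn : ℝ) * Bn * 16777216 - 1 := by
      push_cast
      ring
    rw [e1]
    have e2 : T * ((Bn : ℝ) / 65536) = (Tn : ℝ) * Bn * 16777216 / 1125899906842624 := by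
      rw [hTdef]
      ring
    rw [e2]
    have e3 : (((gnumOf false L B st b c : ℤ) : ℝ) + (Tn : ℝ) * Bn * 16777216 - 1) / 1125899906842624 =
        ((gnumOf false L B st b c : ℤ) : ℝ) / 1125899906842624 +
          (Tn : ℝ) * Bn * 16777216 / 1125899906842624 - 1 / 1125899906842624 := by
      ring
    rw [e3]
    have : (0 : ℝ) < 1 / 1125899906842624 := by norm_num
    linarith

/-- Soundness of the tree test. -/
theorem checkB_sound : ∀ (t : BTree) (a b c d : ℕ), checkB t a b c d = true →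
    ∀ h k V : ℝ, (a : ℝ) / 1024 ≤ h → h ≤ (b : ℝ) / 1024 → (c : ℝ) / 1024 ≤ k → k ≤ (d : ℝ) / 1024 →
      1 / 4 ≤ V → V ≤ 37 / 100 → h ^ 2 ≤ V → V ≤ k ^ 2 → BandS V (h ^ 2) (k ^ 2) := by
  intro t
  induction t with
  | t L B st =>
    intro a b c d hOK h k V h1 h2 h3 h4 h5 h6 h7 h8
    exact leafT_sound (by simpa [checkB] using hOK) h1 h2 h3 h4 h5 h6 h7 h8
  | u L B st Tn Bn e w =>
    intro a b c d hOK h k V h1 h2 h3 h4 h5 h6 h7 h8
    exact leafU_sound (by simpa [checkB] using hOK) h1 h2 h3 h4 h5 h6 h7 h8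
  | h mid l r ihl ihr =>
    intro a b c d hOK h k V h1 h2 h3 h4 h5 h6 h7 h8
    simp only [checkB, Bool.and_eq_true] at hOK
    rcases le_total h ((mid : ℝ) / 1024) with hm | hm
    · exact ihl _ _ _ _ hOK.1 h k V h1 hm h3 h4 h5 h6 h7 h8
    · exact ihr _ _ _ _ hOK.2 h k V hm h2 h3 h4 h5 h6 h7 h8
  | k mid l r ihl ihr =>
    intro a b c d hOK h k V h1 h2 h3 h4 h5 h6 h7 h8
    simp only [checkB, Bool.and_eq_true] at hOK
    rcases le_total k ((mid : ℝ) / 1024) with hm | hm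
    · exact ihl _ _ _ _ hOK.1 h k V h1 h2 h3 hm h5 h6 h7 h8
    · exact ihr _ _ _ _ hOK.2 h k V h1 h2 hm h4 h5 h6 h7 h8

end Vale.Agent.Lib.P232.Band
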