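import Vale.Agent.Lib.P232.Profiles3
import Vale.Agent.Lib.P232.CellSound

/-!
# P232: the cycle certificate, checker and soundness

A binary tree of boxes in `(m, M)` with corners `sn j = (j/1024)²`, with a rational line on every
leaf.  On a Riemann cell the profile `ICp` is replaced by the concave function
`min (IE s) (min (xline i (s - 1/10)) 2.5455)`.
-/

namespace Vale.Agent.Lib.P232.CyC

open Real MeasureTheory Set intervalIntegral
open Vale.Agent.Lib.P232
open Vale.Agent.Lib.P232.Cells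

/-- Numerators of `thetaTab` over `100000`. -/
def thN : List ℕ :=
  [100000, 99957, 99832, 99622, 99328, 98947, 98478, 97918, 97264, 96513, 95660, 94699, 93624,
   92425, 91091, 89608, 87954, 86101, 84002, 81571, 78538]

/-- `xline i (sn j - 1/10)`, over `2^20 * 10^6`. -/
def xnode (i j : ℕ) : ℤ :=
  (i : ℤ) * j * j * 100000 - (i : ℤ) * 10485760000 + ((thN.getD i 0 : ℕ) : ℤ) * 20971520

/-- Lower bound at the node `j` for the concave cell profile, over `2^20 * 10^6`. -/
def pn (i j : ℕ) : ℤ :=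
  min ((tnode true j * 1024 : ℕ) : ℤ) (min (xnode i j) 2669150208000)

/-- Rounded up ratio of line to profile at a node, over `16384`. -/
def rho (L B : ℤ) (i j : ℕ) : ℕ :=
  ((qn L B j).toNat * (16384 * 1048576000000) + (pn i j).toNat * 68719476736 - 1) /
    ((pn i j).toNat * 68719476736)

/-- The table for the choice of the index on a cell. -/
def iTab : List ℕ :=
  [0, 0, 0, 0, 0, 0, 0, 0, 0, 0, 0, 2, 3, 5, 6, 8, 9, 11, 12, 14, 15, 16, 17, 18, 18, 19, 19, 20, 20, 20, 20, 20, 20]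

/-- The index on the cell starting at `j`. -/
def iOf (j : ℕ) : ℕ := min 20 (iTab.getD (j / 32) 0)

lemma iOf_le (j : ℕ) : iOf j ≤ 20 := min_le_left _ _

/-- The ratio on a cell. -/
def rc (L B : ℤ) (j j2 : ℕ) : ℕ := max (rho L B (iOf j) j) (rho L B (iOf j) j2)

/-- The test on a cell. -/
def cellOK (L B : ℤ) (j j2 R : ℕ) : Bool :=
  decide (qn L B j * (16384 * 1048576000000) ≤ (R : ℤ) * pn (iOf j) j * 68719476736) &&
  decide (qn L B j2 * (16384 * 1048576000000) ≤ (R : ℤ) * pn (iOf j) j2 * 68719476736) &&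
  decide (R ≤ 16384)

/-- Upper bound for `κ (ICp - IT)` on a cell, over `16384 * 2^20 * 10^6`. -/
def BC (R j j2 : ℕ) : ℕ :=
  if j2 ≤ 577 then 0
  else R * (min 2669255065600 (2 * 1772454 * j2 * 1024) - min (tnode false j) (tnode false j2) * 1024)

/-- The test on all the cells of a level range. -/
def okR (L B : ℤ) (Bn st : ℕ) : ℕ → ℕ → ℕ → Bool
  | 0, j, j1 => decide (j1 ≤ j)
  | f + 1, j, j1 =>
    if j < j1 then
      cellOK L B j (min (j + st) j1) (rc L B j (min (j + st) j1)) &&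
        decide (BC (rc L B j (min (j + st) j1)) j (min (j + st) j1) ≤ Bn) &&
        okR L B Bn st f (min (j + st) j1) j1
    else true

/-- Lower bound for the integrand on a cell, over `16384`. -/
def stepR (L B : ℤ) (j j2 : ℕ) : ℕ :=
  if cellOK L B j j2 (rc L B j j2) = true then isq (16384 * 16384 - rc L B j j2 * rc L B j j2) else 0

/-- The Riemann sum, over `16384 * 1048576`. -/
def sumR (L B : ℤ) (st : ℕ) : ℕ → ℕ → ℕ → ℕ
  | 0, _, _ => 0
  | f + 1, j, j1 =>
    if j < j1 then
      stepR L B j (min (j + st) j1) * (min (j + st) j1 * min (j + st) j1 - j * j) +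
        sumR L B st f (min (j + st) j1) j1
    else 0

/-- The constant term on a leaf, over `S = 10 * 16384 * 2^20 * 10^6`. -/
def gZ (L B : ℤ) (st Bn b c : ℕ) : ℤ :=
  B * 2621440000000 + (sumR L B st 2048 b c : ℤ) * 20000000 - (Bn : ℤ)

/-- The line at `V = p / 10^4`, over `S`. -/
def Val (L g : ℤ) (p : ℕ) : ℤ := L * p * 262144000 + g

/-- The largest volume on a leaf, over `10^4`. -/
def pHi (d : ℕ) : ℕ := min 3700 ((d * d * 10000 + 1048575) / 1048576)

/-- The volume test. -/
def vOK (L g : ℤ) (rh kk d : ℕ) : Bool :=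
  decide (0 < rh) && decide (3141593 * 1048576 ≤ rh * kk * 1000000) &&
  decide ((rh : ℤ) * 2500 * 16777216000 + (kk : ℤ) * 167772160000000 ≤ Val L g 2500) &&
  decide ((rh : ℤ) * (min 3184 (pHi d) : ℕ) * 16777216000 + (kk : ℤ) * 167772160000000 ≤
    Val L g (min 3184 (pHi d))) &&
  (decide (pHi d ≤ 3184) ||
    (decide (2 * 171798691840000000 ≤ Val L g 3184) && decide (2 * 171798691840000000 ≤ Val L g (pHi d))))

/-- The test on a leaf. -/
def leafOK (L B : ℤ) (st Bn rh kk a b c d : ℕ) : Bool :=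
  decide (a ≤ b) && decide (b < c) && decide (c ≤ d) && decide (d ≤ 1024) &&
    okR L B Bn st 2048 a d && vOK L (gZ L B st Bn b c - 1) rh kk d

/-- The tree of boxes. -/
inductive CTree where
  | leaf (L B : ℤ) (st Bn rh kk : ℕ) : CTree
  | splitH (mid : ℕ) (l r : CTree) : CTree
  | splitK (mid : ℕ) (l r : CTree) : CTree

/-- The test on a tree, for `m ∈ [sn a, sn b]`, `M ∈ [sn c, sn d]`. -/
def checkTree : CTree → ℕ → ℕ → ℕ → ℕ → Bool
  | .leaf L B st Bn rh kk, a, b, c, d => leafOK L B st Bn rh kk a b c d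
  | .splitH mid l r, a, b, c, d =>
    decide (a ≤ mid) && decide (mid ≤ b) && checkTree l a mid c d && checkTree r mid b c d
  | .splitK mid l r, a, b, c, d =>
    decide (c ≤ mid) && decide (mid ≤ d) && checkTree l a b c mid && checkTree r a b mid d

/-! ## Real side -/

lemma ICp_nonneg (s : ℝ) : 0 ≤ ICp s := (IT_nonneg s).trans (IT_le_ICp s)

lemma xnode_cast {i : ℕ} (hi : i ≤ 20) (j : ℕ) :
    ((xnode i j : ℤ) : ℝ) / 1048576000000 = xline i (sn j - tstar) := by
  have hth : ((thetaTab.getD i 0 : ℚ) : ℝ) = ((thN.getD i 0 : ℕ) : ℝ) / 100000 := by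
    interval_cases i <;> simp [thetaTab, thN]
  unfold xnode xline sn tstar
  rw [hth]
  push_cast
  ring

lemma affine_concave (i : ℕ) : ConcaveOn ℝ (Icc (0 : ℝ) 1) (fun s => xline i (s - tstar)) := by
  refine ⟨convex_Icc _ _, ?_⟩
  intro x _ y _ a b _ _ hab
  simp only [smul_eq_mul, xline]
  have : b = 1 - a := by linarith
  subst this
  apply le_of_eq
  ring

lemma const_concave (c : ℝ) : ConcaveOn ℝ (Icc (0 : ℝ) 1) (fun _ : ℝ => c) :=
  concaveOn_const _ (convex_Icc _ _)

lemma two_sqrt_two_ge : (25455 : ℝ) / 10000 ≤ 2 * √2 * (1 - tstar) := by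
  have h : (141421 : ℝ) / 100000 ≤ √2 := by
    apply Real.le_sqrt_of_sq_le
    norm_num
  unfold tstar
  nlinarith

lemma two_sqrt_two_le : 2 * √2 * (1 - tstar) ≤ (25456 : ℝ) / 10000 := by
  have h : √2 ≤ (141422 : ℝ) / 100000 := by
    rw [Real.sqrt_le_left (by norm_num)]
    norm_num
  unfold tstar
  nlinarith

lemma ICp_le_cap (s : ℝ) : ICp s ≤ (25456 : ℝ) / 10000 := by
  unfold ICp
  exact (min_le_right _ _).trans ((min_le_right _ _).trans two_sqrt_two_le)

/-- The three pieces at a node. -/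
lemma pn_le_IE (i j : ℕ) : ((pn i j : ℤ) : ℝ) / 1048576000000 ≤ IE (sn j) := by
  have h1 : pn i j ≤ ((tnode true j * 1024 : ℕ) : ℤ) := min_le_left _ _
  have h2 : ((pn i j : ℤ) : ℝ) ≤ (tnode true j : ℝ) * 1024 := by exact_mod_cast h1
  have h3 := tnode_le true j
  have h4 : prof true = IE := by simp [prof]
  rw [h4] at h3
  refine le_trans ?_ h3
  rw [div_le_div_iff₀ (by norm_num) (by norm_num)]
  nlinarith

lemma pn_le_x {i : ℕ} (hi : i ≤ 20) (j : ℕ) :
    ((pn i j : ℤ) : ℝ) / 1048576000000 ≤ xline i (sn j - tstar) := by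
  have h1 : pn i j ≤ xnode i j := (min_le_right _ _).trans (min_le_left _ _)
  have h2 : ((pn i j : ℤ) : ℝ) ≤ ((xnode i j : ℤ) : ℝ) := by exact_mod_cast h1
  rw [← xnode_cast hi]
  exact div_le_div_of_nonneg_right h2 (by norm_num)

lemma pn_le_cap (i j : ℕ) : ((pn i j : ℤ) : ℝ) / 1048576000000 ≤ (25455 : ℝ) / 10000 := by
  have h1 : pn i j ≤ 2669150208000 := (min_le_right _ _).trans (min_le_right _ _)
  have h2 : ((pn i j : ℤ) : ℝ) ≤ 2669150208000 := by exact_mod_cast h1
  rw [div_le_div_iff₀ (by norm_num) (by norm_num)]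
  nlinarith

/-- A cast integer inequality at a node. -/
lemma node_le {L B : ℤ} {i j R : ℕ}
    (h : qn L B j * (16384 * 1048576000000) ≤ (R : ℤ) * pn i j * 68719476736) :
    (L : ℝ) / 65536 * sn j + (B : ℝ) / 65536 ≤ ((R : ℝ) / 16384) * (((pn i j : ℤ) : ℝ) / 1048576000000) := by
  rw [← qn_cast]
  have h' : ((qn L B j : ℤ) : ℝ) * (16384 * 1048576000000) ≤ (R : ℝ) * ((pn i j : ℤ) : ℝ) * 68719476736 := by
    exact_mod_cast h
  rw [div_le_iff₀ (by norm_num)]
  have e : (R : ℝ) / 16384 * (((pn i j : ℤ) : ℝ) / 1048576000000) * 68719476736 =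
      ((R : ℝ) * ((pn i j : ℤ) : ℝ) * 68719476736) / (16384 * 1048576000000) := by ring
  rw [e, le_div_iff₀ (by norm_num)]
  exact h'

/-- The line below `R/16384` times the profile on a cell. -/
lemma cell_line {L B : ℤ} {j j2 R : ℕ} (hj2 : j2 ≤ 1024)
    (h : cellOK L B j j2 R = true) {s : ℝ} (hs : s ∈ Icc (sn j) (sn j2)) :
    (L : ℝ) / 65536 * s + (B : ℝ) / 65536 ≤ ((R : ℝ) / 16384) * ICp s := by
  simp only [cellOK, Bool.and_eq_true, decide_eq_true_eq] at h
  obtain ⟨⟨h1, h2⟩, _⟩ := h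
  have hi := iOf_le j
  set i := iOf j with hidef
  have n1 := node_le h1
  have n2 := node_le h2
  have hρ : (0 : ℝ) ≤ (R : ℝ) / 16384 := by positivity
  have e1 := line_le_of_ends IE_concave (sn_nonneg j) (sn_le_one hj2) hρ
    (n1.trans (mul_le_mul_of_nonneg_left (pn_le_IE i j) hρ))
    (n2.trans (mul_le_mul_of_nonneg_left (pn_le_IE i j2) hρ)) hs
  have e2 := line_le_of_ends (affine_concave i) (sn_nonneg j) (sn_le_one hj2) hρ
    (n1.trans (mul_le_mul_of_nonneg_left (pn_le_x hi j) hρ))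
    (n2.trans (mul_le_mul_of_nonneg_left (pn_le_x hi j2) hρ)) hs
  have e3 := line_le_of_ends (const_concave ((25455 : ℝ) / 10000)) (sn_nonneg j) (sn_le_one hj2) hρ
    (n1.trans (mul_le_mul_of_nonneg_left (pn_le_cap i j) hρ))
    (n2.trans (mul_le_mul_of_nonneg_left (pn_le_cap i j2) hρ)) hs
  have e2' := e2.trans (mul_le_mul_of_nonneg_left (xline_le_xhat hi (s - tstar)) hρ)
  have e3' := e3.trans (mul_le_mul_of_nonneg_left two_sqrt_two_ge hρ)
  unfold ICp
  rcases min_choice (IE s) (min (xhat (s - tstar)) (2 * √2 * (1 - tstar))) with hm | hm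
  · rw [hm]; exact e1
  · rw [hm]
    rcases min_choice (xhat (s - tstar)) (2 * √2 * (1 - tstar)) with hm2 | hm2
    · rw [hm2]; exact e2'
    · rw [hm2]; exact e3'

/-- Admissibility on a cell. -/
lemma cell_adm {L B : ℤ} {j j2 R : ℕ} (hj2 : j2 ≤ 1024)
    (h : cellOK L B j j2 R = true) {s : ℝ} (hs : s ∈ Icc (sn j) (sn j2)) :
    max ((L : ℝ) / 65536 * s + (B : ℝ) / 65536) 0 ≤ ICp s := by
  have h1 := cell_line hj2 h hs
  simp only [cellOK, Bool.and_eq_true, decide_eq_true_eq] at h
  have hR : (R : ℝ) ≤ 16384 := by exact_mod_cast h.2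
  have hρ : (R : ℝ) / 16384 ≤ 1 := by rw [div_le_one (by norm_num)]; exact hR
  have h0 := ICp_nonneg s
  refine max_le ?_ h0
  refine h1.trans ?_
  nlinarith

/-- The weight on a cell. -/
lemma cell_kappa {L B : ℤ} {j j2 R : ℕ} (hj2 : j2 ≤ 1024)
    (h : cellOK L B j j2 R = true) {s : ℝ} (hs : s ∈ Icc (sn j) (sn j2)) :
    max ((L : ℝ) / 65536 * s + (B : ℝ) / 65536) 0 / ICp s ≤ (R : ℝ) / 16384 := by
  have h1 := cell_line hj2 h hs
  have h0 := ICp_nonneg s
  have hρ : (0 : ℝ) ≤ (R : ℝ) / 16384 := by positivity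
  rcases eq_or_lt_of_le h0 with h2 | h2
  · rw [← h2, div_zero]
    exact hρ
  · rw [div_le_iff₀ h2]
    exact max_le h1 (mul_nonneg hρ h0)

/-- Below `1/π` the profile `IT` is the disc profile. -/
lemma ICp_le_IT_small {s : ℝ} (hs : s ≤ sn 577) : ICp s ≤ IT s := by
  have h1 : ICp s ≤ IE s := min_le_left _ _
  have h2 : IE s ≤ 2 * √(π * s) := min_le_left _ _
  refine (h1.trans h2).trans ?_
  have hs' : s ≤ (3176 : ℝ) / 10000 := by
    refine hs.trans ?_
    unfold sn
    norm_num
  have hpi := pi_le_bar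
  have hpi0 := Real.pi_pos
  unfold IT
  refine le_min (le_min le_rfl ?_) ?_
  · have : √(π * s) ≤ 1 := by
      rw [Real.sqrt_le_one]
      nlinarith
    linarith
  · have : √(π * s) ≤ √(π * (1 - s)) := by
      apply Real.sqrt_le_sqrt
      nlinarith
    linarith

/-- `ICp` at a level below a node. -/
lemma ICp_le_node {s : ℝ} {j2 : ℕ} (hs : s ≤ sn j2) :
    ICp s ≤ (2 * 1772454 * (j2 : ℝ) * 1024) / 1048576000000 := by
  have h1 : ICp s ≤ IE s := min_le_left _ _
  have h2 : IE s ≤ 2 * √(π * s) := min_le_left _ _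
  have h3 : √(π * s) ≤ √π * ((j2 : ℝ) / 1024) := by
    have e : √(π * sn j2) = √π * ((j2 : ℝ) / 1024) := by
      unfold sn
      rw [Real.sqrt_mul Real.pi_pos.le, Real.sqrt_sq (by positivity)]
    rw [← e]
    apply Real.sqrt_le_sqrt
    exact mul_le_mul_of_nonneg_left hs Real.pi_pos.le
  have h4 := sqrt_pi_lt
  have h5 : √π * ((j2 : ℝ) / 1024) ≤ (1772454 : ℝ) / 1000000 * ((j2 : ℝ) / 1024) :=
    mul_le_mul_of_nonneg_right h4 (by positivity)
  have e2 : (2 * 1772454 * (j2 : ℝ) * 1024) / 1048576000000 =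
      2 * ((1772454 : ℝ) / 1000000 * ((j2 : ℝ) / 1024)) := by ring
  rw [e2]
  linarith

/-- The scale of the gain bound. -/
lemma cell_gain {L B : ℤ} {j j2 R Bn : ℕ} (hj2 : j2 ≤ 1024)
    (h : cellOK L B j j2 R = true) (hB : BC R j j2 ≤ Bn) {s : ℝ} (hs : s ∈ Icc (sn j) (sn j2)) :
    -((Bn : ℝ) / (16384 * 1048576000000)) ≤
      gain ICp IT ((L : ℝ) / 65536) ((B : ℝ) / 65536) s := by
  unfold gain
  have hκ := cell_kappa hj2 h hs
  have hκ0 : 0 ≤ max ((L : ℝ) / 65536 * s + (B : ℝ) / 65536) 0 / ICp s :=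
    div_nonneg (le_max_right _ _) (ICp_nonneg s)
  set κ := max ((L : ℝ) / 65536 * s + (B : ℝ) / 65536) 0 / ICp s with hκdef
  have hBn0 : (0 : ℝ) ≤ (Bn : ℝ) / (16384 * 1048576000000) := by positivity
  by_cases hd : 0 ≤ IT s - ICp s
  · have := mul_nonneg hκ0 hd
    linarith
  · push Not at hd
    set t := min (tnode false j) (tnode false j2) with ht
    by_cases hsm : j2 ≤ 577
    · exact absurd hd (not_lt.mpr (by linarith [ICp_le_IT_small (hs.2.trans (sn_mono hsm))]))
    -- `IT` is bounded below by the node values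
    have hIT : (t : ℝ) / 1024000000 ≤ IT s := by
      have h1 := tnode_le false j
      have h2 := tnode_le false j2
      have hp : prof false = IT := by simp [prof]
      rw [hp] at h1 h2
      have t1 : (t : ℝ) ≤ tnode false j := by exact_mod_cast min_le_left _ _
      have t2 : (t : ℝ) ≤ tnode false j2 := by exact_mod_cast min_le_right _ _
      have t1' : (t : ℝ) / 1024000000 ≤ IT (sn j) :=
        (div_le_div_of_nonneg_right t1 (by norm_num)).trans h1
      have t2' : (t : ℝ) / 1024000000 ≤ IT (sn j2) :=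
        (div_le_div_of_nonneg_right t2 (by norm_num)).trans h2
      have := line_le_of_ends (l := 0) (b := (t : ℝ) / 1024000000) (ρ := 1) IT_concave (sn_nonneg j)
        (sn_le_one hj2) (by norm_num) (by simpa using t1') (by simpa using t2') hs
      simpa using this
    set U : ℕ := min 2669255065600 (2 * 1772454 * j2 * 1024) with hU
    have hcap : ICp s ≤ (U : ℝ) / 1048576000000 := by
      rcases min_choice 2669255065600 (2 * 1772454 * j2 * 1024) with hm | hm
      · rw [hU, hm]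
        have := ICp_le_cap s
        norm_num
        norm_num at this
        linarith
      · rw [hU, hm]
        have := ICp_le_node hs.2
        push_cast
        linarith
    have hBC : ((R : ℝ) * ((U : ℝ) - (t : ℝ) * 1024)) ≤ (Bn : ℝ) := by
      have h1 : (BC R j j2 : ℝ) ≤ Bn := by exact_mod_cast hB
      have h2 : (BC R j j2 : ℝ) = (R : ℝ) * ((U - t * 1024 : ℕ) : ℝ) := by
        unfold BC
        rw [if_neg hsm]
        push_cast
        rfl
      have h3 : (U : ℝ) - (t : ℝ) * 1024 ≤ ((U - t * 1024 : ℕ) : ℝ) := by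
        have h5 : U ≤ U - t * 1024 + t * 1024 := by omega
        have h6 : ((U : ℕ) : ℝ) ≤ ((U - t * 1024 + t * 1024 : ℕ) : ℝ) := by
          exact_mod_cast h5
        rw [Nat.cast_add] at h6
        push_cast at h6
        linarith
      have hR0 : (0 : ℝ) ≤ R := by positivity
      have := mul_le_mul_of_nonneg_left h3 hR0
      linarith
    have h1 : κ * (IT s - ICp s) ≥ ((R : ℝ) / 16384) * (IT s - ICp s) := by
      have := mul_le_mul_of_nonpos_right hκ hd.le
      linarith
    have h2 : ((R : ℝ) / 16384) * (IT s - ICp s) ≥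
        ((R : ℝ) / 16384) * ((t : ℝ) / 1024000000 - (U : ℝ) / 1048576000000) := by
      apply mul_le_mul_of_nonneg_left _ (by positivity)
      linarith
    have h3 : ((R : ℝ) / 16384) * ((t : ℝ) / 1024000000 - (U : ℝ) / 1048576000000) =
        -(((R : ℝ) * ((U : ℝ) - (t : ℝ) * 1024)) / (16384 * 1048576000000)) := by
      ring
    have h4 : ((R : ℝ) * ((U : ℝ) - (t : ℝ) * 1024)) / (16384 * 1048576000000) ≤
        (Bn : ℝ) / (16384 * 1048576000000) :=
      div_le_div_of_nonneg_right hBC (by norm_num)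
    linarith

/-- Soundness of the range test. -/
lemma okR_sound {L B : ℤ} {Bn st j1 : ℕ} (h1 : j1 ≤ 1024) :
    ∀ (f j : ℕ), okR L B Bn st f j j1 = true → j ≤ j1 → j < j1 → ∀ s ∈ Icc (sn j) (sn j1),
      max ((L : ℝ) / 65536 * s + (B : ℝ) / 65536) 0 ≤ ICp s ∧
      -((Bn : ℝ) / (16384 * 1048576000000)) ≤ gain ICp IT ((L : ℝ) / 65536) ((B : ℝ) / 65536) s := by
  intro f
  induction f with
  | zero =>
    intro j hok _ hlt
    simp only [okR, decide_eq_true_eq] at hok
    omega
  | succ f ih =>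
    intro j hok hle hlt s hs
    simp only [okR, if_pos hlt, Bool.and_eq_true, decide_eq_true_eq] at hok
    obtain ⟨⟨hc, hb⟩, hr⟩ := hok
    have hj21 : min (j + st) j1 ≤ j1 := min_le_right _ _
    by_cases hs2 : s ≤ sn (min (j + st) j1)
    · have hcell : s ∈ Icc (sn j) (sn (min (j + st) j1)) := ⟨hs.1, hs2⟩
      exact ⟨cell_adm (hj21.trans h1) hc hcell, cell_gain (hj21.trans h1) hc hb hcell⟩
    · push Not at hs2
      have hne : min (j + st) j1 < j1 := by
        rcases lt_or_eq_of_le hj21 with h | h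
        · exact h
        · rw [h] at hs2
          exact absurd hs.2 (not_le.mpr hs2)
      exact ih _ hr hj21 hne s ⟨hs2.le, hs.2⟩

lemma stepR_le (L B : ℤ) {j j2 : ℕ} (h2 : j2 ≤ 1024) {t : ℝ} (ht : t ∈ Icc (sn j) (sn j2)) :
    (stepR L B j j2 : ℝ) / 16384 ≤ gg ICp ((L : ℝ) / 65536) ((B : ℝ) / 65536) t := by
  unfold stepR
  split_ifs with hc
  · have hle := cell_line h2 hc ht
    have hc' := hc
    simp only [cellOK, Bool.and_eq_true, decide_eq_true_eq] at hc'
    have c3 := hc'.2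
    set R := rc L B j j2 with hR
    apply gg_ge (ICp_nonneg t) (by positivity) hle (by positivity)
    have hs := isq_sq_le (16384 * 16384 - R * R)
    have hR2 : R * R ≤ 16384 * 16384 := Nat.mul_le_mul c3 c3
    have hs2 : isq (16384 * 16384 - R * R) * isq (16384 * 16384 - R * R) + R * R ≤ 16384 * 16384 := by
      omega
    have hs3 : (isq (16384 * 16384 - R * R) : ℝ) * isq (16384 * 16384 - R * R) + (R : ℝ) * R ≤
        16384 * 16384 := by exact_mod_cast hs2
    rw [div_pow, div_pow, ← add_div, div_le_one (by norm_num)]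
    nlinarith
  · simpa using gg_nonneg _ _ _ _

lemma sumR_le (L B : ℤ) (st : ℕ) (j1 : ℕ) (h1 : j1 ≤ 1024) :
    ∀ (f j : ℕ), j ≤ j1 → (sumR L B st f j j1 : ℝ) / (16384 * 1048576) ≤
      ∫ s in sn j..sn j1, gg ICp ((L : ℝ) / 65536) ((B : ℝ) / 65536) s := by
  intro f
  induction f with
  | zero =>
    intro j hj
    simp only [sumR, Nat.cast_zero, zero_div]
    exact intervalIntegral.integral_nonneg (sn_mono hj) (fun s _ => gg_nonneg _ _ _ _)
  | succ f ih =>
    intro j hj
    simp only [sumR]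
    split_ifs with hlt
    · set j2 := min (j + st) j1 with hj2
      have hj12 : j ≤ j2 := le_min (Nat.le_add_right _ _) hj
      have hj21 : j2 ≤ j1 := min_le_right _ _
      have hi := ih j2 hj21
      have hI : Continuous ICp := ICp_continuous
      have hsplit := intervalIntegral.integral_add_adjacent_intervals
        (gg_intervalIntegrable hI ((L : ℝ) / 65536) ((B : ℝ) / 65536) (sn j) (sn j2))
        (gg_intervalIntegrable hI ((L : ℝ) / 65536) ((B : ℝ) / 65536) (sn j2) (sn j1))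
      have hfirst := integral_gg_ge hI ((L : ℝ) / 65536) ((B : ℝ) / 65536) (sn_mono hj12)
        (fun s hs => stepR_le L B (hj21.trans h1) hs)
      rw [← hsplit]
      have hwidth : ((j2 * j2 - j * j : ℕ) : ℝ) = (j2 : ℝ) * j2 - (j : ℝ) * j := by
        have : j * j ≤ j2 * j2 := Nat.mul_le_mul hj12 hj12
        rw [Nat.cast_sub this]
        push_cast
        ring
      have he : (stepR L B j j2 : ℝ) / 16384 * (sn j2 - sn j) =
          ((stepR L B j j2 * (j2 * j2 - j * j) : ℕ) : ℝ) / (16384 * 1048576) := by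
        push_cast [hwidth]
        unfold sn
        ring
      push_cast only [Nat.cast_add]
      rw [add_div]
      rw [he] at hfirst
      linarith
    · simp only [Nat.cast_zero, zero_div]
      exact intervalIntegral.integral_nonneg (sn_mono hj) (fun s _ => gg_nonneg _ _ _ _)

lemma ceil_aux (X : ℕ) : X ≤ (X + 1048575) / 1048576 * 1048576 := by omega

/-- Soundness of the volume test. -/
lemma vOK_sound {L g : ℤ} {rh kk d : ℕ} (h : vOK L g rh kk d = true) {V : ℝ}
    (hV1 : 1 / 4 ≤ V) (hV2 : V ≤ 37 / 100) (hVd : V ≤ sn d) :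
    Jf V ≤ (L : ℝ) / 65536 * V + (g : ℝ) / 171798691840000000 := by
  simp only [vOK, Bool.and_eq_true, Bool.or_eq_true, decide_eq_true_eq] at h
  obtain ⟨⟨⟨⟨h0, h1⟩, h2⟩, h3⟩, h4⟩ := h
  set l : ℝ := (L : ℝ) / 65536 with hl
  set G : ℝ := (g : ℝ) / 171798691840000000 with hG
  have hVal : ∀ p : ℕ, ((Val L g p : ℤ) : ℝ) / 171798691840000000 = l * ((p : ℝ) / 10000) + G := by
    intro p
    unfold Val
    rw [hl, hG]
    push_cast
    ring
  have hVpos : 0 < V := by linarith
  -- the volume is below `pHi d`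
  have hVH : V ≤ ((pHi d : ℕ) : ℝ) / 10000 := by
    have h5 : ∀ n : ℕ, n = 3700 ∨ n = (d * d * 10000 + 1048575) / 1048576 → V ≤ (n : ℝ) / 10000 := by
      intro n hn
      rcases hn with hn | hn
      · rw [hn]; push_cast; linarith
      · have h6 : d * d * 10000 ≤ n * 1048576 := by
          rw [hn]
          exact ceil_aux _
        have h7 : (d : ℝ) * d * 10000 ≤ (n : ℝ) * 1048576 := by exact_mod_cast h6
        have h8 : sn d = (d : ℝ) * d / 1048576 := by unfold sn; ring
        rw [h8] at hVd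
        have h9 : (d : ℝ) * d / 1048576 ≤ (n : ℝ) / 10000 := by
          rw [div_le_div_iff₀ (by norm_num) (by norm_num)]
          linarith
        linarith
    apply h5
    unfold pHi
    rcases min_choice 3700 ((d * d * 10000 + 1048575) / 1048576) with hm | hm
    · left; exact hm
    · right; exact hm
  set p2 : ℕ := min 3184 (pHi d) with hp2
  by_cases hc : V ≤ (p2 : ℝ) / 10000
  · -- tube tangent
    have hrh : (0 : ℝ) < (rh : ℝ) / 1024 := by
      have : (0 : ℝ) < rh := by exact_mod_cast h0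
      positivity
    have hpi : π ≤ (kk : ℝ) / 1024 * ((rh : ℝ) / 1024) := by
      have h5 : (3141593 : ℝ) * 1048576 ≤ (rh : ℝ) * kk * 1000000 := by exact_mod_cast h1
      have h6 := pi_le_bar
      have e : (kk : ℝ) / 1024 * ((rh : ℝ) / 1024) = ((rh : ℝ) * kk) / 1048576 := by ring
      rw [e, le_div_iff₀ (by norm_num)]
      nlinarith
    have htube := JJ_le_tube hrh hVpos hpi
    have h2' : ((rh : ℝ) / 1024) * ((2500 : ℝ) / 10000) + (kk : ℝ) / 1024 ≤ l * ((2500 : ℝ) / 10000) + G := by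
      have h5 := hVal 2500
      have h6 : ((((rh : ℤ) * 2500 * 16777216000 + (kk : ℤ) * 167772160000000 : ℤ)) : ℝ) ≤
          ((Val L g 2500 : ℤ) : ℝ) := by exact_mod_cast h2
      push_cast at h5 h6
      rw [← h5]
      rw [le_div_iff₀ (by norm_num)]
      nlinarith
    have h3' : ((rh : ℝ) / 1024) * ((p2 : ℝ) / 10000) + (kk : ℝ) / 1024 ≤ l * ((p2 : ℝ) / 10000) + G := by
      have h5 := hVal p2
      have h6 : ((((rh : ℤ) * (p2 : ℕ) * 16777216000 + (kk : ℤ) * 167772160000000 : ℤ)) : ℝ) ≤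
          ((Val L g p2 : ℤ) : ℝ) := by exact_mod_cast h3
      push_cast at h6
      rw [← h5]
      rw [le_div_iff₀ (by norm_num)]
      push_cast
      nlinarith
    have hJ : Jf V ≤ (rh : ℝ) / 1024 * V + (kk : ℝ) / 1024 := (Jf_le_JJ V).trans htube
    refine hJ.trans ?_
    rcases le_total ((rh : ℝ) / 1024) l with hs | hs
    · have := mul_le_mul_of_nonneg_right hs (by linarith : (0 : ℝ) ≤ V - 2500 / 10000)
      nlinarith
    · have := mul_le_mul_of_nonneg_right hs (by linarith : (0 : ℝ) ≤ (p2 : ℝ) / 10000 - V)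
      nlinarith
  · push Not at hc
    have hgt : 3184 < pHi d := by
      by_contra hn
      push Not at hn
      have : p2 = pHi d := min_eq_right hn
      rw [this] at hc
      linarith
    rcases h4 with h4 | ⟨h5, h6⟩
    · omega
    · have hp3 : p2 = 3184 := min_eq_left hgt.le
      rw [hp3] at hc
      have h5' : (2 : ℝ) ≤ l * (((3184 : ℕ) : ℝ) / 10000) + G := by
        rw [← hVal 3184]
        rw [le_div_iff₀ (by norm_num)]
        have : ((2 * 171798691840000000 : ℤ) : ℝ) ≤ ((Val L g 3184 : ℤ) : ℝ) := by exact_mod_cast h5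
        push_cast at this
        linarith
      have h6' : (2 : ℝ) ≤ l * (((pHi d : ℕ) : ℝ) / 10000) + G := by
        rw [← hVal (pHi d)]
        rw [le_div_iff₀ (by norm_num)]
        have : ((2 * 171798691840000000 : ℤ) : ℝ) ≤ ((Val L g (pHi d) : ℤ) : ℝ) := by exact_mod_cast h6
        push_cast at this
        linarith
      refine (Jf_le_two V).trans ?_
      rcases le_total 0 l with hs | hs
      · have := mul_le_mul_of_nonneg_left (le_of_lt hc) hs
        linarith
      · have := mul_le_mul_of_nonpos_left hVH hs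
        linarith

/-- What a leaf proves at the point `(m, M)`. -/
def CC (m M : ℝ) : Prop :=
  ∀ V : ℝ, 1 / 4 ≤ V → V ≤ 37 / 100 → V ≤ M →
    ∃ l b B : ℝ, B ≤ 0 ∧ LineAdm ICp l b m M ∧ (∀ s ∈ Icc m M, B ≤ gain ICp IT l b s) ∧
      Jf V < lineValue ICp l b V m M + tstar * B

/-- Soundness on a leaf. -/
lemma leaf_sound {L B : ℤ} {st Bn rh kk a b c d : ℕ}
    (hOK : leafOK L B st Bn rh kk a b c d = true) {m M : ℝ}
    (h1 : sn a ≤ m) (h2 : m ≤ sn b) (h3 : sn c ≤ M) (h4 : M ≤ sn d) : CC m M := by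
  simp only [leafOK, Bool.and_eq_true, decide_eq_true_eq] at hOK
  obtain ⟨⟨⟨⟨⟨hab, hbc⟩, hcd⟩, hd⟩, hr⟩, hv⟩ := hOK
  intro V hV1 hV2 hVM
  have hR := okR_sound hd 2048 a hr (by omega) (by omega)
  refine ⟨(L : ℝ) / 65536, (B : ℝ) / 65536, -((Bn : ℝ) / (16384 * 1048576000000)), ?_, ?_, ?_, ?_⟩
  · have : (0 : ℝ) ≤ (Bn : ℝ) / (16384 * 1048576000000) := by positivity
    linarith
  · intro s hs
    exact (hR s ⟨h1.trans hs.1, hs.2.trans h4⟩).1
  · intro s hs
    exact (hR s ⟨h1.trans hs.1, hs.2.trans h4⟩).2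
  · have hJ := vOK_sound hv hV1 hV2 (hVM.trans h4)
    have hI : Continuous ICp := ICp_continuous
    have hsum := sumR_le L B st c (hcd.trans hd) 2048 b hbc.le
    have hmono : ∫ s in sn b..sn c, gg ICp ((L : ℝ) / 65536) ((B : ℝ) / 65536) s ≤
        ∫ s in m..M, gg ICp ((L : ℝ) / 65536) ((B : ℝ) / 65536) s :=
      integral_gg_mono hI _ _ h2 (sn_mono hbc.le) h3
    have hval : lineValue ICp ((L : ℝ) / 65536) ((B : ℝ) / 65536) V m M =
        (L : ℝ) / 65536 * V + (B : ℝ) / 65536 +
          2 * ∫ s in m..M, gg ICp ((L : ℝ) / 65536) ((B : ℝ) / 65536) s := rfl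
    rw [hval]
    have hg : ((gZ L B st Bn b c : ℤ) : ℝ) / 171798691840000000 =
        (B : ℝ) / 65536 + 2 * ((sumR L B st 2048 b c : ℝ) / (16384 * 1048576)) -
          tstar * ((Bn : ℝ) / (16384 * 1048576000000)) := by
      unfold gZ tstar
      push_cast
      ring
    have hJ' : ((gZ L B st Bn b c - 1 : ℤ) : ℝ) / 171798691840000000 <
        ((gZ L B st Bn b c : ℤ) : ℝ) / 171798691840000000 := by
      apply div_lt_div_of_pos_right _ (by norm_num)
      push_cast
      linarith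
    rw [hg] at hJ'
    linarith

/-- Soundness of the tree test. -/
theorem checkTree_sound : ∀ (t : CTree) (a b c d : ℕ), checkTree t a b c d = true →
    ∀ m M : ℝ, sn a ≤ m → m ≤ sn b → sn c ≤ M → M ≤ sn d → CC m M := by
  intro t
  induction t with
  | leaf L B st Bn rh kk =>
    intro a b c d hOK m M h1 h2 h3 h4
    exact leaf_sound (by simpa [checkTree] using hOK) h1 h2 h3 h4
  | splitH mid l r ihl ihr =>
    intro a b c d hOK m M h1 h2 h3 h4
    simp only [checkTree, Bool.and_eq_true, decide_eq_true_eq] at hOK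
    obtain ⟨⟨⟨_, _⟩, e1⟩, e2⟩ := hOK
    rcases le_total m (sn mid) with hm | hm
    · exact ihl _ _ _ _ e1 m M h1 hm h3 h4
    · exact ihr _ _ _ _ e2 m M hm h2 h3 h4
  | splitK mid l r ihl ihr =>
    intro a b c d hOK m M h1 h2 h3 h4
    simp only [checkTree, Bool.and_eq_true, decide_eq_true_eq] at hOK
    obtain ⟨⟨⟨_, _⟩, e1⟩, e2⟩ := hOK
    rcases le_total M (sn mid) with hm | hm
    · exact ihl _ _ _ _ e1 m M h1 h2 h3 hm
    · exact ihr _ _ _ _ e2 m M h1 h2 hm h4

end Vale.Agent.Lib.P232.CyC
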