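import Vale.Agent.Lib.P232.CertCycleCheck

/-! P232: the tree of the cycle certificate. -/

namespace Vale.Agent.Lib.P232.CyC

/-- The certificate tree. -/
def cycData : CTree :=
  (CTree.splitK 768 (CTree.splitK 640 (CTree.splitK 576 (CTree.splitH 162 (CTree.leaf (418848) (-1848) 32 0 3628 908) (CTree.leaf (327744) (26976) 32 0 3628 908)) (CTree.splitH 162 (CTree.leaf (393216) (-8406) 32 3703421450321920 3628 908) (CTree.splitH 243 (CTree.leaf (296960) (29196) 32 3703421450321920 3628 908) (CTree.leaf (270592) (39498) 32 3703421450321920 3628 908)))) (CTree.splitK 704 (CTree.splitH 162 (CTree.splitK 672 (CTree.leaf (348224) (-12) 32 5606579441238016 3628 908) (CTree.leaf (327680) (-522) 16 7509737432154112 3628 908)) (CTree.splitK 672 (CTree.splitH 243 (CTree.leaf (294912) (22944) 32 5606579441238016 3628 908) (CTree.leaf (262144) (37056) 32 5606579441238016 3628 908)) (CTree.splitH 243 (CTree.leaf (262848) (30120) 32 7509737432154112 3628 908) (CTree.leaf (236800) (41794) 32 7479027446317056 3628 908)))) (CTree.splitH 162 (CTree.splitK 736 (CTree.splitK 720 (CTree.leaf (317152)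 (-2) 16 8461316427612160 3628 908) (CTree.leaf (308288) (0) 8 9373336626790400 3628 908)) (CTree.splitK 752 (CTree.leaf (300224) (0) 8 9372764523724800 3628 908) (CTree.leaf (292704) (-2) 16 9372764523724800 3628 908))) (CTree.splitK 736 (CTree.splitH 243 (CTree.leaf (249184) (30513) 32 9372192420659200 3628 908) (CTree.leaf (225728) (42414) 32 9359606153216000 3527 934)) (CTree.leaf (229536) (31008) 16 9115318144204800 3585 919))))) (CTree.splitK 896 (CTree.splitK 832 (CTree.splitH 162 (CTree.splitK 800 (CTree.leaf (273312) (0) 16 9373336626790400 3628 908) (CTree.leaf (252672) (0) 32 9372764523724800 3628 908)) (CTree.leaf (204800) (31618) 32 9373336626790400 3217 1024)) (CTree.splitK 864 (CTree.splitH 162 (CTree.leaf (232448) (0) 32 10993431521810432 3628 908) (CTree.leaf (188448) (32037) 32 11040779101120512 3217 1024)) (CTree.splitH 162 (CTree.leaf (217600) (0) 32 14275295756892160 3400 969) (CTree.leaf (163872) (32652) 32 13548575634329600 3217 1024)))) (CTree.splitK 960 (CTree.splitK 928 (CTree.splitH 162 (CTree.leaf (200320) (0) 32 17791607541006336 3217 1024) (CTree.leaf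 (131264) (33468) 32 15277791473664000 3217 1024)) (CTree.splitH 162 (CTree.leaf (177024) (0) 32 21041644410658816 3217 1024) (CTree.leaf (124032) (33646) 32 19292878727684096 3217 1024))) (CTree.splitK 992 (CTree.splitH 162 (CTree.leaf (153024) (0) 32 24696009760880640 3217 1024) (CTree.leaf (98592) (34284) 32 21807075616573440 3217 1024)) (CTree.splitH 162 (CTree.leaf (120320) (0) 32 31542587110195200 3217 1024) (CTree.leaf (65536) (35112) 32 26385586323456000 3217 1024))))))

/-- The kernel check of the tree. -/
theorem cycData_ok : checkTree cycData 0 324 512 1024 = true := by decide +kernel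

end Vale.Agent.Lib.P232.CyC
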