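import Vale.Agent.Lib.P232.S3Defs

/-! JOB PROFILES3: elementary facts about the profiles of stage 3 (no certificate here). -/

open MeasureTheory Set Filter Topology
open scoped ENNReal

noncomputable section

namespace Vale.Agent.Lib.P232

/-! ### The table of `Θ`: trapezoid sums on a graded mesh, checked in `ℕ`. -/

/-- One trapezoid below the graph of `√(1 - (α s)²)`. -/
theorem trap_piece {α a b ya yb : ℝ} (hab : a ≤ b) (hya : 0 ≤ ya) (hyb : 0 ≤ yb)
    (ha : ya ^ 2 + (α * a) ^ 2 ≤ 1) (hb : yb ^ 2 + (α * b) ^ 2 ≤ 1) :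
    (b - a) * (ya + yb) / 2 ≤ ∫ s in a..b, Real.sqrt (1 - (α * s) ^ 2) := by
  rcases eq_or_lt_of_le hab with rfl | hlt
  · simp
  have hd : 0 < b - a := sub_pos.mpr hlt
  set L : ℝ → ℝ := fun s => ya + (yb - ya) * ((s - a) / (b - a)) with hL
  have hLc : Continuous L := by
    simp only [hL]; fun_prop
  have hfc : Continuous (fun s : ℝ => Real.sqrt (1 - (α * s) ^ 2)) := by fun_prop
  have hint : ∫ s in a..b, L s = (b - a) * (ya + yb) / 2 := by
    have hG : ∀ x ∈ uIcc a b, HasDerivAt
        (fun s : ℝ => ya * s + (yb - ya) * ((s - a) ^ 2 / (2 * (b - a)))) (L x) x := by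
      intro x _
      have h1 : HasDerivAt (fun s : ℝ => (s - a) ^ 2) (2 * (x - a)) x := by
        have h0 : HasDerivAt (fun s : ℝ => s - a) 1 x := (hasDerivAt_id x).sub_const a
        have := h0.fun_pow 2
        simpa using this
      have h2 : HasDerivAt (fun s : ℝ => ya * s + (yb - ya) * ((s - a) ^ 2 / (2 * (b - a))))
          (ya * 1 + (yb - ya) * (2 * (x - a) / (2 * (b - a)))) x :=
        ((hasDerivAt_id' x).const_mul ya).fun_add
          ((h1.div_const (2 * (b - a))).const_mul (yb - ya))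
      refine h2.congr_deriv ?_
      simp only [hL]
      field_simp
    rw [intervalIntegral.integral_eq_sub_of_hasDerivAt hG (hLc.intervalIntegrable _ _)]
    field_simp
    ring
  rw [← hint]
  refine intervalIntegral.integral_mono_on hab (hLc.intervalIntegrable _ _)
    (hfc.intervalIntegrable _ _) ?_
  intro s hs
  set t : ℝ := (s - a) / (b - a) with ht
  have ht0 : 0 ≤ t := div_nonneg (by linarith [hs.1]) hd.le
  have ht1 : t ≤ 1 := by
    rw [ht, div_le_one hd]; linarith [hs.2]
  have hs' : s = (1 - t) * a + t * b := by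
    rw [ht]; field_simp; ring
  have key : ∀ p q : ℝ, ((1 - t) * p + t * q) ^ 2 ≤ (1 - t) * p ^ 2 + t * q ^ 2 := by
    intro p q
    have : 0 ≤ t * (1 - t) * (p - q) ^ 2 :=
      mul_nonneg (mul_nonneg ht0 (by linarith)) (sq_nonneg _)
    nlinarith
  have h1 := key ya yb
  have h2 := key (α * a) (α * b)
  have hLs : L s = (1 - t) * ya + t * yb := by
    simp only [hL]; rw [← ht]; ring
  have hαs : α * s = (1 - t) * (α * a) + t * (α * b) := by rw [hs']; ring
  have hsq : (L s) ^ 2 ≤ 1 - (α * s) ^ 2 := by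
    rw [hLs, hαs]
    have h3 : (1 - t) * (ya ^ 2 + (α * a) ^ 2) ≤ (1 - t) * 1 :=
      mul_le_mul_of_nonneg_left ha (by linarith)
    have h4 : t * (yb ^ 2 + (α * b) ^ 2) ≤ t * 1 := mul_le_mul_of_nonneg_left hb ht0
    nlinarith
  exact (le_abs_self _).trans (Real.abs_le_sqrt hsq)

/-- A chain of trapezoids below the graph. -/
theorem trap_sum (α : ℝ) (s y : ℕ → ℝ) : ∀ n : ℕ, (∀ i < n, s i ≤ s (i + 1)) →
    (∀ i ≤ n, 0 ≤ y i ∧ y i ^ 2 + (α * s i) ^ 2 ≤ 1) →
    ∑ i ∈ Finset.range n, (s (i + 1) - s i) * (y i + y (i + 1)) / 2 ≤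
      ∫ x in s 0..s n, Real.sqrt (1 - (α * x) ^ 2) := by
  intro n
  induction n with
  | zero => intro _ _; simp
  | succ n ih =>
    intro hs hy
    have hfc : Continuous (fun x : ℝ => Real.sqrt (1 - (α * x) ^ 2)) := by fun_prop
    rw [Finset.sum_range_succ,
      ← intervalIntegral.integral_add_adjacent_intervals (hfc.intervalIntegrable (s 0) (s n))
        (hfc.intervalIntegrable (s n) (s (n + 1)))]
    refine add_le_add (ih (fun i hi => hs i (by omega)) (fun i hi => hy i (by omega))) ?_
    exact trap_piece (hs n (by omega)) (hy n (by omega)).1 (hy (n + 1) le_rfl).1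
      (hy n (by omega)).2 (hy (n + 1) le_rfl).2

/-- Scale of the mesh. -/
def trapD : ℕ := 26214400

/-- Graded mesh `1 - (1 - i/160)²`. -/
def trapS (i : ℕ) : ℕ := trapD - (160 - i) ^ 2 * 1024

/-- Newton iteration for the integer square root. -/
def trapIter : ℕ → ℕ → ℕ → ℕ
  | 0, _, g => g
  | f + 1, n, g =>
    let g' := (g + n / g) / 2
    if g' < g then trapIter f n g' else g

/-- Heights at the nodes. -/
def trapY (j i : ℕ) : ℕ := trapIter 64 (trapD ^ 2 - j ^ 2 * (trapS i) ^ 2 / 400) trapD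

/-- Twice the scaled trapezoid sum. -/
def trapSum (j : ℕ) : ℕ → ℕ
  | 0 => 0
  | n + 1 => trapSum j n + (trapS (n + 1) - trapS n) * (trapY j n + trapY j (n + 1))

/-- The numerators of the table. -/
def trapTab : List ℕ :=
  [100000, 99957, 99832, 99622, 99328, 98947, 98478, 97918, 97264, 96513, 95660, 94699,
   93624, 92425, 91091, 89608, 87954, 86101, 84002, 81571, 78538]

/-- All the finite checks for the index `j`. -/
def trapOK (j : ℕ) : Bool :=
  (List.range 160).all (fun i => decide (trapS i ≤ trapS (i + 1))) &&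
  (List.range 161).all (fun i =>
    decide (400 * (trapY j i) ^ 2 + j ^ 2 * (trapS i) ^ 2 ≤ 400 * trapD ^ 2)) &&
  decide (trapTab.getD j 0 * (2 * trapD ^ 2) ≤ 100000 * trapSum j 160)

theorem trapOK_all : (List.range 21).all trapOK = true := by
  decide +kernel

theorem trapS_zero : trapS 0 = 0 := by decide +kernel
theorem trapS_end : trapS 160 = trapD := by decide +kernel
theorem trapD_pos : (0 : ℝ) < (trapD : ℝ) := by
  have : 0 < trapD := by decide +kernel
  exact_mod_cast this

theorem thetaTab_eq {j : ℕ} (hj : j ≤ 20) :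
    ((thetaTab.getD j 0 : ℚ) : ℝ) = ((trapTab.getD j 0 : ℕ) : ℝ) / 100000 := by
  interval_cases j <;> norm_num [thetaTab, trapTab]

theorem trapSum_cast (j : ℕ) (hs : ∀ i < 160, trapS i ≤ trapS (i + 1)) : ∀ n ≤ 160,
    ∑ i ∈ Finset.range n, ((trapS (i + 1) : ℝ) / trapD - (trapS i : ℝ) / trapD) *
      ((trapY j i : ℝ) / trapD + (trapY j (i + 1) : ℝ) / trapD) / 2 =
      (trapSum j n : ℝ) / (2 * (trapD : ℝ) ^ 2) := by
  intro n
  induction n with
  | zero => intro _; simp [trapSum]
  | succ n ih =>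
    intro hn
    rw [Finset.sum_range_succ, ih (by omega), trapSum]
    have hD := trapD_pos.ne'
    push_cast [Nat.cast_sub (hs n (by omega))]
    field_simp

/-- The table of rational lower bounds: trapezoid sums on a graded mesh. -/
theorem thetaTab_le {j : ℕ} (hj : j ≤ 20) : ((thetaTab.getD j 0 : ℚ) : ℝ) ≤ Theta ((j : ℝ) / 20) := by
  have hall := trapOK_all
  rw [List.all_eq_true] at hall
  have hj' := hall j (List.mem_range.mpr (by omega))
  simp only [trapOK, Bool.and_eq_true, List.all_eq_true, decide_eq_true_eq, List.mem_range] at hj'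
  obtain ⟨⟨hs, hy⟩, htab⟩ := hj'
  have hD := trapD_pos
  have hs' : ∀ i < 160, (trapS i : ℝ) / trapD ≤ (trapS (i + 1) : ℝ) / trapD := by
    intro i hi
    have : (trapS i : ℝ) ≤ trapS (i + 1) := by exact_mod_cast hs i hi
    exact div_le_div_of_nonneg_right this hD.le
  have hy' : ∀ i ≤ 160, 0 ≤ (trapY j i : ℝ) / trapD ∧
      ((trapY j i : ℝ) / trapD) ^ 2 + ((j : ℝ) / 20 * ((trapS i : ℝ) / trapD)) ^ 2 ≤ 1 := by
    intro i hi
    refine ⟨by positivity, ?_⟩
    have h : 400 * (trapY j i : ℝ) ^ 2 + (j : ℝ) ^ 2 * (trapS i : ℝ) ^ 2 ≤ 400 * (trapD : ℝ) ^ 2 := by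
      exact_mod_cast hy i (by omega)
    have e : ((trapY j i : ℝ) / trapD) ^ 2 + ((j : ℝ) / 20 * ((trapS i : ℝ) / trapD)) ^ 2 =
        (400 * (trapY j i : ℝ) ^ 2 + (j : ℝ) ^ 2 * (trapS i : ℝ) ^ 2) / (400 * (trapD : ℝ) ^ 2) := by
      field_simp
      ring
    rw [e, div_le_one (by positivity)]
    exact h
  have hmain := trap_sum ((j : ℝ) / 20) (fun i => (trapS i : ℝ) / trapD)
    (fun i => (trapY j i : ℝ) / trapD) 160 hs' hy'
  have hcast := trapSum_cast j hs 160 le_rfl
  rw [hcast, trapS_zero, trapS_end] at hmain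
  have h0 : ((0 : ℕ) : ℝ) / (trapD : ℝ) = 0 := by simp
  have h1 : (trapD : ℝ) / (trapD : ℝ) = 1 := div_self hD.ne'
  rw [h0, h1] at hmain
  rw [thetaTab_eq hj]
  refine le_trans ?_ hmain
  have htab' : ((trapTab.getD j 0 : ℕ) : ℝ) * (2 * (trapD : ℝ) ^ 2) ≤ 100000 * (trapSum j 160 : ℝ) := by
    exact_mod_cast htab
  rw [div_le_div_iff₀ (by norm_num) (by positivity)]
  linarith

/-! ### The envelope `xhat`. -/

theorem xline_continuous (j : ℕ) : Continuous (xline j) := by
  unfold xline; fun_prop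

private theorem fold_ge (A : ℝ) (l : List ℕ) :
    (2 : ℝ) ≤ l.foldr (fun j acc => max (xline j A) acc) 2 := by
  induction l with
  | nil => simp
  | cons a t ih => exact ih.trans (by simp)

private theorem fold_le_of_mem (A : ℝ) (l : List ℕ) {j : ℕ} (hj : j ∈ l) :
    xline j A ≤ l.foldr (fun j acc => max (xline j A) acc) 2 := by
  induction l with
  | nil => simp at hj
  | cons a t ih =>
    simp only [List.foldr_cons]
    rcases List.mem_cons.mp hj with rfl | h
    · exact le_max_left _ _
    · exact (ih h).trans (le_max_right _ _)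

private theorem fold_attain (A : ℝ) (l : List ℕ) :
    l.foldr (fun j acc => max (xline j A) acc) 2 = 2 ∨
      ∃ j ∈ l, l.foldr (fun j acc => max (xline j A) acc) 2 = xline j A := by
  induction l with
  | nil => left; simp
  | cons a t ih =>
    simp only [List.foldr_cons]
    rcases le_total (xline a A) (t.foldr (fun j acc => max (xline j A) acc) 2) with h | h
    · rw [max_eq_right h]
      rcases ih with h' | ⟨j, hj, h'⟩
      · exact Or.inl h'
      · exact Or.inr ⟨j, List.mem_cons_of_mem _ hj, h'⟩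
    · rw [max_eq_left h]
      exact Or.inr ⟨a, List.mem_cons_self, rfl⟩

private theorem xline_mono (j : ℕ) {A B : ℝ} (h : A ≤ B) : xline j A ≤ xline j B := by
  unfold xline
  have : 0 ≤ 2 * ((j : ℝ) / 20) := by positivity
  nlinarith

private theorem fold_mono {A B : ℝ} (h : A ≤ B) (l : List ℕ) :
    l.foldr (fun j acc => max (xline j A) acc) 2 ≤ l.foldr (fun j acc => max (xline j B) acc) 2 := by
  induction l with
  | nil => simp
  | cons a t ih =>
    simp only [List.foldr_cons]
    exact max_le_max (xline_mono a h) ih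

private theorem fold_cont (l : List ℕ) :
    Continuous (fun A : ℝ => l.foldr (fun j acc => max (xline j A) acc) 2) := by
  induction l with
  | nil => simpa using continuous_const
  | cons a t ih =>
    simp only [List.foldr_cons]
    exact (xline_continuous a).max ih

theorem xline_le_xhat {j : ℕ} (hj : j ≤ 20) (A : ℝ) : xline j A ≤ xhat A :=
  fold_le_of_mem A _ (List.mem_range.mpr (by omega))

/-- `xhat A` is attained by an index. -/
theorem exists_xline_eq (A : ℝ) : ∃ j ≤ 20, xhat A = xline j A := by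
  rcases fold_attain A (List.range 21) with h | ⟨j, hj, h⟩
  · refine ⟨0, by omega, ?_⟩
    have : xline 0 A = 2 := by
      simp [xline, thetaTab]
    rw [this]
    exact h
  · exact ⟨j, by have := List.mem_range.mp hj; omega, h⟩

theorem two_le_xhat (A : ℝ) : 2 ≤ xhat A := fold_ge A _

theorem xhat_mono {A B : ℝ} (h : A ≤ B) : xhat A ≤ xhat B := fold_mono h _

theorem xhat_continuous : Continuous xhat := fold_cont _

/-! ### Continuity. -/

theorem IE_continuous : Continuous IE := by
  unfold IE; fun_prop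

theorem CL_continuous {d : ℝ} (hd : d ≤ 9 / 10) : Continuous (fun s => CL s d) := by
  unfold CL
  refine Continuous.if_le (by fun_prop) (by fun_prop) (by fun_prop) (by fun_prop) ?_
  intro s hs
  have hd1 : 0 < 1 - d := by linarith
  have hpi := Real.pi_pos
  set w := Real.sqrt ((1 - s) / Real.pi) with hw
  have hw0 : 0 < w := by
    have : 1 - d = 2 * w := hs
    linarith
  have hx : 0 < (1 - s) / Real.pi := Real.sqrt_pos.mp hw0
  have hw2 : w ^ 2 = (1 - s) / Real.pi := Real.sq_sqrt hx.le
  have hw3 : w = (1 - d) / 2 := by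
    have : 1 - d = 2 * w := hs
    linarith
  have h1s : 1 - s = Real.pi * ((1 - d) / 2) ^ 2 := by
    rw [← hw3, hw2]; field_simp
  have e2 : Real.pi * (1 - s) = (Real.pi * ((1 - d) / 2)) ^ 2 := by
    rw [h1s]; ring
  rw [e2, Real.sqrt_sq (by positivity), h1s]
  field_simp
  ring

theorem IL_continuous : Continuous IL := by
  unfold IL; fun_prop

theorem ICp_continuous : Continuous ICp := by
  unfold ICp
  exact IE_continuous.min ((xhat_continuous.comp (continuous_id.sub continuous_const)).min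
    continuous_const)

theorem IH_continuous (d : ℝ) : Continuous (IH d) := by
  unfold IH
  exact (CL_continuous (min_le_right _ _)).min
    ((xhat_continuous.comp (continuous_id.sub continuous_const)).min IE_continuous)

/-! ### Comparisons. -/

private theorem IT_le_two (s : ℝ) : IT s ≤ 2 :=
  (min_le_left _ _).trans (min_le_right _ _)

private theorem two_le_sq2 : (2 : ℝ) ≤ 2 * Real.sqrt 2 := by
  have : (1 : ℝ) ≤ Real.sqrt 2 := by
    rw [show (1 : ℝ) = Real.sqrt 1 by simp]
    exact Real.sqrt_le_sqrt (by norm_num)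
  linarith

theorem IT_le_IE (s : ℝ) : IT s ≤ IE s := by
  refine le_min ((min_le_left _ _).trans (min_le_left _ _)) ?_
  exact (IT_le_two s).trans two_le_sq2

theorem IT_le_IL (s : ℝ) : IT s ≤ IL s := min_le_right _ _

/-- On the unit interval the stadium bound is above the disc bound. -/
theorem IL_le_CL {s d : ℝ} (hs : s ≤ 1) (hd : d ≤ 9 / 10) : IL s ≤ CL s d := by
  unfold CL IL
  split_ifs with h
  · have hd1 : 0 < 1 - d := by linarith
    have hpi := Real.pi_pos
    have h1s : 0 ≤ 1 - s := by linarith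
    have hr : Real.sqrt (Real.pi * (1 - s)) ≤ (1 - s) / (1 - d) + Real.pi * (1 - d) / 4 := by
      apply Real.sqrt_le_iff.mpr
      constructor
      · positivity
      · have e : ((1 - s) / (1 - d) + Real.pi * (1 - d) / 4) ^ 2 - Real.pi * (1 - s) =
            ((1 - s) / (1 - d) - Real.pi * (1 - d) / 4) ^ 2 := by
          field_simp
          ring
        nlinarith [sq_nonneg ((1 - s) / (1 - d) - Real.pi * (1 - d) / 4)]
    linarith
  · exact le_rfl

theorem IT_le_CL {s d : ℝ} (hs : s ≤ 1) (hd : d ≤ 9 / 10) : IT s ≤ CL s d :=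
  (IT_le_IL s).trans (IL_le_CL hs hd)

theorem IT_le_ICp (s : ℝ) : IT s ≤ ICp s := by
  refine le_min (IT_le_IE s) (le_min ((IT_le_two s).trans (two_le_xhat _)) ?_)
  refine (IT_le_two s).trans ?_
  have : (1 : ℝ) ≤ Real.sqrt 2 := by
    rw [show (1 : ℝ) = Real.sqrt 1 by simp]
    exact Real.sqrt_le_sqrt (by norm_num)
  have h2 : (1.4 : ℝ) ≤ Real.sqrt 2 := by
    apply Real.le_sqrt_of_sq_le; norm_num
  simp only [tstar]
  nlinarith

theorem IT_le_IH {s : ℝ} (d : ℝ) (hs : s ≤ 1) : IT s ≤ IH d s :=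
  le_min (IT_le_CL hs (min_le_right _ _)) (le_min ((IT_le_two s).trans (two_le_xhat _)) (IT_le_IE s))

theorem IL_nonneg (s : ℝ) : 0 ≤ IL s := by
  unfold IL; positivity

theorem IL_le (s : ℝ) (hs : 0 ≤ s) : IL s ≤ 4 := by
  unfold IL
  have hpi := Real.pi_pos
  have h4 := Real.pi_le_four
  have : Real.sqrt (Real.pi * (1 - s)) ≤ 2 := by
    apply Real.sqrt_le_iff.mpr
    constructor
    · norm_num
    · nlinarith
  linarith

theorem Jf_le_JJ (V : ℝ) : Jf V ≤ JJ V := min_le_left _ _
theorem Jf_le_two (V : ℝ) : Jf V ≤ 2 := min_le_right _ _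

end Vale.Agent.Lib.P232
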