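import Vale.Agent.Lib.P232.CertHump1
import Vale.Agent.Lib.P232.CellSound
import Vale.Agent.Lib.P232.Profiles3

/-!
# P232: the hump certificate, real-variable facts on the profiles
-/

namespace Vale.Agent.Lib.P232.Hump

open Real MeasureTheory Set intervalIntegral Cells

/-! ## `CL` in the variables `t = 1 - d`, `u = 1 - s` -/

/-- `CL` in the variables `t = 1 - d`, `u = 1 - s`. -/
noncomputable def FF (t u : ℝ) : ℝ :=
  if t ≤ 2 * √(u / π) then 2 * (u / t + π * t / 4) else 2 * √(π * u)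

lemma CL_eq (s d : ℝ) : CL s d = FF (1 - d) (1 - s) := rfl

lemma lin_ge_sqrt {t u : ℝ} (ht : 0 < t) (hu : 0 ≤ u) : 2 * √(π * u) ≤ 2 * (u / t + π * t / 4) := by
  have hπ := Real.pi_pos
  have h0 : 0 ≤ u / t + π * t / 4 := by positivity
  have h1 : √(π * u) ≤ u / t + π * t / 4 := by
    rw [Real.sqrt_le_left h0]
    have e : (u / t + π * t / 4) ^ 2 - π * u = (u / t - π * t / 4) ^ 2 := by
      field_simp
      ring
    nlinarith [sq_nonneg (u / t - π * t / 4)]
  linarith

lemma FF_ge_sqrt {t u : ℝ} (ht : 0 < t) (hu : 0 ≤ u) : 2 * √(π * u) ≤ FF t u := by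
  unfold FF
  split_ifs
  · exact lin_ge_sqrt ht hu
  · exact le_rfl

lemma FF_mono_u {t u u' : ℝ} (ht : 0 < t) (hu : 0 ≤ u) (huu : u ≤ u') : FF t u ≤ FF t u' := by
  have hπ := Real.pi_pos
  have hu' : 0 ≤ u' := hu.trans huu
  have hsq : √(π * u) ≤ √(π * u') := Real.sqrt_le_sqrt (mul_le_mul_of_nonneg_left huu hπ.le)
  unfold FF
  split_ifs with h1 h2 h2
  · have : u / t ≤ u' / t := div_le_div_of_nonneg_right huu ht.le
    linarith
  · exfalso
    apply h2
    refine h1.trans ?_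
    have : √(u / π) ≤ √(u' / π) := Real.sqrt_le_sqrt (div_le_div_of_nonneg_right huu hπ.le)
    linarith
  · have := lin_ge_sqrt ht hu'
    linarith
  · linarith

lemma FF_anti_t {t t' u : ℝ} (ht' : 0 < t') (htt : t' ≤ t) (hu : 0 ≤ u) : FF t u ≤ FF t' u := by
  have hπ := Real.pi_pos
  have ht : 0 < t := lt_of_lt_of_le ht' htt
  by_cases h1 : t ≤ 2 * √(u / π)
  · have h2 : t' ≤ 2 * √(u / π) := htt.trans h1
    unfold FF
    rw [if_pos h1, if_pos h2]
    have hsq : t ^ 2 * π ≤ 4 * u := by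
      have h3 : t ^ 2 ≤ (2 * √(u / π)) ^ 2 := pow_le_pow_left₀ ht.le h1 2
      rw [mul_pow, Real.sq_sqrt (by positivity)] at h3
      have h4 : 2 ^ 2 * (u / π) * π = 4 * u := by
        field_simp
        ring
      nlinarith
    have hkey : π * t * t' ≤ 4 * u := by
      have : t * t' ≤ t ^ 2 := by nlinarith
      nlinarith
    have e : u / t' + π * t' / 4 - (u / t + π * t / 4) = (t - t') * (4 * u - π * t * t') / (4 * t * t') := by
      field_simp
      ring
    have hpos : 0 ≤ (t - t') * (4 * u - π * t * t') / (4 * t * t') :=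
      div_nonneg (mul_nonneg (by linarith) (by linarith)) (by positivity)
    linarith
  · have h3 : FF t u = 2 * √(π * u) := by
      unfold FF
      rw [if_neg h1]
    rw [h3]
    exact FF_ge_sqrt ht' hu

lemma CL_anti {s s' d : ℝ} (hd : d ≤ 9 / 10) (hs : s ≤ s') (hs' : s' ≤ 1) : CL s' d ≤ CL s d := by
  rw [CL_eq, CL_eq]
  exact FF_mono_u (by linarith) (by linarith) (by linarith)

lemma CL_mono_d {s d0 d : ℝ} (hd : d ≤ 9 / 10) (hd0 : d0 ≤ d) (hs : s ≤ 1) : CL s d0 ≤ CL s d := by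
  rw [CL_eq, CL_eq]
  exact FF_anti_t (by linarith) (by linarith) (by linarith)

lemma CL_nonneg {s d : ℝ} (hd : d ≤ 9 / 10) (hs : s ≤ 1) : 0 ≤ CL s d := by
  rw [CL_eq]
  refine le_trans ?_ (FF_ge_sqrt (t := 1 - d) (u := 1 - s) (by linarith) (by linarith))
  positivity

lemma IH_nonneg (d : ℝ) {s : ℝ} (hs : s ≤ 1) : 0 ≤ IH d s := by
  unfold IH
  refine le_min (CL_nonneg (min_le_right _ _) hs) (le_min ?_ (IE_nonneg s))
  have := two_le_xhat (s - d)
  linarith

/-! ## Node values -/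

lemma sn_eq (j : ℕ) : sn j = (j : ℝ) * j / 1048576 := by
  unfold sn
  ring

lemma one_sub_sn {j : ℕ} (hj : j ≤ 1024) :
    1 - sn j = ((1048576 - j * j : ℕ) : ℝ) / 1048576 := by
  have h : j * j ≤ 1048576 := by nlinarith
  rw [Nat.cast_sub h, sn_eq]
  push_cast
  field_simp

/-- The lower bound for `CL` at a node. -/
lemma cln_le {T j : ℕ} (hT : 0 < T) (hj : j ≤ 1024) :
    (cln T j : ℝ) / 1024000000 ≤ CL (sn j) (1 - (T : ℝ) / 1048576) := by
  have hπ := Real.pi_pos
  have hπ1 := pi_le_bar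
  have hT' : (0 : ℝ) < T := by exact_mod_cast hT
  set U : ℕ := 1048576 - j * j with hU
  have hu : 1 - sn j = (U : ℝ) / 1048576 := one_sub_sn hj
  have hU0 : (0 : ℝ) ≤ U := Nat.cast_nonneg _
  rw [CL_eq, hu]
  have et : 1 - (1 - (T : ℝ) / 1048576) = (T : ℝ) / 1048576 := by ring
  rw [et]
  set t : ℝ := (T : ℝ) / 1048576 with ht
  set u : ℝ := (U : ℝ) / 1048576 with hud
  have ht0 : 0 < t := by positivity
  have hu0 : 0 ≤ u := by positivity
  unfold cln
  rw [← hU]
  split_ifs with hc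
  · have hc' : (T : ℝ) * T * 3141593 ≤ 4 * U * 1048576000000 := by exact_mod_cast hc
    have h1 : t ≤ 2 * √(u / π) := by
      have h2 : t / 2 ≤ √(u / π) := by
        apply Real.le_sqrt_of_sq_le
        rw [le_div_iff₀ hπ]
        have e : (t / 2) ^ 2 * π ≤ (t / 2) ^ 2 * (3141593 / 1000000) :=
          mul_le_mul_of_nonneg_left hπ1 (by positivity)
        refine e.trans ?_
        rw [ht, hud]
        have e2 : ((T : ℝ) / 1048576 / 2) ^ 2 * (3141593 / 1000000) =
            ((T : ℝ) * T * 3141593) / (4 * 1048576 * 1048576 * 1000000) := by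
          ring
        rw [e2, div_le_iff₀ (by norm_num)]
        have e3 : (U : ℝ) / 1048576 * (4 * 1048576 * 1048576 * 1000000) = 4 * U * 1048576000000 := by
          ring
        rw [e3]
        exact hc'
      linarith
    have hF : FF t u = 2 * (u / t + π * t / 4) := by
      unfold FF
      rw [if_pos h1]
    rw [hF]
    push_cast
    have h3 : ((2048000000 * U / T : ℕ) : ℝ) ≤ ((2048000000 * U : ℕ) : ℝ) / T := Nat.cast_div_le
    have h4 : ((3141592 * T / 2048 : ℕ) : ℝ) ≤ ((3141592 * T : ℕ) : ℝ) / (2048 : ℕ) := Nat.cast_div_le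
    push_cast at h3 h4
    have e5 : 2 * (u / t) = 2048000000 * (U : ℝ) / T / 1024000000 := by
      rw [ht, hud]
      field_simp
      ring
    have hπ2 : (3141592 : ℝ) / 1000000 ≤ π := by
      have := Real.pi_gt_d6
      norm_num at this ⊢
      linarith
    have e6 : 3141592 * (T : ℝ) / 2048 / 1024000000 ≤ π * t / 2 := by
      rw [ht]
      have : 3141592 * (T : ℝ) / 2048 / 1024000000 = (3141592 / 1000000) * ((T : ℝ) / 1048576) / 2 := by
        ring
      rw [this]
      have h7 : (0 : ℝ) ≤ (T : ℝ) / 1048576 := by positivity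
      have := mul_le_mul_of_nonneg_right hπ2 h7
      linarith
    have e7 : (((2048000000 * U / T : ℕ) : ℝ) + ((3141592 * T / 2048 : ℕ) : ℝ)) / 1024000000 ≤
        (2048000000 * (U : ℝ) / T + 3141592 * (T : ℝ) / 2048) / 1024000000 :=
      div_le_div_of_nonneg_right (add_le_add h3 h4) (by norm_num)
    have e8 : (2048000000 * (U : ℝ) / T + 3141592 * (T : ℝ) / 2048) / 1024000000 =
        2048000000 * (U : ℝ) / T / 1024000000 + 3141592 * (T : ℝ) / 2048 / 1024000000 := by
      ring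
    rw [e8, ← e5] at e7
    have e9 : 2 * (u / t + π * t / 4) = 2 * (u / t) + π * t / 2 := by ring
    rw [e9]
    linarith
  · refine le_trans ?_ (FF_ge_sqrt ht0 hu0)
    push_cast
    set r : ℕ := isqAux 24 U 1024 with hr
    have hr2 : r * r ≤ U := isqAux_sq_le _ _ _
    have hr2' : (r : ℝ) * r ≤ U := by exact_mod_cast hr2
    have h1 : (r : ℝ) / 1024 ≤ √u := by
      apply Real.le_sqrt_of_sq_le
      rw [hud, div_pow, div_le_div_iff₀ (by norm_num) (by norm_num)]
      nlinarith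
    have h2 : √(π * u) = √π * √u := Real.sqrt_mul hπ.le _
    rw [h2]
    have h3 := sqrt_pi_gt
    have h4 : (1772453 : ℝ) / 1000000 * ((r : ℝ) / 1024) ≤ √π * √u :=
      mul_le_mul h3 h1 (by positivity) (Real.sqrt_nonneg _)
    have e : 3544906 * (r : ℝ) / 1024000000 = 2 * ((1772453 : ℝ) / 1000000 * ((r : ℝ) / 1024)) := by
      ring
    rw [e]
    linarith

/-! ## `xline` -/

lemma thetaTab_cast {i : ℕ} (hi : i ≤ 20) :
    ((thetaTab.getD i 0 : ℚ) : ℝ) = (thN i : ℝ) / 100000 := by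
  interval_cases i <;> simp [thetaTab, thN, thetaL]

lemma thN_le {i : ℕ} (hi : i ≤ 20) : (thN i : ℝ) ≤ 100000 := by
  interval_cases i <;> simp [thN, thetaL] <;> norm_num

lemma xline_eq {i : ℕ} (hi : i ≤ 20) (A : ℝ) :
    xline i A = 2 * ((i : ℝ) / 20) * A + 2 * ((thN i : ℝ) / 100000) := by
  unfold xline
  rw [thetaTab_cast hi]

/-- `xv` is a lower bound. -/
lemma xv_le {i : ℕ} (hi : i ≤ 20) (a : ℕ) :
    (xv i a : ℝ) / 1024000000 ≤ xline i ((a : ℝ) / 1048576) := by
  rw [xline_eq hi]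
  unfold xv
  have h1 : ((i * a * 3125 / 32 : ℕ) : ℝ) ≤ ((i * a * 3125 : ℕ) : ℝ) / (32 : ℕ) := Nat.cast_div_le
  push_cast at h1 ⊢
  rw [div_le_iff₀ (by norm_num)]
  have e : (2 * ((i : ℝ) / 20) * ((a : ℝ) / 1048576) + 2 * ((thN i : ℝ) / 100000)) * 1024000000 =
      (i : ℝ) * a * 3125 / 32 + 20480 * (thN i : ℝ) := by
    ring
  rw [e]
  linarith

/-- `xvU` is an upper bound. -/
lemma le_xvU {i : ℕ} (hi : i ≤ 20) (a : ℕ) :
    xline i ((a : ℝ) / 1048576) ≤ (xvU i a : ℝ) / 1024000000 := by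
  rw [xline_eq hi]
  unfold xvU
  have h0 : i * a * 3125 ≤ (i * a * 3125 + 31) / 32 * 32 := by
    have := Nat.div_add_mod (i * a * 3125 + 31) 32
    have h2 := Nat.mod_lt (i * a * 3125 + 31) (by norm_num : 32 > 0)
    omega
  have h1 : ((i * a * 3125 : ℕ) : ℝ) ≤ (((i * a * 3125 + 31) / 32 : ℕ) : ℝ) * 32 := by
    exact_mod_cast h0
  push_cast at h1 ⊢
  rw [le_div_iff₀ (by norm_num)]
  have e : (2 * ((i : ℝ) / 20) * ((a : ℝ) / 1048576) + 2 * ((thN i : ℝ) / 100000)) * 1024000000 =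
      (i : ℝ) * a * 3125 / 32 + 20480 * (thN i : ℝ) := by
    ring
  rw [e]
  linarith

lemma foldr_max_ge (f : ℕ → ℕ) : ∀ (l : List ℕ) (k : ℕ), k ∈ l →
    f k ≤ l.foldr (fun k acc => max (f k) acc) 0 := by
  intro l
  induction l with
  | nil => intro k hk; simp at hk
  | cons x xs ih =>
    intro k hk
    simp only [List.foldr_cons]
    rcases List.mem_cons.mp hk with h | h
    · rw [h]
      exact le_max_left _ _
    · exact (ih k h).trans (le_max_right _ _)

lemma xvU_le_xmaxU {i : ℕ} (hi : i ≤ 20) (a : ℕ) : xvU i a ≤ xmaxU a := by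
  unfold xmaxU
  exact foldr_max_ge (fun k => xvU k a) _ i (List.mem_range.mpr (by omega))

/-- `xhat` from above for a nonnegative argument. -/
lemma xhat_le_xmaxU (a : ℕ) : xhat ((a : ℝ) / 1048576) ≤ (xmaxU a : ℝ) / 1024000000 := by
  obtain ⟨i, hi, e⟩ := exists_xline_eq ((a : ℝ) / 1048576)
  rw [e]
  refine (le_xvU hi a).trans ?_
  apply div_le_div_of_nonneg_right _ (by norm_num)
  exact_mod_cast xvU_le_xmaxU hi a

/-- `xhat` from above for a nonpositive argument. -/
lemma xhat_le_two {A : ℝ} (hA : A ≤ 0) : xhat A ≤ 2 := by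
  obtain ⟨i, hi, e⟩ := exists_xline_eq A
  rw [e, xline_eq hi]
  have h1 := thN_le hi
  have h2 : (0 : ℝ) ≤ (i : ℝ) / 20 := by positivity
  have h3 : 2 * ((i : ℝ) / 20) * A ≤ 0 := by nlinarith
  linarith

lemma nextI_le {imax a : ℕ} : ∀ (f i : ℕ), i ≤ imax → nextI imax a f i ≤ imax := by
  intro f
  induction f with
  | zero => intro i hi; simpa [nextI] using hi
  | succ f ih =>
    intro i hi
    unfold nextI
    split_ifs with h
    · exact ih _ h.1
    · exact hi

lemma idxN_le {imax D2 j i : ℕ} (hi : i ≤ imax) : idxN imax D2 j i ≤ imax := by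
  unfold idxN
  split_ifs
  · exact nextI_le _ _ hi
  · exact hi

lemma imaxOf_le (L : ℕ) : imaxOf L ≤ 20 := min_le_left _ _

/-- The slope of the `xline` with an allowed index is at most the slope of the line. -/
lemma imaxOf_slope (L : ℕ) {i : ℕ} (hi : i ≤ imaxOf L) : (i : ℝ) / 10 ≤ (L : ℝ) / 65536 := by
  have h1 : i ≤ 10 * L / 65536 := hi.trans (min_le_right _ _)
  have h2 : i * 65536 ≤ 10 * L := (Nat.le_div_iff_mul_le (by norm_num)).mp h1
  have h3 : (i : ℝ) * 65536 ≤ 10 * L := by exact_mod_cast h2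
  rw [div_le_div_iff₀ (by norm_num) (by norm_num)]
  linarith

/-- `IE` is monotone on `[0, ∞)`. -/
lemma IE_mono {s s' : ℝ} (hs : s ≤ s') : IE s ≤ IE s' := by
  unfold IE
  apply min_le_min_right
  apply mul_le_mul_of_nonneg_left _ (by norm_num)
  exact Real.sqrt_le_sqrt (mul_le_mul_of_nonneg_left hs Real.pi_pos.le)

lemma tnode_le_IE (j : ℕ) : (tnode true j : ℝ) / 1024000000 ≤ IE (sn j) := by
  have := tnode_le true j
  simpa [prof] using this

lemma IE_le_ieUp (j : ℕ) : IE (sn j) ≤ (ieUp j : ℝ) / 1024000000 := by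
  have h2 : √2 ≤ 1414214 / 1000000 := by
    rw [Real.sqrt_le_left (by norm_num)]
    norm_num
  unfold IE ieUp
  rcases min_choice (2 * 1772454 * j) (2 * 1414214 * 1024) with h | h
  · rw [h]
    refine (min_le_left _ _).trans ?_
    have h1 : √(π * sn j) = √π * ((j : ℝ) / 1024) := by
      unfold sn
      rw [Real.sqrt_mul Real.pi_pos.le, Real.sqrt_sq (by positivity)]
    rw [h1]
    have h3 := sqrt_pi_lt
    have h4 : (0 : ℝ) ≤ (j : ℝ) / 1024 := by positivity
    have h5 := mul_le_mul_of_nonneg_right h3 h4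
    push_cast
    have e : 3544908 * (j : ℝ) / 1024000000 = 2 * ((1772454 : ℝ) / 1000000 * ((j : ℝ) / 1024)) := by
      ring
    norm_num only at e ⊢
    rw [e]
    linarith
  · rw [h]
    refine (min_le_right _ _).trans ?_
    push_cast
    norm_num at h2 ⊢
    linarith

end Vale.Agent.Lib.P232.Hump
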