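import Vale.Agent.Lib.P232.CertHump2

/-!
# P232: the hump certificate, soundness of the test
-/

namespace Vale.Agent.Lib.P232.Hump

open Real MeasureTheory Set intervalIntegral Cells

/-- The box data for `d`. -/
structure DBox (D1 D2 : ℕ) (d : ℝ) : Prop where
  lo : (D1 : ℝ) / 1048576 ≤ d
  hi : d ≤ (D2 : ℝ) / 1048576

lemma tOf_pos (D1 : ℕ) : 0 < tOf D1 := by
  unfold tOf
  have : min D1 943718 ≤ 943718 := min_le_right _ _
  omega

lemma tOf_le {D1 D2 : ℕ} {d : ℝ} (h : DBox D1 D2 d) :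
    1 - (tOf D1 : ℝ) / 1048576 ≤ min d (9 / 10) := by
  have h1 : min D1 943718 ≤ 1048576 := (min_le_right _ _).trans (by norm_num)
  have e : 1 - (tOf D1 : ℝ) / 1048576 = ((min D1 943718 : ℕ) : ℝ) / 1048576 := by
    unfold tOf
    rw [Nat.cast_sub h1]
    push_cast
    field_simp
    ring
  rw [e]
  apply le_min
  · refine le_trans ?_ h.lo
    apply div_le_div_of_nonneg_right _ (by norm_num)
    exact_mod_cast min_le_left _ _
  · have h2 : ((min D1 943718 : ℕ) : ℝ) ≤ 943718 := by exact_mod_cast min_le_right D1 943718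
    rw [div_le_iff₀ (by norm_num)]
    linarith

/-- The lower bound of `CL s (min d (9/10))` on `s ≤ sn j`. -/
lemma cln_le_CL {D1 D2 j : ℕ} {d s : ℝ} (h : DBox D1 D2 d) (hj : j ≤ 1024) (hs : s ≤ sn j) :
    (cln (tOf D1) j : ℝ) / 1024000000 ≤ CL s (min d (9 / 10)) := by
  have h1 := cln_le (tOf_pos D1) hj
  have h2 : sn j ≤ 1 := sn_le_one hj
  have h3 := CL_mono_d (s := sn j) (min_le_right d (9 / 10)) (tOf_le h) h2
  have h4 := CL_anti (d := min d (9 / 10)) (min_le_right _ _) hs h2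
  linarith

lemma qN_cast_ge (L Bn j : ℕ) :
    (L : ℝ) / 65536 * sn j + -((Bn : ℝ) / 65536) ≤ (qN L Bn j : ℝ) / 68719476736 := by
  rw [sn_eq]
  unfold qN
  have h : ((L * (j * j) : ℕ) : ℝ) - ((Bn * 1048576 : ℕ) : ℝ) ≤ ((L * (j * j) - Bn * 1048576 : ℕ) : ℝ) := by
    rw [sub_le_iff_le_add]
    exact_mod_cast le_tsub_add
  push_cast at h
  rw [le_div_iff₀ (by norm_num)]
  have e : ((L : ℝ) / 65536 * ((j : ℝ) * j / 1048576) + -((Bn : ℝ) / 65536)) * 68719476736 =
      (L : ℝ) * (j * j) - Bn * 1048576 := by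
    ring
  rw [e]
  exact h

lemma qN_cast_eq {L Bn j : ℕ} (h : 0 < qN L Bn j) :
    (qN L Bn j : ℝ) / 68719476736 = (L : ℝ) / 65536 * sn j + -((Bn : ℝ) / 65536) := by
  rw [sn_eq]
  unfold qN at h ⊢
  have h1 : Bn * 1048576 ≤ L * (j * j) := by omega
  rw [Nat.cast_sub h1]
  push_cast
  ring

/-- The main lemma on the ratio. -/
lemma ratio_le {L Bn D1 D2 i j : ℕ} {d s ρ : ℝ} (hB : DBox D1 D2 d) (hj : j ≤ 1024)
    (hi : i ≤ imaxOf L) (hρ0 : 0 ≤ ρ) (hρ1 : ρ ≤ 1)
    (hq : (qN L Bn j : ℝ) / 68719476736 ≤ ρ * ((Ibn (tOf D1) D2 i j : ℝ) / 1024000000))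
    (hs : s ∈ Icc 0 (sn j)) :
    (L : ℝ) / 65536 * s + -((Bn : ℝ) / 65536) ≤ ρ * IH d s := by
  set l : ℝ := (L : ℝ) / 65536 with hl
  set b : ℝ := -((Bn : ℝ) / 65536) with hb
  have hl0 : 0 ≤ l := by positivity
  have hb0 : b ≤ 0 := by
    rw [hb]
    have : (0 : ℝ) ≤ (Bn : ℝ) / 65536 := by positivity
    linarith
  have hqc : l * sn j + b ≤ ρ * ((Ibn (tOf D1) D2 i j : ℝ) / 1024000000) :=
    (qN_cast_ge L Bn j).trans hq
  have hqs : l * s + b ≤ l * sn j + b := by
    have := mul_le_mul_of_nonneg_left hs.2 hl0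
    linarith
  have hI1 : ((Ibn (tOf D1) D2 i j : ℕ) : ℝ) ≤ (tnode true j : ℝ) := by
    have : Ibn (tOf D1) D2 i j ≤ tnode true j :=
      (min_le_left _ _).trans (min_le_left _ _)
    exact_mod_cast this
  have hI2 : ((Ibn (tOf D1) D2 i j : ℕ) : ℝ) ≤ (cln (tOf D1) j : ℝ) := by
    have : Ibn (tOf D1) D2 i j ≤ cln (tOf D1) j :=
      (min_le_left _ _).trans (min_le_right _ _)
    exact_mod_cast this
  have hI3 : ((Ibn (tOf D1) D2 i j : ℕ) : ℝ) ≤ (xlo D2 i j : ℝ) := by
    have : Ibn (tOf D1) D2 i j ≤ xlo D2 i j := min_le_right _ _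
    exact_mod_cast this
  have hdiv {x y : ℝ} (hxy : x ≤ y) : x / 1024000000 ≤ y / 1024000000 :=
    div_le_div_of_nonneg_right hxy (by norm_num)
  have hmul {x y : ℝ} (hxy : x ≤ y) : ρ * x ≤ ρ * y := mul_le_mul_of_nonneg_left hxy hρ0
  -- the disc profile
  have p1 : l * s + b ≤ ρ * IE s := by
    have e1 : l * 0 + b ≤ ρ * IE 0 := by
      have := mul_nonneg hρ0 (IE_nonneg 0)
      linarith
    have e2 : l * sn j + b ≤ ρ * IE (sn j) :=
      hqc.trans (hmul ((hdiv hI1).trans (tnode_le_IE j)))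
    exact line_le_of_ends IE_concave le_rfl (sn_le_one hj) hρ0 e1 e2 hs
  -- the stadium
  have p2 : l * s + b ≤ ρ * CL s (min d (9 / 10)) :=
    hqs.trans (hqc.trans (hmul ((hdiv hI2).trans (cln_le_CL hB hj hs.2))))
  -- the lines
  have p3 : l * s + b ≤ ρ * xhat (s - d) := by
    have hx := hqc.trans (hmul (hdiv hI3))
    unfold xlo at hx
    split_ifs at hx with hc
    · have hi20 : i ≤ 20 := hi.trans (imaxOf_le L)
      have hα : (i : ℝ) / 10 ≤ l := imaxOf_slope L hi
      have hα0 : (0 : ℝ) ≤ (i : ℝ) / 10 := by positivity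
      have h1 := mul_le_mul_of_nonneg_left (xv_le hi20 (j * j - D2)) hρ0
      have hA : ((j * j - D2 : ℕ) : ℝ) / 1048576 = sn j - (D2 : ℝ) / 1048576 := by
        rw [Nat.cast_sub hc.le, sn_eq]
        push_cast
        ring
      rw [hA, xline_eq hi20] at h1
      have h2 := xline_le_xhat hi20 (s - d)
      rw [xline_eq hi20] at h2
      have h3 := mul_le_mul_of_nonneg_left h2 hρ0
      refine le_trans ?_ h3
      have h4 : 0 ≤ sn j - s := by linarith [hs.2]
      have h5 : ρ * ((i : ℝ) / 10) * (sn j - s) ≤ l * (sn j - s) := by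
        apply mul_le_mul_of_nonneg_right _ h4
        nlinarith
      have h6 : ρ * (2 * ((i : ℝ) / 20) * (s - (D2 : ℝ) / 1048576)) ≤
          ρ * (2 * ((i : ℝ) / 20) * (s - d)) := by
        apply hmul
        have : (i : ℝ) / 10 * (s - (D2 : ℝ) / 1048576) ≤ (i : ℝ) / 10 * (s - d) :=
          mul_le_mul_of_nonneg_left (by linarith [hB.hi]) hα0
        linarith
      have hsplit : ρ * (2 * ((i : ℝ) / 20) * (sn j - (D2 : ℝ) / 1048576) + 2 * ((thN i : ℝ) / 100000)) =
          ρ * (2 * ((i : ℝ) / 20) * (s - (D2 : ℝ) / 1048576)) + ρ * ((i : ℝ) / 10) * (sn j - s) +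
            ρ * (2 * ((thN i : ℝ) / 100000)) := by
        ring
      have hsplit2 : ρ * (2 * ((i : ℝ) / 20) * (s - d) + 2 * ((thN i : ℝ) / 100000)) =
          ρ * (2 * ((i : ℝ) / 20) * (s - d)) + ρ * (2 * ((thN i : ℝ) / 100000)) := by
        ring
      have hl2 : l * s + b = l * sn j + b - l * (sn j - s) := by ring
      rw [hl2, hsplit2]
      have := hx.trans h1
      rw [hsplit] at this
      linarith
    · have h2 := mul_le_mul_of_nonneg_left (two_le_xhat (s - d)) hρ0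
      have h3 : ((2048000000 : ℕ) : ℝ) / 1024000000 = 2 := by norm_num
      rw [h3] at hx
      linarith
  have e : ρ * IH d s = min (ρ * CL s (min d (9 / 10))) (min (ρ * xhat (s - d)) (ρ * IE s)) := by
    unfold IH
    rw [mul_min_of_nonneg _ _ hρ0, mul_min_of_nonneg _ _ hρ0]
  rw [e]
  exact le_min p2 (le_min p3 p1)

/-- The integrand on the cell from below. -/
lemma stepH_le {L Bn D1 D2 i j : ℕ} {d s : ℝ} (hB : DBox D1 D2 d) (hj : j ≤ 1024)
    (hi : i ≤ imaxOf L) (hs : s ∈ Icc 0 (sn j)) :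
    (stepH L Bn (tOf D1) D2 i j : ℝ) / 65536 ≤
      gg (IH d) ((L : ℝ) / 65536) (-((Bn : ℝ) / 65536)) s := by
  unfold stepH
  simp only
  set I := 16 * Ibn (tOf D1) D2 i j with hI
  set q := qN L Bn j * 15625 with hq
  set R := (q + I - 1) / I with hR
  split_ifs with hc
  · obtain ⟨c1, c2⟩ := hc
    have hρ0 : (0 : ℝ) ≤ (R : ℝ) / 65536 := by positivity
    have hρ1 : (R : ℝ) / 65536 ≤ 1 := by
      have : (R : ℝ) ≤ 65536 := by exact_mod_cast c2
      rw [div_le_one (by norm_num)]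
      exact this
    have c1' : (qN L Bn j : ℝ) * 15625 ≤ (R : ℝ) * (16 * (Ibn (tOf D1) D2 i j : ℝ)) := by
      have : ((qN L Bn j * 15625 : ℕ) : ℝ) ≤ ((R * (16 * Ibn (tOf D1) D2 i j) : ℕ) : ℝ) := by
        exact_mod_cast c1
      push_cast at this
      exact this
    have hq2 : (qN L Bn j : ℝ) / 68719476736 ≤
        (R : ℝ) / 65536 * ((Ibn (tOf D1) D2 i j : ℝ) / 1024000000) := by
      rw [div_le_iff₀ (by norm_num)]
      have e : (R : ℝ) / 65536 * ((Ibn (tOf D1) D2 i j : ℝ) / 1024000000) * 68719476736 =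
          (R : ℝ) * (16 * (Ibn (tOf D1) D2 i j : ℝ)) / 15625 := by
        ring
      rw [e, le_div_iff₀ (by norm_num)]
      exact c1'
    have hle := ratio_le hB hj hi hρ0 hρ1 hq2 hs
    have hs1 : s ≤ 1 := hs.2.trans (sn_le_one hj)
    apply gg_ge (IH_nonneg d hs1) hρ0 hle (by positivity)
    have hss := isqAux_sq_le 24 (4294967296 - R * R) 65536
    have hR2 : R * R ≤ 4294967296 := by nlinarith
    have hs2 : isqAux 24 (4294967296 - R * R) 65536 * isqAux 24 (4294967296 - R * R) 65536 + R * R ≤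
        4294967296 := by
      omega
    have hs3 : (isqAux 24 (4294967296 - R * R) 65536 : ℝ) * isqAux 24 (4294967296 - R * R) 65536 +
        (R : ℝ) * R ≤ 4294967296 := by exact_mod_cast hs2
    rw [div_pow, div_pow, ← add_div, div_le_one (by norm_num)]
    nlinarith
  · simpa using gg_nonneg _ _ _ _

/-- The Riemann sum. -/
lemma sumH_le {L Bn D1 D2 st c : ℕ} {d : ℝ} (hB : DBox D1 D2 d) (hc : c ≤ 1024) :
    ∀ (f j i : ℕ), j ≤ c → i ≤ imaxOf L →
      (sumH L Bn (tOf D1) D2 (imaxOf L) st c f j i : ℝ) / 68719476736 ≤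
        ∫ s in sn j..sn c, gg (IH d) ((L : ℝ) / 65536) (-((Bn : ℝ) / 65536)) s := by
  intro f
  induction f with
  | zero =>
    intro j i hj _
    simp only [sumH, Nat.cast_zero, zero_div]
    exact intervalIntegral.integral_nonneg (sn_mono hj) (fun s _ => gg_nonneg _ _ _ _)
  | succ f ih =>
    intro j i hj hi
    simp only [sumH]
    split_ifs with hlt
    · set j2 := min (j + st) c with hj2
      set i2 := idxN (imaxOf L) D2 j2 i with hi2
      have hj12 : j ≤ j2 := le_min (Nat.le_add_right _ _) hj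
      have hj21 : j2 ≤ c := min_le_right _ _
      have hi2le : i2 ≤ imaxOf L := idxN_le hi
      have hrec := ih j2 i2 hj21 hi2le
      have hI := IH_continuous d
      have hsplit := intervalIntegral.integral_add_adjacent_intervals
        (gg_intervalIntegrable hI ((L : ℝ) / 65536) (-((Bn : ℝ) / 65536)) (sn j) (sn j2))
        (gg_intervalIntegrable hI ((L : ℝ) / 65536) (-((Bn : ℝ) / 65536)) (sn j2) (sn c))
      have hfirst := integral_gg_ge hI ((L : ℝ) / 65536) (-((Bn : ℝ) / 65536)) (sn_mono hj12)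
        (fun s hs => stepH_le (Bn := Bn) hB (hj21.trans hc) hi2le
          (⟨(sn_nonneg j).trans hs.1, hs.2⟩ : s ∈ Icc 0 (sn j2)))
      rw [← hsplit]
      have hwidth : ((j2 * j2 - j * j : ℕ) : ℝ) = (j2 : ℝ) * j2 - (j : ℝ) * j := by
        have : j * j ≤ j2 * j2 := Nat.mul_le_mul hj12 hj12
        rw [Nat.cast_sub this]
        push_cast
        ring
      have he : (stepH L Bn (tOf D1) D2 i2 j2 : ℝ) / 65536 * (sn j2 - sn j) =
          ((stepH L Bn (tOf D1) D2 i2 j2 * (j2 * j2 - j * j) : ℕ) : ℝ) / 68719476736 := by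
        push_cast [hwidth]
        unfold sn
        ring
      push_cast only [Nat.cast_add]
      rw [add_div]
      rw [he] at hfirst
      linarith
    · simp only [Nat.cast_zero, zero_div]
      exact intervalIntegral.integral_nonneg (sn_mono hj) (fun s _ => gg_nonneg _ _ _ _)

/-- Admissibility from the test at the top node. -/
lemma adm_of_test {L Bn D1 D2 e : ℕ} {d M : ℝ} (hB : DBox D1 D2 d) (he : e ≤ 1024)
    (hM : M ≤ sn e)
    (h : qN L Bn e * 15625 ≤ 65536 * (16 * Ibn (tOf D1) D2 (idxN (imaxOf L) D2 e 0) e)) :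
    LineAdm (IH d) ((L : ℝ) / 65536) (-((Bn : ℝ) / 65536)) 0 M := by
  intro s hs
  have hi : idxN (imaxOf L) D2 e 0 ≤ imaxOf L := idxN_le (Nat.zero_le _)
  have hq : (qN L Bn e : ℝ) / 68719476736 ≤
      1 * ((Ibn (tOf D1) D2 (idxN (imaxOf L) D2 e 0) e : ℝ) / 1024000000) := by
    have h' : (qN L Bn e : ℝ) * 15625 ≤ 65536 * (16 * (Ibn (tOf D1) D2 (idxN (imaxOf L) D2 e 0) e : ℝ)) := by
      exact_mod_cast h
    rw [div_le_iff₀ (by norm_num), one_mul]
    have e1 : (Ibn (tOf D1) D2 (idxN (imaxOf L) D2 e 0) e : ℝ) / 1024000000 * 68719476736 =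
        65536 * (16 * (Ibn (tOf D1) D2 (idxN (imaxOf L) D2 e 0) e : ℝ)) / 15625 := by
      ring
    rw [e1, le_div_iff₀ (by norm_num)]
    exact h'
  have hs' : s ∈ Icc 0 (sn e) := ⟨hs.1, hs.2.trans hM⟩
  have h1 := ratio_le hB he hi (by norm_num) le_rfl hq hs'
  rw [one_mul] at h1
  exact max_le h1 (IH_nonneg d (hs'.2.trans (sn_le_one he)))

/-! ## The value -/

lemma Jf_kink {l V : ℝ} (hl : 0 ≤ l) (hlπ : l ≤ π) (hV : 0 < V) : Jf V ≤ l * V + (2 - l / π) := by
  have hπ := Real.pi_pos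
  have e : l / π * π = l := by field_simp
  rcases le_total V (1 / π) with h | h
  · have h1 := JJ_le_tube (l := π) (K := 1) (V := V) hπ hV (by linarith)
    have h2 : Jf V ≤ π * V + 1 := (Jf_le_JJ V).trans h1
    have h3 : π * V ≤ 1 := by
      have := mul_le_mul_of_nonneg_left h hπ.le
      rwa [mul_one_div_cancel hπ.ne'] at this
    have h4 : (π - l) * V ≤ (π - l) * (1 / π) := mul_le_mul_of_nonneg_left h (by linarith)
    have h5 : (π - l) * (1 / π) = 1 - l / π := by
      field_simp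
    nlinarith
  · have h2 := Jf_le_two V
    have h3 : l * (1 / π) ≤ l * V := mul_le_mul_of_nonneg_left h hl
    have h4 : l * (1 / π) = l / π := by ring
    linarith

lemma Jf_end {l V : ℝ} (hl : 2 * √π ≤ l) (hV : 1 / 4 ≤ V) : Jf V ≤ l * V + (√π - l / 4) := by
  refine (Jf_le_JJ V).trans ((min_le_right _ _).trans ?_)
  have hs : √(π * V) = √π * √V := Real.sqrt_mul Real.pi_pos.le _
  rw [hs]
  have hV0 : 0 ≤ V := by linarith
  have hv2 : √V ^ 2 = V := Real.sq_sqrt hV0
  have hsp0 : 0 ≤ √π := Real.sqrt_nonneg _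
  have h1 : 2 * √π * (V - 1 / 4) ≤ l * (V - 1 / 4) :=
    mul_le_mul_of_nonneg_right hl (by linarith)
  have h2 : √V ≤ V + 1 / 4 := by nlinarith [sq_nonneg (√V - 1 / 2)]
  have h3 : √π * √V ≤ √π * (V + 1 / 4) := mul_le_mul_of_nonneg_left h2 hsp0
  nlinarith

/-- The test for the value. -/
lemma Jf_le_of_kOKh {L LH RH : ℕ} (h : kOKh L LH RH = true) {V : ℝ} (hV : 1 / 4 ≤ V) :
    Jf V ≤ (L : ℝ) / 65536 * V + ((LH : ℝ) - RH) / 34359738368000 := by
  have hV0 : 0 < V := by linarith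
  have hπ := Real.pi_pos
  have hπ1 := pi_le_bar
  have hπ2 : (3141592 : ℝ) / 1000000 ≤ π := by
    have := Real.pi_gt_d6
    norm_num at this ⊢
    linarith
  simp only [kOKh, Bool.or_eq_true, Bool.and_eq_true, decide_eq_true_eq] at h
  have hL0 : (0 : ℝ) ≤ (L : ℝ) / 65536 := by positivity
  rcases h with (⟨h0, h1⟩ | ⟨⟨h0, h1⟩, h2⟩) | ⟨h0, h1⟩
  · have h0' : (L : ℝ) * 1000000 ≤ 3141592 * 65536 := by exact_mod_cast h0
    have h1' : 3141593 * ((RH : ℝ) + 68719476736000) ≤
        3141593 * (LH : ℝ) + (L : ℝ) * 1000000 * 524288000 := by exact_mod_cast h1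
    have hlπ : (L : ℝ) / 65536 ≤ π := by
      refine le_trans ?_ hπ2
      rw [div_le_div_iff₀ (by norm_num) (by norm_num)]
      linarith
    have h3 := Jf_kink hL0 hlπ hV0
    refine h3.trans ?_
    have h4 : (L : ℝ) / 65536 * (1000000 / 3141593) ≤ (L : ℝ) / 65536 / π := by
      rw [div_eq_mul_inv ((L : ℝ) / 65536) π]
      apply mul_le_mul_of_nonneg_left _ hL0
      rw [div_le_iff₀ (by norm_num), inv_mul_eq_div, le_div_iff₀ hπ]
      norm_num at hπ1 ⊢
      linarith
    have h5 : 2 - (L : ℝ) / 65536 * (1000000 / 3141593) ≤ ((LH : ℝ) - RH) / 34359738368000 := by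
      rw [le_div_iff₀ (by norm_num)]
      have e : (2 - (L : ℝ) / 65536 * (1000000 / 3141593)) * 34359738368000 =
          (2 * 34359738368000 * 3141593 - (L : ℝ) * 1000000 * 524288000) / 3141593 := by
        ring
      rw [e, div_le_iff₀ (by norm_num)]
      norm_num at h1' ⊢
      linarith
    linarith
  · have h0' : (0 : ℝ) < L := by exact_mod_cast h0
    have h1' : (RH : ℝ) ≤ LH := by exact_mod_cast h1
    have h2' := (Nat.cast_le (α := ℝ)).mpr h2
    rw [Nat.cast_mul ((LH - RH) * L), Nat.cast_mul (LH - RH), Nat.cast_sub h1] at h2'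
    push_cast at h2'
    refine (Jf_le_JJ V).trans (JJ_le_tube (by positivity) hV0 ?_)
    refine hπ1.trans ?_
    have e : ((LH : ℝ) - RH) / 34359738368000 * ((L : ℝ) / 65536) =
        (((LH : ℝ) - RH) * L * 1000000) / (34359738368000 * 65536 * 1000000) := by
      ring
    rw [e, div_le_div_iff₀ (by norm_num) (by norm_num)]
    norm_num at h2' ⊢
    linarith
  · have h0' : (3544908 : ℝ) * 65536 ≤ L * 1000000 := by exact_mod_cast h0
    have h1' : 1000000 * (RH : ℝ) + 1772454 * 34359738368000 ≤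
        1000000 * (LH : ℝ) + 1000000 * (L : ℝ) * 131072000 := by exact_mod_cast h1
    have hl : 2 * √π ≤ (L : ℝ) / 65536 := by
      have h2 := sqrt_pi_lt
      have h3 : (3544908 : ℝ) / 1000000 ≤ (L : ℝ) / 65536 := by
        rw [div_le_div_iff₀ (by norm_num) (by norm_num)]
        linarith
      linarith
    refine (Jf_end hl hV).trans ?_
    have h2 := sqrt_pi_lt
    have h5 : (1772454 : ℝ) / 1000000 - (L : ℝ) / 65536 / 4 ≤ ((LH : ℝ) - RH) / 34359738368000 := by
      rw [le_div_iff₀ (by norm_num)]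
      have e : ((1772454 : ℝ) / 1000000 - (L : ℝ) / 65536 / 4) * 34359738368000 =
          (1772454 * 34359738368000 - 1000000 * (L : ℝ) * 131072000) / 1000000 := by
        ring
      rw [e, div_le_iff₀ (by norm_num)]
      linarith
    linarith

end Vale.Agent.Lib.P232.Hump
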