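import Vale.Agent.Lib.P232.CertHump3

/-!
# P232: the hump certificate, soundness of the gain test and of the tree
-/

namespace Vale.Agent.Lib.P232.Hump

open Real MeasureTheory Set intervalIntegral Cells

lemma gain_ge_aux {q qa I U C Cl β : ℝ} (hqa : 0 < qa) (hq : qa ≤ q) (hI : 0 < I) (hIU : I ≤ U)
    (hUC : U ≤ Cl) (hC : Cl ≤ C) (hβ : β * U ≤ qa * (Cl - U)) : β ≤ q / I * (C - I) := by
  have hU : 0 < U := lt_of_lt_of_le hI hIU
  rw [div_mul_eq_mul_div, le_div_iff₀ hI]
  have h1 : (Cl - U) * I ≤ (C - I) * U := by nlinarith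
  have h2 : 0 ≤ Cl - U := by linarith
  have h3 : qa * ((Cl - U) * I) ≤ q * ((C - I) * U) :=
    mul_le_mul hq h1 (by positivity) (by linarith)
  have h4 : β * U * I ≤ qa * (Cl - U) * I := mul_le_mul_of_nonneg_right hβ hI.le
  have h5 : β * I * U ≤ q * (C - I) * U := by nlinarith
  exact le_of_mul_le_mul_right h5 hU

/-- The profile from above at a node. -/
lemma IH_le_upU {D1 D2 j : ℕ} {d s : ℝ} (hB : DBox D1 D2 d) (hs : s ≤ sn j) :
    IH d s ≤ (upU D1 j : ℝ) / 1024000000 := by
  have h1 : IH d s ≤ IE s := (min_le_right _ _).trans (min_le_right _ _)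
  have h2 : IH d s ≤ xhat (s - d) := (min_le_right _ _).trans (min_le_left _ _)
  have h3 : IE s ≤ (ieUp j : ℝ) / 1024000000 := (IE_mono hs).trans (IE_le_ieUp j)
  have hd : s - d ≤ sn j - (D1 : ℝ) / 1048576 := by linarith [hB.lo]
  have h4 := xhat_mono hd
  unfold upU
  split_ifs with hc
  · have hA : ((j * j - D1 : ℕ) : ℝ) / 1048576 = sn j - (D1 : ℝ) / 1048576 := by
      rw [Nat.cast_sub hc.le, sn_eq]
      push_cast
      ring
    have h5 := xhat_le_xmaxU (j * j - D1)
    rw [hA] at h5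
    rcases min_choice (ieUp j) (xmaxU (j * j - D1)) with h | h
    · rw [h]
      exact h1.trans h3
    · rw [h]
      linarith
  · have hle : sn j - (D1 : ℝ) / 1048576 ≤ 0 := by
      have : (j : ℝ) * j ≤ D1 := by exact_mod_cast not_lt.mp hc
      rw [sn_eq]
      rw [sub_nonpos, div_le_div_iff₀ (by norm_num) (by norm_num)]
      nlinarith
    have h5 := xhat_le_two hle
    rcases min_choice (ieUp j) 2048000000 with h | h
    · rw [h]
      exact h1.trans h3
    · rw [h]
      push_cast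
      norm_num
      linarith

/-- Soundness of the gain test on a chain. -/
lemma gainOK_sound {L Bn BB D1 D2 e : ℕ} {d M : ℝ} (hB : DBox D1 D2 d) (he : e ≤ 1023)
    (hM : M ≤ sn e) (hBB : 0 < BB)
    (hadm : LineAdm (IH d) ((L : ℝ) / 65536) (-((Bn : ℝ) / 65536)) 0 M) :
    ∀ f j : ℕ, gainOK L Bn BB (tOf D1) D1 e f j = true → j < e → ∀ s ∈ Icc (sn j) M,
      (BB : ℝ) / 65536 ≤ gain (IH d) (fun s => CL s (min d (9 / 10))) ((L : ℝ) / 65536)
        (-((Bn : ℝ) / 65536)) s := by
  intro f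
  induction f with
  | zero =>
    intro j h hj s _
    simp only [gainOK, decide_eq_true_eq] at h
    omega
  | succ f ih =>
    intro j h hj s hs
    simp only [gainOK, if_neg (not_le.mpr hj), Bool.and_eq_true, decide_eq_true_eq] at h
    obtain ⟨⟨⟨t1, t2⟩, t3⟩, t4⟩ := h
    set j2 := min e (j + max 1 ((e - j) / 8)) with hj2
    have hj2e : j2 ≤ e := min_le_left _ _
    have hjj2 : j < j2 := by
      apply lt_min hj
      have : 1 ≤ max 1 ((e - j) / 8) := le_max_left _ _
      omega
    by_cases hsj : s ≤ sn j2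
    · -- the cell
      have hj21 : j2 ≤ 1024 := by omega
      have hs0 : 0 ≤ s := (sn_nonneg j).trans hs.1
      have hs1 : s ≤ 1 := hsj.trans (sn_le_one hj21)
      set U := upU D1 j2 with hU
      set C := cln (tOf D1) j2 with hC
      have hBB' : (0 : ℝ) < BB := by exact_mod_cast hBB
      have hqpos : 0 < qN L Bn j := by
        by_contra hq
        have hq0 : qN L Bn j = 0 := by omega
        rw [hq0, zero_mul] at t3
        have : 0 < BB * U * 1048576 := by positivity
        omega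
      have hqa := qN_cast_eq hqpos
      set l : ℝ := (L : ℝ) / 65536 with hl
      set b : ℝ := -((Bn : ℝ) / 65536) with hb
      have hl0 : 0 ≤ l := by positivity
      have hqs : (qN L Bn j : ℝ) / 68719476736 ≤ l * s + b := by
        rw [hqa]
        have := mul_le_mul_of_nonneg_left hs.1 hl0
        linarith
      have hqa0 : (0 : ℝ) < (qN L Bn j : ℝ) / 68719476736 := by
        have : (0 : ℝ) < qN L Bn j := by exact_mod_cast hqpos
        positivity
      have hqs0 : 0 < l * s + b := lt_of_lt_of_le hqa0 hqs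
      have hmax : max (l * s + b) 0 = l * s + b := max_eq_left hqs0.le
      have hI0 : 0 < IH d s := by
        have := hadm s ⟨hs0, hs.2⟩
        rw [hmax] at this
        linarith
      unfold gain
      rw [hmax]
      have ht3 : (BB : ℝ) * U * 1048576 ≤ (qN L Bn j : ℝ) * ((C : ℝ) - U) := by
        have h5 : ((BB * U * 1048576 : ℕ) : ℝ) ≤ ((qN L Bn j * (C - U) : ℕ) : ℝ) := by
          exact_mod_cast t3
        rw [Nat.cast_mul (qN L Bn j), Nat.cast_sub t2] at h5
        push_cast at h5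
        exact h5
      apply gain_ge_aux (qa := (qN L Bn j : ℝ) / 68719476736) (U := (U : ℝ) / 1024000000)
        (Cl := (C : ℝ) / 1024000000) hqa0 hqs hI0 (IH_le_upU hB hsj)
        (div_le_div_of_nonneg_right (by exact_mod_cast t2) (by norm_num))
        (cln_le_CL hB hj21 hsj)
      have e1 : (BB : ℝ) / 65536 * ((U : ℝ) / 1024000000) =
          ((BB : ℝ) * U * 1048576) / (65536 * 1024000000 * 1048576) := by
        ring
      have e2 : (qN L Bn j : ℝ) / 68719476736 * ((C : ℝ) / 1024000000 - (U : ℝ) / 1024000000) =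
          ((qN L Bn j : ℝ) * ((C : ℝ) - U)) / (65536 * 1024000000 * 1048576) := by
        ring
      rw [e1, e2]
      exact div_le_div_of_nonneg_right ht3 (by norm_num)
    · have hlt : sn j2 < s := not_le.mp hsj
      by_cases hje : j2 < e
      · exact ih j2 t4 hje s ⟨hlt.le, hs.2⟩
      · exfalso
        have : j2 = e := by omega
        rw [this] at hlt
        linarith [hs.2]

/-- What the certificate proves at the point `(M, d)`. -/
def HConcl (M d : ℝ) : Prop :=
  ∃ l b B : ℝ, LineAdm (IH d) l b 0 M ∧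
    (∀ V : ℝ, 1 / 4 ≤ V → ∀ s ∈ Icc ((V - tstar * M) / (1 - tstar)) M,
      B ≤ gain (IH d) (fun s => CL s (min d (9 / 10))) l b s) ∧
    (∀ V : ℝ, 1 / 4 ≤ V → Jf V + 2 * ezero ≤ lineValue (IH d) l b V 0 M + tstar * B)

/-- Soundness on a leaf. -/
lemma leaf_sound {L Bn BB st c e D1 D2 : ℕ} (hOK : leafOK L Bn BB st c e D1 D2 = true) {M d : ℝ}
    (hM1 : sn c ≤ M) (hM2 : M ≤ sn e) (hB : DBox D1 D2 d) : HConcl M d := by
  simp only [leafOK, Bool.and_eq_true, Bool.or_eq_true, decide_eq_true_eq] at hOK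
  obtain ⟨⟨⟨⟨he, hce⟩, hadm⟩, hk⟩, hgain⟩ := hOK
  have he1 : e ≤ 1024 := by omega
  have hc1 : c ≤ 1024 := by omega
  have hM1' : M ≤ 1 := hM2.trans (sn_le_one he1)
  have hA := adm_of_test (L := L) (Bn := Bn) hB he1 hM2 hadm
  refine ⟨(L : ℝ) / 65536, -((Bn : ℝ) / 65536), (BB : ℝ) / 65536, hA, ?_, ?_⟩
  · intro V hV s hs
    rcases hgain with h0 | ⟨⟨h1, h2⟩, h3⟩
    · rw [h0]
      have hs1 : s ≤ 1 := hs.2.trans hM1'
      unfold gain
      have : (0 : ℝ) ≤ max ((L : ℝ) / 65536 * s + -((Bn : ℝ) / 65536)) 0 / IH d s *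
          (CL s (min d (9 / 10)) - IH d s) := by
        apply mul_nonneg (div_nonneg (le_max_right _ _) (IH_nonneg d hs1))
        have := min_le_left (CL s (min d (9 / 10))) (min (xhat (s - d)) (IE s))
        unfold IH
        linarith
      simpa using this
    · by_cases hBB : BB = 0
      · rw [hBB]
        have hs1 : s ≤ 1 := hs.2.trans hM1'
        unfold gain
        have : (0 : ℝ) ≤ max ((L : ℝ) / 65536 * s + -((Bn : ℝ) / 65536)) 0 / IH d s *
            (CL s (min d (9 / 10)) - IH d s) := by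
          apply mul_nonneg (div_nonneg (le_max_right _ _) (IH_nonneg d hs1))
          have := min_le_left (CL s (min d (9 / 10))) (min (xhat (s - d)) (IE s))
          unfold IH
          linarith
        simpa using this
      · have hs0 : sn (isqAux 24 ((2621440 - e * e) / 9) 1024) ≤ s := by
          refine le_trans ?_ hs.1
          unfold tstar
          rw [le_div_iff₀ (by norm_num)]
          set j0 := isqAux 24 ((2621440 - e * e) / 9) 1024 with hj0
          have h2' : (2 : ℝ) * (9 * ((j0 : ℝ) * j0) + (e : ℝ) * e) ≤ 5242880 := by exact_mod_cast h2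
          rw [sn_eq] at hM2 ⊢
          have h4 : (j0 : ℝ) * j0 / 1048576 * (1 - 1 / 10) + 1 / 10 * ((e : ℝ) * e / 1048576) ≤ 1 / 4 := by
            rw [show (j0 : ℝ) * j0 / 1048576 * (1 - 1 / 10) + 1 / 10 * ((e : ℝ) * e / 1048576) =
              (2 * (9 * ((j0 : ℝ) * j0) + (e : ℝ) * e)) / 20971520 by ring]
            rw [div_le_iff₀ (by norm_num)]
            linarith
          have h5 : 1 / 10 * M ≤ 1 / 10 * ((e : ℝ) * e / 1048576) :=
            mul_le_mul_of_nonneg_left hM2 (by norm_num)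
          linarith
        exact gainOK_sound hB he hM2 (Nat.pos_of_ne_zero hBB) hA 512 _ h3 h1 s ⟨hs0, hs.2⟩
  · intro V hV
    have hJ := Jf_le_of_kOKh hk hV
    have hI := IH_continuous d
    have hsum := sumH_le (L := L) (Bn := Bn) (st := st) hB hc1 1024 0 0 (Nat.zero_le _) (Nat.zero_le _)
    have h00 : sn 0 = 0 := by simp [sn]
    rw [h00] at hsum
    have hmono := integral_gg_mono hI ((L : ℝ) / 65536) (-((Bn : ℝ) / 65536)) (le_refl (0 : ℝ))
      (sn_nonneg c) hM1
    rw [lineValue_eq]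
    unfold tstar ezero
    set S : ℝ := (sumH L Bn (tOf D1) D2 (imaxOf L) st c 1024 0 0 : ℝ) with hS
    have e1 : (((1000 * sumH L Bn (tOf D1) D2 (imaxOf L) st c 1024 0 0 + 52428800 * BB : ℕ) : ℝ) -
        ((524288000 * Bn + 68719476736 : ℕ) : ℝ)) / 34359738368000 =
        2 * (S / 68719476736) + 1 / 10 * ((BB : ℝ) / 65536) + -((Bn : ℝ) / 65536) - 2 * (1 / 1000) := by
      push_cast
      rw [hS]
      ring
    rw [e1] at hJ
    linarith

/-- Soundness of the tree test. -/
theorem checkH_sound : ∀ (t : HTree) (c e D1 D2 : ℕ), checkH t c e D1 D2 = true →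
    ∀ M d : ℝ, sn c ≤ M → M ≤ sn e → DBox D1 D2 d → d ≤ M → HConcl M d := by
  intro t
  induction t with
  | skip =>
    intro c e D1 D2 hOK M d _ h2 hB hdM
    exfalso
    simp only [checkH, decide_eq_true_eq] at hOK
    have h1 : (e : ℝ) * e < D1 := by exact_mod_cast hOK
    have h3 := hB.lo
    rw [sn_eq] at h2
    have h4 : (e : ℝ) * e / 1048576 < (D1 : ℝ) / 1048576 :=
      div_lt_div_of_pos_right h1 (by norm_num)
    linarith
  | leaf L Bn BB st =>
    intro c e D1 D2 hOK M d h1 h2 hB _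
    exact leaf_sound (by simpa [checkH] using hOK) h1 h2 hB
  | splitK mid l r ihl ihr =>
    intro c e D1 D2 hOK M d h1 h2 hB hdM
    simp only [checkH, Bool.and_eq_true, decide_eq_true_eq] at hOK
    obtain ⟨⟨⟨_, _⟩, e1⟩, e2⟩ := hOK
    rcases le_total M (sn mid) with hm | hm
    · exact ihl _ _ _ _ e1 M d h1 hm hB hdM
    · exact ihr _ _ _ _ e2 M d hm h2 hB hdM
  | splitD mid l r ihl ihr =>
    intro c e D1 D2 hOK M d h1 h2 hB hdM
    simp only [checkH, Bool.and_eq_true, decide_eq_true_eq] at hOK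
    obtain ⟨⟨⟨_, _⟩, e1⟩, e2⟩ := hOK
    rcases le_total d ((mid : ℝ) / 1048576) with hm | hm
    · exact ihl _ _ _ _ e1 M d h1 h2 ⟨hB.lo, hm⟩ hdM
    · exact ihr _ _ _ _ e2 M d h1 h2 ⟨hm, hB.hi⟩ hdM

end Vale.Agent.Lib.P232.Hump
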