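import Vale.Agent.Lib.P232.CertHump4
import Vale.Agent.Lib.P232.CertHump1F

/-!
# P232: the hump certificate, the fast test implies the proved one
-/

namespace Vale.Agent.Lib.P232.Hump

open Cells

lemma condBle {α : Type} (a b : ℕ) (x y : α) : cond (Nat.ble a b) x y = if a ≤ b then x else y := by
  by_cases h : a ≤ b
  · simp [h, Nat.ble_eq_true_of_le h]
  · have : Nat.ble a b = false := by
      rw [← Bool.not_eq_true, Nat.ble_eq]
      exact h
    simp [h, this]

lemma mnF_eq (a b : ℕ) : mnF a b = min a b := by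
  unfold mnF
  rw [condBle]
  rfl

lemma isF_eq (a : ℕ) : ∀ f x : ℕ, isF f a x = isqAux f a x := by
  intro f
  induction f with
  | zero => intro x; rfl
  | succ f ih =>
    intro x
    unfold isF isqAux
    rw [fN_eq, ih, condBle]
    rfl

lemma thF_eq (i : ℕ) : thF i = thN i := by
  by_cases hi : i ≤ 20
  · interval_cases i <;> rfl
  · have h1 : thN i = 0 := by
      unfold thN
      rw [List.getD_eq_default]
      have : thetaL.length = 21 := rfl
      omega
    rw [h1]
    unfold thF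
    have h2 : Nat.shiftRight thBig (Nat.mul 17 i) = 0 := by
      have h3 : Nat.shiftRight thBig (Nat.mul 17 i) = thBig >>> (17 * i) := rfl
      rw [h3, Nat.shiftRight_eq_div_pow]
      apply Nat.div_eq_of_lt
      have h4 : thBig < 2 ^ 357 := by
        decide +kernel
      have h5 : (2 : ℕ) ^ 357 ≤ 2 ^ (17 * i) := Nat.pow_le_pow_right (by norm_num) (by omega)
      exact lt_of_lt_of_le h4 h5
    rw [h2]
    rfl

lemma xvF_eq (i a : ℕ) : xvF i a = xv i a := by
  unfold xvF xv
  rw [thF_eq]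
  rfl

lemma xvUF_eq (i a : ℕ) : xvUF i a = xvU i a := by
  unfold xvUF xvU
  rw [thF_eq]
  rfl

lemma nextIF_eq (imax a : ℕ) : ∀ f i : ℕ, nextIF imax a f i = nextI imax a f i := by
  intro f
  induction f with
  | zero => intro i; rfl
  | succ f ih =>
    intro i
    unfold nextIF nextI
    rw [fN_eq, ih, xvF_eq, xvF_eq]
    by_cases h : i < imax ∧ xv i a ≤ xv (i + 1) a
    · have h1 : Nat.ble (Nat.succ i) imax = true := Nat.ble_eq_true_of_le h.1
      have h2 : Nat.ble (xv i a) (xv (Nat.succ i) a) = true := Nat.ble_eq_true_of_le h.2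
      rw [if_pos h, h1, h2]
      rfl
    · rw [if_neg h]
      have h3 : (and (Nat.ble (Nat.succ i) imax) (Nat.ble (xv i a) (xv (Nat.succ i) a))) = false := by
        rw [← Bool.not_eq_true, Bool.and_eq_true, Nat.ble_eq, Nat.ble_eq]
        exact h
      rw [h3]
      rfl

lemma clnF_eq (T j : ℕ) :
    clnF T (T * T * 3141593) (3141592 * T / 2048) (j * j) = cln T j := by
  unfold clnF cln
  rw [fN_eq, condBle, isF_eq]
  rfl

lemma idxF_eq (imax D2 j i : ℕ) :
    cond (Nat.ble (Nat.succ D2) (j * j)) (nextIF imax (j * j - D2) 21 i) i = idxN imax D2 j i := by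
  unfold idxN
  rw [condBle, nextIF_eq]
  rfl

lemma xloF_eq (D2 i j : ℕ) :
    cond (Nat.ble (Nat.succ D2) (j * j)) (xvF i (j * j - D2)) 2048000000 = xlo D2 i j := by
  unfold xlo
  rw [condBle, xvF_eq]
  rfl

lemma IbF_eq (T D2 i j : ℕ) :
    mnF (mnF (mnF (3544906 * j) 2896308224) (clnF T (T * T * 3141593) (3141592 * T / 2048) (j * j)))
      (cond (Nat.ble (Nat.succ D2) (j * j)) (xvF i (j * j - D2)) 2048000000) = Ibn T D2 i j := by
  rw [mnF_eq, mnF_eq, mnF_eq, clnF_eq, xloF_eq]
  rfl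

lemma condAnd {α : Type} (a b c d : ℕ) (x y : α) :
    cond (and (Nat.ble a b) (Nat.ble c d)) x y = if a ≤ b ∧ c ≤ d then x else y := by
  by_cases h : a ≤ b ∧ c ≤ d
  · have h1 : Nat.ble a b = true := Nat.ble_eq_true_of_le h.1
    have h2 : Nat.ble c d = true := Nat.ble_eq_true_of_le h.2
    rw [if_pos h, h1, h2]
    rfl
  · rw [if_neg h]
    have h3 : (and (Nat.ble a b) (Nat.ble c d)) = false := by
      rw [← Bool.not_eq_true, Bool.and_eq_true, Nat.ble_eq, Nat.ble_eq]
      exact h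
    rw [h3]
    rfl

/-- The end of `stepH`. -/
def stepS (L Bn j Ib : ℕ) : ℕ :=
  if qN L Bn j * 15625 ≤ (qN L Bn j * 15625 + 16 * Ib - 1) / (16 * Ib) * (16 * Ib) ∧
      (qN L Bn j * 15625 + 16 * Ib - 1) / (16 * Ib) ≤ 65536 then
    isqAux 24 (4294967296 - (qN L Bn j * 15625 + 16 * Ib - 1) / (16 * Ib) *
      ((qN L Bn j * 15625 + 16 * Ib - 1) / (16 * Ib))) 65536
  else 0

lemma stepIb_eq (L Bn j Ib : ℕ) : stepIb L (Bn * 1048576) (j * j) Ib = stepS L Bn j Ib := by
  unfold stepIb stepS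
  simp only [fN_eq]
  refine (condAnd _ _ _ _ _ _).trans ?_
  rw [isF_eq]
  rfl

lemma stepF_eq (L Bn T D2 i j : ℕ) :
    stepF L (Bn * 1048576) T (T * T * 3141593) (3141592 * T / 2048) D2 i j (j * j) =
      stepH L Bn T D2 i j := by
  unfold stepF
  rw [fN_eq]
  exact (congrArg (stepIb L (Bn * 1048576) (j * j)) (IbF_eq T D2 i j)).trans (stepIb_eq L Bn j _)

lemma sumF_eq (L Bn T D2 imax st c : ℕ) : ∀ f j i acc : ℕ,
    sumF L (Bn * 1048576) T (T * T * 3141593) (3141592 * T / 2048) D2 imax st c f j i acc =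
      acc + sumH L Bn T D2 imax st c f j i := by
  intro f
  induction f with
  | zero => intro j i acc; rfl
  | succ f ih =>
    intro j i acc
    unfold sumF sumH
    simp only [fN_eq]
    rw [condBle]
    by_cases h : j < c
    · have h' : Nat.succ j ≤ c := h
      rw [if_pos h', if_pos h]
      have e1 : mnF (Nat.add j st) c = min (j + st) c := mnF_eq _ _
      rw [e1]
      have e2 := idxF_eq imax D2 (min (j + st) c) i
      have e3 := stepF_eq L Bn T D2 (idxN imax D2 (min (j + st) c) i) (min (j + st) c)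
      rw [ih]
      show acc + stepF L (Bn * 1048576) T (T * T * 3141593) (3141592 * T / 2048) D2
          (cond (Nat.ble (Nat.succ D2) (min (j + st) c * min (j + st) c))
            (nextIF imax (min (j + st) c * min (j + st) c - D2) 21 i) i)
          (min (j + st) c) (min (j + st) c * min (j + st) c) *
          (min (j + st) c * min (j + st) c - j * j) +
        sumH L Bn T D2 imax st c f (min (j + st) c)
          (cond (Nat.ble (Nat.succ D2) (min (j + st) c * min (j + st) c))
            (nextIF imax (min (j + st) c * min (j + st) c - D2) 21 i) i) = _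
      rw [e2, e3]
      ring
    · have h' : ¬ Nat.succ j ≤ c := h
      rw [if_neg h', if_neg h]
      rfl

lemma xmaxF_eq (a : ℕ) : xmaxF a = xmaxU a := by
  unfold xmaxF xmaxU
  have e : (fun k acc => cond (Nat.ble (xvUF k a) acc) acc (xvUF k a)) =
      (fun k acc => max (xvU k a) acc) := by
    funext k acc
    rw [condBle, xvUF_eq, max_def]
  rw [e]

lemma upF_eq (D1 j : ℕ) : upF D1 j (j * j) = upU D1 j := by
  unfold upF upU
  simp only [fN_eq]
  rw [condBle, mnF_eq, mnF_eq, mnF_eq, xmaxF_eq]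
  rfl

lemma max_one_eq (x : ℕ) : cond (Nat.ble x 1) 1 x = max 1 x := by
  rw [condBle, max_def]
  by_cases h : x ≤ 1
  · by_cases h2 : 1 ≤ x
    · have : x = 1 := le_antisymm h h2
      simp [this]
    · simp [h, h2]
  · have h2 : 1 ≤ x := by omega
    simp [h, h2]

lemma gainF_imp (L Bn BB T D1 e : ℕ) : ∀ f j : ℕ,
    gainF L Bn BB T (T * T * 3141593) (3141592 * T / 2048) D1 e f j = true →
      gainOK L Bn BB T D1 e f j = true := by
  intro f
  induction f with
  | zero =>
    intro j h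
    simp only [gainF, Nat.ble_eq] at h
    simp only [gainOK, decide_eq_true_eq]
    exact h
  | succ f ih =>
    intro j h
    unfold gainF at h
    unfold gainOK
    rw [condBle] at h
    by_cases hj : e ≤ j
    · rw [if_pos hj]
    · rw [if_neg hj] at h ⊢
      simp only [fN_eq] at h
      have e1 : mnF e (Nat.add j (cond (Nat.ble (Nat.div (Nat.sub e j) 8) 1) 1 (Nat.div (Nat.sub e j) 8))) =
          min e (j + max 1 ((e - j) / 8)) := by
        rw [mnF_eq]
        have := max_one_eq ((e - j) / 8)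
        congr 2
      rw [e1] at h
      set j2 := min e (j + max 1 ((e - j) / 8)) with hj2
      have e2 : upF D1 j2 (Nat.mul j2 j2) = upU D1 j2 := upF_eq D1 j2
      have e3 : clnF T (T * T * 3141593) (3141592 * T / 2048) (Nat.mul j2 j2) = cln T j2 := clnF_eq T j2
      rw [e2, e3] at h
      simp only [Bool.and_eq_true, Nat.ble_eq] at h
      obtain ⟨⟨h1, h2⟩, h3, h4⟩ := h
      simp only [Bool.and_eq_true, decide_eq_true_eq]
      exact ⟨⟨⟨h1, h2⟩, h3⟩, ih j2 h4⟩

lemma kF_imp {L LH RH : ℕ} (h : kF L LH RH = true) : kOKh L LH RH = true := by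
  unfold kF at h
  unfold kOKh
  simp only [Bool.or_eq_true, Bool.and_eq_true, Nat.ble_eq] at h
  simp only [Bool.or_eq_true, Bool.and_eq_true, decide_eq_true_eq]
  exact h

lemma leafF_imp {L Bn BB st c e D1 D2 : ℕ} (h : leafF L Bn BB st c e D1 D2 = true) :
    leafOK L Bn BB st c e D1 D2 = true := by
  unfold leafF at h
  simp only [fN_eq] at h
  have hT : Nat.sub 1048576 (mnF D1 943718) = tOf D1 := by
    rw [mnF_eq]
    rfl
  have hi : mnF 20 (Nat.div (Nat.mul 10 L) 65536) = imaxOf L := by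
    rw [mnF_eq]
    rfl
  rw [hT, hi] at h
  unfold leafF2 at h
  simp only [fN_eq] at h
  unfold leafOK
  set T := tOf D1 with hTd
  set im := imaxOf L with him
  have e1 : cond (Nat.ble (Nat.succ D2) (Nat.mul e e)) (nextIF im (Nat.sub (Nat.mul e e) D2) 21 0) 0 =
      idxN im D2 e 0 := idxF_eq im D2 e 0
  have e2 := IbF_eq T D2 (idxN im D2 e 0) e
  have e3 := sumF_eq L Bn T D2 im st c 1024 0 0 0
  rw [zero_add] at e3
  simp only [Bool.and_eq_true, Bool.or_eq_true, decide_eq_true_eq]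
  rw [e1] at h
  have h' := h
  simp only [Bool.and_eq_true, Bool.or_eq_true, Nat.ble_eq] at h'
  obtain ⟨⟨h1, h2⟩, ⟨h3, h4⟩, h5⟩ := h'
  refine ⟨⟨⟨⟨h1, h2⟩, ?_⟩, ?_⟩, ?_⟩
  · have h6 : qN L Bn e * 15625 ≤ 65536 * (16 * Ibn T D2 (idxN im D2 e 0) e) := by
      rw [← e2]
      exact h3
    exact h6
  · have h7 : sumF L (Bn * 1048576) T (T * T * 3141593) (3141592 * T / 2048) D2 im st c 1024 0 0 0 =
        sumH L Bn T D2 im st c 1024 0 0 := e3
    apply kF_imp
    rw [← h7]
    exact h4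
  · rcases h5 with h5 | h5
    · left
      exact Nat.eq_of_beq_eq_true h5
    · right
      have e4 : isF 24 (Nat.div (Nat.sub 2621440 (Nat.mul e e)) 9) 1024 =
          isqAux 24 ((2621440 - e * e) / 9) 1024 := isF_eq _ _ _
      rw [e4] at h5
      obtain ⟨⟨h6, h7⟩, h8⟩ := h5
      exact ⟨⟨h6, h7⟩, gainF_imp L Bn BB T D1 e 512 _ h8⟩

/-- The fast test implies the proved one. -/
theorem checkF_imp : ∀ (t : HTree) (c e D1 D2 : ℕ), checkF t c e D1 D2 = true →
    checkH t c e D1 D2 = true := by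
  intro t
  induction t with
  | skip =>
    intro c e D1 D2 h
    simp only [checkF, Nat.ble_eq] at h
    simp only [checkH, decide_eq_true_eq]
    exact h
  | leaf L Bn BB st =>
    intro c e D1 D2 h
    exact leafF_imp h
  | splitK mid l r ihl ihr =>
    intro c e D1 D2 h
    simp only [checkF, Bool.and_eq_true, Nat.ble_eq] at h
    simp only [checkH, Bool.and_eq_true, decide_eq_true_eq]
    exact ⟨⟨h.1, ihl _ _ _ _ h.2.1⟩, ihr _ _ _ _ h.2.2⟩
  | splitD mid l r ihl ihr =>
    intro c e D1 D2 h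
    simp only [checkF, Bool.and_eq_true, Nat.ble_eq] at h
    simp only [checkH, Bool.and_eq_true, decide_eq_true_eq]
    exact ⟨⟨h.1, ihl _ _ _ _ h.2.1⟩, ihr _ _ _ _ h.2.2⟩

/-- The statement proved on a box. -/
def BoxOK (c e D1 D2 : ℕ) : Prop :=
  ∀ M d : ℝ, sn c ≤ M → M ≤ sn e → DBox D1 D2 d → d ≤ M → HConcl M d

theorem boxOK_of (t : HTree) {c e D1 D2 : ℕ} (h : checkF t c e D1 D2 = true) : BoxOK c e D1 D2 :=
  checkH_sound t c e D1 D2 (checkF_imp t c e D1 D2 h)

theorem BoxOK.splitK {c mid e D1 D2 : ℕ} (h1 : BoxOK c mid D1 D2) (h2 : BoxOK mid e D1 D2) :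
    BoxOK c e D1 D2 := by
  intro M d c1 c2 hB hdM
  rcases le_total M (sn mid) with hm | hm
  · exact h1 M d c1 hm hB hdM
  · exact h2 M d hm c2 hB hdM

theorem BoxOK.splitD {c e D1 mid D2 : ℕ} (h1 : BoxOK c e D1 mid) (h2 : BoxOK c e mid D2) :
    BoxOK c e D1 D2 := by
  intro M d c1 c2 hB hdM
  rcases le_total d ((mid : ℝ) / 1048576) with hm | hm
  · exact h1 M d c1 c2 ⟨hB.lo, hm⟩ hdM
  · exact h2 M d c1 c2 ⟨hm, hB.hi⟩ hdM

end Vale.Agent.Lib.P232.Hump
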