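import Vale.Agent.Lib.P232.CellSound

/-!
# P232: the slab range, the corner `m ≈ 0`, `M ≈ 1` of the one-dimensional inequality

The point `(m, M) = (0, 1)` is an equality case (a slab transverse to the slicing direction), so no
fixed line works near it.  We use the chords from `(0, 0)` to `(M, IT M)` and, by the symmetry
`s ↦ 1 - s`, from `(m, IT m)` to `(1, 0)`.
-/

namespace Vale.Agent.Lib.P232.Cells

open Real MeasureTheory Set intervalIntegral

/-- The conclusion of the slab statement for the data `(V, m, M)`. -/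
def SlabConcl (V m M : ℝ) : Prop :=
  ∃ l b, LineAdm IT l b m M ∧ 2 ≤ lineValue IT l b V m M

lemma IT_symm (s : ℝ) : IT (1 - s) = IT s := by
  unfold IT
  have e : (1 : ℝ) - (1 - s) = s := by ring
  rw [e]
  simp only [min_assoc, min_comm, min_left_comm]

lemma lineValue_mirror (l b V m M : ℝ) :
    lineValue IT l b V m M = lineValue IT (-l) (l + b) (1 - V) (1 - M) (1 - m) := by
  unfold lineValue
  have h : ∫ s in (1 - M)..(1 - m), √(1 - (max (-l * s + (l + b)) 0 / IT s) ^ 2) =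
      ∫ s in m..M, √(1 - (max (l * s + b) 0 / IT s) ^ 2) := by
    have := intervalIntegral.integral_comp_sub_left (a := m) (b := M)
      (fun s => √(1 - (max (-l * s + (l + b)) 0 / IT s) ^ 2)) 1
    rw [← this]
    apply intervalIntegral.integral_congr
    intro s _
    simp only [IT_symm]
    have e : -l * (1 - s) + (l + b) = l * s + b := by ring
    rw [e]
  rw [h]
  ring

lemma lineAdm_mirror {l b m M : ℝ} (h : LineAdm IT l b m M) :
    LineAdm IT (-l) (l + b) (1 - M) (1 - m) := by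
  intro s hs
  have h1 : 1 - s ∈ Icc m M := ⟨by linarith [hs.2], by linarith [hs.1]⟩
  have h2 := h (1 - s) h1
  rw [IT_symm] at h2
  have e : -l * s + (l + b) = l * (1 - s) + b := by ring
  rw [e]
  exact h2

/-- `1/IT²` is at most the sum of the three reciprocal squares. -/
lemma div_IT_sq_le {s : ℝ} (h0 : 0 < s) (h1 : s < 1) (y : ℝ) :
    (y / IT s) ^ 2 ≤ y ^ 2 * (1 / (4 * π * s) + 1 / 4 + 1 / (4 * π * (1 - s))) := by
  have hπ := Real.pi_pos
  have h2 : 0 < 1 - s := by linarith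
  have ha : (2 * √(π * s)) ^ 2 = 4 * π * s := by
    rw [mul_pow, Real.sq_sqrt (by positivity)]
    ring
  have hc : (2 * √(π * (1 - s))) ^ 2 = 4 * π * (1 - s) := by
    rw [mul_pow, Real.sq_sqrt (by positivity)]
    ring
  have t1 : 0 < 1 / (4 * π * s) := by positivity
  have t3 : 0 < 1 / (4 * π * (1 - s)) := by positivity
  have hy : 0 ≤ y ^ 2 := by positivity
  rw [div_pow]
  have key : 1 / IT s ^ 2 ≤ 1 / (4 * π * s) + 1 / 4 + 1 / (4 * π * (1 - s)) := by
    unfold IT
    rcases min_choice (min (2 * √(π * s)) 2) (2 * √(π * (1 - s))) with h | h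
    · rw [h]
      rcases min_choice (2 * √(π * s)) 2 with h' | h'
      · rw [h', ha]
        linarith
      · rw [h']
        norm_num
        norm_num at t1 t3
        linarith
    · rw [h, hc]
      linarith
  calc y ^ 2 / IT s ^ 2 = y ^ 2 * (1 / IT s ^ 2) := by ring
    _ ≤ _ := mul_le_mul_of_nonneg_left key hy

/-- The primitive of the lower bound for the integrand. -/
noncomputable def primG (l s : ℝ) : ℝ :=
  s - l ^ 2 * (s ^ 2 / (8 * π) + s ^ 3 / 12 - Real.log (1 - s) / (4 * π))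

/-- The lower bound for the integrand. -/
noncomputable def lowF (l s : ℝ) : ℝ :=
  1 - l ^ 2 * (s / (4 * π) + s ^ 2 / 4 + 1 / (4 * π * (1 - s)))

lemma primG_deriv (l : ℝ) {s : ℝ} (hs : s < 1) : HasDerivAt (primG l) (lowF l s) s := by
  have hπ := Real.pi_pos
  have hp : 1 - s ≠ 0 := by linarith
  have d1 : HasDerivAt (fun t : ℝ => Real.log (1 - t)) ((-1) / (1 - s)) s := by
    have := ((hasDerivAt_id s).const_sub 1).log hp
    simpa using this
  have d2 : HasDerivAt (fun t : ℝ => t ^ 2 / (8 * π)) (2 * s / (8 * π)) s := by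
    have := (hasDerivAt_pow 2 s).div_const (8 * π)
    simpa using this
  have d3 : HasDerivAt (fun t : ℝ => t ^ 3 / 12) (3 * s ^ 2 / 12) s := by
    have := (hasDerivAt_pow 3 s).div_const 12
    simpa using this
  have d4 := ((d2.fun_add d3).fun_sub (d1.div_const (4 * π))).const_mul (l ^ 2)
  have d5 := (hasDerivAt_id' s).fun_sub d4
  have e : lowF l s = 1 - l ^ 2 * (2 * s / (8 * π) + 3 * s ^ 2 / 12 - -1 / (1 - s) / (4 * π)) := by
    unfold lowF
    field_simp
    ring
  rw [e]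
  exact d5

lemma lowF_le_gg {l s : ℝ} (hl : 0 ≤ l) (hs0 : 0 ≤ s) (hs1 : s < 1)
    (hq : max (l * s + 0) 0 ≤ IT s) : lowF l s ≤ gg IT l 0 s := by
  have hπ := Real.pi_pos
  have hp : 0 < 1 - s := by linarith
  have hterm : 0 ≤ l ^ 2 * (s / (4 * π) + s ^ 2 / 4 + 1 / (4 * π * (1 - s))) := by positivity
  rcases hs0.eq_or_lt with h00 | hspos
  · have e : gg IT l 0 s = 1 := by
      unfold gg
      rw [← h00]
      simp
    rw [e]
    unfold lowF
    linarith
  · have hq1 : max (l * s + 0) 0 = l * s := by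
      rw [add_zero]
      exact max_eq_left (by positivity)
    rw [hq1] at hq
    rcases hl.eq_or_lt with hl0 | hlpos
    · have e : gg IT l 0 s = 1 := by
        unfold gg
        rw [← hl0]
        simp
      rw [e]
      unfold lowF
      linarith
    have hIpos : 0 < IT s := by
      have : 0 < l * s := by positivity
      linarith
    have hr0 : (l * s / IT s) ^ 2 ≤ 1 := by
      have h0 : 0 ≤ l * s / IT s := by positivity
      have h1 : l * s / IT s ≤ 1 := by
        rw [div_le_one hIpos]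
        exact hq
      nlinarith
    have hr1 := div_IT_sq_le hspos hs1 (l * s)
    have hr2 : (l * s) ^ 2 * (1 / (4 * π * s) + 1 / 4 + 1 / (4 * π * (1 - s))) ≤
        l ^ 2 * (s / (4 * π) + s ^ 2 / 4 + 1 / (4 * π * (1 - s))) := by
      have e1 : (l * s) ^ 2 * (1 / (4 * π * s)) = l ^ 2 * (s / (4 * π)) := by
        field_simp
      have e2 : (l * s) ^ 2 * (1 / 4) = l ^ 2 * (s ^ 2 / 4) := by ring
      have h5 : 0 ≤ 1 / (4 * π * (1 - s)) := by positivity
      have h6 : (l * s) ^ 2 ≤ l ^ 2 := by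
        rw [mul_pow]
        have : s ^ 2 ≤ 1 := by nlinarith
        nlinarith [sq_nonneg l]
      have e3 := mul_le_mul_of_nonneg_right h6 h5
      rw [mul_add, mul_add, mul_add, mul_add, e1, e2]
      linarith
    have hu : 1 - (l * s / IT s) ^ 2 ≤ gg IT l 0 s := by
      unfold gg
      rw [hq1]
      apply Real.le_sqrt_of_sq_le
      have h0 : 0 ≤ (l * s / IT s) ^ 2 := by positivity
      nlinarith
    unfold lowF
    linarith

lemma lowF_continuousOn {l m M : ℝ} (hmM : m ≤ M) (hM : M < 1) :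
    ContinuousOn (lowF l) (uIcc m M) := by
  have hπ := Real.pi_pos
  unfold lowF
  apply ContinuousOn.sub continuousOn_const
  apply ContinuousOn.mul continuousOn_const
  apply ContinuousOn.add
  · fun_prop
  · apply ContinuousOn.div continuousOn_const (by fun_prop)
    intro s hs
    rw [uIcc_of_le hmM] at hs
    have h3 : 0 < 1 - s := by linarith [hs.2]
    positivity

/-- The integral of the integrand, from below. -/
lemma integral_gg_lower {l m M : ℝ} (hl : 0 ≤ l) (hm0 : 0 ≤ m) (hmM : m ≤ M) (hM : M < 1)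
    (hadm : LineAdm IT l 0 m M) : primG l M - primG l m ≤ ∫ s in m..M, gg IT l 0 s := by
  have hfi : IntervalIntegrable (lowF l) volume m M := (lowF_continuousOn hmM hM).intervalIntegrable
  have hint : ∫ s in m..M, lowF l s = primG l M - primG l m := by
    apply intervalIntegral.integral_eq_sub_of_hasDerivAt _ hfi
    intro s hs
    rw [uIcc_of_le hmM] at hs
    exact primG_deriv l (lt_of_le_of_lt hs.2 hM)
  rw [← hint]
  apply intervalIntegral.integral_mono_on hmM hfi (gg_intervalIntegrable IT_continuous l 0 m M)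
  intro s hs
  exact lowF_le_gg hl (hm0.trans hs.1) (lt_of_le_of_lt hs.2 hM) (hadm s hs)

/-- `x log(1/x)` near zero. -/
lemma x_log_bound {x : ℝ} (hx0 : 0 < x) (hx1 : x ≤ 442 / 10000) :
    x * (-Real.log (x ^ 2)) ≤ 2805 / 10000 := by
  have e1 : -Real.log (x ^ 2) = 2 * Real.log (1 / x) := by
    rw [Real.log_pow, one_div, Real.log_inv]
    push_cast
    ring
  have h1 : Real.log (1 / x / 32) ≤ 1 / x / 32 - 1 :=
    Real.log_le_sub_one_of_pos (by positivity)
  have h2 : Real.log (1 / x / 32) = Real.log (1 / x) - 5 * Real.log 2 := by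
    rw [Real.log_div (by positivity) (by norm_num)]
    have : (32 : ℝ) = 2 ^ 5 := by norm_num
    rw [this, Real.log_pow]
    push_cast
    ring
  have h3 := Real.log_two_lt_d9
  have h4 : Real.log (1 / x) ≤ 1 / x / 32 - 1 + 5 * 0.6931471808 := by
    rw [h2] at h1
    linarith
  have h5 : x * Real.log (1 / x) ≤ x * (1 / x / 32 - 1 + 5 * 0.6931471808) :=
    mul_le_mul_of_nonneg_left h4 hx0.le
  have h6 : x * (1 / x / 32 - 1 + 5 * 0.6931471808) = 1 / 32 + x * (5 * 0.6931471808 - 1) := by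
    field_simp
    ring
  rw [e1]
  rw [h6] at h5
  norm_num at h5 ⊢
  nlinarith

/-- The difference of the primitive. -/
lemma primG_diff {l m M LL : ℝ} (hm0 : 0 ≤ m) (hmM : m ≤ M) (hM : M < 1)
    (hlog : Real.log (1 - M) = -LL) (hLL : 0 ≤ LL) :
    (M - m) - l ^ 2 * (1 / (8 * π) + 1 / 12 + LL / (4 * π)) ≤ primG l M - primG l m := by
  have hπ := Real.pi_pos
  unfold primG
  rw [hlog]
  have hlogm : Real.log (1 - m) ≤ 0 := Real.log_nonpos (by linarith) (by linarith)
  have e1 : M ^ 2 - m ^ 2 ≤ 1 := by nlinarith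
  have e2 : M ^ 3 - m ^ 3 ≤ 1 := by
    have h0 : 0 ≤ M := hm0.trans hmM
    have : M ^ 3 ≤ 1 := pow_le_one₀ h0 hM.le
    have : 0 ≤ m ^ 3 := by positivity
    linarith
  have e3 : (M ^ 2 - m ^ 2) / (8 * π) ≤ 1 / (8 * π) :=
    div_le_div_of_nonneg_right e1 (by positivity)
  have h7 : Real.log (1 - m) / (4 * π) ≤ 0 := div_nonpos_of_nonpos_of_nonneg hlogm (by positivity)
  have hbr : M ^ 2 / (8 * π) + M ^ 3 / 12 - -LL / (4 * π) -
      (m ^ 2 / (8 * π) + m ^ 3 / 12 - Real.log (1 - m) / (4 * π)) ≤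
      1 / (8 * π) + 1 / 12 + LL / (4 * π) := by
    have e : -LL / (4 * π) = -(LL / (4 * π)) := by ring
    have e' : (M ^ 2 - m ^ 2) / (8 * π) = M ^ 2 / (8 * π) - m ^ 2 / (8 * π) := by ring
    rw [e]
    rw [e'] at e3
    linarith
  have h8 := mul_le_mul_of_nonneg_left hbr (sq_nonneg l)
  nlinarith

/-- The quadratic term. -/
lemma corner_bound {x l LL : ℝ} (hx0 : 0 < x) (hl2 : l ^ 2 ≤ 4 * π * x ^ 2 * (1041 / 1033))
    (hLL0 : 0 ≤ LL) (hxL : x * LL ≤ 2805 / 10000) :
    l ^ 2 * (1 / (8 * π) + 1 / 12 + LL / (4 * π)) ≤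
      x * (1041 / 1033) * (2805 / 10000) + x ^ 2 * (1041 / 1033) * (1 / 2 + 3141593 / 3000000) := by
  have hπ := Real.pi_pos
  have hpi : π ≤ 3141593 / 1000000 := pi_le_bar
  have h10 : 0 ≤ 1 / (8 * π) + 1 / 12 + LL / (4 * π) := by positivity
  have h11 := mul_le_mul_of_nonneg_right hl2 h10
  have e : 4 * π * x ^ 2 * (1041 / 1033) * (1 / (8 * π) + 1 / 12 + LL / (4 * π)) =
      x ^ 2 * (1041 / 1033) * (1 / 2 + π / 3 + LL) := by
    field_simp
    ring
  rw [e] at h11
  have h1 : x ^ 2 * LL ≤ x * (2805 / 10000) := by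
    have := mul_le_mul_of_nonneg_left hxL hx0.le
    nlinarith
  have h2 : x ^ 2 * (π / 3) ≤ x ^ 2 * (3141593 / 3000000) := by
    apply mul_le_mul_of_nonneg_left _ (by positivity)
    linarith
  nlinarith

/-- The chord from the origin to `(1 - δ, IT (1 - δ))`. -/
lemma corner_chord {δ x : ℝ} (hx0 : 0 < x) (hx2 : x ^ 2 = δ) (hδ1 : δ ≤ 1 / 512) :
    ∃ l : ℝ, 0 < l ∧ (∀ s ∈ Icc 0 (1 - δ), l * s + 0 ≤ IT s) ∧
      2 * (1772453 / 1000000) * x ≤ l ∧ l ^ 2 ≤ 4 * π * x ^ 2 * (1041 / 1033) := by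
  have hπ := Real.pi_pos
  have hδ0 : 0 < δ := by rw [← hx2]; positivity
  have hxs : √δ = x := by rw [← hx2, Real.sqrt_sq hx0.le]
  obtain ⟨M, hM⟩ : ∃ M : ℝ, M = 1 - δ := ⟨_, rfl⟩
  rw [← hM]
  have hM0 : 511 / 512 ≤ M := by rw [hM]; linarith
  have hM1 : M < 1 := by rw [hM]; linarith
  have hMpos : 0 < M := by linarith
  obtain ⟨sp, hsp⟩ : ∃ sp : ℝ, sp = √π := ⟨_, rfl⟩
  have hsp1 : (1772453 : ℝ) / 1000000 ≤ sp := hsp ▸ sqrt_pi_gt
  have hsp3 : sp ≤ 1772454 / 1000000 := hsp ▸ sqrt_pi_lt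
  have hsp2 : sp ^ 2 = π := by rw [hsp]; exact Real.sq_sqrt hπ.le
  have hsp0 : 0 < sp := by linarith
  have hx1 : x ≤ 442 / 10000 := by
    by_contra hc
    push Not at hc
    nlinarith
  have hIM : 2 * sp * x ≤ IT M := by
    have h1 : √(π * δ) = sp * x := by rw [Real.sqrt_mul hπ.le, hxs, hsp]
    have h2 : √(π * M) = sp * √M := by rw [Real.sqrt_mul hπ.le, hsp]
    have hxM : x ≤ √M := by
      rw [← hxs]
      apply Real.sqrt_le_sqrt
      rw [hM]
      linarith
    unfold IT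
    have e : 1 - M = δ := by rw [hM]; ring
    rw [e, h1, h2]
    refine le_min (le_min ?_ ?_) (le_of_eq (by ring))
    · have := mul_le_mul_of_nonneg_left hxM hsp0.le
      linarith
    · nlinarith
  obtain ⟨l, hl⟩ : ∃ l : ℝ, l = 2 * sp * x / M := ⟨_, rfl⟩
  have hl0 : 0 < l := by
    rw [hl]
    positivity
  have hlM : l * M = 2 * sp * x := by
    rw [hl]
    field_simp
  have hz : (0 : ℝ) ≤ IT 0 := IT_nonneg 0
  refine ⟨l, hl0, ?_, ?_, ?_⟩
  · intro s hs
    have := line_le_of_ends (I := IT) (l := l) (b := 0) (s1 := 0) (s2 := M) (ρ := 1) IT_concave le_rfl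
      hM1.le (by norm_num) (by simpa using hz) (by rw [one_mul, add_zero, hlM]; exact hIM) hs
    simpa using this
  · have h1 : 2 * sp * x ≤ l := by
      rw [hl, le_div_iff₀ hMpos]
      have : 0 < 2 * sp * x := by positivity
      nlinarith
    have h2 : 2 * (1772453 / 1000000) * x ≤ 2 * sp * x := by nlinarith
    exact h2.trans h1
  · have hl2 : l ^ 2 * M ^ 2 = 4 * π * x ^ 2 := by
      rw [← mul_pow, hlM, mul_pow, mul_pow, hsp2]
      ring
    have hM2 : 1 / M ^ 2 ≤ 1041 / 1033 := by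
      rw [div_le_div_iff₀ (by positivity) (by norm_num)]
      nlinarith
    have : l ^ 2 = 4 * π * x ^ 2 * (1 / M ^ 2) := by
      rw [← hl2]
      field_simp
    rw [this]
    exact mul_le_mul_of_nonneg_left hM2 (by positivity)

/-- The key bound at `M = 1 - δ`: the chord from the origin. -/
lemma corner_A {δ m V : ℝ} (hδ0 : 0 < δ) (hδ1 : δ ≤ 1 / 512) (hm0 : 0 ≤ m) (hm1 : m ≤ 1 - δ)
    (hV : 9 / 25 ≤ V) :
    ∃ l b, LineAdm IT l b m (1 - δ) ∧
      2 + 45 / 100 * √δ - 2 * m ≤ lineValue IT l b V m (1 - δ) := by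
  obtain ⟨x, hx0, hx2⟩ : ∃ x : ℝ, 0 < x ∧ x ^ 2 = δ :=
    ⟨√δ, Real.sqrt_pos.mpr hδ0, Real.sq_sqrt hδ0.le⟩
  have hxs : √δ = x := by rw [← hx2, Real.sqrt_sq hx0.le]
  rw [hxs]
  have hx1 : x ≤ 442 / 10000 := by
    by_contra hc
    push Not at hc
    nlinarith
  obtain ⟨l, hl0, hline, hl1, hl2⟩ := corner_chord hx0 hx2 hδ1
  have hM1 : 1 - δ < 1 := by linarith
  have hadm : LineAdm IT l 0 m (1 - δ) := by
    intro s hs
    apply max_le
    · exact hline s ⟨hm0.trans hs.1, hs.2⟩
    · exact IT_nonneg s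
  refine ⟨l, 0, hadm, ?_⟩
  have hI := integral_gg_lower hl0.le hm0 hm1 hM1 hadm
  have hval : lineValue IT l 0 V m (1 - δ) = l * V + 0 + 2 * ∫ s in m..(1 - δ), gg IT l 0 s := rfl
  rw [hval]
  have hlogM : Real.log (1 - (1 - δ)) = -(-Real.log (x ^ 2)) := by
    rw [hx2]
    simp
  have hLL0 : 0 ≤ -Real.log (x ^ 2) := by
    have : Real.log (x ^ 2) ≤ 0 := Real.log_nonpos (by positivity) (by nlinarith)
    linarith
  have hxL := x_log_bound hx0 hx1
  obtain ⟨LL, hLL⟩ : ∃ LL : ℝ, LL = -Real.log (x ^ 2) := ⟨_, rfl⟩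
  rw [← hLL] at hlogM hLL0 hxL
  have hD := primG_diff (l := l) hm0 hm1 hM1 hlogM hLL0
  have hbound := corner_bound hx0 hl2 hLL0 hxL
  have hlV : 2 * (1772453 / 1000000) * x * (9 / 25) ≤ l * V :=
    calc 2 * (1772453 / 1000000) * x * (9 / 25) ≤ l * (9 / 25) :=
          mul_le_mul_of_nonneg_right hl1 (by norm_num)
      _ ≤ l * V := mul_le_mul_of_nonneg_left hV hl0.le
  have hx3 : x ^ 2 ≤ 442 / 10000 * x := by nlinarith
  have hMM : 1 - δ - m = 1 - x ^ 2 - m := by rw [hx2]
  rw [hMM] at hD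
  linarith

/-- The corner of the slab statement. -/
theorem corner_slab {V m M : ℝ} (hm0 : 0 ≤ m) (hm1 : m ≤ 1 / 65536) (hM0 : 511 / 512 ≤ M)
    (hM1 : M ≤ 1) (hV : 9 / 25 ≤ V) (hV2 : V ≤ 16 / 25) : SlabConcl V m M := by
  obtain ⟨δ, hδ⟩ : ∃ δ : ℝ, δ = 1 - M := ⟨_, rfl⟩
  have hMδ : M = 1 - δ := by rw [hδ]; ring
  have hδ0 : 0 ≤ δ := by rw [hδ]; linarith
  have hδ1 : δ ≤ 1 / 512 := by rw [hδ]; linarith
  rw [hMδ]
  by_cases hc : 2 * m ≤ 45 / 100 * √δ ∧ 0 < δ
  · obtain ⟨l, b, h1, h2⟩ := corner_A hc.2 hδ1 hm0 (by linarith) hV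
    exact ⟨l, b, h1, by linarith [hc.1]⟩
  · rcases hm0.eq_or_lt with hm | hm
    · -- `m = 0`
      have hδz : δ = 0 := by
        by_contra hne
        have hpos : 0 < δ := lt_of_le_of_ne hδ0 (Ne.symm hne)
        apply hc
        refine ⟨?_, hpos⟩
        rw [← hm]
        have := Real.sqrt_nonneg δ
        linarith
      refine ⟨0, 0, ?_, ?_⟩
      · intro s _
        simp only [zero_mul, add_zero, max_self]
        exact IT_nonneg s
      · rw [← hm, hδz]
        unfold lineValue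
        simp
    · -- mirror
      have hV' : 9 / 25 ≤ 1 - V := by linarith
      obtain ⟨l, b, h1, h2⟩ := corner_A (δ := m) (m := δ) (V := 1 - V) hm (by linarith) hδ0
        (by linarith) hV'
      have hlast : 2 * δ ≤ 45 / 100 * √m := by
        have hsm : √m ^ 2 = m := Real.sq_sqrt hm0
        have hsm0 : 0 < √m := Real.sqrt_pos.mpr hm
        have hsm1 : √m ≤ 1 / 256 := by
          apply Real.sqrt_le_iff.mpr
          constructor
          · norm_num
          · norm_num
            linarith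
        by_cases hd : 0 < δ
        · have hcc : 45 / 100 * √δ < 2 * m := by
            by_contra hcon
            exact hc ⟨not_lt.mp hcon, hd⟩
          have hsd : √δ ^ 2 = δ := Real.sq_sqrt hδ0
          have hsd0 := Real.sqrt_nonneg δ
          have hcc2 : √δ ≤ 2 * m * (100 / 45) := by linarith
          have hcc3 : δ ≤ (2 * m * (100 / 45)) ^ 2 := by
            rw [← hsd]
            exact pow_le_pow_left₀ hsd0 hcc2 2
          rw [← hsm] at hcc3
          have : (2 * √m ^ 2 * (100 / 45)) ^ 2 = (800 / 81) * √m ^ 4 * 2 := by ring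
          have h3 : √m ^ 4 ≤ √m * (1 / 256) ^ 3 := by
            have h4 : √m ^ 3 ≤ (1 / 256) ^ 3 := pow_le_pow_left₀ hsm0.le hsm1 3
            nlinarith
          nlinarith
        · have : δ = 0 := le_antisymm (not_lt.mp hd) hδ0
          rw [this]
          have := Real.sqrt_nonneg m
          linarith
      refine ⟨-l, l + b, ?_, ?_⟩
      · have := lineAdm_mirror h1
        have e : (1 : ℝ) - (1 - m) = m := by ring
        rw [e] at this
        exact this
      · have e2 := lineValue_mirror l b (1 - V) δ (1 - m)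
        have e3 : (1 : ℝ) - (1 - V) = V := by ring
        have e4 : (1 : ℝ) - (1 - m) = m := by ring
        rw [e3, e4] at e2
        rw [← e2]
        linarith

end Vale.Agent.Lib.P232.Cells
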