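import Vale.Agent.Lib.P232.Profiles3
import Vale.Agent.Lib.P232.SlabCorner

/-!
# P232, stage 3: the corner `m ≈ 0`, `M ≈ 1` for volumes in `[1/4, 37/100]`

A variant of `corner_slab`: the chord from the origin loses at `V = 1/4`, but still wins a positive
multiple of `√(1 - M)`; the mirror chord wins `(45/100) √m` since `1 - V ≥ 9/25`.
-/

namespace Vale.Agent.Lib.P232.Cells

open Real MeasureTheory Set intervalIntegral

/-- The key bound at `M = 1 - δ`, `V ≥ 1/4`: the chord from the origin. -/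
lemma corner_A_hump {δ m V : ℝ} (hδ0 : 0 < δ) (hδ1 : δ ≤ 1 / 512) (hm0 : 0 ≤ m) (hm1 : m ≤ 1 - δ)
    (hV : 1 / 4 ≤ V) :
    ∃ l b, LineAdm IT l b m (1 - δ) ∧
      2 + 6 / 100 * √δ - 2 * m ≤ lineValue IT l b V m (1 - δ) := by
  obtain ⟨x, hx0, hx2⟩ : ∃ x : ℝ, 0 < x ∧ x ^ 2 = δ :=
    ⟨√δ, Real.sqrt_pos.mpr hδ0, Real.sq_sqrt hδ0.le⟩
  have hxs : √δ = x := by rw [← hx2, Real.sqrt_sq hx0.le]
  rw [hxs]
  have hx1 : x ≤ 442 / 10000 := by
    by_contra hc
    push Not at hc
    nlinarith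
  obtain ⟨l, hl0, hline, hl1, hl2⟩ := corner_chord hx0 hx2 hδ1
  have hM1 : 1 - δ < 1 := by linarith
  have hadm : LineAdm IT l 0 m (1 - δ) := by
    intro s hs
    apply max_le
    · exact hline s ⟨hm0.trans hs.1, hs.2⟩
    · exact IT_nonneg s
  refine ⟨l, 0, hadm, ?_⟩
  have hI := integral_gg_lower hl0.le hm0 hm1 hM1 hadm
  have hval : lineValue IT l 0 V m (1 - δ) = l * V + 0 + 2 * ∫ s in m..(1 - δ), gg IT l 0 s := rfl
  rw [hval]
  have hlogM : Real.log (1 - (1 - δ)) = -(-Real.log (x ^ 2)) := by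
    rw [hx2]
    simp
  have hLL0 : 0 ≤ -Real.log (x ^ 2) := by
    have : Real.log (x ^ 2) ≤ 0 := Real.log_nonpos (by positivity) (by nlinarith)
    linarith
  have hxL := x_log_bound hx0 hx1
  obtain ⟨LL, hLL⟩ : ∃ LL : ℝ, LL = -Real.log (x ^ 2) := ⟨_, rfl⟩
  rw [← hLL] at hlogM hLL0 hxL
  have hD := primG_diff (l := l) hm0 hm1 hM1 hlogM hLL0
  have hbound := corner_bound hx0 hl2 hLL0 hxL
  have hlV : 2 * (1772453 / 1000000) * x * (1 / 4) ≤ l * V :=
    calc 2 * (1772453 / 1000000) * x * (1 / 4) ≤ l * (1 / 4) :=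
          mul_le_mul_of_nonneg_right hl1 (by norm_num)
      _ ≤ l * V := mul_le_mul_of_nonneg_left hV hl0.le
  have hx3 : x ^ 2 ≤ 442 / 10000 * x := by nlinarith
  have hMM : 1 - δ - m = 1 - x ^ 2 - m := by rw [hx2]
  rw [hMM] at hD
  linarith

end Vale.Agent.Lib.P232.Cells

namespace Vale.Agent.Lib.P232

open Real Cells

/-- The corner `m ≈ 0`, `M ≈ 1` for volumes in `[1/4, 37/100]`: an admissible line for `IT` reaches
the value `2 ≥ Jf V`. -/
theorem hump_corner {V m M : ℝ} (hV : 1 / 4 ≤ V) (hV2 : V ≤ 37 / 100) (hm : 0 ≤ m)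
    (hm1 : m < 1 / 1000) (hM : 511 / 512 ≤ M) (hM1 : M ≤ 1) : TLine V m M := by
  suffices h : ∃ l b, LineAdm IT l b m M ∧ 2 ≤ lineValue IT l b V m M by
    obtain ⟨l, b, h1, h2⟩ := h
    exact ⟨l, b, h1, (Jf_le_two V).trans h2⟩
  obtain ⟨δ, hδ⟩ : ∃ δ : ℝ, δ = 1 - M := ⟨_, rfl⟩
  have hMδ : M = 1 - δ := by rw [hδ]; ring
  have hδ0 : 0 ≤ δ := by rw [hδ]; linarith
  have hδ1 : δ ≤ 1 / 512 := by rw [hδ]; linarith
  rw [hMδ]
  by_cases hc : 2 * m ≤ 6 / 100 * √δ ∧ 0 < δ
  · obtain ⟨l, b, h1, h2⟩ := corner_A_hump hc.2 hδ1 hm (by linarith) hV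
    exact ⟨l, b, h1, by linarith [hc.1]⟩
  · rcases hm.eq_or_lt with hm' | hm'
    · -- `m = 0`
      have hδz : δ = 0 := by
        by_contra hne
        have hpos : 0 < δ := lt_of_le_of_ne hδ0 (Ne.symm hne)
        apply hc
        refine ⟨?_, hpos⟩
        rw [← hm']
        have := Real.sqrt_nonneg δ
        linarith
      refine ⟨0, 0, ?_, ?_⟩
      · intro s _
        simp only [zero_mul, add_zero, max_self]
        exact IT_nonneg s
      · rw [← hm', hδz]
        unfold lineValue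
        simp
    · -- mirror
      have hV' : 9 / 25 ≤ 1 - V := by linarith
      obtain ⟨l, b, h1, h2⟩ := corner_A (δ := m) (m := δ) (V := 1 - V) hm' (by linarith) hδ0
        (by linarith) hV'
      have hlast : 2 * δ ≤ 45 / 100 * √m := by
        have hsm : √m ^ 2 = m := Real.sq_sqrt hm
        have hsm0 : 0 < √m := Real.sqrt_pos.mpr hm'
        have hsm1 : √m ≤ 32 / 1000 := by
          apply Real.sqrt_le_iff.mpr
          constructor
          · norm_num
          · norm_num
            linarith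
        by_cases hd : 0 < δ
        · have hcc : 6 / 100 * √δ < 2 * m := by
            by_contra hcon
            exact hc ⟨not_lt.mp hcon, hd⟩
          have hsd : √δ ^ 2 = δ := Real.sq_sqrt hδ0
          have hsd0 := Real.sqrt_nonneg δ
          have hcc2 : √δ ≤ 2 * m * (100 / 6) := by linarith
          have hcc3 : δ ≤ (2 * m * (100 / 6)) ^ 2 := by
            rw [← hsd]
            exact pow_le_pow_left₀ hsd0 hcc2 2
          rw [← hsm] at hcc3
          have e : (2 * √m ^ 2 * (100 / 6)) ^ 2 = (10000 / 9) * √m ^ 4 := by ring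
          rw [e] at hcc3
          have h3 : √m ^ 4 ≤ √m * (32 / 1000) ^ 3 := by
            have h4 : √m ^ 3 ≤ (32 / 1000) ^ 3 := pow_le_pow_left₀ hsm0.le hsm1 3
            nlinarith
          nlinarith
        · have : δ = 0 := le_antisymm (not_lt.mp hd) hδ0
          rw [this]
          have := Real.sqrt_nonneg m
          linarith
      refine ⟨-l, l + b, ?_, ?_⟩
      · have := lineAdm_mirror h1
        have e : (1 : ℝ) - (1 - m) = m := by ring
        rw [e] at this
        exact this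
      · have e2 := lineValue_mirror l b (1 - V) δ (1 - m)
        have e3 : (1 : ℝ) - (1 - V) = V := by ring
        have e4 : (1 : ℝ) - (1 - m) = m := by ring
        rw [e3, e4] at e2
        rw [← e2]
        linarith

end Vale.Agent.Lib.P232

namespace Vale.Agent.Lib.P232

open Real Cells

/-- Strict form of `hump_corner`: off the corner itself the value is strictly above `2`. -/
theorem hump_corner_strict {V m M : ℝ} (hV : 1 / 4 ≤ V) (hV2 : V ≤ 37 / 100) (hm : 0 ≤ m)
    (hm1 : m < 1 / 1000) (hM : 511 / 512 ≤ M) (hM1 : M ≤ 1) :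
    (m = 0 ∧ M = 1) ∨ ∃ l b, LineAdm IT l b m M ∧ 2 < lineValue IT l b V m M := by
  by_cases hcorner : m = 0 ∧ M = 1
  · exact Or.inl hcorner
  right
  obtain ⟨δ, hδ⟩ : ∃ δ : ℝ, δ = 1 - M := ⟨_, rfl⟩
  have hMδ : M = 1 - δ := by rw [hδ]; ring
  have hδ0 : 0 ≤ δ := by rw [hδ]; linarith
  have hδ1 : δ ≤ 1 / 512 := by rw [hδ]; linarith
  rw [hMδ]
  by_cases hc : 2 * m < 6 / 100 * √δ ∧ 0 < δ
  · obtain ⟨l, b, h1, h2⟩ := corner_A_hump hc.2 hδ1 hm (by linarith) hV
    exact ⟨l, b, h1, by linarith [hc.1]⟩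
  · have hm' : 0 < m := by
      rcases hm.eq_or_lt with hm0 | hm0
      · exfalso
        by_cases hd : 0 < δ
        · apply hc
          refine ⟨?_, hd⟩
          rw [← hm0]
          have := Real.sqrt_pos.mpr hd
          linarith
        · have hδz : δ = 0 := le_antisymm (not_lt.mp hd) hδ0
          apply hcorner
          refine ⟨hm0.symm, ?_⟩
          rw [hMδ, hδz, sub_zero]
      · exact hm0
    have hV' : 9 / 25 ≤ 1 - V := by linarith
    obtain ⟨l, b, h1, h2⟩ := corner_A (δ := m) (m := δ) (V := 1 - V) hm' (by linarith) hδ0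
      (by linarith) hV'
    have hlast : 2 * δ < 45 / 100 * √m := by
      have hsm : √m ^ 2 = m := Real.sq_sqrt hm
      have hsm0 : 0 < √m := Real.sqrt_pos.mpr hm'
      have hsm1 : √m ≤ 32 / 1000 := by
        apply Real.sqrt_le_iff.mpr
        constructor
        · norm_num
        · norm_num
          linarith
      by_cases hd : 0 < δ
      · have hcc : 6 / 100 * √δ ≤ 2 * m := by
          by_contra hcon
          exact hc ⟨not_le.mp hcon, hd⟩
        have hsd : √δ ^ 2 = δ := Real.sq_sqrt hδ0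
        have hsd0 := Real.sqrt_nonneg δ
        have hcc2 : √δ ≤ 2 * m * (100 / 6) := by linarith
        have hcc3 : δ ≤ (2 * m * (100 / 6)) ^ 2 := by
          rw [← hsd]
          exact pow_le_pow_left₀ hsd0 hcc2 2
        rw [← hsm] at hcc3
        have e : (2 * √m ^ 2 * (100 / 6)) ^ 2 = (10000 / 9) * √m ^ 4 := by ring
        rw [e] at hcc3
        have h3 : √m ^ 4 ≤ √m * (32 / 1000) ^ 3 := by
          have h4 : √m ^ 3 ≤ (32 / 1000) ^ 3 := pow_le_pow_left₀ hsm0.le hsm1 3
          nlinarith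
        nlinarith
      · have : δ = 0 := le_antisymm (not_lt.mp hd) hδ0
        rw [this]
        linarith
    refine ⟨-l, l + b, ?_, ?_⟩
    · have := lineAdm_mirror h1
      have e : (1 : ℝ) - (1 - m) = m := by ring
      rw [e] at this
      exact this
    · have e2 := lineValue_mirror l b (1 - V) δ (1 - m)
      have e3 : (1 : ℝ) - (1 - V) = V := by ring
      have e4 : (1 : ℝ) - (1 - m) = m := by ring
      rw [e3, e4] at e2
      rw [← e2]
      linarith

end Vale.Agent.Lib.P232
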