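import Vale.Agent.Lib.P232.S3Defs
import Vale.Agent.Lib.P232.CellSound

/-!
# P232, stage 3: the certificate for thin directions, large slices (`M ≥ 39/100`)

A tree of boxes in `h = √m`, `k = √M` (corners multiples of `1/1024`), a fixed rational line on every leaf.
On a cell of the Riemann sum the profile `ICp` is bounded below by the concave profile `Jp i`, where
`i` is one index of the family `xline`.
-/

namespace Vale.Agent.Lib.P232.ThinL

open Real MeasureTheory Set intervalIntegral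
open Vale.Agent.Lib.P232.Cells

/-! ## Arithmetic layer -/

/-- Numerators of the table of `Θ`. -/
def thN (i : ℕ) : ℕ :=
  [100000, 99957, 99832, 99622, 99328, 98947, 98478, 97918, 97264, 96513, 95660, 94699, 93624, 92425,
   91091, 89608, 87954, 86101, 84002, 81571, 78538].getD i 0

/-- The value `xline i (sn j - 1/10)` over `6553600000`. -/
def xn (i j : ℕ) : ℤ :=
  625 * (i : ℤ) * ((j : ℤ) * (j : ℤ)) - 65536000 * (i : ℤ) + 131072 * (thN i : ℤ)

/-- The line is below `R/16384` times the concave profile with index `i` at node `j`. -/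
def nodeOK (L B : ℤ) (i j R : ℕ) : Bool :=
  decide (qn L B j * (16384 * 1024000000) ≤ ((R * tnode true j * 68719476736 : ℕ) : ℤ)) &&
  decide (qn L B j * (16384 * 6553600000) ≤ (R : ℤ) * xn i j * 68719476736) &&
  decide (qn L B j * (16384 * 10000000) ≤ ((R * 25455834 * 68719476736 : ℕ) : ℤ))

/-- Rounded up quotient. -/
def ceilDiv (a b : ℕ) : ℕ := (a + b - 1) / b

/-- The ratio at node `j`. -/
def rhoJ (L B : ℤ) (i j : ℕ) : ℕ :=
  let q := (qn L B j).toNat
  max (max (ceilDiv (q * (16384 * 1024000000)) (tnode true j * 68719476736))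
      (ceilDiv (q * (16384 * 6553600000)) ((xn i j).toNat * 68719476736)))
    (ceilDiv (q * (16384 * 10000000)) (25455834 * 68719476736))

/-- Lower bound for the integrand on a cell, over `16384`. -/
def stepT (L B : ℤ) (i j j2 : ℕ) : ℕ :=
  let R := max (rhoJ L B i j) (rhoJ L B i j2)
  if nodeOK L B i j R = true ∧ nodeOK L B i j2 R = true ∧ R ≤ 16384 then
    isq (16384 * 16384 - R * R)
  else 0

/-- Number of thresholds passed. -/
def cnt : List ℕ → ℕ → ℕ
  | [], _ => 0
  | x :: xs, j => if x ≤ j then 1 + cnt xs j else 0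

/-- Thresholds for the index of the family, in the node variable. -/
def thresholds : List ℕ :=
  [338, 363, 386, 409, 430, 451, 472, 492, 513, 533, 554, 575, 597, 621, 645, 673, 703, 739, 785, 861]

/-- The index used on a cell. -/
def idx (j j2 : ℕ) : ℕ := min (cnt thresholds ((j + j2) / 2)) 20

/-- Admissibility on the nodes of a subdivision. -/
def admC (L B : ℤ) (st : ℕ) : ℕ → ℕ → ℕ → Bool
  | 0, _, _ => false
  | f + 1, j, j1 =>
    if j < j1 then
      nodeOK L B (idx j (min (j + st) j1)) j 16384 &&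
        nodeOK L B (idx j (min (j + st) j1)) (min (j + st) j1) 16384 &&
        admC L B st f (min (j + st) j1) j1
    else true

/-- The Riemann sum, over `16384 * 1048576`. -/
def sumT (L B : ℤ) (st : ℕ) : ℕ → ℕ → ℕ → ℕ
  | 0, _, _ => 0
  | f + 1, j, j1 =>
    if j < j1 then
      stepT L B (idx j (min (j + st) j1)) j (min (j + st) j1) *
          (min (j + st) j1 * min (j + st) j1 - j * j) +
        sumT L B st f (min (j + st) j1) j1
    else 0

/-- Numerator, over `2^50`, of the constant term of the value. -/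
def gnum (L B : ℤ) (st b c : ℕ) : ℤ :=
  B * (16384 * 1048576) + 2 * (sumT L B st 2048 b c : ℤ) * 65536

/-- The test for the upper bound of `Jf` by the line. -/
def kOKJ (L g : ℤ) : Bool :=
  (decide (0 < L) && decide (3141593 * 1125899906842624 * 65536 ≤ g * L * 1000000)) ||
  (decide (0 ≤ L) && decide (L * 1000000 ≤ 3141592 * 65536) &&
    decide ((2 * 1125899906842624 - g) * 3141593 * 65536 ≤ L * 1000000 * 1125899906842624)) ||
  (decide (2 * 1772454 * 65536 ≤ L * 1000000) &&
    decide ((1772454 * 65536 * 4 - L * 1000000) * 1125899906842624 ≤ g * 65536 * 4 * 1000000))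

/-- The test on a leaf. -/
def leafOK (L B : ℤ) (st a b c d : ℕ) : Bool :=
  decide (a ≤ b) && decide (b < c) && decide (c ≤ d) && decide (d ≤ 1024) &&
    admC L B st 2048 a d && kOKJ L (gnum L B st b c - 1)

/-- The tree of boxes. -/
inductive TTree where
  | leaf (L B : ℤ) (st : ℕ) : TTree
  | splitH (mid : ℕ) (l r : TTree) : TTree
  | splitK (mid : ℕ) (l r : TTree) : TTree

/-- The test on a tree. -/
def checkT : TTree → ℕ → ℕ → ℕ → ℕ → Bool
  | .leaf L B st, a, b, c, d => leafOK L B st a b c d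
  | .splitH mid l r, a, b, c, d =>
    decide (a ≤ mid) && decide (mid ≤ b) && checkT l a mid c d && checkT r mid b c d
  | .splitK mid l r, a, b, c, d =>
    decide (c ≤ mid) && decide (mid ≤ d) && checkT l a b c mid && checkT r a b mid d

/-! ## Profiles -/

/-- The concave profile with index `i`. -/
noncomputable def Jp (i : ℕ) (s : ℝ) : ℝ :=
  min (IE s) (min (xline i (s - tstar)) (2 * √2 * (1 - tstar)))

lemma foldr_ge {A : ℝ} {j : ℕ} : ∀ (l : List ℕ), j ∈ l →
    xline j A ≤ l.foldr (fun j acc => max (xline j A) acc) 2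
  | [], h => by simp at h
  | x :: xs, h => by
    simp only [List.foldr_cons]
    rcases List.mem_cons.1 h with rfl | h2
    · exact le_max_left _ _
    · exact (foldr_ge xs h2).trans (le_max_right _ _)

lemma foldr_ge_two {A : ℝ} : ∀ (l : List ℕ),
    (2 : ℝ) ≤ l.foldr (fun j acc => max (xline j A) acc) 2
  | [] => by simp
  | x :: xs => by
    simp only [List.foldr_cons]
    exact (foldr_ge_two xs).trans (le_max_right _ _)

lemma foldr_cont : ∀ (l : List ℕ),
    Continuous (fun A : ℝ => l.foldr (fun j acc => max (xline j A) acc) 2)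
  | [] => by simpa using continuous_const
  | x :: xs => by
    simp only [List.foldr_cons]
    refine Continuous.max ?_ (foldr_cont xs)
    unfold xline
    fun_prop

lemma xline_le {i : ℕ} (hi : i ≤ 20) (A : ℝ) : xline i A ≤ xhat A :=
  foldr_ge _ (List.mem_range.2 (by omega))

lemma two_le (A : ℝ) : 2 ≤ xhat A := foldr_ge_two _

lemma xhat_cont : Continuous xhat := foldr_cont _

lemma ICp_cont : Continuous ICp := by
  have h1 : Continuous IE := IE_continuous
  have h2 : Continuous (fun s : ℝ => xhat (s - tstar)) := xhat_cont.comp (by fun_prop)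
  unfold ICp
  exact h1.min (h2.min continuous_const)

lemma ICp_nonneg (s : ℝ) : 0 ≤ ICp s := by
  unfold ICp
  refine le_min (IE_nonneg s) (le_min (by linarith [two_le (s - tstar)]) ?_)
  unfold tstar
  positivity

lemma Jp_le_ICp {i : ℕ} (hi : i ≤ 20) (s : ℝ) : Jp i s ≤ ICp s := by
  unfold Jp ICp
  exact min_le_min le_rfl (min_le_min (xline_le hi _) le_rfl)

lemma Jp_concave (i : ℕ) : ConcaveOn ℝ (Icc (0 : ℝ) 1) (Jp i) := by
  have h2 : ConcaveOn ℝ (Icc (0 : ℝ) 1) (fun s : ℝ => xline i (s - tstar)) := by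
    refine ⟨convex_Icc _ _, ?_⟩
    intro x _ y _ a b _ _ hab
    have hb : b = 1 - a := by linarith
    subst hb
    simp only [smul_eq_mul, xline]
    apply le_of_eq
    ring
  have h3 : ConcaveOn ℝ (Icc (0 : ℝ) 1) (fun _ : ℝ => 2 * √2 * (1 - tstar)) :=
    concaveOn_const _ (convex_Icc _ _)
  have h := IE_concave.inf (h2.inf h3)
  exact h

lemma thN_eq {i : ℕ} (hi : i ≤ 20) : ((thetaTab.getD i 0 : ℚ) : ℝ) = (thN i : ℝ) / 100000 := by
  interval_cases i <;> norm_num [thetaTab, thN]

lemma xline_node {i : ℕ} (hi : i ≤ 20) (j : ℕ) :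
    xline i (sn j - tstar) = ((xn i j : ℤ) : ℝ) / 6553600000 := by
  unfold xline
  rw [thN_eq hi]
  unfold xn sn tstar
  push_cast
  ring

lemma const_low : (25455834 : ℝ) / 10000000 ≤ 2 * √2 * (1 - tstar) := by
  have h2 : (1414213 : ℝ) / 1000000 ≤ √2 := by
    apply Real.le_sqrt_of_sq_le
    norm_num
  unfold tstar
  norm_num
  linarith

/-- The node test in real numbers. -/
lemma nodeOK_real {L B : ℤ} {i j R : ℕ} (hi : i ≤ 20) (h : nodeOK L B i j R = true) :
    (L : ℝ) / 65536 * sn j + (B : ℝ) / 65536 ≤ ((R : ℝ) / 16384) * Jp i (sn j) := by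
  simp only [nodeOK, Bool.and_eq_true, decide_eq_true_eq] at h
  obtain ⟨⟨h1, h2⟩, h3⟩ := h
  have hR : (0 : ℝ) ≤ (R : ℝ) / 16384 := by positivity
  have e0 := qn_cast L B j
  rw [← e0]
  unfold Jp
  have hq1 : ((qn L B j : ℤ) : ℝ) / 68719476736 ≤ ((R : ℝ) / 16384) * IE (sn j) := by
    have := line_node_le (L := L) (B := B) (j := j) (R := R) true h1
    rw [qn_cast]
    simpa [prof] using this
  have hq2 : ((qn L B j : ℤ) : ℝ) / 68719476736 ≤ ((R : ℝ) / 16384) * xline i (sn j - tstar) := by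
    rw [xline_node hi]
    have h2' : ((qn L B j : ℤ) : ℝ) * (16384 * 6553600000) ≤
        (R : ℝ) * ((xn i j : ℤ) : ℝ) * 68719476736 := by exact_mod_cast h2
    rw [div_le_iff₀ (by norm_num)]
    have e : (R : ℝ) / 16384 * (((xn i j : ℤ) : ℝ) / 6553600000) * 68719476736 =
        ((R : ℝ) * ((xn i j : ℤ) : ℝ) * 68719476736) / (16384 * 6553600000) := by ring
    rw [e, le_div_iff₀ (by norm_num)]
    exact h2'
  have hq3 : ((qn L B j : ℤ) : ℝ) / 68719476736 ≤ ((R : ℝ) / 16384) * (2 * √2 * (1 - tstar)) := by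
    have h3' : ((qn L B j : ℤ) : ℝ) * (16384 * 10000000) ≤ (R : ℝ) * 25455834 * 68719476736 := by
      exact_mod_cast h3
    refine le_trans ?_ (mul_le_mul_of_nonneg_left const_low hR)
    rw [div_le_iff₀ (by norm_num)]
    have e : (R : ℝ) / 16384 * ((25455834 : ℝ) / 10000000) * 68719476736 =
        ((R : ℝ) * 25455834 * 68719476736) / (16384 * 10000000) := by ring
    rw [e, le_div_iff₀ (by norm_num)]
    exact h3'
  rcases min_cases (IE (sn j)) (min (xline i (sn j - tstar)) (2 * √2 * (1 - tstar))) with ⟨e, _⟩ | ⟨e, _⟩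
  · rw [e]
    exact hq1
  · rw [e]
    rcases min_cases (xline i (sn j - tstar)) (2 * √2 * (1 - tstar)) with ⟨e2, _⟩ | ⟨e2, _⟩
    · rw [e2]
      exact hq2
    · rw [e2]
      exact hq3

lemma idx_le (j j2 : ℕ) : idx j j2 ≤ 20 := min_le_right _ _

lemma stepT_le (L B : ℤ) {i j j2 : ℕ} (hi : i ≤ 20) (h2 : j2 ≤ 1024) {t : ℝ}
    (ht : t ∈ Icc (sn j) (sn j2)) :
    (stepT L B i j j2 : ℝ) / 16384 ≤ gg ICp ((L : ℝ) / 65536) ((B : ℝ) / 65536) t := by
  unfold stepT
  simp only
  set R := max (rhoJ L B i j) (rhoJ L B i j2) with hR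
  split_ifs with hc
  · obtain ⟨c1, c2, c3⟩ := hc
    have e1 := nodeOK_real hi c1
    have e2 := nodeOK_real hi c2
    have hle := line_le_of_ends (Jp_concave i) (sn_nonneg j) (sn_le_one h2)
      (by positivity : (0 : ℝ) ≤ (R : ℝ) / 16384) e1 e2 ht
    have hle2 : (L : ℝ) / 65536 * t + (B : ℝ) / 65536 ≤ ((R : ℝ) / 16384) * ICp t :=
      hle.trans (mul_le_mul_of_nonneg_left (Jp_le_ICp hi t) (by positivity))
    apply gg_ge (ICp_nonneg t) (by positivity) hle2 (by positivity)
    have hs := isq_sq_le (16384 * 16384 - R * R)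
    have hR2 : R * R ≤ 16384 * 16384 := Nat.mul_le_mul c3 c3
    have hs2 : isq (16384 * 16384 - R * R) * isq (16384 * 16384 - R * R) + R * R ≤ 16384 * 16384 := by
      omega
    have hs3 : (isq (16384 * 16384 - R * R) : ℝ) * isq (16384 * 16384 - R * R) + (R : ℝ) * R ≤
        16384 * 16384 := by exact_mod_cast hs2
    rw [div_pow, div_pow, ← add_div, div_le_one (by norm_num)]
    nlinarith
  · simpa using gg_nonneg _ _ _ _

lemma sumT_le (L B : ℤ) (st : ℕ) (j1 : ℕ) (h1 : j1 ≤ 1024) :
    ∀ (f j : ℕ), j ≤ j1 → (sumT L B st f j j1 : ℝ) / (16384 * 1048576) ≤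
      ∫ s in sn j..sn j1, gg ICp ((L : ℝ) / 65536) ((B : ℝ) / 65536) s := by
  intro f
  induction f with
  | zero =>
    intro j hj
    simp only [sumT, Nat.cast_zero, zero_div]
    exact intervalIntegral.integral_nonneg (sn_mono hj) (fun s _ => gg_nonneg _ _ _ _)
  | succ f ih =>
    intro j hj
    simp only [sumT]
    split_ifs with hlt
    · set j2 := min (j + st) j1 with hj2
      have hj12 : j ≤ j2 := le_min (Nat.le_add_right _ _) hj
      have hj21 : j2 ≤ j1 := min_le_right _ _
      have hi := ih j2 hj21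
      have hI := ICp_cont
      have hsplit := intervalIntegral.integral_add_adjacent_intervals
        (gg_intervalIntegrable hI ((L : ℝ) / 65536) ((B : ℝ) / 65536) (sn j) (sn j2))
        (gg_intervalIntegrable hI ((L : ℝ) / 65536) ((B : ℝ) / 65536) (sn j2) (sn j1))
      have hfirst := integral_gg_ge hI ((L : ℝ) / 65536) ((B : ℝ) / 65536) (sn_mono hj12)
        (fun s hs => stepT_le L B (idx_le j j2) (hj21.trans h1) hs)
      rw [← hsplit]
      have hwidth : ((j2 * j2 - j * j : ℕ) : ℝ) = (j2 : ℝ) * j2 - (j : ℝ) * j := by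
        have : j * j ≤ j2 * j2 := Nat.mul_le_mul hj12 hj12
        rw [Nat.cast_sub this]
        push_cast
        ring
      have he : (stepT L B (idx j j2) j j2 : ℝ) / 16384 * (sn j2 - sn j) =
          ((stepT L B (idx j j2) j j2 * (j2 * j2 - j * j) : ℕ) : ℝ) / (16384 * 1048576) := by
        push_cast [hwidth]
        unfold sn
        ring
      push_cast only [Nat.cast_add]
      rw [add_div]
      rw [he] at hfirst
      linarith
    · simp only [Nat.cast_zero, zero_div]
      exact intervalIntegral.integral_nonneg (sn_mono hj) (fun s _ => gg_nonneg _ _ _ _)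

/-- Admissibility. -/
lemma admC_le (L B : ℤ) (st : ℕ) (j1 : ℕ) (h1 : j1 ≤ 1024) :
    ∀ (f j : ℕ), j < j1 → admC L B st f j j1 = true → ∀ s ∈ Icc (sn j) (sn j1),
      (L : ℝ) / 65536 * s + (B : ℝ) / 65536 ≤ ICp s := by
  intro f
  induction f with
  | zero =>
    intro j _ h
    simp [admC] at h
  | succ f ih =>
    intro j hj h s hs
    simp only [admC, if_pos hj, Bool.and_eq_true] at h
    obtain ⟨⟨c1, c2⟩, c3⟩ := h
    set j2 := min (j + st) j1 with hj2
    have hj21 : j2 ≤ j1 := min_le_right _ _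
    have hi := idx_le j j2
    rcases le_total s (sn j2) with hle | hle
    · have e1 := nodeOK_real hi c1
      have e2 := nodeOK_real hi c2
      have hq := line_le_of_ends (Jp_concave (idx j j2)) (sn_nonneg j) (sn_le_one (hj21.trans h1))
        (by positivity : (0 : ℝ) ≤ ((16384 : ℕ) : ℝ) / 16384) e1 e2 ⟨hs.1, hle⟩
      have e3 : ((16384 : ℕ) : ℝ) / 16384 = 1 := by norm_num
      rw [e3, one_mul] at hq
      exact hq.trans (Jp_le_ICp hi s)
    · rcases hj21.eq_or_lt with heq | hlt
      · have hs2 : s = sn j2 := le_antisymm (by rw [heq]; exact hs.2) hle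
        have e2 := nodeOK_real hi c2
        have e3 : ((16384 : ℕ) : ℝ) / 16384 = 1 := by norm_num
        rw [e3, one_mul] at e2
        rw [hs2]
        exact e2.trans (Jp_le_ICp hi _)
      · exact ih j2 hlt c3 s ⟨hle, hs.2⟩

/-! ## The upper bound for `Jf` -/

lemma Jf_le_tubeline {l K V : ℝ} (hl : 0 < l) (hV : 0 < V) (hK : π ≤ K * l) : Jf V ≤ l * V + K :=
  (min_le_left _ _).trans (JJ_le_tube hl hV hK)

lemma Jf_le_two' (V : ℝ) : Jf V ≤ 2 := min_le_right _ _

lemma Jf_le_disc (V : ℝ) : Jf V ≤ 2 * √(π * V) :=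
  (min_le_left _ _).trans (min_le_right _ _)

/-- Slope at most `π`: the worst volume is `1/π`. -/
lemma Jf_le_mid {l K V : ℝ} (hl0 : 0 ≤ l) (hl1 : l ≤ π) (hV : 0 ≤ V) (hK : (2 - K) * π ≤ l) :
    Jf V ≤ l * V + K := by
  have hπ := Real.pi_pos
  set a := l / π with ha
  have ha0 : 0 ≤ a := div_nonneg hl0 hπ.le
  have ha1 : a ≤ 1 := (div_le_one hπ).2 hl1
  have hl : l = a * π := by
    rw [ha]
    field_simp
  have hK2 : 2 - a ≤ K := by
    rw [hl] at hK
    have : (2 - K) ≤ a := by
      by_contra hcon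
      have h3 : a < 2 - K := not_le.mp hcon
      have := mul_lt_mul_of_pos_right h3 hπ
      linarith
    linarith
  rcases le_total 1 (π * V) with h | h
  · refine (Jf_le_two' V).trans ?_
    have : a * 1 ≤ a * (π * V) := mul_le_mul_of_nonneg_left h ha0
    rw [hl]
    nlinarith
  · refine (Jf_le_disc V).trans ?_
    set v := √(π * V) with hv
    have hv0 : 0 ≤ v := Real.sqrt_nonneg _
    have hv2 : v ^ 2 = π * V := Real.sq_sqrt (by positivity)
    have hv1 : v ≤ 1 := by
      rw [hv, Real.sqrt_le_one]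
      exact h
    have e : l * V = a * v ^ 2 := by
      rw [hv2, hl]
      ring
    rw [e]
    have key : 0 ≤ (1 - v) * (2 - a * (1 + v)) := by
      apply mul_nonneg (by linarith)
      nlinarith
    nlinarith

/-- Large slope: the worst volume is `1/4`. -/
lemma Jf_le_low {l K V : ℝ} (hV : 1 / 4 ≤ V) (hl : 2 * √π ≤ l) (hK : √π - l / 4 ≤ K) :
    Jf V ≤ l * V + K := by
  refine (Jf_le_disc V).trans ?_
  have hV0 : 0 ≤ V := by linarith
  have hs : √(π * V) = √π * √V := Real.sqrt_mul Real.pi_pos.le _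
  rw [hs]
  set v := √V with hv
  set sp := √π with hsp
  have hv2 : v ^ 2 = V := Real.sq_sqrt hV0
  have hv0 : 0 ≤ v := Real.sqrt_nonneg _
  have hv1 : 1 / 2 ≤ v := by
    rw [hv]
    apply Real.le_sqrt_of_sq_le
    norm_num
    linarith
  have hsp0 : 0 ≤ sp := Real.sqrt_nonneg _
  have h1 : 0 ≤ (v - 1 / 2) * (l * (v + 1 / 2) - 2 * sp) := by
    apply mul_nonneg (by linarith)
    nlinarith
  rw [← hv2]
  nlinarith

/-- The test `kOKJ`. -/
lemma Jf_le_of_kOKJ {L g : ℤ} (h : kOKJ L g = true) {V : ℝ} (hV : 1 / 4 ≤ V) :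
    Jf V ≤ (L : ℝ) / 65536 * V + (g : ℝ) / 1125899906842624 := by
  have hV0 : 0 < V := by linarith
  have hpi1 := pi_le_bar
  have hpi0 := Real.pi_pos
  have hpi2 : (3141592 : ℝ) / 1000000 ≤ π := by
    have := Real.pi_gt_d6
    norm_num at this ⊢
    linarith
  simp only [kOKJ, Bool.or_eq_true, Bool.and_eq_true, decide_eq_true_eq] at h
  rcases h with (⟨h0, h1⟩ | ⟨⟨h0, h1⟩, h2⟩) | ⟨h0, h1⟩
  · have hL : (0 : ℝ) < L := by exact_mod_cast h0
    have h1' : (3141593 * 1125899906842624 * 65536 : ℝ) ≤ g * L * 1000000 := by exact_mod_cast h1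
    apply Jf_le_tubeline (by positivity) hV0
    have e : (g : ℝ) / 1125899906842624 * ((L : ℝ) / 65536) =
        (g * L * 1000000) / (1000000 * 1125899906842624 * 65536) := by
      field_simp
    rw [e, le_div_iff₀ (by norm_num)]
    nlinarith
  · have hL : (0 : ℝ) ≤ L := by exact_mod_cast h0
    have h1' : (L : ℝ) * 1000000 ≤ 3141592 * 65536 := by exact_mod_cast h1
    have h2' : (2 * 1125899906842624 - (g : ℝ)) * 3141593 * 65536 ≤
        (L : ℝ) * 1000000 * 1125899906842624 := by exact_mod_cast h2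
    apply Jf_le_mid (by positivity) ?_ hV0.le ?_
    · rw [div_le_iff₀ (by norm_num)]
      nlinarith
    · set K := (g : ℝ) / 1125899906842624 with hK
      have hg : (g : ℝ) = K * 1125899906842624 := by
        rw [hK]
        field_simp
      have h3 : (2 - K) * (3141593 / 1000000) ≤ (L : ℝ) / 65536 := by
        rw [le_div_iff₀ (by norm_num)]
        rw [hg] at h2'
        nlinarith
      rcases le_total 0 (2 - K) with h4 | h4
      · have := mul_le_mul_of_nonneg_left hpi1 h4
        linarith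
      · have h5 : (2 - K) * π ≤ 0 := mul_nonpos_of_nonpos_of_nonneg h4 hpi0.le
        have : (0 : ℝ) ≤ (L : ℝ) / 65536 := by positivity
        linarith
  · have h0' : (2 * 1772454 * 65536 : ℝ) ≤ (L : ℝ) * 1000000 := by exact_mod_cast h0
    have h1' : ((1772454 * 65536 * 4 - (L : ℝ) * 1000000) * 1125899906842624) ≤
        (g : ℝ) * 65536 * 4 * 1000000 := by exact_mod_cast h1
    have hsp := sqrt_pi_lt
    apply Jf_le_low hV
    · rw [le_div_iff₀ (by norm_num)]
      nlinarith
    · have e : (g : ℝ) / 1125899906842624 =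
          ((g : ℝ) * 65536 * 4 * 1000000) / (65536 * 4 * 1000000 * 1125899906842624) := by
        field_simp
      rw [e, le_div_iff₀ (by norm_num)]
      nlinarith

/-! ## Soundness -/

/-- What the certificate proves at `(h, k)`, strictly. -/
def ThinConcl (h k : ℝ) : Prop :=
  ∀ V : ℝ, 1 / 4 ≤ V → ∃ l b, LineAdm ICp l b (h ^ 2) (k ^ 2) ∧
    Jf V < lineValue ICp l b V (h ^ 2) (k ^ 2)

lemma leaf_sound {L B : ℤ} {st a b c d : ℕ} (hOK : leafOK L B st a b c d = true)
    {h k : ℝ} (h1 : (a : ℝ) / 1024 ≤ h) (h2 : h ≤ (b : ℝ) / 1024) (h3 : (c : ℝ) / 1024 ≤ k)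
    (h4 : k ≤ (d : ℝ) / 1024) : ThinConcl h k := by
  simp only [leafOK, Bool.and_eq_true, decide_eq_true_eq] at hOK
  obtain ⟨⟨⟨⟨⟨hab, hbc⟩, hcd⟩, hd⟩, hadm⟩, hk⟩ := hOK
  have h0 : 0 ≤ h := le_trans (by positivity) h1
  have k0 : 0 ≤ k := le_trans (by positivity) h3
  intro V hV
  refine ⟨(L : ℝ) / 65536, (B : ℝ) / 65536, ?_, ?_⟩
  · intro s hs
    have hq := admC_le L B st d hd 2048 a (by omega) hadm s
      ⟨(sn_le_sq h1).trans hs.1, hs.2.trans (sq_le_sn k0 h4)⟩
    exact max_le hq (ICp_nonneg s)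
  · have hJ := Jf_le_of_kOKJ hk hV
    have hI := ICp_cont
    have hsum := sumT_le L B st c (hcd.trans hd) 2048 b hbc.le
    have hmono : ∫ s in sn b..sn c, gg ICp ((L : ℝ) / 65536) ((B : ℝ) / 65536) s ≤
        ∫ s in (h ^ 2)..(k ^ 2), gg ICp ((L : ℝ) / 65536) ((B : ℝ) / 65536) s :=
      integral_gg_mono hI _ _ (sq_le_sn h0 h2) (sn_mono hbc.le) (sn_le_sq h3)
    have hval : lineValue ICp ((L : ℝ) / 65536) ((B : ℝ) / 65536) V (h ^ 2) (k ^ 2) =
        (L : ℝ) / 65536 * V + (B : ℝ) / 65536 +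
          2 * ∫ s in (h ^ 2)..(k ^ 2), gg ICp ((L : ℝ) / 65536) ((B : ℝ) / 65536) s := rfl
    set S : ℝ := (sumT L B st 2048 b c : ℝ) with hS
    have hg : ((gnum L B st b c - 1 : ℤ) : ℝ) / 1125899906842624 =
        (B : ℝ) / 65536 + 2 * (S / (16384 * 1048576)) - 1 / 1125899906842624 := by
      unfold gnum
      push_cast
      rw [hS]
      ring
    rw [hg] at hJ
    rw [hval]
    have h1 : (0 : ℝ) < 1 / 1125899906842624 := by norm_num
    linarith

/-- Soundness of the tree test. -/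
theorem checkT_sound : ∀ (t : TTree) (a b c d : ℕ), checkT t a b c d = true →
    ∀ h k : ℝ, (a : ℝ) / 1024 ≤ h → h ≤ (b : ℝ) / 1024 → (c : ℝ) / 1024 ≤ k → k ≤ (d : ℝ) / 1024 →
      ThinConcl h k := by
  intro t
  induction t with
  | leaf L B st =>
    intro a b c d hOK h k h1 h2 h3 h4
    exact leaf_sound (by simpa [checkT] using hOK) h1 h2 h3 h4
  | splitH mid l r ihl ihr =>
    intro a b c d hOK h k h1 h2 h3 h4
    simp only [checkT, Bool.and_eq_true, decide_eq_true_eq] at hOK
    obtain ⟨⟨⟨_, _⟩, e1⟩, e2⟩ := hOK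
    rcases le_total h ((mid : ℝ) / 1024) with hm | hm
    · exact ihl _ _ _ _ e1 h k h1 hm h3 h4
    · exact ihr _ _ _ _ e2 h k hm h2 h3 h4
  | splitK mid l r ihl ihr =>
    intro a b c d hOK h k h1 h2 h3 h4
    simp only [checkT, Bool.and_eq_true, decide_eq_true_eq] at hOK
    obtain ⟨⟨⟨_, _⟩, e1⟩, e2⟩ := hOK
    rcases le_total k ((mid : ℝ) / 1024) with hm | hm
    · exact ihl _ _ _ _ e1 h k h1 h2 h3 hm
    · exact ihr _ _ _ _ e2 h k h1 h2 hm h4

end Vale.Agent.Lib.P232.ThinL
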