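import Vale.Agent.Lib.P232.CertThinL

/-! P232, stage 3: the data of the certificate for thin directions, `M ≥ 39/100`. -/

namespace Vale.Agent.Lib.P232.ThinL

/-- The tree. -/
def thinData : TTree :=
  (TTree.splitH 311 (TTree.splitK 831 (TTree.splitH 155 (TTree.splitK 735 (TTree.splitH 77 (TTree.leaf (308823) (0) 32) (TTree.leaf (277881) (15898) 64)) (TTree.splitH 77 (TTree.leaf (253279) (0) 64) (TTree.leaf (228678) (16176) 64))) (TTree.splitK 735 (TTree.splitH 233 (TTree.leaf (251884) (29341) 64) (TTree.leaf (229211) (40994) 64)) (TTree.leaf (207196) (30374) 64))) (TTree.splitH 155 (TTree.splitK 927 (TTree.leaf (203544) (0) 64) (TTree.leaf (166794) (0) 64)) (TTree.leaf (134559) (32082) 64))) (TTree.splitK 831 (TTree.splitH 467 (TTree.splitK 735 (TTree.splitH 389 (TTree.leaf (209453) (51202) 64) (TTree.splitK 687 (TTree.leaf (208058) (58219) 64) (TTree.leaf (191066) (60675) 64))) (TTree.splitH 389 (TTree.leaf (169914) (54884) 64) (TTree.leaf (152616) (66229) 64))) (TTree.splitK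 735 (TTree.splitH 545 (TTree.splitK 687 (TTree.splitH 506 (TTree.leaf (190330) (66325) 32) (TTree.leaf (180541) (70714) 8)) (TTree.leaf (173033) (69961) 32)) (TTree.splitK 687 (TTree.splitH 584 (TTree.leaf (169914) (75515) 16) (TTree.leaf (0) (132494) 64)) (TTree.leaf (125530) (88088) 64))) (TTree.splitH 545 (TTree.leaf (134888) (77895) 64) (TTree.leaf (76327) (102025) 64)))) (TTree.splitH 467 (TTree.leaf (105976) (60782) 64) (TTree.leaf (76657) (90006) 64))))

theorem thinData_ok : checkT thinData 0 623 639 1024 = true := by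
  decide +kernel

end Vale.Agent.Lib.P232.ThinL

namespace Vale.Agent.Lib.P232

open Real

/-- The certificate for thin directions when `M ≥ 39/100`: an `ICp` line, strictly. -/
theorem certThin_large_strict {V m M : ℝ} (hV1 : 1 / 4 ≤ V) (hV2 : V ≤ 37 / 100) (hm : 0 ≤ m) (hmV : m ≤ V)
    (hM1 : 39 / 100 ≤ M) (hM : M ≤ 1) :
    ∃ l b, LineAdm ICp l b m M ∧ Jf V < lineValue ICp l b V m M := by
  have hM0 : 0 ≤ M := by linarith
  have hh0 := Real.sqrt_nonneg m
  have hk0 := Real.sqrt_nonneg M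
  have hs : √m ^ 2 = m := Real.sq_sqrt hm
  have hs2 : √M ^ 2 = M := Real.sq_sqrt hM0
  have hh1 : √m ≤ 623 / 1024 := by
    rw [Real.sqrt_le_left (by norm_num)]
    norm_num
    linarith
  have hk1 : √M ≤ 1 := by
    rw [Real.sqrt_le_one]
    exact hM
  have hk2 : (639 : ℝ) / 1024 ≤ √M := by
    apply Real.le_sqrt_of_sq_le
    norm_num
    linarith
  have hT := ThinL.checkT_sound ThinL.thinData 0 623 639 1024 ThinL.thinData_ok
    (√m) (√M) (by simp) (by norm_num; linarith) (by norm_num; linarith)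
    (by norm_num; linarith)
  have := hT V hV1
  rwa [hs, hs2] at this

/-- The certificate for thin directions when `M ≥ 39/100`: an `ICp` line. -/
theorem certThin_large {V m M : ℝ} (hV1 : 1 / 4 ≤ V) (hV2 : V ≤ 37 / 100) (hm : 0 ≤ m) (hmV : m ≤ V)
    (hM1 : 39 / 100 ≤ M) (hM : M ≤ 1) :
    ∃ l b, LineAdm ICp l b m M ∧ Jf V ≤ lineValue ICp l b V m M := by
  obtain ⟨l, b, h1, h2⟩ := certThin_large_strict hV1 hV2 hm hmV hM1 hM
  exact ⟨l, b, h1, h2.le⟩

end Vale.Agent.Lib.P232
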