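import Vale.Agent.Lib.P232.CertThinSmall

/-! CERT THIN, analytic part, strict form: for `M ≤ 39/100`, `1/4 ≤ V`, `m < M`, the chord of the disc
profile has value strictly above `Jf V`. -/

open MeasureTheory Set

noncomputable section

namespace Vale.Agent.Lib.P232

open Real

/-- The key inequality behind the strict chord. -/
private theorem thinSS_key {h k y sp Ω pi' : ℝ} (hh : 0 ≤ h) (hk : h < k) (hk2 : k ≤ 625 / 1000)
    (hy1 : 1 / 2 ≤ y) (hyh : h ≤ y) (hyk : y ≤ k) (hsp0 : 0 ≤ sp) (hsp : sp ≤ 9 / 5)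
    (hpi : 3 ≤ pi') (hpi2 : pi' ≤ 16 / 5)
    (hΩ : 2 * (k - h) ^ 2 * ((k - h) / 3 + pi' * h / 4) ≤ Ω) :
    sp * ((y - h) * (k - y)) < Ω := by
  have hw : 0 < k - h := by linarith
  have hw2 : 0 < (k - h) ^ 2 := by positivity
  rcases le_or_gt 1 (h + k) with hu | hu
  · -- the midpoint is to the right of `1/2`
    have h1 : (y - h) * (k - y) ≤ (k - h) ^ 2 / 4 := by nlinarith [sq_nonneg (2 * y - h - k)]
    have h2 : 3 / 8 ≤ h := by linarith
    have h3 : sp * ((y - h) * (k - y)) ≤ sp * ((k - h) ^ 2 / 4) :=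
      mul_le_mul_of_nonneg_left h1 hsp0
    have h4 : sp * ((k - h) ^ 2 / 4) ≤ 9 / 20 * (k - h) ^ 2 := by nlinarith
    have h5 : 9 / 32 ≤ pi' * h / 4 := by nlinarith
    have h6 : (9 / 16 : ℝ) * (k - h) ^ 2 ≤ 2 * (k - h) ^ 2 * ((k - h) / 3 + pi' * h / 4) := by
      have : (9 / 32 : ℝ) ≤ (k - h) / 3 + pi' * h / 4 := by linarith
      nlinarith
    nlinarith
  · -- the midpoint is to the left of `1/2`
    set A := 1 / 2 - h with hA
    set B := k - 1 / 2 with hB
    have hA0 : 0 < A := by rw [hA]; linarith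
    have hB0 : 0 ≤ B := by rw [hB]; linarith
    have hA1 : A ≤ 1 / 2 := by rw [hA]; linarith
    have hw' : k - h = A + B := by rw [hA, hB]; ring
    have hh' : h = 1 / 2 - A := by rw [hA]; ring
    have h1 : (y - h) * (k - y) ≤ A * B := by
      have : 0 ≤ (y - 1 / 2) * (y + 1 / 2 - h - k) := mul_nonneg (by linarith) (by linarith)
      rw [hA, hB]
      nlinarith
    have h3 : 0 ≤ (A - 2 * B) ^ 2 * (A + B / 4) := by positivity
    have h4 : 27 / 4 * (A ^ 2 * B) ≤ (A + B) ^ 3 := by nlinarith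
    have h5 : 4 * (A * B) ≤ (A + B) ^ 2 := by nlinarith [sq_nonneg (A - B)]
    have h6 : 2 * (A + B) ^ 2 * ((A + B) / 3 + pi' * h / 4) =
        2 / 3 * (A + B) ^ 3 + pi' * h / 2 * (A + B) ^ 2 := by ring
    rw [hw', h6] at hΩ
    have hpih : 0 ≤ pi' * h / 2 := by positivity
    have h7 : pi' * h / 2 * (4 * (A * B)) ≤ pi' * h / 2 * (A + B) ^ 2 :=
      mul_le_mul_of_nonneg_left h5 hpih
    have h8 : sp * ((y - h) * (k - y)) ≤ sp * (A * B) := mul_le_mul_of_nonneg_left h1 hsp0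
    rcases hB0.eq_or_lt with hB1 | hB1
    · -- `B = 0`: the product vanishes
      have hAB : (A + B) ^ 3 = A ^ 3 := by rw [← hB1]; ring
      have h9 : 0 < A ^ 3 := by positivity
      have h10 : A * B = 0 := by rw [← hB1]; ring
      rw [h10] at h8
      have h11 : 0 ≤ pi' * h / 2 * (A + B) ^ 2 := by positivity
      rw [hAB] at hΩ
      nlinarith
    · have hAB : 0 < A * B := by positivity
      have h10 : sp < 9 / 2 * A + 2 * (pi' * h) := by
        have h11 : (2 * pi' - 9 / 2) * A ≤ (2 * pi' - 9 / 2) * (1 / 2) :=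
          mul_le_mul_of_nonneg_left hA1 (by linarith)
        have e5 : (2 * pi' - 9 / 2) * A = 2 * (pi' * A) - 9 / 2 * A := by ring
        have e6 : 2 * (pi' * h) = pi' - 2 * (pi' * A) := by
          rw [hA]
          ring
        rw [e5] at h11
        rw [e6]
        linarith
      have e : A * B * (9 / 2 * A + 2 * (pi' * h)) ≤ Ω := by
        have e : A * B * (9 / 2 * A + 2 * (pi' * h)) =
            2 / 3 * (27 / 4 * (A ^ 2 * B)) + pi' * h / 2 * (4 * (A * B)) := by ring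
        rw [e]
        linarith
      have e2 : A * B * sp < A * B * (9 / 2 * A + 2 * (pi' * h)) :=
        mul_lt_mul_of_pos_left h10 hAB
      have e3 : sp * (A * B) = A * B * sp := by ring
      linarith

/-- **Thin direction, `M ≤ 39/100`, strict form.** -/
theorem certThin_small_strict {V m M : ℝ} (hV : 1 / 4 ≤ V) (hm : 0 ≤ m) (hmV : m ≤ V) (hVM : V ≤ M)
    (hM : M ≤ 39 / 100) :
    m = M ∨ ∃ l b, LineAdm ICp l b m M ∧ Jf V < lineValue ICp l b V m M := by
  have hV0 : 0 < V := by linarith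
  have hM0 : 0 < M := lt_of_lt_of_le hV0 hVM
  by_cases hmM : m = M
  · exact Or.inl hmM
  right
  have hmlt : m < M := lt_of_le_of_ne (hmV.trans hVM) hmM
  set h := √m with hh
  set k := √M with hk
  set y := √V with hy
  have hh0 : 0 ≤ h := Real.sqrt_nonneg _
  have hk0 : 0 < k := Real.sqrt_pos.mpr hM0
  have hhk : h < k := Real.sqrt_lt_sqrt hm hmlt
  have hm2 : m = h ^ 2 := (Real.sq_sqrt hm).symm
  have hM2 : M = k ^ 2 := (Real.sq_sqrt hM0.le).symm
  have hV2 : V = y ^ 2 := (Real.sq_sqrt hV0.le).symm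
  have hI : ∀ s ∈ Icc (h ^ 2) (k ^ 2), ICp s = 2 * √(π * s) := by
    intro s hs
    apply thinS_ICp_eq (le_trans (sq_nonneg _) hs.1)
    rw [← hM2] at hs
    exact hs.2.trans hM
  obtain ⟨hadm, hval⟩ := chord_facts ICp hh0 hhk.le hk0 hI
  have hy1 : 1 / 2 ≤ y := by
    apply Real.le_sqrt_of_sq_le
    norm_num
    linarith
  have hyh : h ≤ y := Real.sqrt_le_sqrt hmV
  have hyk : y ≤ k := Real.sqrt_le_sqrt hVM
  have hk2 : k ≤ 625 / 1000 := by
    apply Real.sqrt_le_iff.mpr
    constructor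
    · norm_num
    · norm_num
      linarith
  have hpi0 := Real.pi_pos
  have hsp0 : 0 < √π := Real.sqrt_pos.mpr hpi0
  have hsp2 : √π ≤ 9 / 5 := by
    apply Real.sqrt_le_iff.mpr
    constructor
    · norm_num
    · have := Real.pi_lt_d2
      norm_num at this ⊢
      linarith
  have hkey := thinSS_key hh0 hhk hk2 hy1 hyh hyk hsp0.le hsp2 Real.pi_gt_three.le
    (by have := Real.pi_lt_d2; norm_num at this ⊢; linarith) (omega_ge hh0 hhk.le)
  rw [hm2, hM2]
  refine ⟨_, _, hadm, ?_⟩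
  rw [hval]
  refine lt_of_le_of_lt ((min_le_left _ _).trans (chord_JJ_le_tube V)) ?_
  have hu : 0 < h + k := by linarith
  have e1 : √(π * V) = √π * y := Real.sqrt_mul hpi0.le V
  rw [e1, hV2]
  have e2 : 2 * √π / (h + k) * y ^ 2 + (2 * √π * (h * k) + 2 * Om h k) / (h + k) =
      (2 * √π * y ^ 2 + 2 * √π * (h * k) + 2 * Om h k) / (h + k) := by
    field_simp
    ring
  rw [e2, lt_div_iff₀ hu]
  have e3 : √π * ((y - h) * (k - y)) = √π * (y * (h + k)) - √π * y ^ 2 - √π * (h * k) := by ring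
  rw [e3] at hkey
  nlinarith

end Vale.Agent.Lib.P232
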