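import Vale.Agent.Lib.P232.T2Main

/-! JOB T2C: level two, the two final bounds. The work is done in `T2A`, `T2B`, `T2C`, `T2Main`
for approximations with explicit derivative fields; here we translate. -/

open MeasureTheory Set Filter Topology

noncomputable section

namespace Vale.Agent.Lib.P232

variable {w : ℕ → ℝ → ℝ → ℝ} {χ : ℝ → ℝ → ℝ}

/-- The level set of an indicator. -/
def lvl (χ : ℝ → ℝ → ℝ) : Set (ℝ × ℝ) := {p | χ p.1 p.2 = 1}

lemma lvl_ind (hχ : Ind2 χ) (p : ℝ × ℝ) :
    (lvl χ).indicator (fun _ => (1 : ℝ)) p = χ p.1 p.2 := by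
  rcases hχ.bool p.1 p.2 with h | h
  · have : p ∉ lvl χ := fun hp => by
      have h1 : χ p.1 p.2 = 1 := hp
      rw [h] at h1
      norm_num at h1
    rw [indicator_of_notMem this, h]
  · have : p ∈ lvl χ := h
    rw [indicator_of_mem this, h]

lemma hasDerivAt_d1 {w : ℝ → ℝ → ℝ} (h : C1P2 w) (x y : ℝ) :
    HasDerivAt (fun s => w s y) (d1 w x y) x := by
  have h1 : Differentiable ℝ (fun p : ℝ × ℝ => w p.1 p.2) :=
    h.smooth.differentiable (by norm_num)
  have h2 : DifferentiableAt ℝ (fun s : ℝ => w s y) x := by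
    have h3 : DifferentiableAt ℝ (fun s : ℝ => (s, y)) x := by fun_prop
    exact (h1 (x, y)).comp x h3
  exact h2.hasDerivAt

lemma hasDerivAt_d2 {w : ℝ → ℝ → ℝ} (h : C1P2 w) (x y : ℝ) :
    HasDerivAt (fun s => w x s) (d2 w x y) y := by
  have h1 : Differentiable ℝ (fun p : ℝ × ℝ => w p.1 p.2) :=
    h.smooth.differentiable (by norm_num)
  have h2 : DifferentiableAt ℝ (fun s : ℝ => w x s) y := by
    have h3 : DifferentiableAt ℝ (fun s : ℝ => (x, s)) y := by fun_prop
    exact (h1 (x, y)).comp y h3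
  exact h2.hasDerivAt

/-- The translation. -/
lemma to_T2 (h : Approx2 w χ) :
    T2.Approx2 w (fun k => d1 (w k)) (fun k => d2 (w k)) (lvl χ) where
  cw k := (h.c1 k).smooth.continuous
  cx k := (h.c1 k).continuous_d1
  cy k := (h.c1 k).continuous_d2
  dx k x y := hasDerivAt_d1 (h.c1 k) x y
  dy k x y := hasDerivAt_d2 (h.c1 k) x y
  perx k := (h.c1 k).per_x
  pery k := (h.c1 k).per_y
  range k x y := ⟨(h.c1 k).nonneg x y, (h.c1 k).le_one x y⟩
  meas := h.ind.meas (measurableSet_singleton (1 : ℝ))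
  lim := by
    filter_upwards [h.conv] with p hp
    rw [lvl_ind h.ind]
    exact hp

lemma rowMass_lvl (hχ : Ind2 χ) : T2.rowMass (lvl χ) = rowM χ := by
  funext y
  simp only [T2.rowMass, rowM]
  apply intervalIntegral.integral_congr
  intro x _
  exact lvl_ind hχ (x, y)

lemma colMass_lvl (hχ : Ind2 χ) : T2.colMass (lvl χ) = colM χ := by
  funext x
  simp only [T2.colMass, colM]
  apply intervalIntegral.integral_congr
  intro y _
  exact lvl_ind hχ (x, y)

lemma area2_lvl (hχ : Ind2 χ) : T2.area2 (lvl χ) = area χ := by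
  simp only [T2.area2, rowMass_lvl hχ, area, rowM]

lemma fullInd_eq (f : ℝ → ℝ) (y : ℝ) :
    {y | f y = 1}.indicator (fun _ => (1 : ℝ)) y = fullInd (f y) := by
  by_cases h : f y = 1
  · have hm : y ∈ {y | f y = 1} := h
    rw [indicator_of_mem hm]
    simp [fullInd, h]
  · have hm : y ∉ {y | f y = 1} := h
    rw [indicator_of_notMem hm]
    simp [fullInd, h]

lemma fullRows_lvl (hχ : Ind2 χ) : T2.fullRows (lvl χ) = deltaR χ := by
  simp only [T2.fullRows, rowMass_lvl hχ, deltaR, fullInd_eq]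

lemma fullCols_lvl (hχ : Ind2 χ) : T2.fullCols (lvl χ) = deltaC χ := by
  simp only [T2.fullCols, colMass_lvl hχ, deltaC, fullInd_eq]

/-- (E1). The torus bound. -/
theorem E1 (h : Approx2 w χ) : ∀ ε > 0, ∀ᶠ k in atTop, IT (area χ) - ε ≤ En2 (w k) := by
  intro ε hε
  have key := (to_T2 h).torus2_E1_evt hε
  rw [area2_lvl h.ind] at key
  exact key

/-- (E2'). The disc bound with penalty on full lines. -/
theorem E2 (h : Approx2 w χ) : ∀ ε > 0, ∀ᶠ k in atTop,
    IE (area χ) - 2 * (deltaR χ + deltaC χ) - ε ≤ En2 (w k) := by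
  intro ε hε
  have key := (to_T2 h).torus2_E2_evt hε
  rw [area2_lvl h.ind, fullRows_lvl h.ind, fullCols_lvl h.ind] at key
  exact key

end Vale.Agent.Lib.P232
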