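import Vale.Agent.Lib.P232.T2Main

/-!
# P232, Level 2, refined slice bounds

For an approximation of `F` on the two-torus:

* the disc and stadium bounds when almost no row is full and the row masses come near `0`;
* the `α`-bound when some rows are full;
* the same bounds for the complement.
-/

namespace Vale.Agent.Lib.P232.T2

open Real MeasureTheory Set Filter Topology

variable {w wx wy : ℕ → ℝ → ℝ → ℝ} {F : Set (ℝ × ℝ)}

/-- `Θ(α) = ∫₀¹ √(1 - α² s²) ds`. -/
noncomputable def Theta (α : ℝ) : ℝ := ∫ s in (0 : ℝ)..1, √(1 - (α * s) ^ 2)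

/-- The stadium value: `A/h + π h/4` for `h ≤ 2 √(A/π)` and `√(π A)` otherwise. -/
noncomputable def stad (A h : ℝ) : ℝ := if h ≤ 2 * √(A / π) then A / h + π * h / 4 else √(π * A)

/-- The row masses come arbitrarily close to `0` on a set of positive measure. -/
def NearZero (F : Set (ℝ × ℝ)) : Prop :=
  ∀ ε > 0, 0 < volume {t | t ∈ Icc (0 : ℝ) 1 ∧ rowMass F t < 0 + ε}

lemma nearZero_of_empty (hZ : 0 < volume {t | t ∈ Icc (0 : ℝ) 1 ∧ rowMass F t = 0}) :
    NearZero F := by
  intro ε hε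
  refine lt_of_lt_of_le hZ (measure_mono ?_)
  rintro t ⟨ht, h0⟩
  exact ⟨ht, by rw [h0]; linarith⟩

namespace Approx2

/-- The chord bound with the exact essential supremum. -/
theorem chord_essSup (h : Approx2 w wx wy F) {P : ℝ} (hP : ∀ k, gradE (wx k) (wy k) ≤ P)
    (hZ : NearZero F) (hO : volume {t | t ∈ Icc (0 : ℝ) 1 ∧ rowMass F t = 1} = 0) :
    ∃ M : ℝ, 0 ≤ M ∧ M ≤ 1 ∧ (∀ h₀ : ℝ, (∀ᵐ t : ℝ, t ∈ Icc (0 : ℝ) 1 → rowMass F t ≤ h₀) → M ≤ h₀) ∧
      (M = 0 → area2 F = 0) ∧ (0 < M → 2 * (area2 F / M + π * M / 4) ≤ P) := by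
  have hc := rowMass_measurable h.meas
  obtain ⟨M, hM0, hM1, hle, hpos⟩ := exists_essSup hc (rowMass_nonneg F) (rowMass_le_one h.meas)
  have hO' : ∀ᵐ t : ℝ, t ∈ Icc (0 : ℝ) 1 → rowMass F t ≠ 1 := by
    rw [measure_eq_zero_iff_ae_notMem] at hO
    filter_upwards [hO] with t ht hmem heq
    exact ht ⟨hmem, heq⟩
  refine ⟨M, hM0, hM1, ?_, ?_, ?_⟩
  · intro h₀ hh₀
    by_contra hlt
    push Not at hlt
    have h1 := hpos (M - h₀) (by linarith)
    have h2 : volume {t | t ∈ Icc (0 : ℝ) 1 ∧ M - (M - h₀) < rowMass F t} = 0 := by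
      rw [measure_eq_zero_iff_ae_notMem]
      filter_upwards [hh₀] with t ht hmem
      obtain ⟨hmem1, hmem2⟩ := hmem
      have := ht hmem1
      linarith
    rw [h2] at h1
    exact lt_irrefl _ h1
  · intro hM
    have : area2 F = ∫ _y in (0 : ℝ)..1, (0 : ℝ) := by
      apply intervalIntegral.integral_congr_ae
      filter_upwards [hle] with y hy hy2
      rw [uIoc_of_le zero_le_one] at hy2
      have h1 := hy ⟨hy2.1.le, hy2.2⟩
      have h2 := rowMass_nonneg F y
      rw [hM] at h1
      linarith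
    rw [this]; simp
  · intro hM
    have key := h.row_ineq hP (kapM M) (gM M) (kapM_cont M) (gM_cont M) (kapM_nonneg M)
      (gM_nonneg M) (kapM_gM M) 0 M hZ hpos
    rw [integral_gM hM] at key
    have hint : ∫ y in (0 : ℝ)..1, kapM M (rowMass F y) * mixW F y = 2 / M * area2 F := by
      have : ∫ y in (0 : ℝ)..1, kapM M (rowMass F y) * mixW F y =
          ∫ y in (0 : ℝ)..1, 2 / M * rowMass F y := by
        apply intervalIntegral.integral_congr_ae
        filter_upwards [hle, hO'] with y hy1 hy2 hy3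
        rw [uIoc_of_le zero_le_one] at hy3
        have hy4 : y ∈ Icc (0 : ℝ) 1 := ⟨hy3.1.le, hy3.2⟩
        have hcy0 := rowMass_nonneg F y
        have hcy1 := rowMass_le_one h.meas y
        rw [kapM_eq hcy0 (hy1 hy4) hM]
        rcases hcy0.eq_or_lt with hz | hz
        · rw [← hz]; simp
        · have hmix : y ∈ {y | 0 < rowMass F y ∧ rowMass F y < 1} :=
            ⟨hz, lt_of_le_of_ne hcy1 (hy2 hy4)⟩
          simp only [mixW, indicator_of_mem hmix]
          ring
      rw [this, intervalIntegral.integral_const_mul]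
      rfl
    rw [hint] at key
    have e : 2 * (area2 F / M + π * M / 4) = 2 / M * area2 F + 2 * (M * (π / 4)) := by
      field_simp
    rw [e]
    linarith

/-- (b) The disc bound: row masses come near `0`, almost no full row. -/
theorem disc_bound (h : Approx2 w wx wy F) {P : ℝ} (hP : ∀ k, gradE (wx k) (wy k) ≤ P)
    (hZ : NearZero F) (hO : volume {t | t ∈ Icc (0 : ℝ) 1 ∧ rowMass F t = 1} = 0) :
    2 * √(π * area2 F) ≤ P := by
  have hP0 : 0 ≤ P := (gradE_nonneg _ _).trans (hP 0)
  obtain ⟨M, hM0, _, _, hz, hpos⟩ := h.chord_essSup hP hZ hO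
  rcases hM0.eq_or_lt with hM | hM
  · rw [hz hM.symm]; simpa using hP0
  · have key := hpos hM
    have hA := area2_nonneg F
    have hfin : 2 * √(π * area2 F) ≤ 2 * (area2 F / M) + 2 * (π * M / 4) := by
      apply two_sqrt_le (by positivity) (by positivity)
      field_simp
      ring
    linarith

/-- The stadium bound: row masses come near `0`, almost no full row, row masses at most `h₀`. -/
theorem stad_bound (h : Approx2 w wx wy F) {P : ℝ} (hP : ∀ k, gradE (wx k) (wy k) ≤ P)
    (hZ : NearZero F) (hO : volume {t | t ∈ Icc (0 : ℝ) 1 ∧ rowMass F t = 1} = 0) {h₀ : ℝ}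
    (hh₀ : ∀ᵐ t : ℝ, t ∈ Icc (0 : ℝ) 1 → rowMass F t ≤ h₀) (hpos₀ : 0 < h₀) :
    2 * stad (area2 F) h₀ ≤ P := by
  unfold stad
  split_ifs with hc
  · have hA := area2_nonneg F
    obtain ⟨M, hM0, _, hle, hz, hpos⟩ := h.chord_essSup hP hZ hO
    have hMh := hle h₀ hh₀
    rcases hM0.eq_or_lt with hM | hM
    · exfalso
      have ha := hz hM.symm
      rw [ha] at hc
      simp at hc
      linarith
    · have key := hpos hM
      have hsq : π * h₀ ^ 2 ≤ 4 * area2 F := by
        have h1 : h₀ ^ 2 ≤ (2 * √(area2 F / π)) ^ 2 := by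
          apply pow_le_pow_left₀ hpos₀.le hc
        have h2 : (2 * √(area2 F / π)) ^ 2 = 4 * (area2 F / π) := by
          rw [mul_pow, Real.sq_sqrt (by positivity)]
          norm_num
        rw [h2] at h1
        have h3 := mul_le_mul_of_nonneg_left h1 pi_pos.le
        have h4 : π * (4 * (area2 F / π)) = 4 * area2 F := by
          field_simp
        linarith
      have hmono : area2 F / h₀ + π * h₀ / 4 ≤ area2 F / M + π * M / 4 := by
        have hdiff : area2 F / M + π * M / 4 - (area2 F / h₀ + π * h₀ / 4) =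
            (h₀ - M) * (4 * area2 F - π * M * h₀) / (4 * M * h₀) := by
          field_simp
          ring
        have hnn : 0 ≤ (h₀ - M) * (4 * area2 F - π * M * h₀) / (4 * M * h₀) := by
          apply div_nonneg
          · apply mul_nonneg (by linarith)
            have : π * M * h₀ ≤ π * h₀ * h₀ := by
              have := mul_le_mul_of_nonneg_right hMh hpos₀.le
              nlinarith [pi_pos]
            nlinarith
          · positivity
        linarith
      linarith
  · exact h.disc_bound hP hZ hO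

/-- The integrand of `Theta` on the clamped slope. -/
noncomputable def kapA (α s : ℝ) : ℝ := α * kapM 1 s
/-- The conjugate of `kapA`. -/
noncomputable def gA (α s : ℝ) : ℝ := √(1 - kapA α s ^ 2)

lemma kapA_sq_le {α : ℝ} (h0 : 0 ≤ α) (h1 : α ≤ 1) (s : ℝ) : kapA α s ^ 2 ≤ 1 := by
  have h2 := kapM_nonneg 1 s
  have h3 := kapM_le_one 1 s
  unfold kapA
  have h4 : 0 ≤ α * kapM 1 s := mul_nonneg h0 h2
  have h5 : α * kapM 1 s ≤ 1 := by nlinarith
  nlinarith

/-- (c) The `α`-bound: row masses come near `0`, and positively many rows are full. -/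
theorem alpha_bound (h : Approx2 w wx wy F) {P : ℝ} (hP : ∀ k, gradE (wx k) (wy k) ≤ P)
    (hZ : NearZero F) (hO : 0 < volume {t | t ∈ Icc (0 : ℝ) 1 ∧ rowMass F t = 1}) {α : ℝ}
    (h0 : 0 ≤ α) (h1 : α ≤ 1) :
    2 * (α * (area2 F - fullRows F) + Theta α) ≤ P := by
  have hM : ∀ ε > 0, 0 < volume {t | t ∈ Icc (0 : ℝ) 1 ∧ 1 - ε < rowMass F t} := by
    intro ε hε
    refine lt_of_lt_of_le hO (measure_mono ?_)
    rintro t ⟨ht, h0⟩
    exact ⟨ht, by rw [h0]; linarith⟩
  have hcκ : Continuous (kapA α) := continuous_const.mul (kapM_cont 1)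
  have hcg : Continuous (gA α) := by
    unfold gA
    fun_prop
  have key := h.row_ineq hP (kapA α) (gA α) hcκ hcg
    (fun s => mul_nonneg h0 (kapM_nonneg 1 s)) (fun s => Real.sqrt_nonneg _)
    (fun s => by
      unfold gA
      rw [Real.sq_sqrt (by linarith [kapA_sq_le h0 h1 s])]
      linarith) 0 1 hZ hM
  have hg : ∫ s in (0 : ℝ)..1, gA α s = Theta α := by
    apply intervalIntegral.integral_congr
    intro s hs
    rw [uIcc_of_le zero_le_one] at hs
    simp only [gA, kapA, kapM_eq hs.1 hs.2 one_pos, div_one]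
  have hi : ∫ y in (0 : ℝ)..1, kapA α (rowMass F y) * mixW F y =
      α * (2 * area2 F - 2 * fullRows F) := by
    rw [← integral_id_mix h.meas, ← intervalIntegral.integral_const_mul]
    apply intervalIntegral.integral_congr
    intro y _
    simp only [kapA]
    ring
  rw [hg, hi] at key
  linarith

/-- Positive measure of full rows makes the complement's masses come near `0`. -/
lemma nearZero_compl (hF : MeasurableSet F)
    (hO : 0 < volume {t | t ∈ Icc (0 : ℝ) 1 ∧ rowMass F t = 1}) : NearZero Fᶜ := by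
  intro ε hε
  refine lt_of_lt_of_le hO (measure_mono ?_)
  rintro t ⟨ht, h0⟩
  refine ⟨ht, ?_⟩
  rw [rowMass_compl hF, h0]
  linarith

lemma full_compl_null (hF : MeasurableSet F)
    (hZ : volume {t | t ∈ Icc (0 : ℝ) 1 ∧ rowMass F t = 0} = 0) :
    volume {t | t ∈ Icc (0 : ℝ) 1 ∧ rowMass Fᶜ t = 1} = 0 := by
  refine measure_mono_null ?_ hZ
  rintro t ⟨ht, h0⟩
  refine ⟨ht, ?_⟩
  rw [rowMass_compl hF] at h0
  linarith

/-- (d) The bound by the complement: some full rows and almost no empty row. -/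
theorem compl_disc (h : Approx2 w wx wy F) {P : ℝ} (hP : ∀ k, gradE (wx k) (wy k) ≤ P)
    (hO : 0 < volume {t | t ∈ Icc (0 : ℝ) 1 ∧ rowMass F t = 1})
    (hZ : volume {t | t ∈ Icc (0 : ℝ) 1 ∧ rowMass F t = 0} = 0) :
    2 * √(π * (1 - area2 F)) ≤ P := by
  have key := h.compl.disc_bound (P := P) (fun k => by rw [gradE_compl]; exact hP k)
    (nearZero_compl h.meas hO) (full_compl_null h.meas hZ)
  rwa [area2_compl h.meas] at key

/-- (d) The stadium form: rows have mass at least `d`. -/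
theorem compl_stad (h : Approx2 w wx wy F) {P : ℝ} (hP : ∀ k, gradE (wx k) (wy k) ≤ P)
    (hO : 0 < volume {t | t ∈ Icc (0 : ℝ) 1 ∧ rowMass F t = 1})
    (hZ : volume {t | t ∈ Icc (0 : ℝ) 1 ∧ rowMass F t = 0} = 0) {d : ℝ}
    (hd : ∀ᵐ t : ℝ, t ∈ Icc (0 : ℝ) 1 → d ≤ rowMass F t) (hd1 : d < 1) :
    2 * stad (1 - area2 F) (1 - d) ≤ P := by
  have hh₀ : ∀ᵐ t : ℝ, t ∈ Icc (0 : ℝ) 1 → rowMass Fᶜ t ≤ 1 - d := by
    filter_upwards [hd] with t ht hmem
    rw [rowMass_compl h.meas]
    linarith [ht hmem]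
  have key := h.compl.stad_bound (P := P) (fun k => by rw [gradE_compl]; exact hP k)
    (nearZero_compl h.meas hO) (full_compl_null h.meas hZ) hh₀ (by linarith)
  rwa [area2_compl h.meas] at key

/-- The Minkowski bound when almost no row and almost no column is empty. -/
theorem mink_no_empty (h : Approx2 w wx wy F) {P : ℝ} (hP : ∀ k, gradE (wx k) (wy k) ≤ P)
    (hZr : volume {t | t ∈ Icc (0 : ℝ) 1 ∧ rowMass F t = 0} = 0)
    (hZc : volume {t | t ∈ Icc (0 : ℝ) 1 ∧ colMass F t = 0} = 0) :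
    4 - 2 * (fullRows F + fullCols F) ≤ √2 * P := by
  have hZc' : volume {t | t ∈ Icc (0 : ℝ) 1 ∧ rowMass (swapSet F) t = 0} = 0 := by
    rw [rowMass_swap]; exact hZc
  have h1 := integral_mix_of_no_empty h.meas hZr
  have h2 := integral_mix_of_no_empty (swapSet_meas h.meas) hZc'
  rw [fullRows_swap] at h2
  have hs0 : 0 < √2 := by positivity
  apply le_of_forall_pos_le_add
  intro ε hε
  have e1 := h.eventually_row (ε := ε / 2) (by positivity)
  have e2 := h.swap.eventually_row (ε := ε / 2) (by positivity)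
  obtain ⟨k, hk1, hk2⟩ := (e1.and e2).exists
  rw [h1] at hk1
  rw [h2] at hk2
  have hm := h.mink_bound k
  have hPk := mul_le_mul_of_nonneg_left (hP k) hs0.le
  linarith

end Approx2

end Vale.Agent.Lib.P232.T2
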