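import Vale.Agent.Lib.P232.Basics

/-! JOB LN: full lines, cyclic permutations of the coordinates. -/

open MeasureTheory Set Filter Topology

noncomputable section

namespace Vale.Agent.Lib.P232

variable {U : ℕ → ℝ → ℝ → ℝ → ℝ} {χ : ℝ → ℝ → ℝ → ℝ}

theorem Ind3.perm (h : Ind3 χ) : Ind3 (perm χ) := by
  refine ⟨?_, ?_, ?_, ?_, ?_⟩
  · have hm : Measurable (fun p : R3 => ((p.2.1, p.2.2, p.1) : R3)) := by fun_prop
    exact h.meas.comp hm
  · intro x y t; exact h.bool y t x
  · intro x y t; exact h.per_t y t x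
  · intro x y t; exact h.per_x y t x
  · intro x y t; exact h.per_y y t x

theorem C1P3.perm {W : ℝ → ℝ → ℝ → ℝ} (h : C1P3 W) : C1P3 (perm W) := by
  refine ⟨?_, ?_, ?_, ?_, ?_, ?_⟩
  · have hm : ContDiff ℝ 1 (fun p : R3 => ((p.2.1, p.2.2, p.1) : R3)) := by fun_prop
    exact h.smooth.comp hm
  · intro x y t; exact h.per_t y t x
  · intro x y t; exact h.per_x y t x
  · intro x y t; exact h.per_y y t x
  · intro x y t; exact h.nonneg y t x
  · intro x y t; exact h.le_one y t x

theorem Approx3.perm (h : Approx3 U χ) : Approx3 (fun k => perm (U k)) (perm χ) := by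
  refine ⟨fun k => (h.c1 k).perm, h.ind.perm, ?_⟩
  exact ae_perm (P := fun x y t => Tendsto (fun k => U k x y t) atTop (𝓝 (χ x y t))) h.conv

/-- Swap of two interval integrals, continuous integrand. -/
private theorem swap_of_continuous {F : ℝ → ℝ → ℝ}
    (hF : Continuous (fun p : ℝ × ℝ => F p.1 p.2)) :
    ∫ y in (0 : ℝ)..1, ∫ x in (0 : ℝ)..1, F x y = ∫ x in (0 : ℝ)..1, ∫ y in (0 : ℝ)..1, F x y := by
  have hG : Continuous (Function.uncurry (fun y x => F x y)) := by
    have : Function.uncurry (fun y x => F x y) = (fun p : ℝ × ℝ => F p.1 p.2) ∘ Prod.swap := by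
      funext p; rfl
    rw [this]; exact hF.comp continuous_swap
  apply intervalIntegral_intervalIntegral_swap (F := fun y x => F x y)
  have hc : IsCompact (Set.uIcc (0:ℝ) 1 ×ˢ Set.uIcc (0:ℝ) 1) := isCompact_uIcc.prod isCompact_uIcc
  refine (hG.continuousOn.integrableOn_compact hc).mono_set ?_
  exact Set.prod_mono uIoc_subset_uIcc uIoc_subset_uIcc

/-- Cyclic change of the order of three interval integrals, continuous integrand. -/
private theorem cyc_of_continuous {G : ℝ → ℝ → ℝ → ℝ}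
    (hG : Continuous (fun p : R3 => G p.1 p.2.1 p.2.2)) :
    ∫ t in (0 : ℝ)..1, ∫ y in (0 : ℝ)..1, ∫ x in (0 : ℝ)..1, G y t x =
      ∫ t in (0 : ℝ)..1, ∫ y in (0 : ℝ)..1, ∫ x in (0 : ℝ)..1, G x y t := by
  -- names of the left side: `b = t`, `a = y`, `c = x`; right side: `c = t`, `b = y`, `a = x`
  have h1 : ∀ b : ℝ, ∫ a in (0 : ℝ)..1, ∫ c in (0 : ℝ)..1, G a b c =
      ∫ c in (0 : ℝ)..1, ∫ a in (0 : ℝ)..1, G a b c := by
    intro b
    have hc : Continuous (fun p : ℝ × ℝ => G p.2 b p.1) :=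
      hG.comp (by fun_prop : Continuous (fun p : ℝ × ℝ => ((p.2, b, p.1) : R3)))
    exact swap_of_continuous (F := fun c a => G a b c) hc
  simp_rw [h1]
  have hc : Continuous (fun p : ℝ × ℝ => ∫ a in (0 : ℝ)..1, G a p.2 p.1) := by
    have : Continuous (Function.uncurry (fun (p : ℝ × ℝ) (a : ℝ) => G a p.2 p.1)) :=
      hG.comp (by fun_prop : Continuous (fun q : (ℝ × ℝ) × ℝ => ((q.2, q.1.2, q.1.1) : R3)))
    exact intervalIntegral.continuous_parametric_intervalIntegral_of_continuous' this 0 1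
  exact swap_of_continuous (F := fun c b => ∫ a in (0 : ℝ)..1, G a b c) hc

/-- Fubini for the continuous integrand. `dX (perm W) x y t = dT W y t x` etc. -/
theorem En3_perm {W : ℝ → ℝ → ℝ → ℝ} (h : C1P3 W) : En3 (perm W) = En3 W := by
  have hX : ∀ x y t, dX (Vale.Agent.Lib.P232.perm W) x y t = dT W y t x := fun _ _ _ => rfl
  have hY : ∀ x y t, dY (Vale.Agent.Lib.P232.perm W) x y t = dX W y t x := fun _ _ _ => rfl
  have hT : ∀ x y t, dT (Vale.Agent.Lib.P232.perm W) x y t = dY W y t x := fun _ _ _ => rfl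
  have hG : Continuous (fun p : R3 => Real.sqrt (dX W p.1 p.2.1 p.2.2 ^ 2 +
      dY W p.1 p.2.1 p.2.2 ^ 2 + dT W p.1 p.2.1 p.2.2 ^ 2)) := by
    have h1 := h.continuous_dX
    have h2 := h.continuous_dY
    have h3 := h.continuous_dT
    fun_prop
  have key := cyc_of_continuous (G := fun x y t => Real.sqrt (dX W x y t ^ 2 +
      dY W x y t ^ 2 + dT W x y t ^ 2)) hG
  unfold En3
  rw [← key]
  congr 1; funext t; congr 1; funext y; congr 1; funext x
  rw [hX, hY, hT]
  congr 1; ring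

/-- Cyclic change of the order of three interval integrals, bounded measurable integrand. -/
private theorem cyc_of_measurable {G : ℝ → ℝ → ℝ → ℝ}
    (hG : Measurable (fun p : R3 => G p.1 p.2.1 p.2.2)) {C : ℝ} (hC : ∀ a b c, |G a b c| ≤ C) :
    ∫ t in (0 : ℝ)..1, ∫ y in (0 : ℝ)..1, ∫ x in (0 : ℝ)..1, G y t x =
      ∫ t in (0 : ℝ)..1, ∫ y in (0 : ℝ)..1, ∫ x in (0 : ℝ)..1, G x y t := by
  have hC0 : 0 ≤ C := (abs_nonneg _).trans (hC 0 0 0)
  have h1 : ∀ b : ℝ, ∫ a in (0 : ℝ)..1, ∫ c in (0 : ℝ)..1, G a b c =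
      ∫ c in (0 : ℝ)..1, ∫ a in (0 : ℝ)..1, G a b c := by
    intro b
    have hm : Measurable (fun p : ℝ × ℝ => G p.2 b p.1) :=
      hG.comp (by fun_prop : Measurable (fun p : ℝ × ℝ => ((p.2, b, p.1) : R3)))
    exact interval_swap (F := fun c a => G a b c) hm (fun c a => hC a b c)
  simp_rw [h1]
  have hm : Measurable (fun p : ℝ × ℝ => ∫ a in (0 : ℝ)..1, G a p.2 p.1) := by
    have : Measurable (fun q : (ℝ × ℝ) × ℝ => G q.2 q.1.2 q.1.1) :=
      hG.comp (by fun_prop : Measurable (fun q : (ℝ × ℝ) × ℝ => ((q.2, q.1.2, q.1.1) : R3)))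
    exact measurable_intervalIntegral_param (F := fun (p : ℝ × ℝ) (a : ℝ) => G a p.2 p.1) this
  refine interval_swap (F := fun c b => ∫ a in (0 : ℝ)..1, G a b c) hm (C := C) ?_
  intro c b
  have := intervalIntegral.norm_integral_le_of_norm_le_const (a := (0:ℝ)) (b := 1)
    (f := fun a => G a b c) (C := C) (fun a _ => by simpa using hC a b c)
  simpa using this

private theorem abs_le_one_of_Ind3 (h : Ind3 χ) (a b c : ℝ) : |χ a b c| ≤ 1 := by
  rcases h.bool a b c with h0 | h0 <;> simp [h0]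

theorem vol_perm (h : Ind3 χ) : vol (perm χ) = vol χ :=
  cyc_of_measurable (G := χ) h.meas (abs_le_one_of_Ind3 h)

/-- Definitional after renaming bound variables. -/
theorem fx_perm (χ : ℝ → ℝ → ℝ → ℝ) : fx (perm χ) = ft χ := rfl

private theorem measurable_fullInd : Measurable fullInd := by
  unfold fullInd
  exact Measurable.ite (measurableSet_singleton (1:ℝ)) measurable_const measurable_const

private theorem abs_fullInd_le (s : ℝ) : |fullInd s| ≤ 1 := by
  unfold fullInd; split_ifs <;> simp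

/-- Fubini. -/
theorem fy_perm (h : Ind3 χ) : fy (perm χ) = fx χ := by
  unfold fy fx
  have hm : Measurable (fun p : ℝ × ℝ => fullInd (∫ a in (0 : ℝ)..1, χ a p.2 p.1)) := by
    refine measurable_fullInd.comp ?_
    have : Measurable (fun q : (ℝ × ℝ) × ℝ => χ q.2 q.1.2 q.1.1) :=
      h.meas.comp (by fun_prop : Measurable (fun q : (ℝ × ℝ) × ℝ => ((q.2, q.1.2, q.1.1) : R3)))
    exact measurable_intervalIntegral_param (F := fun (p : ℝ × ℝ) (a : ℝ) => χ a p.2 p.1) this
  exact interval_swap (F := fun c b => fullInd (∫ a in (0 : ℝ)..1, χ a b c)) hm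
    (fun _ _ => abs_fullInd_le _)

/-- Fubini. -/
theorem ft_perm (h : Ind3 χ) : ft (perm χ) = fy χ := by
  unfold ft fy
  have hm : Measurable (fun p : ℝ × ℝ => fullInd (∫ b in (0 : ℝ)..1, χ p.2 b p.1)) := by
    refine measurable_fullInd.comp ?_
    have : Measurable (fun q : (ℝ × ℝ) × ℝ => χ q.1.2 q.2 q.1.1) :=
      h.meas.comp (by fun_prop : Measurable (fun q : (ℝ × ℝ) × ℝ => ((q.1.2, q.2, q.1.1) : R3)))
    exact measurable_intervalIntegral_param (F := fun (p : ℝ × ℝ) (b : ℝ) => χ p.2 b p.1) this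
  exact interval_swap (F := fun c a => fullInd (∫ b in (0 : ℝ)..1, χ a b c)) hm
    (fun _ _ => abs_fullInd_le _)

/-- An a.e. statement on the unit interval about a periodic predicate holds a.e. on the line. -/
private theorem ae_of_periodic {P : ℝ → Prop} (hper : ∀ t, P (t + 1) ↔ P t)
    (h : ∀ᵐ t ∂(volume.restrict (Ioc (0 : ℝ) 1)), P t) : ∀ᵐ t : ℝ, P t := by
  have h0 : ∀ᵐ t : ℝ, t ∈ Ioc (0 : ℝ) 1 → P t := (ae_restrict_iff' measurableSet_Ioc).1 h
  have hP : Function.Periodic P 1 := fun t => propext (hper t)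
  have hn : ∀ n : ℤ, ∀ᵐ t : ℝ, t + (n : ℝ) ∈ Ioc (0 : ℝ) 1 → P (t + (n : ℝ)) := by
    intro n
    exact (measurePreserving_add_right volume (n : ℝ)).quasiMeasurePreserving.ae h0
  filter_upwards [ae_all_iff.2 hn] with t ht
  have hmem : t + ((1 - ⌈t⌉ : ℤ) : ℝ) ∈ Ioc (0 : ℝ) 1 := by
    push_cast
    constructor
    · have := Int.ceil_lt_add_one t; linarith
    · have := Int.le_ceil t; linarith
  have hPt := ht (1 - ⌈t⌉) hmem
  have hper2 := (hP.int_mul (1 - ⌈t⌉)) t
  rw [mul_one] at hper2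
  rw [hper2] at hPt
  exact hPt

/-- If the mean of the `t`-line over the period is one, the line is one almost everywhere. -/
private theorem full_line (h : Ind3 χ) (x y : ℝ) :
    ∀ᵐ t : ℝ, fullInd (∫ s in (0 : ℝ)..1, χ x y s) ≤ χ x y t := by
  by_cases hL : (∫ s in (0 : ℝ)..1, χ x y s) = 1
  · have hmeas : Measurable (fun s => χ x y s) :=
      h.meas.comp (by fun_prop : Measurable (fun s : ℝ => ((x, y, s) : R3)))
    have hbd : ∀ s, |χ x y s| ≤ 1 := fun s => abs_le_one_of_Ind3 h x y s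
    have hint : IntervalIntegrable (fun s => χ x y s) volume 0 1 :=
      intervalIntegrable_of_bdd hmeas hbd
    have hint1 : IntervalIntegrable (fun s => 1 - χ x y s) volume 0 1 :=
      (intervalIntegrable_const).sub hint
    have hzero : ∫ s in (0 : ℝ)..1, (1 - χ x y s) = 0 := by
      rw [intervalIntegral.integral_sub intervalIntegrable_const hint, hL]; simp
    rw [intervalIntegral.integral_of_le zero_le_one] at hzero
    have hnn : 0 ≤ᵐ[volume.restrict (Ioc (0 : ℝ) 1)] (fun s => 1 - χ x y s) :=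
      Filter.Eventually.of_forall (fun s => by
        have := abs_le_one_of_Ind3 h x y s
        have := (abs_le.1 this).2
        simp only [Pi.zero_apply]; linarith)
    have hi : IntegrableOn (fun s => 1 - χ x y s) (Ioc (0 : ℝ) 1) volume :=
      (intervalIntegrable_iff_integrableOn_Ioc_of_le zero_le_one).1 hint1
    have hae := (integral_eq_zero_iff_of_nonneg_ae hnn hi).1 hzero
    have hae' : ∀ᵐ t ∂(volume.restrict (Ioc (0 : ℝ) 1)), χ x y t = 1 := by
      filter_upwards [hae] with t ht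
      have : 1 - χ x y t = 0 := ht
      linarith
    have hfin := ae_of_periodic (P := fun t => χ x y t = 1)
      (fun t => by rw [h.per_t]) hae'
    filter_upwards [hfin] with t ht
    rw [ht, hL]; simp [fullInd]
  · refine Filter.Eventually.of_forall (fun t => ?_)
    have h0 : fullInd (∫ s in (0 : ℝ)..1, χ x y s) = 0 := by simp [fullInd, hL]
    rw [h0]
    rcases h.bool x y t with h1 | h1 <;> simp [h1]

/-- The mass of a slice is at least the measure of the full `t`-lines: for a.e. `(x,y)` with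
`∫ χ dt = 1` we have `χ x y t = 1` for a.e. `t`, Fubini. -/
theorem ft_le_massT (h : Ind3 χ) : ∀ᵐ t : ℝ, ft χ ≤ massT χ t := by
  -- the mean of the lines
  have hLm : Measurable (fun q : ℝ × ℝ => ∫ s in (0 : ℝ)..1, χ q.1 q.2 s) := by
    have : Measurable (fun q : (ℝ × ℝ) × ℝ => χ q.1.1 q.1.2 q.2) :=
      h.meas.comp (by fun_prop : Measurable (fun q : (ℝ × ℝ) × ℝ => ((q.1.1, q.1.2, q.2) : R3)))
    exact measurable_intervalIntegral_param (F := fun (q : ℝ × ℝ) (s : ℝ) => χ q.1 q.2 s) this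
  have hφ : Measurable (fun q : ℝ × ℝ => fullInd (∫ s in (0 : ℝ)..1, χ q.1 q.2 s)) :=
    measurable_fullInd.comp hLm
  have hS : MeasurableSet {p : R3 | fullInd (∫ s in (0 : ℝ)..1, χ p.1 p.2.1 s) ≤
      χ p.1 p.2.1 p.2.2} := by
    refine measurableSet_le ?_ h.meas
    exact hφ.comp (by fun_prop : Measurable (fun p : R3 => ((p.1, p.2.1) : ℝ × ℝ)))
  have hglob : ∀ᵐ p : R3, fullInd (∫ s in (0 : ℝ)..1, χ p.1 p.2.1 s) ≤ χ p.1 p.2.1 p.2.2 := by
    have h1 : ∀ x : ℝ, MeasurableSet {q : ℝ × ℝ | fullInd (∫ s in (0 : ℝ)..1, χ x q.1 s) ≤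
        χ x q.1 q.2} := by
      intro x
      exact hS.preimage (by fun_prop : Measurable (fun q : ℝ × ℝ => ((x, q.1, q.2) : R3)))
    rw [Measure.volume_eq_prod]
    refine (Measure.ae_prod_iff_ae_ae hS).2 (Filter.Eventually.of_forall (fun x => ?_))
    rw [Measure.volume_eq_prod]
    refine (Measure.ae_prod_iff_ae_ae (h1 x)).2 (Filter.Eventually.of_forall (fun y => ?_))
    exact full_line h x y
  have hsl := ae_slices (P := fun x y t => fullInd (∫ s in (0 : ℝ)..1, χ x y s) ≤ χ x y t) hglob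
  filter_upwards [hsl] with t ht
  have hr := ae_rows (P := fun x y => fullInd (∫ s in (0 : ℝ)..1, χ x y s) ≤ χ x y t) ht
  -- comparison of the iterated integrals
  have hφx : ∀ y, Measurable (fun x => fullInd (∫ s in (0 : ℝ)..1, χ x y s)) := fun y =>
    hφ.comp (by fun_prop : Measurable (fun x : ℝ => ((x, y) : ℝ × ℝ)))
  have hχx : ∀ y, Measurable (fun x => χ x y t) := fun y =>
    h.meas.comp (by fun_prop : Measurable (fun x : ℝ => ((x, y, t) : R3)))
  have hφy : Measurable (fun y => ∫ x in (0 : ℝ)..1, fullInd (∫ s in (0 : ℝ)..1, χ x y s)) := by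
    have : Measurable (fun q : ℝ × ℝ => fullInd (∫ s in (0 : ℝ)..1, χ q.2 q.1 s)) :=
      hφ.comp (by fun_prop : Measurable (fun q : ℝ × ℝ => ((q.2, q.1) : ℝ × ℝ)))
    exact measurable_intervalIntegral_param
      (F := fun (y x : ℝ) => fullInd (∫ s in (0 : ℝ)..1, χ x y s)) this
  have hχy : Measurable (fun y => ∫ x in (0 : ℝ)..1, χ x y t) := by
    have : Measurable (fun q : ℝ × ℝ => χ q.2 q.1 t) :=
      h.meas.comp (by fun_prop : Measurable (fun q : ℝ × ℝ => ((q.2, q.1, t) : R3)))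
    exact measurable_intervalIntegral_param (F := fun (y x : ℝ) => χ x y t) this
  have hφyb : ∀ y, |∫ x in (0 : ℝ)..1, fullInd (∫ s in (0 : ℝ)..1, χ x y s)| ≤ 1 := by
    intro y
    have := intervalIntegral.norm_integral_le_of_norm_le_const (a := (0:ℝ)) (b := 1)
      (f := fun x => fullInd (∫ s in (0 : ℝ)..1, χ x y s)) (C := 1)
      (fun a _ => by simpa using abs_fullInd_le _)
    simpa using this
  have hχyb : ∀ y, |∫ x in (0 : ℝ)..1, χ x y t| ≤ 1 := by
    intro y
    have := intervalIntegral.norm_integral_le_of_norm_le_const (a := (0:ℝ)) (b := 1)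
      (f := fun x => χ x y t) (C := 1)
      (fun a _ => by simpa using abs_le_one_of_Ind3 h a y t)
    simpa using this
  refine intervalIntegral.integral_mono_ae zero_le_one (intervalIntegrable_of_bdd hφy hφyb)
    (intervalIntegrable_of_bdd hχy hχyb) ?_
  filter_upwards [hr] with y hy
  refine intervalIntegral.integral_mono_ae zero_le_one
    (intervalIntegrable_of_bdd (hφx y) (fun x => abs_fullInd_le _))
    (intervalIntegrable_of_bdd (hχx y) (fun x => abs_le_one_of_Ind3 h x y t)) ?_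
  exact hy

/-- Hence `ft χ ≤ m`. -/
theorem ft_le_of_essBounds (h : Ind3 χ) {m M : ℝ} (hb : EssBounds (massT χ) m M) : ft χ ≤ m := by
  refine le_of_forall_pos_lt_add (fun ε hε => ?_)
  have hpos := hb.near_m ε hε
  have hae := ft_le_massT h
  by_contra hcon
  push Not at hcon
  have hsub : {t ∈ Ioc (0 : ℝ) 1 | massT χ t < m + ε} ⊆ {t | ¬ ft χ ≤ massT χ t} := by
    intro t ht
    have ht2 : massT χ t < m + ε := ht.2
    exact not_le.2 (by linarith)
  have hnull : volume {t | ¬ ft χ ≤ massT χ t} = 0 := hae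
  have := measure_mono_null hsub hnull
  exact absurd this (ne_of_gt hpos)

/-- Choose the direction with the largest `f`. -/
theorem exists_direction (h : Approx3 U χ) : ∃ (U' : ℕ → ℝ → ℝ → ℝ → ℝ) (χ' : ℝ → ℝ → ℝ → ℝ),
    Approx3 U' χ' ∧ (∀ k, En3 (U' k) = En3 (U k)) ∧ vol χ' = vol χ ∧ fx χ' + fy χ' ≤ 2 * ft χ' := by
  have hi := h.ind
  have hi2 := hi.perm
  by_cases h1 : fx χ + fy χ ≤ 2 * ft χ
  · exact ⟨U, χ, h, fun _ => rfl, rfl, h1⟩
  by_cases h2 : ft χ + fx χ ≤ 2 * fy χ
  · refine ⟨fun k => perm (U k), perm χ, h.perm, fun k => En3_perm (h.c1 k), vol_perm hi, ?_⟩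
    rw [fx_perm, fy_perm hi, ft_perm hi]
    exact h2
  · push Not at h1 h2
    refine ⟨fun k => perm (perm (U k)), perm (perm χ), h.perm.perm, fun k => ?_, ?_, ?_⟩
    · rw [En3_perm (h.c1 k).perm, En3_perm (h.c1 k)]
    · rw [vol_perm hi2, vol_perm hi]
    · rw [fx_perm, fy_perm hi2, ft_perm hi2, ft_perm hi, fx_perm, fy_perm hi]
      linarith

end Vale.Agent.Lib.P232
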