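import Vale.Agent.Lib.P232.Slice

/-! JOB T3A: level three, application of the generic lemma with the horizontal slice as fibre. -/

open MeasureTheory Set Filter Topology

noncomputable section

namespace Vale.Agent.Lib.P232

variable {U : ℕ → ℝ → ℝ → ℝ → ℝ} {χ : ℝ → ℝ → ℝ → ℝ}

/-- Slices of an indicator. -/
theorem Ind3.slice_ind (h : Ind3 χ) (t : ℝ) : Ind2 (P232.slc χ t) where
  meas := h.meas.comp (measurable_fst.prodMk (measurable_snd.prodMk measurable_const))
  bool := fun x y => h.bool x y t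
  per_x := fun x y => h.per_x x y t
  per_y := fun x y => h.per_y x y t

/-- Slices of an approximation. Uses `ae_slices`, `C1P3.slice`. -/
theorem Approx3.slices (h : Approx3 U χ) :
    ∀ᵐ t : ℝ, Approx2 (fun k => slc (U k) t) (slc χ t) := by
  have h1 := ae_slices (P := fun x y t => Tendsto (fun k => U k x y t) atTop (𝓝 (χ x y t))) h.conv
  filter_upwards [h1] with t ht
  exact ⟨fun k => (h.c1 k).slice t, h.ind.slice_ind t, ht⟩

/-- The inner integral is jointly measurable in the height and the time. -/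
theorem t3_meas_inner {Φ : ℝ → ℝ} (hΦ : Measurable Φ) (h : Ind3 χ) :
    Measurable (fun q : ℝ × ℝ => Φ (∫ x in (0 : ℝ)..1, χ x q.2 q.1)) := by
  refine hΦ.comp (measurable_intervalIntegral_param (F := fun (q : ℝ × ℝ) x => χ x q.2 q.1) ?_)
  exact h.meas.comp (measurable_snd.prodMk
    ((measurable_snd.comp measurable_fst).prodMk (measurable_fst.comp measurable_fst)))

theorem t3_meas_inner' {Φ : ℝ → ℝ} (hΦ : Measurable Φ) (h : Ind3 χ) :
    Measurable (fun q : ℝ × ℝ => Φ (∫ y in (0 : ℝ)..1, χ q.2 y q.1)) := by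
  refine hΦ.comp (measurable_intervalIntegral_param (F := fun (q : ℝ × ℝ) y => χ q.2 y q.1) ?_)
  exact h.meas.comp ((measurable_snd.comp measurable_fst).prodMk
    (measurable_snd.prodMk (measurable_fst.comp measurable_fst)))

theorem Ind3.measurable_massT (h : Ind3 χ) : Measurable (massT χ) :=
  measurable_intervalIntegral_param (F := fun t y => ∫ x in (0 : ℝ)..1, χ x y t)
    (t3_meas_inner measurable_id h)

theorem Ind3.massT_mem (h : Ind3 χ) (t : ℝ) : 0 ≤ massT χ t ∧ massT χ t ≤ 1 :=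
  (h.slice_ind t).area_mem

theorem t3_measurable_fullInd : Measurable fullInd := by
  unfold fullInd
  exact Measurable.ite (measurableSet_singleton 1) measurable_const measurable_const

/-- Measurability of the densities of full lines in the slice. -/
theorem Ind3.measurable_deltaR (h : Ind3 χ) : Measurable (fun t => deltaR (slc χ t)) :=
  measurable_intervalIntegral_param
    (F := fun t y => fullInd (∫ x in (0 : ℝ)..1, χ x y t)) (t3_meas_inner t3_measurable_fullInd h)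

theorem Ind3.measurable_deltaC (h : Ind3 χ) : Measurable (fun t => deltaC (slc χ t)) :=
  measurable_intervalIntegral_param
    (F := fun t x => fullInd (∫ y in (0 : ℝ)..1, χ x y t)) (t3_meas_inner' t3_measurable_fullInd h)

theorem fx_eq (χ : ℝ → ℝ → ℝ → ℝ) : fx χ = ∫ t in (0 : ℝ)..1, deltaR (slc χ t) := rfl

theorem fy_eq (χ : ℝ → ℝ → ℝ → ℝ) : fy χ = ∫ t in (0 : ℝ)..1, deltaC (slc χ t) := rfl

/-! Continuity of parametric integrals. -/

theorem t3_cont_inner {G : ℝ → ℝ → ℝ → ℝ} (hG : Continuous (fun p : R3 => G p.1 p.2.1 p.2.2)) :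
    Continuous (fun q : ℝ × ℝ => ∫ x in (0 : ℝ)..1, G x q.1 q.2) := by
  refine intervalIntegral.continuous_parametric_intervalIntegral_of_continuous'
    (f := fun (q : ℝ × ℝ) x => G x q.1 q.2) ?_ 0 1
  exact hG.comp (continuous_snd.prodMk (continuous_fst.fst.prodMk continuous_fst.snd))

theorem t3_cont_double {G : ℝ → ℝ → ℝ → ℝ} (hG : Continuous (fun p : R3 => G p.1 p.2.1 p.2.2)) :
    Continuous (fun t : ℝ => ∫ y in (0 : ℝ)..1, ∫ x in (0 : ℝ)..1, G x y t) := by
  refine intervalIntegral.continuous_parametric_intervalIntegral_of_continuous'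
    (f := fun (t : ℝ) y => ∫ x in (0 : ℝ)..1, G x y t) ?_ 0 1
  exact (t3_cont_inner hG).comp (continuous_snd.prodMk continuous_fst)

/-- A continuous function of the height, for a fixed time. -/
theorem t3_cont_row {G : ℝ → ℝ → ℝ → ℝ} (hG : Continuous (fun p : R3 => G p.1 p.2.1 p.2.2)) (t : ℝ) :
    Continuous (fun y : ℝ => ∫ x in (0 : ℝ)..1, G x y t) :=
  (t3_cont_inner hG).comp (continuous_id.prodMk continuous_const)

theorem t3_cont_col {G : ℝ → ℝ → ℝ → ℝ} (hG : Continuous (fun p : R3 => G p.1 p.2.1 p.2.2)) (y t : ℝ) :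
    Continuous (fun x : ℝ => G x y t) :=
  hG.comp (continuous_id.prodMk (continuous_const.prodMk continuous_const))

/-! Derivatives of the mass. -/

theorem t3_hasDerivAt_point {W : ℝ → ℝ → ℝ → ℝ} (h : C1P3 W) (x y t : ℝ) :
    HasDerivAt (fun s => W x y s) (dT W x y t) t := by
  have h1 : Differentiable ℝ (fun p : R3 => W p.1 p.2.1 p.2.2) := h.smooth.differentiable (by norm_num)
  have h2 : Differentiable ℝ (fun s : ℝ => W x y s) := by
    have h3 : Differentiable ℝ (fun s : ℝ => ((x, y, s) : R3)) := by fun_prop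
    exact h1.comp h3
  exact (h2 t).hasDerivAt

theorem t3_hasDerivAt_row {W : ℝ → ℝ → ℝ → ℝ} (h : C1P3 W) (y t : ℝ) :
    HasDerivAt (fun s => ∫ x in (0 : ℝ)..1, W x y s) (∫ x in (0 : ℝ)..1, dT W x y t) t := by
  have hc := h.smooth.continuous
  refine hasDerivAt_param (F := fun x s => W x y s) (F' := fun x s => dT W x y s) ?_ ?_
    (fun x t => t3_hasDerivAt_point h x y t) t
  · exact hc.comp (continuous_fst.prodMk (continuous_const.prodMk continuous_snd))
  · exact h.continuous_dT.comp (continuous_fst.prodMk (continuous_const.prodMk continuous_snd))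

theorem t3_hasDerivAt_mass {W : ℝ → ℝ → ℝ → ℝ} (h : C1P3 W) (t : ℝ) :
    HasDerivAt (massT W) (∫ y in (0 : ℝ)..1, ∫ x in (0 : ℝ)..1, dT W x y t) t := by
  exact hasDerivAt_param (F := fun y s => ∫ x in (0 : ℝ)..1, W x y s)
    (F' := fun y s => ∫ x in (0 : ℝ)..1, dT W x y s) (t3_cont_inner h.smooth.continuous)
    (t3_cont_inner h.continuous_dT) (fun y t => t3_hasDerivAt_row h y t) t

theorem t3_contDiff_mass {W : ℝ → ℝ → ℝ → ℝ} (h : C1P3 W) : ContDiff ℝ 1 (massT W) := by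
  rw [contDiff_one_iff_deriv]
  refine ⟨fun t => (t3_hasDerivAt_mass h t).differentiableAt, ?_⟩
  have e : deriv (massT W) = fun t => ∫ y in (0 : ℝ)..1, ∫ x in (0 : ℝ)..1, dT W x y t :=
    funext fun t => (t3_hasDerivAt_mass h t).deriv
  rw [e]
  exact t3_cont_double h.continuous_dT

theorem t3_mass_per {W : ℝ → ℝ → ℝ → ℝ} (h : C1P3 W) (t : ℝ) : massT W (t + 1) = massT W t := by
  simp only [massT, area, slc, h.per_t]

/-! Convergence of the masses. -/

theorem t3_dct {F : ℕ → ℝ → ℝ} {f : ℝ → ℝ} (hF : ∀ n, Continuous (F n)) (hb : ∀ n x, |F n x| ≤ 1)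
    (hlim : ∀ᵐ x : ℝ, Tendsto (fun n => F n x) atTop (𝓝 (f x))) :
    Tendsto (fun n => ∫ x in (0 : ℝ)..1, F n x) atTop (𝓝 (∫ x in (0 : ℝ)..1, f x)) := by
  refine intervalIntegral.tendsto_integral_filter_of_dominated_convergence (fun _ => (1 : ℝ)) ?_ ?_
    intervalIntegrable_const ?_
  · exact Eventually.of_forall fun n => (hF n).aestronglyMeasurable
  · exact Eventually.of_forall fun n => Eventually.of_forall fun x _ => hb n x
  · filter_upwards [hlim] with x hx _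
    exact hx

theorem t3_abs_int_le {f : ℝ → ℝ} (hb : ∀ x, |f x| ≤ 1) : |∫ x in (0 : ℝ)..1, f x| ≤ 1 := by
  have := intervalIntegral.norm_integral_le_of_norm_le_const (a := (0 : ℝ)) (b := 1) (f := f) (C := 1)
    (fun x _ => hb x)
  simpa using this

theorem t3_abs_le {W : ℝ → ℝ → ℝ → ℝ} (h : C1P3 W) (x y t : ℝ) : |W x y t| ≤ 1 := by
  rw [abs_of_nonneg (h.nonneg x y t)]
  exact h.le_one x y t

theorem t3_conv_mass (h : Approx3 U χ) : ∀ᵐ t : ℝ, Tendsto (fun k => massT (U k) t) atTop (𝓝 (massT χ t)) := by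
  have h1 := ae_slices (P := fun x y t => Tendsto (fun k => U k x y t) atTop (𝓝 (χ x y t))) h.conv
  filter_upwards [h1] with t ht
  have h2 := ae_rows (P := fun x y => Tendsto (fun k => U k x y t) atTop (𝓝 (χ x y t))) ht
  refine t3_dct (F := fun k y => ∫ x in (0 : ℝ)..1, U k x y t)
    (fun k => t3_cont_row (h.c1 k).smooth.continuous t)
    (fun k y => t3_abs_int_le fun x => t3_abs_le (h.c1 k) x y t) ?_
  filter_upwards [h2] with y hy
  exact t3_dct (F := fun k x => U k x y t) (fun k => t3_cont_col (h.c1 k).smooth.continuous y t)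
    (fun k x => t3_abs_le (h.c1 k) x y t) hy

/-! The energies. -/

/-- The gradient norm in space. -/
def t3Nr (W : ℝ → ℝ → ℝ → ℝ) (x y t : ℝ) : ℝ :=
  Real.sqrt (dX W x y t ^ 2 + dY W x y t ^ 2 + dT W x y t ^ 2)

/-- The gradient norm in the horizontal slice. -/
def t3Hr (W : ℝ → ℝ → ℝ → ℝ) (x y t : ℝ) : ℝ :=
  Real.sqrt (dX W x y t ^ 2 + dY W x y t ^ 2)

theorem t3_cont_Nr {W : ℝ → ℝ → ℝ → ℝ} (h : C1P3 W) :
    Continuous (fun p : R3 => t3Nr W p.1 p.2.1 p.2.2) := by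
  unfold t3Nr
  exact (((h.continuous_dX.pow 2).add (h.continuous_dY.pow 2)).add (h.continuous_dT.pow 2)).sqrt

theorem t3_cont_Hr {W : ℝ → ℝ → ℝ → ℝ} (h : C1P3 W) :
    Continuous (fun p : R3 => t3Hr W p.1 p.2.1 p.2.2) := by
  unfold t3Hr
  exact ((h.continuous_dX.pow 2).add (h.continuous_dY.pow 2)).sqrt

theorem t3_En2_slc (W : ℝ → ℝ → ℝ → ℝ) (t : ℝ) :
    En2 (slc W t) = ∫ y in (0 : ℝ)..1, ∫ x in (0 : ℝ)..1, t3Hr W x y t := rfl

theorem t3_En3 (W : ℝ → ℝ → ℝ → ℝ) :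
    En3 W = ∫ t in (0 : ℝ)..1, ∫ y in (0 : ℝ)..1, ∫ x in (0 : ℝ)..1, t3Nr W x y t := rfl

theorem t3_cont_A {W : ℝ → ℝ → ℝ → ℝ} (h : C1P3 W) : Continuous (fun t => En2 (slc W t)) :=
  t3_cont_double (t3_cont_Hr h)

theorem t3_point {r T α β : ℝ} (hαβ : α ^ 2 + β ^ 2 ≤ 1) :
    α * r + β * T ≤ Real.sqrt (r ^ 2 + T ^ 2) := by
  refine (le_abs_self _).trans (Real.abs_le_sqrt ?_)
  nlinarith [sq_nonneg (α * T - β * r), sq_nonneg r, sq_nonneg T,
    mul_nonneg (sub_nonneg.2 hαβ) (add_nonneg (sq_nonneg r) (sq_nonneg T))]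

theorem t3_point' {X Y T α β : ℝ} (hαβ : α ^ 2 + β ^ 2 ≤ 1) :
    α * Real.sqrt (X ^ 2 + Y ^ 2) + β * T ≤ Real.sqrt (X ^ 2 + Y ^ 2 + T ^ 2) := by
  have h := t3_point (r := Real.sqrt (X ^ 2 + Y ^ 2)) (T := T) hαβ
  rwa [Real.sq_sqrt (by positivity)] at h

theorem t3_lin_le {f g k : ℝ → ℝ} (hf : Continuous f) (hg : Continuous g) (hk : Continuous k) (α β : ℝ)
    (hle : ∀ x, α * f x + β * g x ≤ k x) :
    α * (∫ x in (0 : ℝ)..1, f x) + β * ∫ x in (0 : ℝ)..1, g x ≤ ∫ x in (0 : ℝ)..1, k x := by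
  have e : α * (∫ x in (0 : ℝ)..1, f x) + β * (∫ x in (0 : ℝ)..1, g x) =
      ∫ x in (0 : ℝ)..1, (α * f x + β * g x) := by
    rw [intervalIntegral.integral_add ((hf.const_mul α).intervalIntegrable _ _)
      ((hg.const_mul β).intervalIntegrable _ _), intervalIntegral.integral_const_mul,
      intervalIntegral.integral_const_mul]
  rw [e]
  exact intervalIntegral.integral_mono_on (by norm_num)
    (((hf.const_mul α).add (hg.const_mul β)).intervalIntegrable _ _) (hk.intervalIntegrable _ _)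
    (fun x _ => hle x)

theorem t3_key {W : ℝ → ℝ → ℝ → ℝ} (h : C1P3 W) (t α β : ℝ) (hαβ : α ^ 2 + β ^ 2 ≤ 1) :
    α * En2 (slc W t) + β * deriv (massT W) t ≤
      ∫ y in (0 : ℝ)..1, ∫ x in (0 : ℝ)..1, t3Nr W x y t := by
  rw [(t3_hasDerivAt_mass h t).deriv, t3_En2_slc]
  refine t3_lin_le (t3_cont_row (t3_cont_Hr h) t) (t3_cont_row h.continuous_dT t)
    (t3_cont_row (t3_cont_Nr h) t) α β fun y => ?_
  refine t3_lin_le (t3_cont_col (t3_cont_Hr h) y t) (t3_cont_col h.continuous_dT y t)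
    (t3_cont_col (t3_cont_Nr h) y t) α β fun x => ?_
  exact t3_point' hαβ

/-- Generic lemma with `a_k t = ∫∫ U_k dx dy`, `A_k t = En2 (slc (U k) t)`,
`N_k t = ∫∫ |∇ U_k| dx dy`, `a0 = massT χ`. Continuity of `A`, `N`, `a_k`, differentiation under
the integral sign twice (`hasDerivAt_param`), pointwise `α √(X²+Y²) + β T ≤ √(X²+Y²+T²)`; dominated
convergence on a.e. slice. -/
theorem generic3 (h : Approx3 U χ) {c κ g : ℝ → ℝ} {m M P C : ℝ} (hκ : Continuous κ)
    (hκ0 : ∀ s, 0 ≤ κ s) (hg : Continuous g) (hg0 : ∀ s, 0 ≤ g s) (hκg : ∀ s, κ s ^ 2 + g s ^ 2 ≤ 1)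
    (hcm : Measurable c) (hcb : ∀ t, |c t| ≤ C)
    (hc : ∀ᵐ t, ∀ ε > 0, ∀ᶠ k in atTop, c t - ε ≤ En2 (slc (U k) t))
    (hb : EssBounds (massT χ) m M) (hmM : m ≤ M) (hP : ∃ᶠ k in atTop, En3 (U k) ≤ P) :
    (∫ t in (0 : ℝ)..1, κ (massT χ t) * c t) + 2 * ∫ s in m..M, g s ≤ P :=
  generic_slice (a := fun k t => massT (U k) t) (A := fun k t => En2 (slc (U k) t))
    (N := fun k t => ∫ y in (0 : ℝ)..1, ∫ x in (0 : ℝ)..1, t3Nr (U k) x y t) (a0 := massT χ)
    (fun k => t3_contDiff_mass (h.c1 k)) (fun k t => t3_mass_per (h.c1 k) t) (t3_conv_mass h)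
    h.ind.measurable_massT (fun k => t3_cont_A (h.c1 k)) (fun _ _ => En2_nonneg _)
    (fun k => t3_cont_double (t3_cont_Nr (h.c1 k)))
    (fun k t α β _ hαβ => t3_key (h.c1 k) t α β hαβ) hκ hκ0 hg hg0 hκg hcm hcb hc hb hmM hP

end Vale.Agent.Lib.P232
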