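import Vale.Agent.Lib.P232.Defs

/-! JOB K: the functions `κ = q₊/I`, `g = √(1-κ²)`, clamped to `[m, M]`, are continuous. -/

open Set Filter Topology

noncomputable section

namespace Vale.Agent.Lib.P232

private theorem kap_ratio_le {q I w A : ℝ} (hq0 : 0 ≤ q) (hw : 0 ≤ w) (hA : 0 ≤ A)
    (hq : q ≤ A * w ^ 2) (hI : 2 * w ≤ I) : q / I ≤ A / 2 * w := by
  rcases hw.eq_or_lt with rfl | hwpos
  · have : q = 0 := le_antisymm (by simpa using hq) hq0
    simp [this]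
  · have hIpos : 0 < I := by linarith
    rw [div_le_iff₀ hIpos]
    nlinarith [mul_le_mul_of_nonneg_left hI (mul_nonneg (by positivity : 0 ≤ A / 2) hw)]

theorem kap_qpos_nonneg (lam be s : ℝ) : 0 ≤ qpos lam be s := le_max_right _ _

theorem kap_qpos_cont (lam be : ℝ) : Continuous (qpos lam be) := by
  unfold qpos
  fun_prop

private theorem kap_IT_cont : Continuous IT := by
  unfold IT
  fun_prop

private theorem kap_IE_cont : Continuous IE := by
  unfold IE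
  fun_prop

theorem kap_IT_nonneg (s : ℝ) : 0 ≤ IT s := by
  unfold IT
  refine le_min (le_min (by positivity) (by norm_num)) (by positivity)

private theorem kap_IE_nonneg (s : ℝ) : 0 ≤ IE s := by
  unfold IE
  refine le_min (by positivity) (by positivity)

private theorem kap_pi_ge_one : (1 : ℝ) ≤ Real.pi := by
  have := Real.pi_gt_three
  linarith

theorem kap_IT_low {t : ℝ} (h0 : 0 ≤ t) (h1 : t ≤ 1 / 2) :
    2 * Real.sqrt t ≤ IT t := by
  have hpi := kap_pi_ge_one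
  unfold IT
  refine le_min (le_min ?_ ?_) ?_
  · have : Real.sqrt t ≤ Real.sqrt (Real.pi * t) := Real.sqrt_le_sqrt (by nlinarith)
    linarith
  · have : Real.sqrt t ≤ 1 := Real.sqrt_le_one.mpr (by linarith)
    linarith
  · have : Real.sqrt t ≤ Real.sqrt (Real.pi * (1 - t)) := Real.sqrt_le_sqrt (by nlinarith)
    linarith

theorem kap_IT_high {t : ℝ} (h0 : 1 / 2 ≤ t) (h1 : t ≤ 1) :
    2 * Real.sqrt (1 - t) ≤ IT t := by
  have hpi := kap_pi_ge_one
  unfold IT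
  refine le_min (le_min ?_ ?_) ?_
  · have : Real.sqrt (1 - t) ≤ Real.sqrt (Real.pi * t) := Real.sqrt_le_sqrt (by nlinarith)
    linarith
  · have : Real.sqrt (1 - t) ≤ 1 := Real.sqrt_le_one.mpr (by linarith)
    linarith
  · have : Real.sqrt (1 - t) ≤ Real.sqrt (Real.pi * (1 - t)) := Real.sqrt_le_sqrt (by nlinarith)
    linarith

private theorem kap_IE_low {t : ℝ} (h0 : 0 ≤ t) (h1 : t ≤ 1) :
    2 * Real.sqrt t ≤ IE t := by
  have hpi := kap_pi_ge_one
  unfold IE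
  refine le_min ?_ ?_
  · have : Real.sqrt t ≤ Real.sqrt (Real.pi * t) := Real.sqrt_le_sqrt (by nlinarith)
    linarith
  · have h1' : Real.sqrt t ≤ 1 := Real.sqrt_le_one.mpr h1
    have h2 : (1 : ℝ) ≤ Real.sqrt 2 := Real.one_le_sqrt.mpr (by norm_num)
    linarith

/-- General clamping construction. -/
theorem kap_gen (I : ℝ → ℝ) (hIc : Continuous I) (hI0 : ∀ s, 0 ≤ I s)
    {m M lam be : ℝ} (hmM : m ≤ M)
    (hline : ∀ s ∈ Icc m M, qpos lam be s ≤ I s)
    (hzero : ∀ s ∈ Icc m M, I s = 0 →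
      ContinuousWithinAt (fun t => qpos lam be t / I t) (Icc m M) s) :
    ∃ κ g : ℝ → ℝ, Continuous κ ∧ (∀ s, 0 ≤ κ s) ∧ Continuous g ∧ (∀ s, 0 ≤ g s) ∧
      (∀ s, κ s ^ 2 + g s ^ 2 ≤ 1) ∧ (∀ s, κ s ≤ 1) ∧ (∀ s ∈ Icc m M, κ s * I s = qpos lam be s) ∧
      (∀ s ∈ Icc m M, g s = Real.sqrt (1 - (qpos lam be s / I s) ^ 2)) := by
  set κ₀ : ℝ → ℝ := fun t => qpos lam be t / I t with hκ₀
  have hcont : ContinuousOn κ₀ (Icc m M) := by
    intro s hs
    by_cases h : I s = 0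
    · exact hzero s hs h
    · exact ((kap_qpos_cont lam be).continuousAt.div hIc.continuousAt h).continuousWithinAt
  set c : ℝ → ℝ := fun s => max m (min s M) with hc
  have hcc : Continuous c := by
    simp only [hc]
    fun_prop
  have hcmem : ∀ s, c s ∈ Icc m M := fun s =>
    ⟨le_max_left _ _, max_le hmM (min_le_right _ _)⟩
  have hcid : ∀ s ∈ Icc m M, c s = s := by
    intro s hs
    simp only [hc]
    rw [min_eq_left hs.2, max_eq_right hs.1]
  have hκ₀0 : ∀ t, 0 ≤ κ₀ t := fun t => div_nonneg (kap_qpos_nonneg _ _ _) (hI0 t)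
  have hκ₀1 : ∀ t ∈ Icc m M, κ₀ t ≤ 1 := by
    intro t ht
    by_cases h : I t = 0
    · simp [hκ₀, h]
    · exact (div_le_one (lt_of_le_of_ne (hI0 t) (Ne.symm h))).mpr (hline t ht)
  have hκc : Continuous fun s => κ₀ (c s) :=
    hcont.comp_continuous hcc hcmem
  refine ⟨fun s => κ₀ (c s), fun s => Real.sqrt (1 - κ₀ (c s) ^ 2), hκc, fun s => hκ₀0 _, ?_,
    fun s => Real.sqrt_nonneg _, ?_, fun s => hκ₀1 _ (hcmem s), ?_, ?_⟩
  · exact (continuous_const.sub (hκc.pow 2)).sqrt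
  · intro s
    have h1 := hκ₀1 _ (hcmem s)
    have h0 := hκ₀0 (c s)
    have h2 : 0 ≤ 1 - κ₀ (c s) ^ 2 := by nlinarith
    rw [Real.sq_sqrt h2]
    linarith
  · intro s hs
    simp only [hcid s hs, hκ₀]
    by_cases h : I s = 0
    · have h1 : qpos lam be s = 0 :=
        le_antisymm (by simpa [h] using hline s hs) (kap_qpos_nonneg _ _ _)
      simp [h, h1]
    · exact div_mul_cancel₀ _ h
  · intro s hs
    simp only [hcid s hs, hκ₀]

/-- Vanishing at the lower end `s = 0`. -/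
theorem kap_at_zero (I : ℝ → ℝ) (hI0 : ∀ s, 0 ≤ I s) {M lam be : ℝ} (hbe : be ≤ 0)
    (hI00 : I 0 = 0) (hIlow : ∀ t, 0 ≤ t → t ≤ 1 / 2 → 2 * Real.sqrt t ≤ I t) :
    ContinuousWithinAt (fun t => qpos lam be t / I t) (Icc 0 M) 0 := by
  have hlim : Tendsto (fun t : ℝ => |lam| / 2 * Real.sqrt t) (𝓝[Icc 0 M] 0) (𝓝 0) := by
    have h : Continuous fun t : ℝ => |lam| / 2 * Real.sqrt t := by fun_prop
    have h2 := (h.tendsto 0).mono_left (nhdsWithin_le_nhds (s := Icc 0 M))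
    simpa using h2
  unfold ContinuousWithinAt
  simp only [hI00, div_zero]
  refine tendsto_of_tendsto_of_tendsto_of_le_of_le' tendsto_const_nhds hlim ?_ ?_
  · exact Eventually.of_forall fun t => div_nonneg (kap_qpos_nonneg _ _ _) (hI0 t)
  · have h1 : ∀ᶠ t in 𝓝[Icc 0 M] (0 : ℝ), t ∈ Icc 0 M := self_mem_nhdsWithin
    have h2 : ∀ᶠ t in 𝓝[Icc 0 M] (0 : ℝ), t < 1 / 2 :=
      mem_nhdsWithin_of_mem_nhds (Iio_mem_nhds (by norm_num : (0 : ℝ) < 1 / 2))
    filter_upwards [h1, h2] with t ht ht2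
    have ht0 : 0 ≤ t := ht.1
    refine kap_ratio_le (kap_qpos_nonneg _ _ _) (Real.sqrt_nonneg _) (abs_nonneg _) ?_
      (hIlow t ht0 ht2.le)
    rw [Real.sq_sqrt ht0]
    refine max_le ?_ (mul_nonneg (abs_nonneg _) ht0)
    have := mul_le_mul_of_nonneg_right (le_abs_self lam) ht0
    linarith

/-- Vanishing at the upper end `s = 1`. -/
theorem kap_at_one (I : ℝ → ℝ) (hI0 : ∀ s, 0 ≤ I s) {m lam be : ℝ} (hbe : lam + be ≤ 0)
    (hI01 : I 1 = 0) (hIhigh : ∀ t, 1 / 2 ≤ t → t ≤ 1 → 2 * Real.sqrt (1 - t) ≤ I t) :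
    ContinuousWithinAt (fun t => qpos lam be t / I t) (Icc m 1) 1 := by
  have hlim : Tendsto (fun t : ℝ => |lam| / 2 * Real.sqrt (1 - t)) (𝓝[Icc m 1] 1) (𝓝 0) := by
    have h : Continuous fun t : ℝ => |lam| / 2 * Real.sqrt (1 - t) := by fun_prop
    have h2 := (h.tendsto 1).mono_left (nhdsWithin_le_nhds (s := Icc m 1))
    simpa using h2
  unfold ContinuousWithinAt
  simp only [hI01, div_zero]
  refine tendsto_of_tendsto_of_tendsto_of_le_of_le' tendsto_const_nhds hlim ?_ ?_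
  · exact Eventually.of_forall fun t => div_nonneg (kap_qpos_nonneg _ _ _) (hI0 t)
  · have h1 : ∀ᶠ t in 𝓝[Icc m 1] (1 : ℝ), t ∈ Icc m 1 := self_mem_nhdsWithin
    have h2 : ∀ᶠ t in 𝓝[Icc m 1] (1 : ℝ), 1 / 2 < t :=
      mem_nhdsWithin_of_mem_nhds (Ioi_mem_nhds (by norm_num : (1 / 2 : ℝ) < 1))
    filter_upwards [h1, h2] with t ht ht2
    have ht1 : t ≤ 1 := ht.2
    have ht0 : 0 ≤ 1 - t := by linarith
    refine kap_ratio_le (kap_qpos_nonneg _ _ _) (Real.sqrt_nonneg _) (abs_nonneg _) ?_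
      (hIhigh t ht2.le ht1)
    rw [Real.sq_sqrt ht0]
    refine max_le ?_ (mul_nonneg (abs_nonneg _) ht0)
    have := mul_le_mul_of_nonneg_right (neg_le_abs lam) ht0
    nlinarith

theorem kap_IT_pos {s : ℝ} (h0 : 0 < s) (h1 : s < 1) : 0 < IT s := by
  unfold IT
  have hpi := Real.pi_pos
  refine lt_min (lt_min ?_ (by norm_num)) ?_
  · have : 0 < Real.sqrt (Real.pi * s) := Real.sqrt_pos.mpr (by positivity)
    linarith
  · have : 0 < Real.sqrt (Real.pi * (1 - s)) :=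
      Real.sqrt_pos.mpr (mul_pos hpi (by linarith))
    linarith

private theorem kap_IE_pos {s : ℝ} (h0 : 0 < s) : 0 < IE s := by
  unfold IE
  have hpi := Real.pi_pos
  refine lt_min ?_ (by positivity)
  have : 0 < Real.sqrt (Real.pi * s) := Real.sqrt_pos.mpr (by positivity)
  linarith

/-- Continuity at the zeros of `I`: if `m = 0` then `q₊(0) ≤ I(0) = 0` so `q₊(s) ≤ |λ| s` and
`I(s) ≥ c √s` near `0`; similarly at `s = 1` for `IT`. -/
theorem kappa_T {m M lam be : ℝ} (hm : 0 ≤ m) (hmM : m ≤ M) (hM : M ≤ 1)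
    (hline : ∀ s ∈ Icc m M, qpos lam be s ≤ IT s) :
    ∃ κ g : ℝ → ℝ, Continuous κ ∧ (∀ s, 0 ≤ κ s) ∧ Continuous g ∧ (∀ s, 0 ≤ g s) ∧
      (∀ s, κ s ^ 2 + g s ^ 2 ≤ 1) ∧ (∀ s ∈ Icc m M, κ s * IT s = qpos lam be s) ∧
      (∀ s ∈ Icc m M, g s = Real.sqrt (1 - (qpos lam be s / IT s) ^ 2)) := by
  have hzero : ∀ s ∈ Icc m M, IT s = 0 →
      ContinuousWithinAt (fun t => qpos lam be t / IT t) (Icc m M) s := by
    intro s hs hIs
    have hs0 : 0 ≤ s := hm.trans hs.1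
    have hs1 : s ≤ 1 := hs.2.trans hM
    have hcase : s = 0 ∨ s = 1 := by
      by_contra hcon
      push Not at hcon
      have h0 : 0 < s := lt_of_le_of_ne hs0 (Ne.symm hcon.1)
      have h1 : s < 1 := lt_of_le_of_ne hs1 hcon.2
      exact (kap_IT_pos h0 h1).ne' hIs
    rcases hcase with rfl | rfl
    · have hm0 : m = 0 := le_antisymm hs.1 hm
      subst hm0
      have hbe : be ≤ 0 := by
        have h1 := hline 0 hs
        rw [hIs] at h1
        have h2 : lam * 0 + be ≤ qpos lam be 0 := le_max_left _ _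
        linarith
      exact kap_at_zero IT kap_IT_nonneg hbe hIs (fun t h0 h1 => kap_IT_low h0 h1)
    · have hM1 : M = 1 := le_antisymm hM hs.2
      subst hM1
      have hbe : lam + be ≤ 0 := by
        have h1 := hline 1 hs
        rw [hIs] at h1
        have h2 : lam * 1 + be ≤ qpos lam be 1 := le_max_left _ _
        linarith
      exact kap_at_one IT kap_IT_nonneg hbe hIs (fun t h0 h1 => kap_IT_high h0 h1)
  obtain ⟨κ, g, h1, h2, h3, h4, h5, _, h7, h8⟩ :=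
    kap_gen IT kap_IT_cont kap_IT_nonneg hmM hline hzero
  exact ⟨κ, g, h1, h2, h3, h4, h5, h7, h8⟩

theorem kappa_E {m M lam be : ℝ} (hm : 0 ≤ m) (hmM : m ≤ M) (hM : M ≤ 1)
    (hline : ∀ s ∈ Icc m M, qpos lam be s ≤ IE s) :
    ∃ κ g : ℝ → ℝ, Continuous κ ∧ (∀ s, 0 ≤ κ s) ∧ Continuous g ∧ (∀ s, 0 ≤ g s) ∧
      (∀ s, κ s ^ 2 + g s ^ 2 ≤ 1) ∧ (∀ s, κ s ≤ 1) ∧ (∀ s ∈ Icc m M, κ s * IE s = qpos lam be s) ∧
      (∀ s ∈ Icc m M, g s = Real.sqrt (1 - (qpos lam be s / IE s) ^ 2)) := by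
  have hzero : ∀ s ∈ Icc m M, IE s = 0 →
      ContinuousWithinAt (fun t => qpos lam be t / IE t) (Icc m M) s := by
    intro s hs hIs
    have hs0 : 0 ≤ s := hm.trans hs.1
    have hs00 : s = 0 := by
      by_contra hcon
      exact (kap_IE_pos (lt_of_le_of_ne hs0 (Ne.symm hcon))).ne' hIs
    subst hs00
    have hm0 : m = 0 := le_antisymm hs.1 hm
    subst hm0
    have hbe : be ≤ 0 := by
      have h1 := hline 0 hs
      rw [hIs] at h1
      have h2 : lam * 0 + be ≤ qpos lam be 0 := le_max_left _ _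
      linarith
    exact kap_at_zero IE kap_IE_nonneg hbe hIs (fun t h0 h1 => kap_IE_low h0 (by linarith))
  exact kap_gen IE kap_IE_cont kap_IE_nonneg hmM hline hzero

end Vale.Agent.Lib.P232
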