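import Vale.Agent.Lib.P232.Torus2c
import Vale.Agent.Lib.P232.Kappa
import Vale.Agent.Lib.P232.Torus3a

/-! JOB T3B: the two slicing inequalities. -/

open MeasureTheory Set Filter Topology

noncomputable section

namespace Vale.Agent.Lib.P232

variable {U : ℕ → ℝ → ℝ → ℝ → ℝ} {χ : ℝ → ℝ → ℝ → ℝ}

theorem t3b_IT_cont : Continuous IT := by
  unfold IT
  fun_prop

theorem t3b_IE_cont : Continuous IE := by
  unfold IE
  fun_prop

theorem t3b_IT_abs (s : ℝ) : |IT s| ≤ 2 := by
  have h0 : 0 ≤ IT s := by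
    unfold IT
    apply le_min (le_min _ (by norm_num)) (by positivity)
    positivity
  have h1 : IT s ≤ 2 := by
    unfold IT
    exact (min_le_left _ _).trans (min_le_right _ _)
  rw [abs_of_nonneg h0]
  exact h1

theorem t3b_IE_nonneg (s : ℝ) : 0 ≤ IE s := by
  unfold IE
  apply le_min <;> positivity

theorem t3b_IE_le (s : ℝ) : IE s ≤ 2 * Real.sqrt 2 := by
  unfold IE
  exact min_le_right _ _

theorem t3b_kappa_abs {κ g : ℝ → ℝ} (hκ0 : ∀ s, 0 ≤ κ s) (hκg : ∀ s, κ s ^ 2 + g s ^ 2 ≤ 1) (s : ℝ) :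
    κ s ≤ 1 := by
  have h1 := hκg s
  have h2 := sq_nonneg (g s)
  have h3 := hκ0 s
  nlinarith

theorem t3b_full_abs (s : ℝ) : |fullInd s| ≤ 1 := by
  unfold fullInd
  split_ifs <;> simp

theorem t3b_deltaR_nonneg (w : ℝ → ℝ → ℝ) : 0 ≤ deltaR w := by
  unfold deltaR
  apply intervalIntegral.integral_nonneg zero_le_one
  intro y _
  unfold fullInd
  split_ifs <;> simp

theorem t3b_deltaC_nonneg (w : ℝ → ℝ → ℝ) : 0 ≤ deltaC w := by
  unfold deltaC
  apply intervalIntegral.integral_nonneg zero_le_one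
  intro y _
  unfold fullInd
  split_ifs <;> simp

theorem t3b_deltaR_le (w : ℝ → ℝ → ℝ) : |deltaR w| ≤ 1 := by
  unfold deltaR
  have := intervalIntegral.norm_integral_le_of_norm_le_const (a := (0 : ℝ)) (b := 1) (C := 1)
    (f := fun y => fullInd (rowM w y)) (fun y _ => by
      simpa [Real.norm_eq_abs] using t3b_full_abs (rowM w y))
  simpa [Real.norm_eq_abs] using this

theorem t3b_deltaC_le (w : ℝ → ℝ → ℝ) : |deltaC w| ≤ 1 := by
  unfold deltaC
  have := intervalIntegral.norm_integral_le_of_norm_le_const (a := (0 : ℝ)) (b := 1) (C := 1)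
    (f := fun y => fullInd (colM w y)) (fun y _ => by
      simpa [Real.norm_eq_abs] using t3b_full_abs (colM w y))
  simpa [Real.norm_eq_abs] using this

theorem t3b_massT_abs (h : Ind3 χ) (t : ℝ) : |massT χ t| ≤ 1 := by
  have := h.massT_mem t
  rw [abs_of_nonneg this.1]
  exact this.2

/-- the mean of the line -/
theorem t3b_mean_line (h : Ind3 χ) (lam be : ℝ) :
    ∫ t in (0 : ℝ)..1, (lam * massT χ t + be) = lam * vol χ + be := by
  have hm := intervalIntegrable_of_bdd h.measurable_massT (t3b_massT_abs h)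
  rw [intervalIntegral.integral_add (hm.const_mul lam) intervalIntegrable_const,
    intervalIntegral.integral_const_mul]
  simp [vol]

/-- (SliceT). `generic3` with `c = IT ∘ massT χ` (`E1` on a.e. slice), `kappa_T`;
`κ(a) c = q₊(a) ≥ λ a + β` for a.e. `t` since `a t ∈ [m, M]`; `∫ a = vol`. -/
theorem slice_T (h : Approx3 U χ) {m M lam be P : ℝ} (hb : EssBounds (massT χ) m M) (hm : 0 ≤ m)
    (hmM : m ≤ M) (hM : M ≤ 1) (hline : ∀ s ∈ Icc m M, qpos lam be s ≤ IT s)
    (hP : ∃ᶠ k in atTop, En3 (U k) ≤ P) :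
    lam * vol χ + be + 2 * ∫ s in m..M, Real.sqrt (1 - (qpos lam be s / IT s) ^ 2) ≤ P := by
  obtain ⟨κ, g, hκ, hκ0, hg, hg0, hκg, hκI, hgI⟩ := kappa_T hm hmM hM hline
  have hma := h.ind.measurable_massT
  have hcm : Measurable (fun t => IT (massT χ t)) := t3b_IT_cont.measurable.comp hma
  have hmain := generic3 h (c := fun t => IT (massT χ t)) (κ := κ) (g := g) (C := 2) hκ hκ0 hg hg0
    hκg hcm (fun t => t3b_IT_abs _) (by
      filter_upwards [h.slices] with t ht ε hε
      exact E1 ht ε hε) hb hmM hP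
  have hgeq : ∫ s in m..M, g s = ∫ s in m..M, Real.sqrt (1 - (qpos lam be s / IT s) ^ 2) := by
    apply intervalIntegral.integral_congr
    intro s hs
    rw [uIcc_of_le hmM] at hs
    exact hgI s hs
  rw [hgeq] at hmain
  have hκle := t3b_kappa_abs hκ0 hκg
  have hi2 : IntervalIntegrable (fun t => κ (massT χ t) * IT (massT χ t)) volume 0 1 := by
    apply intervalIntegrable_of_bdd (C := 2) ((hκ.measurable.comp hma).mul hcm)
    intro t
    show |κ (massT χ t) * IT (massT χ t)| ≤ 2
    rw [abs_mul, abs_of_nonneg (hκ0 _)]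
    have h1 := hκle (massT χ t)
    have h2 := t3b_IT_abs (massT χ t)
    have h3 := abs_nonneg (IT (massT χ t))
    have h4 := hκ0 (massT χ t)
    nlinarith
  have hmean : lam * vol χ + be ≤ ∫ t in (0 : ℝ)..1, κ (massT χ t) * IT (massT χ t) := by
    rw [← t3b_mean_line h.ind]
    have hi1 : IntervalIntegrable (fun t => lam * massT χ t + be) volume 0 1 :=
      ((intervalIntegrable_of_bdd hma (t3b_massT_abs h.ind)).const_mul lam).add
        intervalIntegrable_const
    rw [intervalIntegral.integral_of_le zero_le_one, intervalIntegral.integral_of_le zero_le_one]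
    apply integral_mono_ae (hi1.1) (hi2.1)
    filter_upwards [hb.ge_m, hb.le_M] with t h1 h2
    have hmem : massT χ t ∈ Icc m M := ⟨h1, h2⟩
    show lam * massT χ t + be ≤ κ (massT χ t) * IT (massT χ t)
    rw [hκI _ hmem]
    exact le_max_left _ _
  linarith

/-- (SliceD'). `generic3` with `c t = IE (massT χ t) - 2 (deltaR + deltaC)` (`E2` on a.e. slice), `kappa_E`,
`κ ≤ 1`. -/
theorem slice_E (h : Approx3 U χ) {m M lam be P : ℝ} (hb : EssBounds (massT χ) m M) (hm : 0 ≤ m)
    (hmM : m ≤ M) (hM : M ≤ 1) (hline : ∀ s ∈ Icc m M, qpos lam be s ≤ IE s)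
    (hP : ∃ᶠ k in atTop, En3 (U k) ≤ P) :
    lam * vol χ + be + 2 * (∫ s in m..M, Real.sqrt (1 - (qpos lam be s / IE s) ^ 2)) -
      2 * (fx χ + fy χ) ≤ P := by
  obtain ⟨κ, g, hκ, hκ0, hg, hg0, hκg, hκ1, hκI, hgI⟩ := kappa_E hm hmM hM hline
  have hma := h.ind.measurable_massT
  have hR := h.ind.measurable_deltaR
  have hC := h.ind.measurable_deltaC
  have hIE : Measurable (fun t => IE (massT χ t)) := t3b_IE_cont.measurable.comp hma
  have hcm : Measurable (fun t => IE (massT χ t) - 2 * (deltaR (slc χ t) + deltaC (slc χ t))) :=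
    hIE.sub (measurable_const.mul (hR.add hC))
  have hs2 : Real.sqrt 2 ≤ 2 := by
    rw [Real.sqrt_le_left (by norm_num)]
    norm_num
  have hcb : ∀ t, |IE (massT χ t) - 2 * (deltaR (slc χ t) + deltaC (slc χ t))| ≤ 8 := by
    intro t
    have h1 := t3b_IE_nonneg (massT χ t)
    have h2 := t3b_IE_le (massT χ t)
    have h3 := abs_le.1 (t3b_deltaR_le (slc χ t))
    have h4 := abs_le.1 (t3b_deltaC_le (slc χ t))
    rw [abs_le]
    constructor <;> linarith [h3.1, h3.2, h4.1, h4.2]
  have hmain := generic3 h (c := fun t => IE (massT χ t) - 2 * (deltaR (slc χ t) + deltaC (slc χ t)))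
    (κ := κ) (g := g) (C := 8) hκ hκ0 hg hg0 hκg hcm hcb (by
      filter_upwards [h.slices] with t ht ε hε
      exact E2 ht ε hε) hb hmM hP
  have hgeq : ∫ s in m..M, g s = ∫ s in m..M, Real.sqrt (1 - (qpos lam be s / IE s) ^ 2) := by
    apply intervalIntegral.integral_congr
    intro s hs
    rw [uIcc_of_le hmM] at hs
    exact hgI s hs
  rw [hgeq] at hmain
  have hdR := intervalIntegrable_of_bdd hR (fun t => t3b_deltaR_le (slc χ t))
  have hdC := intervalIntegrable_of_bdd hC (fun t => t3b_deltaC_le (slc χ t))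
  have hfsum : ∫ t in (0 : ℝ)..1, (2 * (deltaR (slc χ t) + deltaC (slc χ t))) =
      2 * (fx χ + fy χ) := by
    rw [intervalIntegral.integral_const_mul, intervalIntegral.integral_add hdR hdC, fx_eq, fy_eq]
  have hi2 : IntervalIntegrable (fun t => κ (massT χ t) *
      (IE (massT χ t) - 2 * (deltaR (slc χ t) + deltaC (slc χ t)))) volume 0 1 := by
    apply intervalIntegrable_of_bdd (C := 8) ((hκ.measurable.comp hma).mul hcm)
    intro t
    show |κ (massT χ t) * (IE (massT χ t) - 2 * (deltaR (slc χ t) + deltaC (slc χ t)))| ≤ 8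
    rw [abs_mul, abs_of_nonneg (hκ0 _)]
    have h1 := hκ1 (massT χ t)
    have h2 := hcb t
    have h3 := abs_nonneg (IE (massT χ t) - 2 * (deltaR (slc χ t) + deltaC (slc χ t)))
    have h4 := hκ0 (massT χ t)
    nlinarith
  have hmean : lam * vol χ + be - 2 * (fx χ + fy χ) ≤ ∫ t in (0 : ℝ)..1,
      κ (massT χ t) * (IE (massT χ t) - 2 * (deltaR (slc χ t) + deltaC (slc χ t))) := by
    have hi1 : IntervalIntegrable (fun t => lam * massT χ t + be) volume 0 1 :=
      ((intervalIntegrable_of_bdd hma (t3b_massT_abs h.ind)).const_mul lam).add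
        intervalIntegrable_const
    have hi3 : IntervalIntegrable (fun t => 2 * (deltaR (slc χ t) + deltaC (slc χ t))) volume 0 1 :=
      (hdR.add hdC).const_mul 2
    rw [← t3b_mean_line h.ind, ← hfsum, ← intervalIntegral.integral_sub hi1 hi3]
    rw [intervalIntegral.integral_of_le zero_le_one, intervalIntegral.integral_of_le zero_le_one]
    apply integral_mono_ae ((hi1.sub hi3).1) (hi2.1)
    filter_upwards [hb.ge_m, hb.le_M] with t h1 h2
    have hmem : massT χ t ∈ Icc m M := ⟨h1, h2⟩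
    show lam * massT χ t + be - 2 * (deltaR (slc χ t) + deltaC (slc χ t)) ≤
      κ (massT χ t) * (IE (massT χ t) - 2 * (deltaR (slc χ t) + deltaC (slc χ t)))
    have h3 : lam * massT χ t + be ≤ κ (massT χ t) * IE (massT χ t) := by
      rw [hκI _ hmem]
      exact le_max_left _ _
    have h4 := t3b_deltaR_nonneg (slc χ t)
    have h5 := t3b_deltaC_nonneg (slc χ t)
    have h6 := hκ1 (massT χ t)
    have h7 := hκ0 (massT χ t)
    nlinarith [mul_nonneg (sub_nonneg.2 h6) (add_nonneg h4 h5)]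
  linarith

end Vale.Agent.Lib.P232
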