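import Vale.Agent.Lib.P232.Mollify3

/-! JOB COMPLEMENT: the perimeter, the periodicity and the volume of the complement. -/

open MeasureTheory Set
open scoped ENNReal

noncomputable section

namespace Vale.Agent.Lib.P232

variable {E : Set R3}

/-- The test field with all the signs changed. -/
def TestField.neg (φ : TestField) : TestField where
  f₁ := fun p => -φ.f₁ p
  f₂ := fun p => -φ.f₂ p
  f₃ := fun p => -φ.f₃ p
  c₁ := φ.c₁.neg
  c₂ := φ.c₂.neg
  c₃ := φ.c₃.neg
  p₁ := ⟨fun x y t => by rw [φ.p₁.per_x], fun x y t => by rw [φ.p₁.per_y],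
    fun x y t => by rw [φ.p₁.per_t]⟩
  p₂ := ⟨fun x y t => by rw [φ.p₂.per_x], fun x y t => by rw [φ.p₂.per_y],
    fun x y t => by rw [φ.p₂.per_t]⟩
  p₃ := ⟨fun x y t => by rw [φ.p₃.per_x], fun x y t => by rw [φ.p₃.per_y],
    fun x y t => by rw [φ.p₃.per_t]⟩
  norm_le := fun p => by
    have := φ.norm_le p
    nlinarith

theorem TestField.neg_div (φ : TestField) (p : R3) : φ.neg.div p = -φ.div p := by
  simp only [TestField.div, TestField.neg]
  rw [deriv.fun_neg, deriv.fun_neg, deriv.fun_neg]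
  ring

theorem TestField.neg_neg (φ : TestField) : φ.neg.neg = φ := by
  cases φ
  simp [TestField.neg]

/-- The divergence of a periodic field has mean zero on the cube. -/
theorem integral_div_Q3 (φ : TestField) : ∫ p in Q3, φ.div p = 0 := by
  have hone : ContDiff ℝ 1 (fun _ : R3 => (1 : ℝ)) := contDiff_const
  have hper1 : IsZ3PeriodicFun (fun _ : R3 => (1 : ℝ)) :=
    ⟨fun _ _ _ => rfl, fun _ _ _ => rfl, fun _ _ _ => rfl⟩
  have h1 := periodic_ibp_x φ.c₁ hone φ.p₁ hper1
  have h2 := periodic_ibp_y φ.c₂ hone φ.p₂ hper1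
  have h3 := periodic_ibp_t φ.c₃ hone φ.p₃ hper1
  simp only [mul_one, deriv_const, mul_zero, integral_zero, neg_zero] at h1 h2 h3
  have hcont : ∀ {f : R3 → ℝ}, Continuous f → IntegrableOn f Q3 := fun {f} hf => by
    have hQ : Q3 ⊆ (Icc (0 : ℝ) 1 ×ˢ (Icc (0 : ℝ) 1 ×ˢ Icc (0 : ℝ) 1)) :=
      prod_mono Ico_subset_Icc_self (prod_mono Ico_subset_Icc_self Ico_subset_Icc_self)
    exact (hf.continuousOn.integrableOn_compact
      (isCompact_Icc.prod (isCompact_Icc.prod isCompact_Icc))).mono_set hQ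
  have c1 : Continuous fun p : R3 => deriv (fun s => φ.f₁ (s, p.2.1, p.2.2)) p.1 := by
    simp only [m3_dx φ.c₁]
    exact (φ.c₁.continuous_fderiv one_ne_zero).clm_apply continuous_const
  have c2 : Continuous fun p : R3 => deriv (fun s => φ.f₂ (p.1, s, p.2.2)) p.2.1 := by
    simp only [m3_dy φ.c₂]
    exact (φ.c₂.continuous_fderiv one_ne_zero).clm_apply continuous_const
  have c3 : Continuous fun p : R3 => deriv (fun s => φ.f₃ (p.1, p.2.1, s)) p.2.2 := by
    simp only [m3_dt φ.c₃]
    exact (φ.c₃.continuous_fderiv one_ne_zero).clm_apply continuous_const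
  have e : ∫ p in Q3, φ.div p = (∫ p in Q3, deriv (fun s => φ.f₁ (s, p.2.1, p.2.2)) p.1) +
      (∫ p in Q3, deriv (fun s => φ.f₂ (p.1, s, p.2.2)) p.2.1) +
      ∫ p in Q3, deriv (fun s => φ.f₃ (p.1, p.2.1, s)) p.2.2 := by
    unfold TestField.div
    have a1 := integral_add (μ := volume.restrict Q3) (hcont c1) (hcont c2)
    have a2 := integral_add (μ := volume.restrict Q3) ((hcont c1).add (hcont c2)) (hcont c3)
    simp only [Pi.add_apply] at a2
    rw [a2, a1]
  rw [e, h1, h2, h3]
  simp

private theorem compl_measurableSet_Q3 : MeasurableSet Q3 :=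
  measurableSet_Ico.prod (measurableSet_Ico.prod measurableSet_Ico)

/-- The volume of the unit cube. -/
theorem volume_Q3 : volume Q3 = 1 := by
  have : Q3 = Ico (0 : ℝ) 1 ×ˢ (Ico (0 : ℝ) 1 ×ˢ Ico (0 : ℝ) 1) := rfl
  rw [this, Measure.volume_eq_prod, Measure.prod_prod, Measure.volume_eq_prod, Measure.prod_prod]
  simp

/-- The complement of a periodic set is periodic. -/
theorem isZ3Periodic_compl (hper : IsZ3Periodic E) : IsZ3Periodic Eᶜ where
  per_x x y t := not_congr (hper.per_x x y t)
  per_y x y t := not_congr (hper.per_y x y t)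
  per_t x y t := not_congr (hper.per_t x y t)

/-- The complement of a measurable set is measurable. -/
theorem measurableSet_compl_P232 (hE : MeasurableSet E) : MeasurableSet Eᶜ := hE.compl

private theorem compl_split (hE : MeasurableSet E) (φ : TestField) :
    ∫ p in Eᶜ ∩ Q3, φ.div p = -∫ p in E ∩ Q3, φ.div p := by
  have hQ : Q3 ⊆ (Icc (0 : ℝ) 1 ×ˢ (Icc (0 : ℝ) 1 ×ˢ Icc (0 : ℝ) 1)) :=
    prod_mono Ico_subset_Icc_self (prod_mono Ico_subset_Icc_self Ico_subset_Icc_self)
  have hint : IntegrableOn φ.div Q3 :=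
    ((m3_div_cont φ).continuousOn.integrableOn_compact
      (isCompact_Icc.prod (isCompact_Icc.prod isCompact_Icc))).mono_set hQ
  have hdisj : Disjoint (E ∩ Q3) (Eᶜ ∩ Q3) :=
    disjoint_compl_right.mono inter_subset_left inter_subset_left
  have hun : (E ∩ Q3) ∪ (Eᶜ ∩ Q3) = Q3 := by
    rw [← union_inter_distrib_right, union_compl_self, univ_inter]
  have h := setIntegral_union hdisj (hE.compl.inter compl_measurableSet_Q3)
    (hint.mono_set (inter_subset_right)) (hint.mono_set (inter_subset_right))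
  rw [hun, integral_div_Q3] at h
  linarith

/-- The volume of the complement in the cube. -/
theorem vol_compl (hE : MeasurableSet E) :
    (volume (Eᶜ ∩ Q3)).toReal = 1 - (volume (E ∩ Q3)).toReal := by
  have hdisj : Disjoint (E ∩ Q3) (Eᶜ ∩ Q3) :=
    disjoint_compl_right.mono inter_subset_left inter_subset_left
  have hun : (E ∩ Q3) ∪ (Eᶜ ∩ Q3) = Q3 := by
    rw [← union_inter_distrib_right, union_compl_self, univ_inter]
  have h := measure_union hdisj (μ := volume) (hE.compl.inter compl_measurableSet_Q3)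
  rw [hun, volume_Q3] at h
  have h1 : volume (E ∩ Q3) ≠ ⊤ := ne_top_of_le_ne_top (by simp)
    (measure_mono inter_subset_right |>.trans_eq volume_Q3)
  have h2 : volume (Eᶜ ∩ Q3) ≠ ⊤ := ne_top_of_le_ne_top (by simp)
    (measure_mono inter_subset_right |>.trans_eq volume_Q3)
  have h3 := congrArg ENNReal.toReal h
  rw [ENNReal.toReal_add h1 h2] at h3
  simp only [ENNReal.toReal_one] at h3
  linarith

/-- The perimeter does not change under complement. -/
theorem perim_compl (hE : MeasurableSet E) (_hper : IsZ3Periodic E) : Perim Eᶜ = Perim E := by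
  have key : ∀ φ : TestField, ∫ p in Eᶜ ∩ Q3, φ.div p = ∫ p in E ∩ Q3, φ.neg.div p := by
    intro φ
    rw [compl_split hE φ, ← integral_neg]
    exact setIntegral_congr_fun (hE.inter compl_measurableSet_Q3)
      (fun p _ => (TestField.neg_div φ p).symm)
  refine le_antisymm (iSup_le fun φ => ?_) (iSup_le fun φ => ?_)
  · rw [key φ]
    exact le_iSup (fun φ : TestField => ENNReal.ofReal (∫ p in E ∩ Q3, φ.div p)) φ.neg
  · have := key φ.neg
    rw [TestField.neg_neg] at this
    rw [← this]
    exact le_iSup (fun φ : TestField => ENNReal.ofReal (∫ p in Eᶜ ∩ Q3, φ.div p)) φ.neg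

end Vale.Agent.Lib.P232
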