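import Vale.Agent.Lib.P232.MainAll
import Vale.Agent.Lib.P232.Compl

/-! The full inequality: every volume. -/

open MeasureTheory Set Filter Topology
open scoped ENNReal

noncomputable section

namespace Vale.Agent.Lib.P232

variable {E : Set R3}

/-- All volumes, by complements. -/
theorem main_final (hE : MeasurableSet E) (hper : IsZ3Periodic E) (hV : 0 < (volume (E ∩ Q3)).toReal)
    (hV1 : (volume (E ∩ Q3)).toReal < 1) :
    ENNReal.ofReal (Jf (min (volume (E ∩ Q3)).toReal (1 - (volume (E ∩ Q3)).toReal))) ≤ Perim E := by
  rcases le_total (volume (E ∩ Q3)).toReal (1 / 2) with h | h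
  · have e : min (volume (E ∩ Q3)).toReal (1 - (volume (E ∩ Q3)).toReal) = (volume (E ∩ Q3)).toReal :=
      min_eq_left (by linarith)
    rw [e]
    exact main_half hE hper hV h
  · have e : min (volume (E ∩ Q3)).toReal (1 - (volume (E ∩ Q3)).toReal) =
        1 - (volume (E ∩ Q3)).toReal := min_eq_right (by linarith)
    rw [e]
    have hc := vol_compl (E := E) hE
    have := main_half (E := Eᶜ) (measurableSet_compl_P232 hE) (isZ3Periodic_compl hper)
      (by rw [hc]; linarith) (by rw [hc]; linarith)
    rwa [hc, perim_compl hE hper] at this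

end Vale.Agent.Lib.P232
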