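import Vale.Agent.Lib.P232.Steiner1

/-! JOB STEINER2: three symmetrizations give a coordinate-monotone set. Use the cyclic permutation
`permSet E = {(x,y,t) | (y,t,x) ∈ E}` (so `ind (permSet E) = perm (ind E)`): symmetrize `E`, `permSet E`
etc. `Perim (permSet E) = Perim E`: test field with permuted components, change of variables on `Q3`.
If `ind E` is monotone in `y` or `t` then so is `ind (stX E)` because the mass of the `x`-line is
monotone; `ind (stX E)` is always monotone in `x`. -/

open MeasureTheory Set Filter Topology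
open scoped ENNReal

noncomputable section

namespace Vale.Agent.Lib.P232

/-- The cycle of the coordinates on sets. -/
def permSet (E : Set R3) : Set R3 := {p | (p.2.1, p.2.2, p.1) ∈ E}

theorem permSet_ind (E : Set R3) : perm (ind E) = ind (permSet E) := by
  funext x y t
  have hiff : ((x, y, t) : R3) ∈ permSet E ↔ ((y, t, x) : R3) ∈ E := Iff.rfl
  by_cases h : ((y, t, x) : R3) ∈ E
  · simp only [perm, ind, indicator_of_mem h, indicator_of_mem (hiff.2 h)]
  · simp only [perm, ind, indicator_of_notMem h, indicator_of_notMem (fun h' => h (hiff.1 h'))]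

/-- The coordinate cycle on `R3`. -/
def s2tau (p : R3) : R3 := (p.2.1, p.2.2, p.1)

theorem s2tau_mp : MeasurePreserving s2tau (volume : Measure R3) (volume : Measure R3) := by
  have h1 : MeasurePreserving (Prod.swap : R3 → (ℝ × ℝ) × ℝ) (volume : Measure R3)
      (volume : Measure ((ℝ × ℝ) × ℝ)) := Measure.measurePreserving_swap
  have h2 : MeasurePreserving (MeasurableEquiv.prodAssoc : (ℝ × ℝ) × ℝ ≃ᵐ ℝ × ℝ × ℝ)
      (volume : Measure ((ℝ × ℝ) × ℝ)) (volume : Measure R3) :=
    measurePreserving_prodAssoc volume volume volume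
  exact h2.comp h1

theorem s2tau_emb : MeasurableEmbedding s2tau := by
  have h : s2tau = (MeasurableEquiv.prodComm.trans MeasurableEquiv.prodAssoc : R3 ≃ᵐ R3) := by
    funext p
    rfl
  rw [h]
  exact MeasurableEquiv.measurableEmbedding _

theorem permSet_measurable {E : Set R3} (hE : MeasurableSet E) : MeasurableSet (permSet E) :=
  s2tau_emb.measurable hE

theorem permSet_periodic {E : Set R3} (hper : IsZ3Periodic E) : IsZ3Periodic (permSet E) where
  per_x x y t := by simpa [permSet] using hper.per_t y t x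
  per_y x y t := by simpa [permSet] using hper.per_x y t x
  per_t x y t := by simpa [permSet] using hper.per_y y t x

/-- The test field with permuted components. -/
def s2field (φ : TestField) : TestField where
  f₁ := fun p => φ.f₂ (p.2.2, p.1, p.2.1)
  f₂ := fun p => φ.f₃ (p.2.2, p.1, p.2.1)
  f₃ := fun p => φ.f₁ (p.2.2, p.1, p.2.1)
  c₁ := φ.c₂.comp (by fun_prop)
  c₂ := φ.c₃.comp (by fun_prop)
  c₃ := φ.c₁.comp (by fun_prop)
  p₁ := ⟨fun x y t => φ.p₂.per_y t x y, fun x y t => φ.p₂.per_t t x y, fun x y t => φ.p₂.per_x t x y⟩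
  p₂ := ⟨fun x y t => φ.p₃.per_y t x y, fun x y t => φ.p₃.per_t t x y, fun x y t => φ.p₃.per_x t x y⟩
  p₃ := ⟨fun x y t => φ.p₁.per_y t x y, fun x y t => φ.p₁.per_t t x y, fun x y t => φ.p₁.per_x t x y⟩
  norm_le := fun p => by
    have := φ.norm_le (p.2.2, p.1, p.2.1)
    linarith

theorem s2field_div (φ : TestField) (p : R3) : (s2field φ).div (s2tau p) = φ.div p := by
  simp only [TestField.div, s2field, s2tau]
  ring

theorem s2tau_preimage_Q3 : s2tau ⁻¹' Q3 = Q3 := by
  ext p
  simp only [Q3, s2tau, mem_preimage, mem_prod]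
  tauto

/-- The perimeter is invariant under the cycle of the coordinates. -/
theorem perim_permSet {E : Set R3} (hE : MeasurableSet E) : Perim (permSet E) ≤ Perim E := by
  refine iSup_le fun φ => ?_
  have h1 : ∫ p in permSet E ∩ Q3, φ.div p = ∫ p in E ∩ Q3, (s2field φ).div p := by
    have hpre : s2tau ⁻¹' (E ∩ Q3) = permSet E ∩ Q3 := by
      rw [preimage_inter, s2tau_preimage_Q3]
      rfl
    have := s2tau_mp.setIntegral_preimage_emb s2tau_emb (s2field φ).div (E ∩ Q3)
    rw [hpre] at this
    rw [← this]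
    have hQ : MeasurableSet Q3 := measurableSet_Ico.prod (measurableSet_Ico.prod measurableSet_Ico)
    exact setIntegral_congr_fun ((permSet_measurable hE).inter hQ)
      (fun p _ => (s2field_div φ p).symm)
  rw [h1]
  exact le_iSup (fun φ : TestField => ENNReal.ofReal (∫ p in E ∩ Q3, φ.div p)) (s2field φ)

/-- Monotonicity in the tent coordinate of the first slot. -/
def MonoX (E : Set R3) : Prop := ∀ x x' y t, uu x' ≤ uu x → (x, y, t) ∈ E → (x', y, t) ∈ E
/-- Monotonicity in the tent coordinate of the second slot. -/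
def MonoY (E : Set R3) : Prop := ∀ x y y' t, uu y' ≤ uu y → (x, y, t) ∈ E → (x, y', t) ∈ E
/-- Monotonicity in the tent coordinate of the third slot. -/
def MonoT (E : Set R3) : Prop := ∀ x y t t', uu t' ≤ uu t → (x, y, t) ∈ E → (x, y, t') ∈ E

theorem monoX_stX (E : Set R3) : MonoX (stX E) := by
  intro x x' y t h hm
  exact lt_of_le_of_lt h hm

theorem ind_mem_ind (E : Set R3) (s y t : ℝ) : 0 ≤ ind E s y t ∧ ind E s y t ≤ 1 := by
  unfold ind
  by_cases h : (s, y, t) ∈ E
  · simp [indicator_of_mem h]
  · simp [indicator_of_notMem h]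

theorem ind_meas_line {E : Set R3} (hE : MeasurableSet E) (y t : ℝ) :
    Measurable (fun s => ind E s y t) := by
  have h1 : Measurable (E.indicator (fun _ => (1 : ℝ))) := measurable_const.indicator hE
  have h2 : Measurable (fun s : ℝ => ((s, y, t) : R3)) := by fun_prop
  exact h1.comp h2

theorem ind_ii {E : Set R3} (hE : MeasurableSet E) (y t : ℝ) :
    IntervalIntegrable (fun s => ind E s y t) volume 0 1 := by
  refine intervalIntegrable_of_bdd (C := 1) (ind_meas_line hE y t) (fun s => ?_)
  have := ind_mem_ind E s y t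
  rw [abs_of_nonneg this.1]
  exact this.2

theorem cX_mono_y {E : Set R3} (hE : MeasurableSet E) (hm : MonoY E) {y y' t : ℝ}
    (h : uu y' ≤ uu y) : (∫ s in (0 : ℝ)..1, ind E s y t) ≤ ∫ s in (0 : ℝ)..1, ind E s y' t := by
  refine intervalIntegral.integral_mono_on zero_le_one (ind_ii hE y t) (ind_ii hE y' t) ?_
  intro s _
  by_cases hs : (s, y, t) ∈ E
  · have hs' := hm s y y' t h hs
    simp [ind, indicator_of_mem hs, indicator_of_mem hs']
  · have := (ind_mem_ind E s y' t).1
    simpa [ind, indicator_of_notMem hs] using this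

theorem cX_mono_t {E : Set R3} (hE : MeasurableSet E) (hm : MonoT E) {y t t' : ℝ}
    (h : uu t' ≤ uu t) : (∫ s in (0 : ℝ)..1, ind E s y t) ≤ ∫ s in (0 : ℝ)..1, ind E s y t' := by
  refine intervalIntegral.integral_mono_on zero_le_one (ind_ii hE y t) (ind_ii hE y t') ?_
  intro s _
  by_cases hs : (s, y, t) ∈ E
  · have hs' := hm s y t t' h hs
    simp [ind, indicator_of_mem hs, indicator_of_mem hs']
  · have := (ind_mem_ind E s y t').1
    simpa [ind, indicator_of_notMem hs] using this

theorem monoY_stX {E : Set R3} (hE : MeasurableSet E) (hm : MonoY E) : MonoY (stX E) := by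
  intro x y y' t h hx
  exact lt_of_lt_of_le hx (cX_mono_y hE hm h)

theorem monoT_stX {E : Set R3} (hE : MeasurableSet E) (hm : MonoT E) : MonoT (stX E) := by
  intro x y t t' h hx
  exact lt_of_lt_of_le hx (cX_mono_t hE hm h)

theorem monoY_permSet {E : Set R3} (hm : MonoX E) : MonoY (permSet E) := by
  intro x y y' t h hx
  exact hm y y' t x h hx

theorem monoT_permSet {E : Set R3} (hm : MonoY E) : MonoT (permSet E) := by
  intro x y t t' h hx
  exact hm y t t' x h hx

theorem s2_ind_eq_one {E : Set R3} {x y t : ℝ} : ind E x y t = 1 ↔ (x, y, t) ∈ E := by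
  unfold ind
  by_cases h : (x, y, t) ∈ E
  · simp [h]
  · simp [h]

/-- The reduction. -/
theorem exists_mono {E : Set R3} (hE : MeasurableSet E) (hper : IsZ3Periodic E) :
    ∃ E' : Set R3, MeasurableSet E' ∧ IsZ3Periodic E' ∧ Mono3 (ind E') ∧ vol (ind E') = vol (ind E) ∧
      Perim E' ≤ Perim E := by
  set F : Set R3 → Set R3 := fun A => stX (permSet A) with hF
  have hFm : ∀ {A}, MeasurableSet A → IsZ3Periodic A → MeasurableSet (F A) := fun h h' =>
    measurableSet_stX (permSet_measurable h) (permSet_periodic h')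
  have hFp : ∀ {A}, MeasurableSet A → IsZ3Periodic A → IsZ3Periodic (F A) := fun h h' =>
    periodic_stX (permSet_measurable h) (permSet_periodic h')
  have hFv : ∀ {A}, MeasurableSet A → IsZ3Periodic A → vol (ind (F A)) = vol (ind A) := fun h h' => by
    rw [vol_stX (permSet_measurable h) (permSet_periodic h'), ← permSet_ind]
    exact vol_perm (ind3_ind h h')
  have hFP : ∀ {A}, MeasurableSet A → IsZ3Periodic A → Perim (F A) ≤ Perim A := fun h h' =>
    (perim_stX (permSet_measurable h) (permSet_periodic h')).trans (perim_permSet h)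
  have hm1 := hFm hE hper
  have hp1 := hFp hE hper
  have hm2 := hFm hm1 hp1
  have hp2 := hFp hm1 hp1
  have hm3 := hFm hm2 hp2
  have hp3 := hFp hm2 hp2
  have hX : MonoX (F (F (F E))) := monoX_stX _
  have hY : MonoY (F (F (F E))) :=
    monoY_stX (permSet_measurable hm2) (monoY_permSet (monoX_stX _))
  have hT : MonoT (F (F (F E))) :=
    monoT_stX (permSet_measurable hm2) (monoT_permSet
      (monoY_stX (permSet_measurable hm1) (monoY_permSet (monoX_stX _))))
  refine ⟨F (F (F E)), hm3, hp3, ⟨ind3_ind hm3 hp3, ?_⟩, ?_, ?_⟩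
  · intro x y t x' y' t' hx hy ht h
    rw [s2_ind_eq_one] at h ⊢
    exact hT x' y' t t' ht (hY x' y y' t hy (hX x x' y t hx h))
  · rw [hFv hm2 hp2, hFv hm1 hp1, hFv hE hper]
  · exact (hFP hm2 hp2).trans ((hFP hm1 hp1).trans (hFP hE hper))

end Vale.Agent.Lib.P232
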