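import Mathlib

/-!
# P232: the three profile functions and the one-dimensional inequality (statement)

`IT` is the isoperimetric profile of the flat unit two-torus, `IE` the refined disc profile
(perimeter of a slice plus twice its full lines is at least `IE`), `JJ` the conjectured profile
of the three-torus in the ball and tube range.
-/

namespace Vale.Agent.Lib.P232

open Real MeasureTheory Set

/-- Two-torus profile `min(2√(πs), 2, 2√(π(1-s)))`. -/
noncomputable def IT (s : ℝ) : ℝ := min (min (2 * √(π * s)) 2) (2 * √(π * (1 - s)))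

/-- Refined disc profile `min(2√(πs), 2√2)`. -/
noncomputable def IE (s : ℝ) : ℝ := min (2 * √(π * s)) (2 * √2)

/-- Ball and tube competitors `min((36π)^{1/3} V^{2/3}, 2√(πV))`. -/
noncomputable def JJ (V : ℝ) : ℝ := min ((36 * π) ^ ((1 : ℝ) / 3) * V ^ ((2 : ℝ) / 3)) (2 * √(π * V))

/-- The value of the line `q(s) = l s + b` for the profile `I` on the level range `[m, M]`:
`l V + b + 2 ∫_m^M √(1 - (q₊/I)²)`. -/
noncomputable def lineValue (I : ℝ → ℝ) (l b V m M : ℝ) : ℝ :=
  l * V + b + 2 * ∫ s in m..M, √(1 - (max (l * s + b) 0 / I s) ^ 2)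

/-- A line is admissible for the profile `I` on `[m, M]` if `q₊ ≤ I` there. -/
def LineAdm (I : ℝ → ℝ) (l b m M : ℝ) : Prop :=
  ∀ s ∈ Icc m M, max (l * s + b) 0 ≤ I s

/-- The one-dimensional inequality (Step 5). -/
def Final1DStatement (V2 : ℝ) : Prop :=
  ∀ V m M : ℝ, 0 < V → V ≤ V2 → 0 ≤ m → m ≤ V → V ≤ M → M ≤ 1 →
    (∃ l b, LineAdm IT l b m M ∧ JJ V ≤ lineValue IT l b V m M) ∨
    (∃ l b, LineAdm IE l b m M ∧ JJ V + 4 * m ≤ lineValue IE l b V m M)

end Vale.Agent.Lib.P232
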