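import Vale.Agent.Lib.P232.Mollify2

/-! JOB M3: the duality step. -/

open MeasureTheory Set Filter Topology
open scoped ENNReal

noncomputable section

namespace Vale.Agent.Lib.P232

variable {E : Set R3}

/-! ### Translation invariance of integrals of periodic functions over the cube -/

/-- One-dimensional translation invariance. -/
lemma m3_trans1 {g : ℝ → ℝ} (hg : ∀ x, g (x + 1) = g x) (c : ℝ) :
    ∫ x in Ico (0 : ℝ) 1, g (x - c) = ∫ x in Ico (0 : ℝ) 1, g x := by
  have hper : Function.Periodic g 1 := hg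
  have h1 : ∫ x in (0 : ℝ)..1, g (x - c) = ∫ x in (0 : ℝ)..1, g x := by
    rw [intervalIntegral.integral_comp_sub_right (fun x => g x) c]
    have := hper.intervalIntegral_add_eq (0 - c) 0
    rw [zero_add] at this
    have e : (1 : ℝ) - c = 0 - c + 1 := by ring
    rw [e]
    exact this
  rw [intervalIntegral.integral_of_le zero_le_one, intervalIntegral.integral_of_le zero_le_one,
    integral_Ioc_eq_integral_Ioo, integral_Ioc_eq_integral_Ioo] at h1
  rw [integral_Ico_eq_integral_Ioo, integral_Ico_eq_integral_Ioo]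
  exact h1

lemma m3_Q3_volume : volume Q3 ≠ ∞ := by
  have : volume Q3 = 1 := by
    unfold Q3
    rw [Measure.volume_eq_prod, Measure.prod_prod, Measure.volume_eq_prod, Measure.prod_prod]
    simp
  rw [this]
  simp

/-- Fubini on the cube for bounded measurable functions. -/
lemma m3_iter {G : R3 → ℝ} (hG : Measurable G) {C : ℝ} (hC : ∀ p, |G p| ≤ C) :
    ∫ p in Q3, G p = ∫ x in Ico (0 : ℝ) 1, ∫ y in Ico (0 : ℝ) 1, ∫ t in Ico (0 : ℝ) 1, G (x, y, t) := by
  have hI : IntegrableOn G Q3 volume := by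
    apply Measure.integrableOn_of_bounded (M := C) m3_Q3_volume hG.aestronglyMeasurable
    filter_upwards with p
    simpa using hC p
  unfold Q3 at hI ⊢
  rw [Measure.volume_eq_prod] at hI ⊢
  rw [setIntegral_prod _ hI]
  apply setIntegral_congr_fun measurableSet_Ico
  intro x hx
  have hI' : IntegrableOn (fun q : ℝ × ℝ => G (x, q)) (Ico 0 1 ×ˢ Ico 0 1) (volume.prod volume) := by
    apply Measure.integrableOn_of_bounded (M := C)
    · rw [Measure.prod_prod]; simp
    · exact (hG.comp measurable_prodMk_left).aestronglyMeasurable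
    · filter_upwards with p
      simpa using hC _
  show ∫ q in Ico 0 1 ×ˢ Ico 0 1, G (x, q) ∂(volume.prod volume) = _
  rw [setIntegral_prod _ hI']

/-- Translation invariance on the cube. -/
lemma m3_translate {F : R3 → ℝ} (hF : Measurable F) {C : ℝ} (hC : ∀ p, |F p| ≤ C)
    (pF : IsZ3PeriodicFun F) (z : R3) :
    ∫ p in Q3, F (p - z) = ∫ p in Q3, F p := by
  have hm : Measurable fun p : R3 => F (p - z) := hF.comp (measurable_id.sub_const z)
  rw [m3_iter hm (fun p => hC _), m3_iter hF hC]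
  -- innermost
  have h3 : ∀ a b : ℝ, ∫ t in Ico (0 : ℝ) 1, F (a, b, t - z.2.2) = ∫ t in Ico (0 : ℝ) 1, F (a, b, t) :=
    fun a b => m3_trans1 (g := fun t => F (a, b, t)) (fun t => pF.per_t a b t) z.2.2
  set Φ : ℝ → ℝ → ℝ := fun a b => ∫ t in Ico (0 : ℝ) 1, F (a, b, t) with hΦ
  have h2 : ∀ a : ℝ, ∫ y in Ico (0 : ℝ) 1, Φ a (y - z.2.1) = ∫ y in Ico (0 : ℝ) 1, Φ a y := by
    intro a
    apply m3_trans1 (g := fun y => Φ a y)
    intro y
    simp only [hΦ]
    simp_rw [pF.per_y]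
  set Ψ : ℝ → ℝ := fun a => ∫ y in Ico (0 : ℝ) 1, Φ a y with hΨ
  have h1 : ∫ x in Ico (0 : ℝ) 1, Ψ (x - z.1) = ∫ x in Ico (0 : ℝ) 1, Ψ x := by
    apply m3_trans1 (g := Ψ)
    intro x
    simp only [hΨ, hΦ]
    simp_rw [pF.per_x]
  have step : ∀ x y : ℝ, ∫ t in Ico (0 : ℝ) 1, F (((x, y, t) : R3) - z) = Φ (x - z.1) (y - z.2.1) :=
    fun x y => h3 (x - z.1) (y - z.2.1)
  have step2 : ∀ x : ℝ, ∫ y in Ico (0 : ℝ) 1, ∫ t in Ico (0 : ℝ) 1, F (((x, y, t) : R3) - z) =
      Ψ (x - z.1) := by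
    intro x
    exact (integral_congr_ae (ae_of_all _ fun y => step x y)).trans (h2 (x - z.1))
  calc ∫ x in Ico (0 : ℝ) 1, ∫ y in Ico (0 : ℝ) 1, ∫ t in Ico (0 : ℝ) 1, F (((x, y, t) : R3) - z)
      = ∫ x in Ico (0 : ℝ) 1, Ψ (x - z.1) := integral_congr_ae (ae_of_all _ step2)
    _ = ∫ x in Ico (0 : ℝ) 1, Ψ x := h1


/-! ### The test integral -/

/-- The indicator as a real function. -/
def m3I (E : Set R3) (p : R3) : ℝ := E.indicator (fun _ => (1 : ℝ)) p

lemma m3I_meas (hE : MeasurableSet E) : Measurable (m3I E) :=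
  measurable_const.indicator hE

lemma m3I_bd (E : Set R3) (p : R3) : |m3I E p| ≤ 1 := by
  unfold m3I
  by_cases h : p ∈ E
  · simp [h]
  · simp [h]

lemma m3I_per (hper : IsZ3Periodic E) : IsZ3PeriodicFun (m3I E) where
  per_x x y t := by
    unfold m3I
    by_cases h : (x, y, t) ∈ E
    · rw [indicator_of_mem h, indicator_of_mem ((hper.per_x x y t).2 h)]
    · rw [indicator_of_notMem h, indicator_of_notMem (fun h' => h ((hper.per_x x y t).1 h'))]
  per_y x y t := by
    unfold m3I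
    by_cases h : (x, y, t) ∈ E
    · rw [indicator_of_mem h, indicator_of_mem ((hper.per_y x y t).2 h)]
    · rw [indicator_of_notMem h, indicator_of_notMem (fun h' => h ((hper.per_y x y t).1 h'))]
  per_t x y t := by
    unfold m3I
    by_cases h : (x, y, t) ∈ E
    · rw [indicator_of_mem h, indicator_of_mem ((hper.per_t x y t).2 h)]
    · rw [indicator_of_notMem h, indicator_of_notMem (fun h' => h ((hper.per_t x y t).1 h'))]

/-- A continuous periodic function is bounded. -/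
lemma m3_bdd {h : R3 → ℝ} (hh : Continuous h) (ph : IsZ3PeriodicFun h) : ∃ C, ∀ p, |h p| ≤ C := by
  have hK : IsCompact (Icc (0 : ℝ) 1 ×ˢ (Icc (0 : ℝ) 1 ×ˢ Icc (0 : ℝ) 1)) :=
    isCompact_Icc.prod (isCompact_Icc.prod isCompact_Icc)
  obtain ⟨C, hC⟩ := hK.exists_bound_of_continuousOn hh.continuousOn
  refine ⟨C, ?_⟩
  have hfr : ∀ (f : ℝ → ℝ), (∀ x, f (x + 1) = f x) → ∀ x, f (x - ⌊x⌋) = f x := by
    intro f hf x
    have hf' : Function.Periodic f 1 := hf
    have := hf'.sub_int_mul_eq (x := x) ⌊x⌋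
    simpa using this
  have hIcc : ∀ x : ℝ, x - ⌊x⌋ ∈ Icc (0 : ℝ) 1 := by
    intro x
    constructor
    · linarith [Int.floor_le x]
    · linarith [Int.lt_floor_add_one x]
  rintro ⟨x, y, t⟩
  have h1 := hfr (fun x => h (x, y, t)) (fun x => ph.per_x x y t) x
  have h2 := hfr (fun y => h (x - ⌊x⌋, y, t)) (fun y => ph.per_y _ y t) y
  have h3 := hfr (fun t => h (x - ⌊x⌋, y - ⌊y⌋, t)) (fun t => ph.per_t _ _ t) t
  have := hC (x - ⌊x⌋, y - ⌊y⌋, t - ⌊t⌋) ⟨hIcc x, hIcc y, hIcc t⟩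
  rw [h3, h2, h1, Real.norm_eq_abs] at this
  exact this

lemma m3_rho_int {ρ : R3 → ℝ} (hρ : IsKernel ρ) : Integrable ρ :=
  hρ.smooth.continuous.integrable_of_hasCompactSupport hρ.compact

/-- The joint integrand, integrable on the cube times space. -/
lemma m3_joint_int {ρ : R3 → ℝ} (hρ : IsKernel ρ) (hE : MeasurableSet E)
    {h : R3 → ℝ} (hh : Continuous h) (ph : IsZ3PeriodicFun h) :
    Integrable (Function.uncurry fun (p z : R3) => ρ z * m3I E (p - z) * h p)
      ((volume.restrict Q3).prod volume) := by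
  obtain ⟨C, hC⟩ := m3_bdd hh ph
  have hfin : IsFiniteMeasure (volume.restrict Q3 : Measure R3) := ⟨by
    rw [Measure.restrict_apply_univ]
    exact lt_top_iff_ne_top.2 m3_Q3_volume⟩
  have hdom : Integrable (fun q : R3 × R3 => C * ρ q.2) ((volume.restrict Q3).prod volume) :=
    Integrable.mul_prod (integrable_const C) (m3_rho_int hρ)
  apply hdom.mono'
  · apply Measurable.aestronglyMeasurable
    have h1 : Measurable fun q : R3 × R3 => ρ q.2 := hρ.smooth.continuous.measurable.comp measurable_snd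
    have h2 : Measurable fun q : R3 × R3 => m3I E (q.1 - q.2) :=
      (m3I_meas hE).comp (measurable_fst.sub measurable_snd)
    have h3 : Measurable fun q : R3 × R3 => h q.1 := hh.measurable.comp measurable_fst
    exact (h1.mul h2).mul h3
  · filter_upwards with q
    show ‖ρ q.2 * m3I E (q.1 - q.2) * h q.1‖ ≤ C * ρ q.2
    rw [Real.norm_eq_abs, abs_mul, abs_mul, abs_of_nonneg (hρ.nonneg _)]
    have h1 := m3I_bd E (q.1 - q.2)
    have h2 := hC q.1
    have h3 := hρ.nonneg q.2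
    have h4 : 0 ≤ |m3I E (q.1 - q.2)| := abs_nonneg _
    have h5 : 0 ≤ |h q.1| := abs_nonneg _
    calc ρ q.2 * |m3I E (q.1 - q.2)| * |h q.1| ≤ ρ q.2 * 1 * C := by
          apply mul_le_mul (mul_le_mul_of_nonneg_left h1 h3) h2 h5
          positivity
      _ = C * ρ q.2 := by ring

/-- Translates of periodic functions are periodic. -/
lemma m3_per_trans {f : R3 → ℝ} (pf : IsZ3PeriodicFun f) (z : R3) :
    IsZ3PeriodicFun (fun p => f (p + z)) := by
  refine ⟨fun x y t => ?_, fun x y t => ?_, fun x y t => ?_⟩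
  · calc f (((x + 1, y, t) : R3) + z) = f (x + z.1 + 1, y + z.2.1, t + z.2.2) := by
          congr 1
          exact Prod.ext (by simp; ring) rfl
      _ = _ := pf.per_x (x + z.1) (y + z.2.1) (t + z.2.2)
  · calc f (((x, y + 1, t) : R3) + z) = f (x + z.1, y + z.2.1 + 1, t + z.2.2) := by
          congr 1
          exact Prod.ext rfl (Prod.ext (by simp; ring) rfl)
      _ = _ := pf.per_y (x + z.1) (y + z.2.1) (t + z.2.2)
  · calc f (((x, y, t + 1) : R3) + z) = f (x + z.1, y + z.2.1, t + z.2.2 + 1) := by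
          congr 1
          exact Prod.ext rfl (Prod.ext rfl (by simp; ring))
      _ = _ := pf.per_t (x + z.1) (y + z.2.1) (t + z.2.2)

lemma m3_per_neg {f : R3 → ℝ} (pf : IsZ3PeriodicFun f) : IsZ3PeriodicFun (fun p => - f p) :=
  ⟨fun x y t => by rw [pf.per_x], fun x y t => by rw [pf.per_y], fun x y t => by rw [pf.per_t]⟩

/-- Inner integral of the test identity. -/
lemma m3_inner (hE : MeasurableSet E) (hper : IsZ3Periodic E)
    {h : R3 → ℝ} (hh : Continuous h) (ph : IsZ3PeriodicFun h) (z : R3) :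
    ∫ p in Q3, m3I E (p - z) * h p = ∫ p in E ∩ Q3, h (p + z) := by
  obtain ⟨C, hC⟩ := m3_bdd hh ph
  set F : R3 → ℝ := fun p => m3I E p * h (p + z) with hF
  have hFm : Measurable F :=
    (m3I_meas hE).mul (hh.measurable.comp (measurable_id.add_const z))
  have hFb : ∀ p, |F p| ≤ 1 * C := fun p => by
    rw [hF]
    simp only
    rw [abs_mul]
    exact mul_le_mul (m3I_bd E p) (hC _) (abs_nonneg _) zero_le_one
  have hFp : IsZ3PeriodicFun F := by
    have hI := m3I_per hper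
    have hT := m3_per_trans ph z
    refine ⟨fun x y t => ?_, fun x y t => ?_, fun x y t => ?_⟩
    · simp only [hF]
      rw [hI.per_x, hT.per_x]
    · simp only [hF]
      rw [hI.per_y, hT.per_y]
    · simp only [hF]
      rw [hI.per_t, hT.per_t]
  have e1 : ∀ p, m3I E (p - z) * h p = F (p - z) := by
    intro p
    simp only [hF, sub_add_cancel]
  simp_rw [e1]
  rw [m3_translate hFm hFb hFp z]
  have e2 : ∀ p, F p = E.indicator (fun p => h (p + z)) p := by
    intro p
    simp only [hF, m3I]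
    by_cases hp : p ∈ E
    · simp [hp]
    · simp [hp]
  simp_rw [e2]
  rw [setIntegral_indicator hE, inter_comm]

/-- M3b. Fubini and translation: for continuous periodic `h`,
`∫_Q (ρ ⋆ 1_E) h = ∫ ρ z (∫_{E ∩ Q} h (p + z) dp) dz` (periodicity of `p ↦ 1_E p * h (p + z)`). -/
theorem moll_test {ρ : R3 → ℝ} (hρ : IsKernel ρ) (hE : MeasurableSet E) (hper : IsZ3Periodic E)
    {h : R3 → ℝ} (hh : Continuous h) (ph : IsZ3PeriodicFun h) :
    ∫ p in Q3, moll ρ E p.1 p.2.1 p.2.2 * h p = ∫ z, ρ z * ∫ p in E ∩ Q3, h (p + z) := by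
  have e1 : ∀ p : R3, moll ρ E p.1 p.2.1 p.2.2 * h p = ∫ z, ρ z * m3I E (p - z) * h p := by
    intro p
    rw [integral_mul_const]
    rfl
  simp_rw [e1]
  rw [integral_integral_swap (m3_joint_int hρ hE hh ph)]
  apply integral_congr_ae
  filter_upwards with z
  rw [← m3_inner hE hper hh ph z, ← integral_const_mul]
  apply integral_congr_ae
  filter_upwards with p
  ring

/-- Integrability of the right side of the test identity. -/
lemma moll_test_integrable {ρ : R3 → ℝ} (hρ : IsKernel ρ) (hE : MeasurableSet E)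
    (hper : IsZ3Periodic E) {h : R3 → ℝ} (hh : Continuous h) (ph : IsZ3PeriodicFun h) :
    Integrable fun z => ρ z * ∫ p in E ∩ Q3, h (p + z) := by
  have h1 := (m3_joint_int hρ hE hh ph).integral_prod_right
  refine h1.congr ?_
  filter_upwards with z
  rw [← m3_inner hE hper hh ph z, ← integral_const_mul]
  apply integral_congr_ae
  filter_upwards with p
  simp only [Function.uncurry]
  ring

/-- Translates of test fields, with a sign. -/
def TestField.trans (φ : TestField) (z : R3) : TestField where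
  f₁ := fun p => -φ.f₁ (p + z)
  f₂ := fun p => -φ.f₂ (p + z)
  f₃ := fun p => -φ.f₃ (p + z)
  c₁ := (φ.c₁.comp (contDiff_id.add contDiff_const)).neg
  c₂ := (φ.c₂.comp (contDiff_id.add contDiff_const)).neg
  c₃ := (φ.c₃.comp (contDiff_id.add contDiff_const)).neg
  p₁ := m3_per_neg (m3_per_trans φ.p₁ z)
  p₂ := m3_per_neg (m3_per_trans φ.p₂ z)
  p₃ := m3_per_neg (m3_per_trans φ.p₃ z)
  norm_le := fun p => by
    have := φ.norm_le (p + z)
    simpa using this

/-! ### The divergence through the Frechet derivative -/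

lemma m3_dx {f : R3 → ℝ} (hf : ContDiff ℝ 1 f) (p : R3) :
    deriv (fun s => f (s, p.2.1, p.2.2)) p.1 = fderiv ℝ f p (1, 0, 0) := by
  have h1 : HasDerivAt (fun s : ℝ => ((s, p.2.1, p.2.2) : R3)) ((1, 0, 0) : R3) p.1 :=
    (hasDerivAt_id p.1).prodMk (hasDerivAt_const _ _)
  have h2 : HasFDerivAt f (fderiv ℝ f p) ((p.1, p.2.1, p.2.2) : R3) :=
    (hf.differentiable one_ne_zero p).hasFDerivAt
  exact (h2.comp_hasDerivAt p.1 h1).deriv

lemma m3_dy {f : R3 → ℝ} (hf : ContDiff ℝ 1 f) (p : R3) :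
    deriv (fun s => f (p.1, s, p.2.2)) p.2.1 = fderiv ℝ f p (0, 1, 0) := by
  have h1 : HasDerivAt (fun s : ℝ => ((p.1, s, p.2.2) : R3)) ((0, 1, 0) : R3) p.2.1 :=
    (hasDerivAt_const _ _).prodMk ((hasDerivAt_id p.2.1).prodMk (hasDerivAt_const _ _))
  have h2 : HasFDerivAt f (fderiv ℝ f p) ((p.1, p.2.1, p.2.2) : R3) :=
    (hf.differentiable one_ne_zero p).hasFDerivAt
  exact (h2.comp_hasDerivAt p.2.1 h1).deriv

lemma m3_dt {f : R3 → ℝ} (hf : ContDiff ℝ 1 f) (p : R3) :
    deriv (fun s => f (p.1, p.2.1, s)) p.2.2 = fderiv ℝ f p (0, 0, 1) := by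
  have h1 : HasDerivAt (fun s : ℝ => ((p.1, p.2.1, s) : R3)) ((0, 0, 1) : R3) p.2.2 :=
    (hasDerivAt_const _ _).prodMk ((hasDerivAt_const _ _).prodMk (hasDerivAt_id p.2.2))
  have h2 : HasFDerivAt f (fderiv ℝ f p) ((p.1, p.2.1, p.2.2) : R3) :=
    (hf.differentiable one_ne_zero p).hasFDerivAt
  exact (h2.comp_hasDerivAt p.2.2 h1).deriv

lemma m3_div_eq (φ : TestField) (p : R3) :
    φ.div p = fderiv ℝ φ.f₁ p (1, 0, 0) + fderiv ℝ φ.f₂ p (0, 1, 0) + fderiv ℝ φ.f₃ p (0, 0, 1) := by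
  unfold TestField.div
  rw [m3_dx φ.c₁, m3_dy φ.c₂, m3_dt φ.c₃]

lemma m3_fderiv_trans (f : R3 → ℝ) (z p v : R3) :
    fderiv ℝ (fun p => -f (p + z)) p v = - fderiv ℝ f (p + z) v := by
  rw [fderiv_fun_neg, fderiv_comp_add_right]
  rfl

theorem TestField.trans_div (φ : TestField) (z p : R3) : (φ.trans z).div p = -φ.div (p + z) := by
  rw [m3_div_eq, m3_div_eq]
  show fderiv ℝ (fun p => -φ.f₁ (p + z)) p _ + fderiv ℝ (fun p => -φ.f₂ (p + z)) p _ +
    fderiv ℝ (fun p => -φ.f₃ (p + z)) p _ = _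
  rw [m3_fderiv_trans, m3_fderiv_trans, m3_fderiv_trans]
  ring

lemma m3_div_cont (φ : TestField) : Continuous φ.div := by
  have e : φ.div = fun p => fderiv ℝ φ.f₁ p (1, 0, 0) + fderiv ℝ φ.f₂ p (0, 1, 0) +
      fderiv ℝ φ.f₃ p (0, 0, 1) := funext (m3_div_eq φ)
  rw [e]
  have h1 := φ.c₁.continuous_fderiv one_ne_zero
  have h2 := φ.c₂.continuous_fderiv one_ne_zero
  have h3 := φ.c₃.continuous_fderiv one_ne_zero
  exact ((h1.clm_apply continuous_const).add (h2.clm_apply continuous_const)).add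
    (h3.clm_apply continuous_const)

lemma m3_fderiv_shift {f : R3 → ℝ} {e : R3} (he : ∀ p, f (p + e) = f p) (p v : R3) :
    fderiv ℝ f (p + e) v = fderiv ℝ f p v := by
  have h : (fun p => f (p + e)) = f := funext he
  have := fderiv_comp_add_right (𝕜 := ℝ) (f := f) (x := p) e
  rw [h] at this
  rw [this]

lemma m3_div_per (φ : TestField) : IsZ3PeriodicFun φ.div := by
  have hx : ∀ {f : R3 → ℝ}, IsZ3PeriodicFun f → ∀ p : R3, f (p + ((1, 0, 0) : R3)) = f p := by
    rintro f pf ⟨x, y, t⟩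
    have := pf.per_x x y t
    simpa using this
  have hy : ∀ {f : R3 → ℝ}, IsZ3PeriodicFun f → ∀ p : R3, f (p + ((0, 1, 0) : R3)) = f p := by
    rintro f pf ⟨x, y, t⟩
    have := pf.per_y x y t
    simpa using this
  have ht : ∀ {f : R3 → ℝ}, IsZ3PeriodicFun f → ∀ p : R3, f (p + ((0, 0, 1) : R3)) = f p := by
    rintro f pf ⟨x, y, t⟩
    have := pf.per_t x y t
    simpa using this
  refine ⟨fun x y t => ?_, fun x y t => ?_, fun x y t => ?_⟩
  · rw [m3_div_eq, m3_div_eq]
    have e : ((x + 1, y, t) : R3) = (x, y, t) + ((1, 0, 0) : R3) := by simp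
    rw [e, m3_fderiv_shift (hx φ.p₁), m3_fderiv_shift (hx φ.p₂), m3_fderiv_shift (hx φ.p₃)]
  · rw [m3_div_eq, m3_div_eq]
    have e : ((x, y + 1, t) : R3) = (x, y, t) + ((0, 1, 0) : R3) := by simp
    rw [e, m3_fderiv_shift (hy φ.p₁), m3_fderiv_shift (hy φ.p₂), m3_fderiv_shift (hy φ.p₃)]
  · rw [m3_div_eq, m3_div_eq]
    have e : ((x, y, t + 1) : R3) = (x, y, t) + ((0, 0, 1) : R3) := by simp
    rw [e, m3_fderiv_shift (ht φ.p₁), m3_fderiv_shift (ht φ.p₂), m3_fderiv_shift (ht φ.p₃)]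

/-- M3c. Duality step. For a test field `φ`, `∫_Q (ρ ⋆ 1_E) (- div φ) ≤ P`: by `moll_test` with
`h = - div φ` and `∫_{E∩Q} div (φ.trans z) ≤ P`. -/
theorem moll_dual {ρ : R3 → ℝ} (hρ : IsKernel ρ) (hE : MeasurableSet E) (hper : IsZ3Periodic E)
    {P : ℝ} (hP : ∀ φ : TestField, ∫ p in E ∩ Q3, φ.div p ≤ P) (φ : TestField) :
    ∫ p in Q3, moll ρ E p.1 p.2.1 p.2.2 * (-φ.div p) ≤ P := by
  have hh : Continuous fun p => -φ.div p := (m3_div_cont φ).neg
  have ph : IsZ3PeriodicFun fun p => -φ.div p := m3_per_neg (m3_div_per φ)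
  rw [moll_test hρ hE hper hh ph]
  have hint := moll_test_integrable hρ hE hper hh ph
  have hρi := m3_rho_int hρ
  calc ∫ z, ρ z * ∫ p in E ∩ Q3, -φ.div (p + z) ≤ ∫ z, ρ z * P := by
        apply integral_mono hint (hρi.mul_const P)
        intro z
        apply mul_le_mul_of_nonneg_left _ (hρ.nonneg z)
        have e : ∀ p, -φ.div (p + z) = (φ.trans z).div p := fun p => (TestField.trans_div φ z p).symm
        simp_rw [e]
        exact hP _
    _ = P := by
        rw [integral_mul_const, hρ.one, one_mul]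

end Vale.Agent.Lib.P232
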