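import Vale.Agent.Lib.P232.Profiles

/-! P232: definitions of the blueprint (cubic flat three-torus, balls and tubes).
All the sets and functions are periodic objects on `ℝ × ℝ × ℝ`. -/

open MeasureTheory Set Filter Topology
open scoped ENNReal

noncomputable section

namespace Vale.Agent.Lib.P232

/-- Euclidean three-space, with the product Lebesgue measure. -/
abbrev R3 := ℝ × ℝ × ℝ

/-- The unit cube, a fundamental domain of `ℤ³`. -/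
def Q3 : Set R3 := Ico 0 1 ×ˢ (Ico 0 1 ×ˢ Ico 0 1)

/-- `ℤ³`-periodic subsets. -/
structure IsZ3Periodic (E : Set R3) : Prop where
  per_x : ∀ x y t, (x + 1, y, t) ∈ E ↔ (x, y, t) ∈ E
  per_y : ∀ x y t, (x, y + 1, t) ∈ E ↔ (x, y, t) ∈ E
  per_t : ∀ x y t, (x, y, t + 1) ∈ E ↔ (x, y, t) ∈ E

/-- `ℤ³`-periodic real functions. -/
structure IsZ3PeriodicFun (f : R3 → ℝ) : Prop where
  per_x : ∀ x y t, f (x + 1, y, t) = f (x, y, t)
  per_y : ∀ x y t, f (x, y + 1, t) = f (x, y, t)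
  per_t : ∀ x y t, f (x, y, t + 1) = f (x, y, t)

/-- Periodic `C¹` vector fields with Euclidean norm at most one. -/
structure TestField where
  f₁ : R3 → ℝ
  f₂ : R3 → ℝ
  f₃ : R3 → ℝ
  c₁ : ContDiff ℝ 1 f₁
  c₂ : ContDiff ℝ 1 f₂
  c₃ : ContDiff ℝ 1 f₃
  p₁ : IsZ3PeriodicFun f₁
  p₂ : IsZ3PeriodicFun f₂
  p₃ : IsZ3PeriodicFun f₃
  norm_le : ∀ p, f₁ p ^ 2 + f₂ p ^ 2 + f₃ p ^ 2 ≤ 1

/-- The divergence of a test field. -/
def TestField.div (φ : TestField) (p : R3) : ℝ :=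
  deriv (fun s => φ.f₁ (s, p.2.1, p.2.2)) p.1 + deriv (fun s => φ.f₂ (p.1, s, p.2.2)) p.2.1 +
    deriv (fun s => φ.f₃ (p.1, p.2.1, s)) p.2.2

/-- The De Giorgi perimeter in the torus of a periodic set: the total variation of its indicator. -/
def Perim (E : Set R3) : ℝ≥0∞ := ⨆ φ : TestField, ENNReal.ofReal (∫ p in E ∩ Q3, φ.div p)

/-- The ball and tube competitors for volume up to `1/4`. -/
def J (V : ℝ) : ℝ :=
  min ((36 * Real.pi) ^ (1 / 3 : ℝ) * V ^ (2 / 3 : ℝ)) (2 * Real.sqrt (Real.pi * V))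

/-- The positive part of a line. -/
def qpos (lam be s : ℝ) : ℝ := max (lam * s + be) 0

/-! Coordinate derivatives of curried functions. -/

/-- `∂ₓ` on the two-torus. -/
def d1 (w : ℝ → ℝ → ℝ) (x y : ℝ) : ℝ := deriv (fun s => w s y) x
/-- `∂_y` on the two-torus. -/
def d2 (w : ℝ → ℝ → ℝ) (x y : ℝ) : ℝ := deriv (fun s => w x s) y
/-- `∂ₓ` on the three-torus. -/
def dX (W : ℝ → ℝ → ℝ → ℝ) (x y t : ℝ) : ℝ := deriv (fun s => W s y t) x
/-- `∂_y` on the three-torus. -/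
def dY (W : ℝ → ℝ → ℝ → ℝ) (x y t : ℝ) : ℝ := deriv (fun s => W x s t) y
/-- `∂ₜ` on the three-torus. -/
def dT (W : ℝ → ℝ → ℝ → ℝ) (x y t : ℝ) : ℝ := deriv (fun s => W x y s) t

/-- Dirichlet `L¹` energy on the circle. -/
def En1 (v : ℝ → ℝ) : ℝ := ∫ x in (0 : ℝ)..1, |deriv v x|

/-- `L¹` energy of the gradient on the two-torus. -/
def En2 (w : ℝ → ℝ → ℝ) : ℝ :=
  ∫ y in (0 : ℝ)..1, ∫ x in (0 : ℝ)..1, Real.sqrt (d1 w x y ^ 2 + d2 w x y ^ 2)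

/-- `L¹` energy of the gradient on the three-torus. -/
def En3 (W : ℝ → ℝ → ℝ → ℝ) : ℝ :=
  ∫ t in (0 : ℝ)..1, ∫ y in (0 : ℝ)..1, ∫ x in (0 : ℝ)..1,
    Real.sqrt (dX W x y t ^ 2 + dY W x y t ^ 2 + dT W x y t ^ 2)

/-! Function classes. -/

/-- `C¹`, periodic, `[0,1]`-valued on the circle. -/
structure C1P1 (v : ℝ → ℝ) : Prop where
  smooth : ContDiff ℝ 1 v
  per : ∀ x, v (x + 1) = v x
  nonneg : ∀ x, 0 ≤ v x
  le_one : ∀ x, v x ≤ 1

/-- `C¹`, periodic, `[0,1]`-valued on the two-torus. -/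
structure C1P2 (w : ℝ → ℝ → ℝ) : Prop where
  smooth : ContDiff ℝ 1 (fun p : ℝ × ℝ => w p.1 p.2)
  per_x : ∀ x y, w (x + 1) y = w x y
  per_y : ∀ x y, w x (y + 1) = w x y
  nonneg : ∀ x y, 0 ≤ w x y
  le_one : ∀ x y, w x y ≤ 1

/-- `C¹`, periodic, `[0,1]`-valued on the three-torus. -/
structure C1P3 (W : ℝ → ℝ → ℝ → ℝ) : Prop where
  smooth : ContDiff ℝ 1 (fun p : R3 => W p.1 p.2.1 p.2.2)
  per_x : ∀ x y t, W (x + 1) y t = W x y t
  per_y : ∀ x y t, W x (y + 1) t = W x y t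
  per_t : ∀ x y t, W x y (t + 1) = W x y t
  nonneg : ∀ x y t, 0 ≤ W x y t
  le_one : ∀ x y t, W x y t ≤ 1

/-- Periodic measurable indicator on the circle. -/
structure Ind1 (χ : ℝ → ℝ) : Prop where
  meas : Measurable χ
  bool : ∀ x, χ x = 0 ∨ χ x = 1
  per : ∀ x, χ (x + 1) = χ x

/-- Periodic measurable indicator on the two-torus. -/
structure Ind2 (χ : ℝ → ℝ → ℝ) : Prop where
  meas : Measurable (fun p : ℝ × ℝ => χ p.1 p.2)
  bool : ∀ x y, χ x y = 0 ∨ χ x y = 1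
  per_x : ∀ x y, χ (x + 1) y = χ x y
  per_y : ∀ x y, χ x (y + 1) = χ x y

/-- Periodic measurable indicator on the three-torus. -/
structure Ind3 (χ : ℝ → ℝ → ℝ → ℝ) : Prop where
  meas : Measurable (fun p : R3 => χ p.1 p.2.1 p.2.2)
  bool : ∀ x y t, χ x y t = 0 ∨ χ x y t = 1
  per_x : ∀ x y t, χ (x + 1) y t = χ x y t
  per_y : ∀ x y t, χ x (y + 1) t = χ x y t
  per_t : ∀ x y t, χ x y (t + 1) = χ x y t

/-- Approximation on the circle: a.e. convergence on the whole line. -/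
structure Approx1 (v : ℕ → ℝ → ℝ) (χ : ℝ → ℝ) : Prop where
  c1 : ∀ k, C1P1 (v k)
  ind : Ind1 χ
  conv : ∀ᵐ x, Tendsto (fun k => v k x) atTop (𝓝 (χ x))

/-- Approximation on the two-torus: a.e. convergence on the whole plane (product-level). -/
structure Approx2 (w : ℕ → ℝ → ℝ → ℝ) (χ : ℝ → ℝ → ℝ) : Prop where
  c1 : ∀ k, C1P2 (w k)
  ind : Ind2 χ
  conv : ∀ᵐ p : ℝ × ℝ, Tendsto (fun k => w k p.1 p.2) atTop (𝓝 (χ p.1 p.2))

/-- Approximation on the three-torus: a.e. convergence on the whole space (product-level). -/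
structure Approx3 (U : ℕ → ℝ → ℝ → ℝ → ℝ) (χ : ℝ → ℝ → ℝ → ℝ) : Prop where
  c1 : ∀ k, C1P3 (U k)
  ind : Ind3 χ
  conv : ∀ᵐ p : R3, Tendsto (fun k => U k p.1 p.2.1 p.2.2) atTop (𝓝 (χ p.1 p.2.1 p.2.2))

/-- `m` and `M` are the essential infimum and supremum of `a` on the unit interval. -/
structure EssBounds (a : ℝ → ℝ) (m M : ℝ) : Prop where
  ge_m : ∀ᵐ t ∂(volume.restrict (Ioc (0 : ℝ) 1)), m ≤ a t
  le_M : ∀ᵐ t ∂(volume.restrict (Ioc (0 : ℝ) 1)), a t ≤ M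
  near_m : ∀ ε > 0, 0 < volume {t ∈ Ioc (0 : ℝ) 1 | a t < m + ε}
  near_M : ∀ ε > 0, 0 < volume {t ∈ Ioc (0 : ℝ) 1 | M - ε < a t}

/-! Masses. -/

/-- Indicator of the value one. -/
def fullInd (s : ℝ) : ℝ := if s = 1 then 1 else 0
/-- Indicator of the value zero. -/
def zeroInd (s : ℝ) : ℝ := if s = 0 then 1 else 0
/-- Indicator of the open unit interval. -/
def mixInd (s : ℝ) : ℝ := if 0 < s ∧ s < 1 then 1 else 0

/-- Mass of the `x`-line at height `y`, on the two-torus. -/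
def rowM (χ : ℝ → ℝ → ℝ) (y : ℝ) : ℝ := ∫ x in (0 : ℝ)..1, χ x y
/-- Mass of the `y`-line at abscissa `x`, on the two-torus. -/
def colM (χ : ℝ → ℝ → ℝ) (x : ℝ) : ℝ := ∫ y in (0 : ℝ)..1, χ x y
/-- Area on the two-torus. -/
def area (χ : ℝ → ℝ → ℝ) : ℝ := ∫ y in (0 : ℝ)..1, ∫ x in (0 : ℝ)..1, χ x y
/-- Measure of the full rows. -/
def deltaR (χ : ℝ → ℝ → ℝ) : ℝ := ∫ y in (0 : ℝ)..1, fullInd (rowM χ y)
/-- Measure of the full columns. -/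
def deltaC (χ : ℝ → ℝ → ℝ) : ℝ := ∫ x in (0 : ℝ)..1, fullInd (colM χ x)

/-- The slice of a function on the three-torus at time `t`. -/
def slc (W : ℝ → ℝ → ℝ → ℝ) (t : ℝ) : ℝ → ℝ → ℝ := fun x y => W x y t

/-- Area of the horizontal slice at time `t`. -/
def massT (χ : ℝ → ℝ → ℝ → ℝ) (t : ℝ) : ℝ := area (slc χ t)
/-- Volume on the three-torus. -/
def vol (χ : ℝ → ℝ → ℝ → ℝ) : ℝ := ∫ t in (0 : ℝ)..1, massT χ t
/-- Measure of the set of full `x`-lines. -/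
def fx (χ : ℝ → ℝ → ℝ → ℝ) : ℝ :=
  ∫ t in (0 : ℝ)..1, ∫ y in (0 : ℝ)..1, fullInd (∫ x in (0 : ℝ)..1, χ x y t)
/-- Measure of the set of full `y`-lines. -/
def fy (χ : ℝ → ℝ → ℝ → ℝ) : ℝ :=
  ∫ t in (0 : ℝ)..1, ∫ x in (0 : ℝ)..1, fullInd (∫ y in (0 : ℝ)..1, χ x y t)
/-- Measure of the set of full `t`-lines. -/
def ft (χ : ℝ → ℝ → ℝ → ℝ) : ℝ :=
  ∫ y in (0 : ℝ)..1, ∫ x in (0 : ℝ)..1, fullInd (∫ t in (0 : ℝ)..1, χ x y t)

/-- Cyclic permutation of the coordinates. -/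
def perm (W : ℝ → ℝ → ℝ → ℝ) : ℝ → ℝ → ℝ → ℝ := fun x y t => W y t x

/-- The indicator of a subset of `R3`, curried. -/
def ind (E : Set R3) : ℝ → ℝ → ℝ → ℝ := fun x y t => E.indicator (fun _ => (1 : ℝ)) (x, y, t)

/-- Mollification of a set by a kernel. -/
def moll (ρ : R3 → ℝ) (E : Set R3) : ℝ → ℝ → ℝ → ℝ :=
  fun x y t => ∫ z : R3, ρ z * E.indicator (fun _ => (1 : ℝ)) ((x, y, t) - z)

end Vale.Agent.Lib.P232
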