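import Vale.Agent.Lib.P232.CellSound

/-!
# P232: the bulk certificate on a longer volume range

The same boxes and Riemann sums as in `Cells`, for volumes `V ≤ (527/1024)²`, and (in `SlabCells`)
for the slab range.
-/

namespace Vale.Agent.Lib.P232.Cells

open Real MeasureTheory Set intervalIntegral

/-- The value of a rational line on a leaf, from below. -/
lemma value_ge {ty : Bool} {L B : ℤ} {st b c d : ℕ} (hbc : b < c) (hcd : c ≤ d) (hd : d ≤ 1024)
    {h k : ℝ} (h0 : 0 ≤ h) (h2 : h ≤ (b : ℝ) / 1024) (h3 : (c : ℝ) / 1024 ≤ k) (V : ℝ) :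
    (L : ℝ) / 65536 * V + ((gnumOf ty L B st b c : ℤ) : ℝ) / 1125899906842624 +
        (if ty then 4 * h ^ 2 else 0) ≤
      lineValue (prof ty) ((L : ℝ) / 65536) ((B : ℝ) / 65536) V (h ^ 2) (k ^ 2) := by
  have hI := prof_continuous ty
  have hsum := sumC_le ty L B st c (hcd.trans hd) 2048 b hbc.le
  have hmono : ∫ s in sn b..sn c, gg (prof ty) ((L : ℝ) / 65536) ((B : ℝ) / 65536) s ≤
      ∫ s in (h ^ 2)..(k ^ 2), gg (prof ty) ((L : ℝ) / 65536) ((B : ℝ) / 65536) s :=
    integral_gg_mono hI _ _ (sq_le_sn h0 h2) (sn_mono hbc.le) (sn_le_sq h3)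
  have hval : lineValue (prof ty) ((L : ℝ) / 65536) ((B : ℝ) / 65536) V (h ^ 2) (k ^ 2) =
      (L : ℝ) / 65536 * V + (B : ℝ) / 65536 +
        2 * ∫ s in (h ^ 2)..(k ^ 2), gg (prof ty) ((L : ℝ) / 65536) ((B : ℝ) / 65536) s := rfl
  set S : ℝ := (sumC ty L B st 2048 b c : ℝ) with hS
  have hg : ((gnumOf ty L B st b c : ℤ) : ℝ) / 1125899906842624 =
      (B : ℝ) / 65536 + 2 * (S / (16384 * 1048576)) -
        (if ty then 4 * ((b : ℝ) / 1024) ^ 2 else 0) := by
    unfold gnumOf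
    cases ty
    · simp only [Bool.false_eq_true, if_false]
      push_cast
      rw [hS]
      ring
    · simp only [if_true]
      push_cast
      rw [hS]
      ring
  rw [hg, hval]
  cases ty with
  | false =>
    simp only [Bool.false_eq_true, if_false]
    linarith
  | true =>
    simp only [if_true]
    have hb2 : h ^ 2 ≤ ((b : ℝ) / 1024) ^ 2 := pow_le_pow_left₀ h0 h2 2
    linarith

/-- The V-free test with the longer endpoint `(527/1024)²`. -/
def kOKx (L g : ℤ) : Bool :=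
  (decide (0 < L) && decide (16 * 3141593 * 1125899906842624 * (65536 * 65536) ≤
      3 * g * L * L * 1000000)) ||
  (decide (0 < L) && decide (3141593 * 1125899906842624 * 65536 ≤ g * L * 1000000)) ||
  (decide (9 * 65536 ≤ 2 * L) && decide (L ≤ 6 * 65536) &&
    decide (4 * 3141593 * (9 * 65536 - L) * 1125899906842624 ≤ g * 81 * 65536 * 1000000)) ||
  (decide (L * 527 * 1000000 ≤ 1772453 * 65536 * 1024) &&
    decide ((2 * 1772454 * 527 * 1024 * 65536 - L * 527 * 527 * 1000000) * 1125899906842624 ≤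
      g * 65536 * 1048576 * 1000000))

lemma JJ_le_endx {l K V : ℝ} (hV : 0 < V) (hV4 : V ≤ (527 / 1024) ^ 2)
    (hl : l * (527 / 1024) ≤ 1772453 / 1000000)
    (hK : 2 * (1772454 / 1000000) * (527 / 1024) - l * (527 / 1024) ^ 2 ≤ K) :
    JJ V ≤ l * V + K := by
  refine (min_le_right _ _).trans ?_
  have hs : √(π * V) = √π * √V := Real.sqrt_mul Real.pi_pos.le _
  rw [hs]
  set v := √V with hv
  set sp := √π with hsp
  have hv2 : v ^ 2 = V := Real.sq_sqrt hV.le
  have hv0 : 0 ≤ v := Real.sqrt_nonneg _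
  have hv1 : v ≤ 527 / 1024 := by
    rw [hv]
    exact Real.sqrt_le_iff.mpr ⟨by norm_num, hV4⟩
  have hsp1 : (1772453 : ℝ) / 1000000 ≤ sp := sqrt_pi_gt
  have hsp2 : sp ≤ (1772454 : ℝ) / 1000000 := sqrt_pi_lt
  have h3 : l * (527 / 1024 + v) ≤ 2 * sp := by
    rcases le_total 0 l with h | h
    · have : l * (527 / 1024 + v) ≤ l * (2 * (527 / 1024)) :=
        mul_le_mul_of_nonneg_left (by linarith) h
      linarith
    · have : l * (527 / 1024 + v) ≤ 0 := mul_nonpos_of_nonpos_of_nonneg h (by linarith)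
      linarith
  have h4 : 0 ≤ (527 / 1024 - v) * (2 * sp - l * (527 / 1024 + v)) :=
    mul_nonneg (by linarith) (by linarith)
  rw [← hv2]
  nlinarith

/-- The rational test `kOKx` gives a V-free upper bound for `JJ`. -/
lemma JJ_le_of_kOKx {L g : ℤ} (h : kOKx L g = true) {V : ℝ} (hV : 0 < V)
    (hV4 : V ≤ (527 / 1024) ^ 2) :
    JJ V ≤ (L : ℝ) / 65536 * V + (g : ℝ) / 1125899906842624 := by
  have hpi := pi_le_bar
  have hpi0 := Real.pi_pos
  simp only [kOKx, Bool.or_eq_true, Bool.and_eq_true, decide_eq_true_eq] at h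
  rcases h with ((⟨h0, h1⟩ | ⟨h0, h1⟩) | ⟨⟨h0, h1⟩, h2⟩) | ⟨h0, h1⟩
  · have hL : (0 : ℝ) < L := by exact_mod_cast h0
    have h1' : (16 * 3141593 * 1125899906842624 * (65536 * 65536) : ℝ) ≤
        3 * g * L * L * 1000000 := by exact_mod_cast h1
    apply JJ_le_ball (by positivity) hV
    have e : (g : ℝ) / 1125899906842624 * ((L : ℝ) / 65536) ^ 2 =
        (3 * g * L * L * 1000000) / (3 * 1000000 * 1125899906842624 * (65536 * 65536)) := by
      field_simp
    rw [e, le_div_iff₀ (by norm_num)]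
    nlinarith
  · have hL : (0 : ℝ) < L := by exact_mod_cast h0
    have h1' : (3141593 * 1125899906842624 * 65536 : ℝ) ≤ g * L * 1000000 := by exact_mod_cast h1
    apply JJ_le_tube (by positivity) hV
    have e : (g : ℝ) / 1125899906842624 * ((L : ℝ) / 65536) =
        (g * L * 1000000) / (1000000 * 1125899906842624 * 65536) := by
      field_simp
    rw [e, le_div_iff₀ (by norm_num)]
    nlinarith
  · have hl0 : (9 * 65536 : ℝ) ≤ 2 * L := by exact_mod_cast h0
    have hl1 : (L : ℝ) ≤ 6 * 65536 := by exact_mod_cast h1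
    have h2' : (4 * 3141593 * (9 * 65536 - L) * 1125899906842624 : ℝ) ≤ g * 81 * 65536 * 1000000 := by
      exact_mod_cast h2
    apply JJ_le_kink hV (by linarith) (by linarith)
    have e : (g : ℝ) / 1125899906842624 =
        (g * 81 * 65536 * 1000000) / (81 * 65536 * 1000000 * 1125899906842624) := by
      field_simp
    rw [e, le_div_iff₀ (by norm_num)]
    have hp : (0 : ℝ) ≤ 9 * 65536 - L := by linarith
    have : π * (9 * 65536 - (L : ℝ)) ≤ 3141593 / 1000000 * (9 * 65536 - L) :=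
      mul_le_mul_of_nonneg_right hpi hp
    nlinarith
  · have hl0 : (L : ℝ) * 527 * 1000000 ≤ 1772453 * 65536 * 1024 := by exact_mod_cast h0
    have h1' : ((2 * 1772454 * 527 * 1024 * 65536 - L * 527 * 527 * 1000000) * 1125899906842624 : ℝ) ≤
        g * 65536 * 1048576 * 1000000 := by exact_mod_cast h1
    apply JJ_le_endx hV hV4
    · have e : (L : ℝ) / 65536 * (527 / 1024) = (L * 527 * 1000000) / (65536 * 1024 * 1000000) := by
        field_simp
      rw [e, div_le_div_iff₀ (by norm_num) (by norm_num)]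
      nlinarith
    · have e : (g : ℝ) / 1125899906842624 =
        (g * 65536 * 1048576 * 1000000) / (65536 * 1048576 * 1000000 * 1125899906842624) := by
        field_simp
      rw [e, le_div_iff₀ (by norm_num)]
      nlinarith

/-- The test on a leaf. -/
def leafOKx (ty : Bool) (L B : ℤ) (st a b c d : ℕ) : Bool :=
  decide (a ≤ b) && decide (b < c) && decide (c ≤ d) && decide (d ≤ 1024) &&
    decide (qn L B a * 1024000000 ≤ ((tnode ty a * 68719476736 : ℕ) : ℤ)) &&
    decide (qn L B d * 1024000000 ≤ ((tnode ty d * 68719476736 : ℕ) : ℤ)) &&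
    kOKx L (gnumOf ty L B st b c)

/-- The test on a tree. -/
def checkTreeX : CellTree → ℕ → ℕ → ℕ → ℕ → Bool
  | .skip, _, b, c, d =>
    decide (100 * b ≤ 9 * c) && decide (31416 * (d * d) ≤ 20000 * 1048576)
  | .leaf ty L B st, a, b, c, d => leafOKx ty L B st a b c d
  | .splitH mid l r, a, b, c, d =>
    decide (a ≤ mid) && decide (mid ≤ b) && checkTreeX l a mid c d && checkTreeX r mid b c d
  | .splitK mid l r, a, b, c, d =>
    decide (c ≤ mid) && decide (mid ≤ d) && checkTreeX l a b c mid && checkTreeX r a b mid d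

/-- What the certificate proves at the point `(h, k)`. -/
def BulkConclX (h k : ℝ) : Prop :=
  ∀ V : ℝ, 0 < V → V ≤ (527 / 1024) ^ 2 → h ^ 2 ≤ V → V ≤ k ^ 2 →
    (∃ l b, LineAdm IT l b (h ^ 2) (k ^ 2) ∧ JJ V ≤ lineValue IT l b V (h ^ 2) (k ^ 2)) ∨
    (∃ l b, LineAdm IE l b (h ^ 2) (k ^ 2) ∧ JJ V + 4 * h ^ 2 ≤ lineValue IE l b V (h ^ 2) (k ^ 2))

/-- Soundness on a leaf. -/
lemma leaf_soundX {ty : Bool} {L B : ℤ} {st a b c d : ℕ} (hOK : leafOKx ty L B st a b c d = true)
    {h k : ℝ} (h1 : (a : ℝ) / 1024 ≤ h) (h2 : h ≤ (b : ℝ) / 1024) (h3 : (c : ℝ) / 1024 ≤ k)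
    (h4 : k ≤ (d : ℝ) / 1024) : BulkConclX h k := by
  simp only [leafOKx, Bool.and_eq_true, decide_eq_true_eq] at hOK
  obtain ⟨⟨⟨⟨⟨⟨hab, hbc⟩, hcd⟩, hd⟩, hfa⟩, hfd⟩, hk⟩ := hOK
  have h0 : 0 ≤ h := le_trans (by positivity) h1
  have k0 : 0 ≤ k := le_trans (by positivity) h3
  intro V hV hV4 hhV hVk
  have hadm : LineAdm (prof ty) ((L : ℝ) / 65536) ((B : ℝ) / 65536) (h ^ 2) (k ^ 2) :=
    feasible_adm hd (sn_le_sq h1) (sq_le_sn k0 h4) hfa hfd
  have hJ := JJ_le_of_kOKx hk hV hV4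
  have hval := value_ge (ty := ty) (L := L) (B := B) (st := st) hbc hcd hd h0 h2 h3 V
  cases ty with
  | false =>
    left
    refine ⟨(L : ℝ) / 65536, (B : ℝ) / 65536, ?_, ?_⟩
    · simpa [prof] using hadm
    · have hval' : lineValue IT ((L : ℝ) / 65536) ((B : ℝ) / 65536) V (h ^ 2) (k ^ 2) =
          lineValue (prof false) ((L : ℝ) / 65536) ((B : ℝ) / 65536) V (h ^ 2) (k ^ 2) := by
        simp [prof]
      rw [hval']
      simp only [Bool.false_eq_true, if_false] at hval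
      linarith
  | true =>
    right
    refine ⟨(L : ℝ) / 65536, (B : ℝ) / 65536, ?_, ?_⟩
    · simpa [prof] using hadm
    · have hval' : lineValue IE ((L : ℝ) / 65536) ((B : ℝ) / 65536) V (h ^ 2) (k ^ 2) =
          lineValue (prof true) ((L : ℝ) / 65536) ((B : ℝ) / 65536) V (h ^ 2) (k ^ 2) := by
        simp [prof]
      rw [hval']
      simp only [if_true] at hval
      linarith

/-- Soundness of the tree test. -/
theorem checkTreeX_sound : ∀ (t : CellTree) (a b c d : ℕ), checkTreeX t a b c d = true →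
    ∀ h k : ℝ, (a : ℝ) / 1024 ≤ h → h ≤ (b : ℝ) / 1024 → (c : ℝ) / 1024 ≤ k → k ≤ (d : ℝ) / 1024 →
      (100 * h ≤ 9 * k ∧ π * k ^ 2 ≤ 2) ∨ BulkConclX h k := by
  intro t
  induction t with
  | skip =>
    intro a b c d hOK h k h1 h2 h3 h4
    left
    simp only [checkTreeX, Bool.and_eq_true, decide_eq_true_eq] at hOK
    obtain ⟨e1, e2⟩ := hOK
    have e1' : (100 : ℝ) * b ≤ 9 * c := by exact_mod_cast e1
    have e2' : (31416 : ℝ) * ((d : ℝ) * d) ≤ 20000 * 1048576 := by exact_mod_cast e2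
    have k0 : 0 ≤ k := le_trans (by positivity) h3
    constructor
    · have h5 : (100 : ℝ) * ((b : ℝ) / 1024) ≤ 9 * ((c : ℝ) / 1024) := by linarith
      linarith
    · have h5 : k ^ 2 ≤ ((d : ℝ) / 1024) ^ 2 := pow_le_pow_left₀ k0 h4 2
      have h6 : ((d : ℝ) / 1024) ^ 2 = (d : ℝ) * d / 1048576 := by ring
      have h7 := Real.pi_lt_d4
      have h8 : 0 ≤ k ^ 2 := by positivity
      have h9 : π * k ^ 2 ≤ 3.1416 * k ^ 2 := mul_le_mul_of_nonneg_right h7.le h8
      rw [h6] at h5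
      have h10 : (d : ℝ) * d / 1048576 ≤ 20000 / 31416 := by
        rw [div_le_div_iff₀ (by norm_num) (by norm_num)]
        linarith
      norm_num at h9 ⊢
      linarith
  | leaf ty L B st =>
    intro a b c d hOK h k h1 h2 h3 h4
    right
    exact leaf_soundX (by simpa [checkTreeX] using hOK) h1 h2 h3 h4
  | splitH mid l r ihl ihr =>
    intro a b c d hOK h k h1 h2 h3 h4
    simp only [checkTreeX, Bool.and_eq_true, decide_eq_true_eq] at hOK
    obtain ⟨⟨⟨_, _⟩, e1⟩, e2⟩ := hOK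
    rcases le_total h ((mid : ℝ) / 1024) with hm | hm
    · exact ihl _ _ _ _ e1 h k h1 hm h3 h4
    · exact ihr _ _ _ _ e2 h k hm h2 h3 h4
  | splitK mid l r ihl ihr =>
    intro a b c d hOK h k h1 h2 h3 h4
    simp only [checkTreeX, Bool.and_eq_true, decide_eq_true_eq] at hOK
    obtain ⟨⟨⟨_, _⟩, e1⟩, e2⟩ := hOK
    rcases le_total k ((mid : ℝ) / 1024) with hm | hm
    · exact ihl _ _ _ _ e1 h k h1 h2 h3 hm
    · exact ihr _ _ _ _ e2 h k h1 h2 hm h4

end Vale.Agent.Lib.P232.Cells
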