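import Vale.Agent.Lib.P232.Chord
import Vale.Agent.Lib.P232.ExtData

/-! The one-dimensional inequality on the range `V ≤ (527/1024)²`. -/

open Set

noncomputable section

namespace Vale.Agent.Lib.P232

/-- The one-dimensional inequality, for `V ≤ (527/1024)²`. -/
theorem final1DStatement_ext : Final1DStatement ((527 / 1024) ^ 2) := by
  intro V m M hV hV' hm hmV hVM hM
  have hπ := Real.pi_pos
  by_cases hM1 : M ≤ 1 / Real.pi
  · exact Or.inl (final_small_M hV hm hmV hVM hM1)
  by_cases hu : Real.sqrt m ≤ 9 / 100 * Real.sqrt M ∧ M ≤ 2 / Real.pi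
  · exact Or.inr (final_small_u hV hm hmV hVM hu.2 hu.1)
  push Not at hM1
  have hM0 : 0 ≤ M := hV.le.trans hVM
  have hh0 := Real.sqrt_nonneg m
  have hk0 := Real.sqrt_nonneg M
  have hh1 : Real.sqrt m ≤ 527 / 1024 := by
    rw [Real.sqrt_le_left (by norm_num)]
    linarith
  have hk1 : Real.sqrt M ≤ 1 := by
    rw [Real.sqrt_le_one]
    exact hM
  have hk2 : (577 : ℝ) / 1024 ≤ Real.sqrt M := by
    apply Real.le_sqrt_of_sq_le
    have h3 := Real.pi_lt_d4
    have h4 : (332929 : ℝ) / 1048576 ≤ 1 / Real.pi := by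
      rw [le_div_iff₀ hπ]
      norm_num at h3 ⊢
      nlinarith
    norm_num
    linarith
  have hne : ¬ (100 * Real.sqrt m ≤ 9 * Real.sqrt M ∧ Real.pi * Real.sqrt M ^ 2 ≤ 2) := by
    rintro ⟨a, b⟩
    apply hu
    constructor
    · linarith
    · rw [Real.sq_sqrt hM0] at b
      rw [le_div_iff₀ hπ]
      linarith
  have hT := Cells.checkTreeX_sound Cells.cellDataX 0 527 577 1024 Cells.cellDataX_ok
    (Real.sqrt m) (Real.sqrt M) (by simpa using hh0) (by norm_num; linarith)
    (by norm_num; linarith) (by norm_num; linarith)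
  rcases hT with h2 | hB
  · exact absurd h2 hne
  have hs : Real.sqrt m ^ 2 = m := Real.sq_sqrt hm
  have hs2 : Real.sqrt M ^ 2 = M := Real.sq_sqrt hM0
  have := hB V hV hV' (by rw [hs]; exact hmV) (by rw [hs2]; exact hVM)
  rw [hs, hs2] at this
  exact this

end Vale.Agent.Lib.P232
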