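import Vale.Agent.Lib.P232.Chord
import Vale.Agent.Lib.P232.Bulk

/-!
# P232: the one-dimensional inequality, assembled

Three regions of `(m, M)`: `M ≤ 1/π` (chord for `IT`), `√m ≤ .09 √M` with `M ≤ 2/π` (chord for `IE`,
with penalty), and the rest (the certificate `bulk_cover`).
-/

namespace Vale.Agent.Lib.P232

open Real

/-- `577/1024 < √(1/π)`, in squared form. -/
theorem fod_bound : (577 / 1024 : ℝ) ^ 2 * π < 1 := by
  have := Real.pi_lt_d4
  nlinarith

/-- Step 5, on the full range `V ≤ 1/4`. -/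
theorem final1D_quarter : Final1DStatement (1 / 4) := by
  intro V m M hV hV2 hm hmV hVM hM
  by_cases hM1 : M ≤ 1 / π
  · exact Or.inl (final_small_M hV hm hmV hVM hM1)
  have hM0 : 0 < M := lt_of_lt_of_le hV hVM
  have hπ := Real.pi_pos
  have hM1' : 1 < M * π := by
    have : 1 / π < M := not_le.mp hM1
    rwa [div_lt_iff₀ hπ] at this
  set h := √m with hh
  set k := √M with hk
  have hh0 : 0 ≤ h := Real.sqrt_nonneg _
  have hk0 : 0 < k := Real.sqrt_pos.mpr hM0
  have hm2 : h ^ 2 = m := Real.sq_sqrt hm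
  have hM2 : k ^ 2 = M := Real.sq_sqrt hM0.le
  have h12 : h ≤ 1 / 2 := by
    have : h ^ 2 ≤ (1 / 2) ^ 2 := by rw [hm2]; norm_num; linarith
    exact abs_le_of_sq_le_sq' this (by norm_num) |>.2
  have k1 : k ≤ 1 := by
    have : k ^ 2 ≤ 1 ^ 2 := by rw [hM2]; norm_num; exact hM
    exact abs_le_of_sq_le_sq' this (by norm_num) |>.2
  have k0 : 577 / 1024 ≤ k := by
    by_contra hcon
    have hlt : k < 577 / 1024 := not_le.mp hcon
    have h1 : k ^ 2 < (577 / 1024 : ℝ) ^ 2 := by nlinarith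
    have h2 : k ^ 2 * π < (577 / 1024 : ℝ) ^ 2 * π := by nlinarith
    have h3 := fod_bound
    rw [hM2] at h2
    linarith
  by_cases hn : 100 * h ≤ 9 * k ∧ π * k ^ 2 ≤ 2
  · right
    refine final_small_u hV hm hmV hVM ?_ ?_
    · rw [le_div_iff₀ hπ]
      have := hn.2
      rw [hM2] at this
      linarith
    · have := hn.1
      linarith
  · have := Cells.bulk_cover hh0 h12 k0 k1 hn V hV hV2 (by rw [hm2]; exact hmV) (by rw [hM2]; exact hVM)
    rwa [hm2, hM2] at this

end Vale.Agent.Lib.P232
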