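import Vale.Agent.Lib.P232.Defs
import Vale.Agent.Lib.P232.FinalOneD

/-! The one-dimensional inequality, in the form used by the assembly. -/

open Set

noncomputable section

namespace Vale.Agent.Lib.P232

/-- Step 5. -/
theorem final1D {V m M : ℝ} (hV : 0 < V) (hV' : V ≤ 1 / 4) (hm : 0 ≤ m) (hmV : m ≤ V) (hVM : V ≤ M)
    (hM : M ≤ 1) :
    (∃ lam be : ℝ, (∀ s ∈ Icc m M, qpos lam be s ≤ IT s) ∧
      J V ≤ lam * V + be + 2 * ∫ s in m..M, Real.sqrt (1 - (qpos lam be s / IT s) ^ 2)) ∨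
    (∃ lam be : ℝ, (∀ s ∈ Icc m M, qpos lam be s ≤ IE s) ∧
      J V + 4 * m ≤ lam * V + be + 2 * ∫ s in m..M, Real.sqrt (1 - (qpos lam be s / IE s) ^ 2)) := by
  exact final1D_quarter V m M hV hV' hm hmV hVM hM

end Vale.Agent.Lib.P232
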