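import Vale.Agent.Lib.P232.Torus3b
import Vale.Agent.Lib.P232.Lines
import Vale.Agent.Lib.P232.Final1D
import Vale.Agent.Lib.P232.Mollify

/-! JOB MAIN: assembly. -/

open MeasureTheory Set Filter Topology
open scoped ENNReal

noncomputable section

namespace Vale.Agent.Lib.P232

private theorem massT_abs_le {χ : ℝ → ℝ → ℝ → ℝ} (h : Ind3 χ) (t : ℝ) : |massT χ t| ≤ 1 := by
  have := h.massT_mem t
  rw [abs_le]
  constructor <;> linarith [this.1, this.2]

/-- The essential bounds of the mass stay in the unit interval. -/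
private theorem essBounds_mem {χ : ℝ → ℝ → ℝ → ℝ} (h : Ind3 χ) {m M : ℝ}
    (hb : EssBounds (massT χ) m M) : 0 ≤ m ∧ M ≤ 1 := by
  constructor
  · by_contra hm
    have hm := not_le.1 hm
    have h1 := hb.near_m (-m) (by linarith)
    have h2 : {t ∈ Ioc (0 : ℝ) 1 | massT χ t < m + -m} = ∅ := by
      ext t
      simp only [Set.mem_ofPred_eq, mem_empty_iff_false, iff_false, not_and, not_lt]
      intro _
      have := (h.massT_mem t).1
      linarith
    rw [h2] at h1
    simp at h1
  · by_contra hM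
    have hM := not_le.1 hM
    have h1 := hb.near_M (M - 1) (by linarith)
    have h2 : {t ∈ Ioc (0 : ℝ) 1 | M - (M - 1) < massT χ t} = ∅ := by
      ext t
      simp only [Set.mem_ofPred_eq, mem_empty_iff_false, iff_false, not_and, not_lt]
      intro _
      have := (h.massT_mem t).2
      linarith
    rw [h2] at h1
    simp at h1

/-- Assembly at the level of approximants: `exists_direction`, `exists_essBounds` for `massT`,
`final1D`, `slice_T` or `slice_E` with `ft_le_of_essBounds`. -/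
theorem main_approx {U : ℕ → ℝ → ℝ → ℝ → ℝ} {χ : ℝ → ℝ → ℝ → ℝ} (h : Approx3 U χ) {P : ℝ}
    (hP : ∀ k, En3 (U k) ≤ P) (hV : 0 < vol χ) (hV' : vol χ ≤ 1 / 4) : J (vol χ) ≤ P := by
  obtain ⟨U', χ', h', hEn, hvol, hdir⟩ := exists_direction h
  rw [← hvol] at hV hV' ⊢
  have hP' : ∃ᶠ k in atTop, En3 (U' k) ≤ P :=
    Eventually.frequently (Eventually.of_forall fun k => by
      rw [hEn]
      exact hP k)
  obtain ⟨m, M, hmM, hb⟩ := exists_essBounds h'.ind.measurable_massT (massT_abs_le h'.ind)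
  obtain ⟨hm0, hM1⟩ := essBounds_mem h'.ind hb
  have hmean := hb.mean_mem h'.ind.measurable_massT (massT_abs_le h'.ind)
  have hft := ft_le_of_essBounds h'.ind hb
  rcases final1D hV hV' hm0 hmean.1 hmean.2 hM1 with ⟨lam, be, hline, hJ⟩ | ⟨lam, be, hline, hJ⟩
  · exact hJ.trans (slice_T h' hb hm0 hmM hM1 hline hP')
  · have h2 := slice_E h' hb hm0 hmM hM1 hline hP'
    linarith

/-- The theorem. -/
theorem main_perim {E : Set R3} (hE : MeasurableSet E) (hper : IsZ3Periodic E)
    (hV : 0 < (volume (E ∩ Q3)).toReal) (hV' : (volume (E ∩ Q3)).toReal ≤ 1 / 4) :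
    ENNReal.ofReal (J (volume (E ∩ Q3)).toReal) ≤ Perim E := by
  by_cases htop : Perim E = ⊤
  · rw [htop]
    exact le_top
  set P := (Perim E).toReal with hPdef
  have hPE : ENNReal.ofReal P = Perim E := ENNReal.ofReal_toReal htop
  have hφ : ∀ φ : TestField, ∫ p in E ∩ Q3, φ.div p ≤ P := by
    intro φ
    have h1 : ENNReal.ofReal (∫ p in E ∩ Q3, φ.div p) ≤ Perim E :=
      le_iSup (fun φ : TestField => ENNReal.ofReal (∫ p in E ∩ Q3, φ.div p)) φ
    exact (ENNReal.ofReal_le_iff_le_toReal htop).1 h1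
  obtain ⟨ρ, hρ, hA⟩ := exists_kernels hE hper
  have hvol := vol_ind hE hper
  rw [← hvol] at hV hV' ⊢
  have hJ := main_approx hA (fun k => moll_energy (hρ k) hE hper hφ) hV hV'
  rw [← hPE]
  exact ENNReal.ofReal_le_ofReal hJ

end Vale.Agent.Lib.P232
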