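import Vale.Agent.Lib.P232.Cases
import Vale.Agent.Lib.P232.Steiner2

/-! JOB MAINALL: the full statement on `V ≤ 1/2`. -/

open MeasureTheory Set Filter Topology
open scoped ENNReal

noncomputable section

namespace Vale.Agent.Lib.P232

variable {E : Set R3}

private theorem mainall_massT_abs {χ : ℝ → ℝ → ℝ → ℝ} (h : Ind3 χ) (t : ℝ) : |massT χ t| ≤ 1 := by
  have := h.massT_mem t
  rw [abs_le]
  constructor <;> linarith [this.1, this.2]

private theorem mainall_essBounds_mem {χ : ℝ → ℝ → ℝ → ℝ} (h : Ind3 χ) {m M : ℝ}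
    (hb : EssBounds (massT χ) m M) : 0 ≤ m ∧ M ≤ 1 := by
  constructor
  · by_contra hm
    have hm := not_le.1 hm
    have h1 := hb.near_m (-m) (by linarith)
    have h2 : {t ∈ Ioc (0 : ℝ) 1 | massT χ t < m + -m} = ∅ := by
      ext t
      simp only [Set.mem_ofPred_eq, mem_empty_iff_false, iff_false, not_and, not_lt]
      intro _
      have := (h.massT_mem t).1
      linarith
    rw [h2] at h1
    simp at h1
  · by_contra hM
    have hM := not_le.1 hM
    have h1 := hb.near_M (M - 1) (by linarith)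
    have h2 : {t ∈ Ioc (0 : ℝ) 1 | M - (M - 1) < massT χ t} = ∅ := by
      ext t
      simp only [Set.mem_ofPred_eq, mem_empty_iff_false, iff_false, not_and, not_lt]
      intro _
      have := (h.massT_mem t).2
      linarith
    rw [h2] at h1
    simp at h1

/-- The slab range: `slice_T` and `CertSlab`. -/
theorem slab_approx {U : ℕ → ℝ → ℝ → ℝ → ℝ} {χ : ℝ → ℝ → ℝ → ℝ} (h : Approx3 U χ) {P : ℝ}
    (hP : ∀ k, En3 (U k) ≤ P) (hV : 37 / 100 ≤ vol χ) (hV' : vol χ ≤ 1 / 2) : 2 ≤ P := by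
  have hP' : ∃ᶠ k in atTop, En3 (U k) ≤ P :=
    Eventually.frequently (Eventually.of_forall hP)
  obtain ⟨m, M, hmM, hb⟩ := exists_essBounds h.ind.measurable_massT (mainall_massT_abs h.ind)
  obtain ⟨hm0, hM1⟩ := mainall_essBounds_mem h.ind hb
  have hmean := hb.mean_mem h.ind.measurable_massT (mainall_massT_abs h.ind)
  obtain ⟨l, b, hline, hval⟩ := certSlab (vol χ) m M hV hV' hm0 hmean.1 hmean.2 hM1
  exact hval.trans (slice_T h hb hm0 hmM hM1 hline hP')

/-- `V ≤ 1/2`. -/
theorem main_half (hE : MeasurableSet E) (hper : IsZ3Periodic E) (hV : 0 < (volume (E ∩ Q3)).toReal)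
    (hV' : (volume (E ∩ Q3)).toReal ≤ 1 / 2) :
    ENNReal.ofReal (Jf (volume (E ∩ Q3)).toReal) ≤ Perim E := by
  by_cases htop : Perim E = ⊤
  · rw [htop]
    exact le_top
  rcases le_total (volume (E ∩ Q3)).toReal (1 / 4) with h14 | h14
  · refine le_trans (ENNReal.ofReal_le_ofReal (Jf_le_JJ _)) ?_
    exact main_perim hE hper hV h14
  have hvol := vol_ind hE hper
  obtain ⟨E', hE', hper', hmono, hvol', hPerim⟩ := exists_mono hE hper
  have htop' : Perim E' ≠ ⊤ := ne_top_of_le_ne_top htop hPerim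
  set P := (Perim E).toReal with hPdef
  have hPE : ENNReal.ofReal P = Perim E := ENNReal.ofReal_toReal htop
  have hφ : ∀ φ : TestField, ∫ p in E' ∩ Q3, φ.div p ≤ P := by
    intro φ
    have h1 : ENNReal.ofReal (∫ p in E' ∩ Q3, φ.div p) ≤ Perim E :=
      (le_iSup (fun φ : TestField => ENNReal.ofReal (∫ p in E' ∩ Q3, φ.div p)) φ).trans hPerim
    exact (ENNReal.ofReal_le_iff_le_toReal htop).1 h1
  obtain ⟨ρ, hρ, hA⟩ := exists_kernels hE' hper'
  have hEn : ∀ k, En3 (moll (ρ k) E') ≤ P := fun k => moll_energy (hρ k) hE' hper' hφ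
  rw [← hPE]
  apply ENNReal.ofReal_le_ofReal
  rw [← hvol, ← hvol']
  rw [← hvol] at h14 hV'
  rw [← hvol'] at h14 hV'
  rcases le_total (vol (ind E')) (37 / 100) with h37 | h37
  · exact mono_bound hA hmono hEn h14 h37
  · exact (Jf_le_two _).trans (slab_approx hA hEn h37 hV')

end Vale.Agent.Lib.P232
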