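import Vale.Agent.Lib.P232.Main
import Vale.Agent.Lib.P232.Compl
import Vale.Agent.Lib.P232.ExtFinal
import Vale.Agent.Lib.P232.SlabFinal

/-! Second stage: no symmetrization, two volume ranges, and complements. -/

open MeasureTheory Set Filter Topology
open scoped ENNReal

noncomputable section

namespace Vale.Agent.Lib.P232

variable {E : Set R3}

/-- The full target. -/
def Jg (V : ℝ) : ℝ := min (JJ V) 2

private theorem mext_massT_abs {χ : ℝ → ℝ → ℝ → ℝ} (h : Ind3 χ) (t : ℝ) : |massT χ t| ≤ 1 := by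
  have := h.massT_mem t
  rw [abs_le]
  constructor <;> linarith [this.1, this.2]

private theorem mext_essBounds_mem {χ : ℝ → ℝ → ℝ → ℝ} (h : Ind3 χ) {m M : ℝ}
    (hb : EssBounds (massT χ) m M) : 0 ≤ m ∧ M ≤ 1 := by
  constructor
  · by_contra hm
    have hm := not_le.1 hm
    have h1 := hb.near_m (-m) (by linarith)
    have h2 : {t ∈ Ioc (0 : ℝ) 1 | massT χ t < m + -m} = ∅ := by
      ext t
      simp only [Set.mem_ofPred_eq, mem_empty_iff_false, iff_false, not_and, not_lt]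
      intro _
      have := (h.massT_mem t).1
      linarith
    rw [h2] at h1
    simp at h1
  · by_contra hM
    have hM := not_le.1 hM
    have h1 := hb.near_M (M - 1) (by linarith)
    have h2 : {t ∈ Ioc (0 : ℝ) 1 | M - (M - 1) < massT χ t} = ∅ := by
      ext t
      simp only [Set.mem_ofPred_eq, mem_empty_iff_false, iff_false, not_and, not_lt]
      intro _
      have := (h.massT_mem t).2
      linarith
    rw [h2] at h1
    simp at h1

/-- Range `V ≤ (527/1024)²`. -/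
theorem mext_low {U : ℕ → ℝ → ℝ → ℝ → ℝ} {χ : ℝ → ℝ → ℝ → ℝ} (h : Approx3 U χ) {P : ℝ}
    (hP : ∀ k, En3 (U k) ≤ P) (hV : 0 < vol χ) (hV' : vol χ ≤ (527 / 1024) ^ 2) : JJ (vol χ) ≤ P := by
  obtain ⟨U', χ', h', hEn, hvol, hdir⟩ := exists_direction h
  rw [← hvol] at hV hV' ⊢
  have hP' : ∃ᶠ k in atTop, En3 (U' k) ≤ P :=
    Eventually.frequently (Eventually.of_forall fun k => by
      rw [hEn]
      exact hP k)
  obtain ⟨m, M, hmM, hb⟩ := exists_essBounds h'.ind.measurable_massT (mext_massT_abs h'.ind)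
  obtain ⟨hm0, hM1⟩ := mext_essBounds_mem h'.ind hb
  have hmean := hb.mean_mem h'.ind.measurable_massT (mext_massT_abs h'.ind)
  have hft := ft_le_of_essBounds h'.ind hb
  rcases final1DStatement_ext _ m M hV hV' hm0 hmean.1 hmean.2 hM1 with ⟨lam, be, hline, hJ⟩ | ⟨lam, be, hline, hJ⟩
  · exact hJ.trans (slice_T h' hb hm0 hmM hM1 hline hP')
  · have h2 := slice_E h' hb hm0 hmM hM1 hline hP'
    have h3 : lineValue IE lam be (vol χ') m M = lam * vol χ' + be + 2 * ∫ s in m..M,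
        Real.sqrt (1 - (qpos lam be s / IE s) ^ 2) := rfl
    rw [h3] at hJ
    linarith

/-- Range `370/1024 ≤ V ≤ 1/2`. -/
theorem mext_slab {U : ℕ → ℝ → ℝ → ℝ → ℝ} {χ : ℝ → ℝ → ℝ → ℝ} (h : Approx3 U χ) {P : ℝ}
    (hP : ∀ k, En3 (U k) ≤ P) (hV : 370 / 1024 ≤ vol χ) (hV' : vol χ ≤ 1 / 2) : 2 ≤ P := by
  have hP' : ∃ᶠ k in atTop, En3 (U k) ≤ P :=
    Eventually.frequently (Eventually.of_forall hP)
  obtain ⟨m, M, hmM, hb⟩ := exists_essBounds h.ind.measurable_massT (mext_massT_abs h.ind)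
  obtain ⟨hm0, hM1⟩ := mext_essBounds_mem h.ind hb
  have hmean := hb.mean_mem h.ind.measurable_massT (mext_massT_abs h.ind)
  obtain ⟨l, b, hline, hval⟩ := slab_statement hV hV' hm0 hmean.1 hmean.2 hM1
  exact hval.trans (slice_T h hb hm0 hmM hM1 hline hP')

/-- Both ranges, `V ≤ 1/2`. -/
theorem mext_half (hE : MeasurableSet E) (hper : IsZ3Periodic E) (hV : 0 < (volume (E ∩ Q3)).toReal)
    (hV' : (volume (E ∩ Q3)).toReal ≤ 1 / 2)
    (hr : (volume (E ∩ Q3)).toReal ≤ (527 / 1024) ^ 2 ∨ 370 / 1024 ≤ (volume (E ∩ Q3)).toReal) :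
    ENNReal.ofReal (Jg (volume (E ∩ Q3)).toReal) ≤ Perim E := by
  by_cases htop : Perim E = ⊤
  · rw [htop]
    exact le_top
  have hvol := vol_ind hE hper
  set P := (Perim E).toReal with hPdef
  have hPE : ENNReal.ofReal P = Perim E := ENNReal.ofReal_toReal htop
  have hφ : ∀ φ : TestField, ∫ p in E ∩ Q3, φ.div p ≤ P := by
    intro φ
    have h1 : ENNReal.ofReal (∫ p in E ∩ Q3, φ.div p) ≤ Perim E :=
      le_iSup (fun φ : TestField => ENNReal.ofReal (∫ p in E ∩ Q3, φ.div p)) φ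
    exact (ENNReal.ofReal_le_iff_le_toReal htop).1 h1
  obtain ⟨ρ, hρ, hA⟩ := exists_kernels hE hper
  have hEn : ∀ k, En3 (moll (ρ k) E) ≤ P := fun k => moll_energy (hρ k) hE hper hφ
  rw [← hPE]
  apply ENNReal.ofReal_le_ofReal
  rw [← hvol] at hV hV' hr ⊢
  rcases hr with hr | hr
  · exact (min_le_left _ _).trans (mext_low hA hEn hV hr)
  · exact (min_le_right _ _).trans (mext_slab hA hEn hr hV')

/-- All the ranges, by complements. -/
theorem mext_all (hE : MeasurableSet E) (hper : IsZ3Periodic E) (hV : 0 < (volume (E ∩ Q3)).toReal)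
    (hV1 : (volume (E ∩ Q3)).toReal < 1)
    (hr : min (volume (E ∩ Q3)).toReal (1 - (volume (E ∩ Q3)).toReal) ≤ (527 / 1024) ^ 2 ∨
      370 / 1024 ≤ min (volume (E ∩ Q3)).toReal (1 - (volume (E ∩ Q3)).toReal)) :
    ENNReal.ofReal (Jg (min (volume (E ∩ Q3)).toReal (1 - (volume (E ∩ Q3)).toReal))) ≤ Perim E := by
  rcases le_total (volume (E ∩ Q3)).toReal (1 / 2) with h | h
  · have e : min (volume (E ∩ Q3)).toReal (1 - (volume (E ∩ Q3)).toReal) = (volume (E ∩ Q3)).toReal :=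
      min_eq_left (by linarith)
    rw [e] at hr ⊢
    exact mext_half hE hper hV h hr
  · have e : min (volume (E ∩ Q3)).toReal (1 - (volume (E ∩ Q3)).toReal) =
        1 - (volume (E ∩ Q3)).toReal := min_eq_right (by linarith)
    rw [e] at hr ⊢
    have hc := vol_compl (E := E) hE
    have := mext_half (E := Eᶜ) (measurableSet_compl_P232 hE) (isZ3Periodic_compl hper)
      (by rw [hc]; linarith) (by rw [hc]; linarith) (by rw [hc]; exact hr)
    rwa [hc, perim_compl hE hper] at this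

end Vale.Agent.Lib.P232
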