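import Vale.Agent.Lib.P232.Basics

/-! JOB M1: the mollified functions: `moll ρ E x y t = ∫ ρ z 1_E ((x,y,t) - z) dz`, which is `ρ ⋆ 1_E`. -/

open MeasureTheory Set Filter Topology
open scoped ENNReal

noncomputable section

namespace Vale.Agent.Lib.P232

variable {E : Set R3}

/-- A mollifier. -/
structure IsKernel (ρ : R3 → ℝ) : Prop where
  smooth : ContDiff ℝ 2 ρ
  compact : HasCompactSupport ρ
  nonneg : ∀ z, 0 ≤ ρ z
  one : ∫ z, ρ z = 1

open scoped Convolution in
/-- The mollification, as a convolution. -/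
theorem moll_eq_convolution (ρ : R3 → ℝ) (E : Set R3) (x y t : ℝ) :
    moll ρ E x y t =
      (ρ ⋆[ContinuousLinearMap.lsmul ℝ ℝ, (volume : Measure R3)]
        (E.indicator (fun _ => (1 : ℝ)))) (x, y, t) := by
  simp only [moll, convolution, ContinuousLinearMap.lsmul_apply, smul_eq_mul]

theorem volR3_haar : (volume : Measure R3).IsAddHaarMeasure :=
  Measure.prod.instIsAddHaarMeasure (volume : Measure ℝ)
    (Measure.prod (volume : Measure ℝ) (volume : Measure ℝ))

theorem locInt_indicator (hE : MeasurableSet E) :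
    LocallyIntegrable (E.indicator (fun _ => (1 : ℝ))) (volume : Measure R3) :=
  (locallyIntegrable_const (1 : ℝ)).indicator hE

open scoped Convolution in
/-- M1. `moll ρ E` is `C²`, periodic, `[0,1]`-valued. Use `HasCompactSupport.contDiff_convolution_left`
with `ContinuousLinearMap.lsmul ℝ ℝ`, local integrability of the indicator. -/
theorem moll_contDiff {ρ : R3 → ℝ} (hρ : IsKernel ρ) (hE : MeasurableSet E) :
    ContDiff ℝ 2 (fun p : R3 => moll ρ E p.1 p.2.1 p.2.2) := by
  have := volR3_haar
  have h : ContDiff ℝ 2 (ρ ⋆[ContinuousLinearMap.lsmul ℝ ℝ, (volume : Measure R3)]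
      (E.indicator (fun _ => (1 : ℝ)))) :=
    hρ.compact.contDiff_convolution_left (L := ContinuousLinearMap.lsmul ℝ ℝ)
      (μ := (volume : Measure R3)) hρ.smooth (locInt_indicator hE)
  have e : (fun p : R3 => moll ρ E p.1 p.2.1 p.2.2) =
      (ρ ⋆[ContinuousLinearMap.lsmul ℝ ℝ, (volume : Measure R3)]
        (E.indicator (fun _ => (1 : ℝ)))) := by
    funext p
    obtain ⟨x, y, t⟩ := p
    exact moll_eq_convolution ρ E x y t
  rw [e]
  exact h

theorem moll_congr {ρ : R3 → ℝ} {p q : R3}
    (h : ∀ z : R3, (p - z) ∈ E ↔ (q - z) ∈ E) :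
    moll ρ E p.1 p.2.1 p.2.2 = moll ρ E q.1 q.2.1 q.2.2 := by
  simp only [moll]
  congr 1
  funext z
  by_cases hz : (q - z) ∈ E
  · have hz' := (h z).2 hz
    rw [show ((p.1, p.2.1, p.2.2) : R3) = p from rfl, show ((q.1, q.2.1, q.2.2) : R3) = q from rfl,
      indicator_of_mem hz, indicator_of_mem hz']
  · have hz' : (p - z) ∉ E := fun hh => hz ((h z).1 hh)
    rw [show ((p.1, p.2.1, p.2.2) : R3) = p from rfl, show ((q.1, q.2.1, q.2.2) : R3) = q from rfl,
      indicator_of_notMem hz, indicator_of_notMem hz']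

theorem kernel_integrable {ρ : R3 → ℝ} (hρ : IsKernel ρ) : Integrable ρ (volume : Measure R3) :=
  hρ.smooth.continuous.integrable_of_hasCompactSupport hρ.compact

theorem moll_C1P3 {ρ : R3 → ℝ} (hρ : IsKernel ρ) (hE : MeasurableSet E) (hper : IsZ3Periodic E) :
    C1P3 (moll ρ E) := by
  refine ⟨(moll_contDiff hρ hE).of_le (by norm_num), ?_, ?_, ?_, ?_, ?_⟩
  · intro x y t
    refine moll_congr (p := (x + 1, y, t)) (q := (x, y, t)) (fun z => ?_)
    obtain ⟨a, b, c⟩ := z
    have := hper.per_x (x - a) (y - b) (t - c)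
    simpa [Prod.mk_sub_mk, sub_add_eq_add_sub] using this
  · intro x y t
    refine moll_congr (p := (x, y + 1, t)) (q := (x, y, t)) (fun z => ?_)
    obtain ⟨a, b, c⟩ := z
    have := hper.per_y (x - a) (y - b) (t - c)
    simpa [Prod.mk_sub_mk, sub_add_eq_add_sub] using this
  · intro x y t
    refine moll_congr (p := (x, y, t + 1)) (q := (x, y, t)) (fun z => ?_)
    obtain ⟨a, b, c⟩ := z
    have := hper.per_t (x - a) (y - b) (t - c)
    simpa [Prod.mk_sub_mk, sub_add_eq_add_sub] using this
  · intro x y t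
    refine integral_nonneg (fun z => mul_nonneg (hρ.nonneg z) ?_)
    exact indicator_nonneg (fun _ _ => zero_le_one) _
  · intro x y t
    have hle : ∀ z : R3, ρ z * E.indicator (fun _ => (1 : ℝ)) ((x, y, t) - z) ≤ ρ z := by
      intro z
      have h1 : E.indicator (fun _ => (1 : ℝ)) ((x, y, t) - z) ≤ 1 := by
        by_cases hz : ((x, y, t) - z) ∈ E
        · rw [indicator_of_mem hz]
        · rw [indicator_of_notMem hz]; exact zero_le_one
      nlinarith [hρ.nonneg z]
    have := integral_mono_of_nonneg (μ := (volume : Measure R3))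
      (f := fun z => ρ z * E.indicator (fun _ => (1 : ℝ)) ((x, y, t) - z)) (g := ρ)
      (Filter.Eventually.of_forall (fun z => mul_nonneg (hρ.nonneg z)
        (indicator_nonneg (fun _ _ => zero_le_one) _)))
      (kernel_integrable hρ) (Filter.Eventually.of_forall hle)
    rw [hρ.one] at this
    exact this

theorem ind3_ind (hE : MeasurableSet E) (hper : IsZ3Periodic E) : Ind3 (ind E) := by
  refine ⟨?_, ?_, ?_, ?_, ?_⟩
  · have : (fun p : R3 => ind E p.1 p.2.1 p.2.2) = E.indicator (fun _ => (1 : ℝ)) := by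
      funext p
      rfl
    rw [this]
    exact measurable_const.indicator hE
  · intro x y t
    by_cases h : (x, y, t) ∈ E
    · right; simp only [ind]; rw [indicator_of_mem h]
    · left; simp only [ind]; rw [indicator_of_notMem h]
  · intro x y t
    by_cases h : (x, y, t) ∈ E
    · simp only [ind]; rw [indicator_of_mem h, indicator_of_mem ((hper.per_x x y t).2 h)]
    · simp only [ind]; rw [indicator_of_notMem h,
        indicator_of_notMem (fun hh => h ((hper.per_x x y t).1 hh))]
  · intro x y t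
    by_cases h : (x, y, t) ∈ E
    · simp only [ind]; rw [indicator_of_mem h, indicator_of_mem ((hper.per_y x y t).2 h)]
    · simp only [ind]; rw [indicator_of_notMem h,
        indicator_of_notMem (fun hh => h ((hper.per_y x y t).1 hh))]
  · intro x y t
    by_cases h : (x, y, t) ∈ E
    · simp only [ind]; rw [indicator_of_mem h, indicator_of_mem ((hper.per_t x y t).2 h)]
    · simp only [ind]; rw [indicator_of_notMem h,
        indicator_of_notMem (fun hh => h ((hper.per_t x y t).1 hh))]

/-- The bump functions with radii `1/(k+2)`, `2/(k+2)`. -/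
def bumpK (k : ℕ) : ContDiffBump (0 : R3) where
  rIn := 1 / ((k : ℝ) + 2)
  rOut := 2 / ((k : ℝ) + 2)
  rIn_pos := by positivity
  rIn_lt_rOut := by
    have : (0 : ℝ) < (k : ℝ) + 2 := by positivity
    exact div_lt_div_of_pos_right (by norm_num) this

theorem bumpK_isKernel (k : ℕ) : IsKernel ((bumpK k).normed (volume : Measure R3)) where
  smooth := (bumpK k).contDiff_normed
  compact := (bumpK k).hasCompactSupport_normed
  nonneg := fun z => (bumpK k).nonneg_normed z
  one := (bumpK k).integral_normed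

/-- M2. Mollifiers: `ContDiffBump.normed`, radii `1/(k+2)`, `2/(k+2)`;
`ContDiffBump.ae_convolution_tendsto_right_of_locallyIntegrable`. -/
theorem exists_kernels (hE : MeasurableSet E) (hper : IsZ3Periodic E) :
    ∃ ρ : ℕ → R3 → ℝ, (∀ k, IsKernel (ρ k)) ∧ Approx3 (fun k => moll (ρ k) E) (ind E) := by
  refine ⟨fun k => (bumpK k).normed (volume : Measure R3), bumpK_isKernel, ?_⟩
  refine ⟨fun k => moll_C1P3 (bumpK_isKernel k) hE hper, ind3_ind hE hper, ?_⟩
  have hr : Tendsto (fun k : ℕ => (bumpK k).rOut) atTop (𝓝 0) := by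
    have h1 : Tendsto (fun k : ℕ => (2 : ℝ) / ((k : ℝ) + 2)) atTop (𝓝 0) := by
      have h2 : Tendsto (fun k : ℕ => (k : ℝ) + 2) atTop atTop :=
        tendsto_atTop_add_const_right _ _ tendsto_natCast_atTop_atTop
      exact h2.const_div_atTop 2
    exact h1
  have hK : ∀ᶠ k : ℕ in atTop, (bumpK k).rOut ≤ (2 : ℝ) * (bumpK k).rIn := by
    refine Filter.Eventually.of_forall (fun k => ?_)
    show (2 : ℝ) / ((k : ℝ) + 2) ≤ 2 * (1 / ((k : ℝ) + 2))
    rw [mul_one_div]
  have := volR3_haar
  have := ContDiffBump.ae_convolution_tendsto_right_of_locallyIntegrable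
    (μ := (volume : Measure R3)) hr hK (locInt_indicator hE)
  filter_upwards [this] with p hp
  obtain ⟨x, y, t⟩ := p
  have e : (fun k => moll ((bumpK k).normed (volume : Measure R3)) E x y t) = _ :=
    funext (fun k => moll_eq_convolution _ E x y t)
  show Tendsto (fun k => moll ((bumpK k).normed (volume : Measure R3)) E x y t) atTop
    (𝓝 (E.indicator (fun _ => (1 : ℝ)) (x, y, t)))
  rw [e]
  exact hp

end Vale.Agent.Lib.P232
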