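import Vale.Agent.Lib.P232.Mollify1

/-! JOB M2: periodic integration by parts on the cube, cube integrals as iterated integrals. -/

open MeasureTheory Set Filter Topology
open scoped ENNReal

noncomputable section

namespace Vale.Agent.Lib.P232

variable {E : Set R3}

/-! ### iterated integrals -/

private abbrev mu01 : Measure ℝ := volume.restrict (Ico (0 : ℝ) 1)

private theorem m2_ico (f : ℝ → ℝ) : ∫ x, f x ∂mu01 = ∫ x in (0 : ℝ)..1, f x := by
  rw [intervalIntegral.integral_of_le zero_le_one, integral_Ico_eq_integral_Ioo,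
    integral_Ioc_eq_integral_Ioo]

private theorem m2_restrict : volume.restrict Q3 = mu01.prod (mu01.prod mu01) := by
  unfold Q3 mu01
  rw [Measure.prod_restrict, Measure.prod_restrict]
  rfl

private theorem m2_restrict2 :
    (volume : Measure (ℝ × ℝ)).restrict (Ico (0 : ℝ) 1 ×ˢ Ico (0 : ℝ) 1) = mu01.prod mu01 := by
  unfold mu01
  rw [Measure.prod_restrict]
  rfl

private theorem m2_int_cont {F : R3 → ℝ} (hF : Continuous F) : IntegrableOn F Q3 := by
  have h1 : IntegrableOn F (Icc (0 : ℝ) 1 ×ˢ (Icc (0 : ℝ) 1 ×ˢ Icc (0 : ℝ) 1)) :=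
    hF.continuousOn.integrableOn_compact (isCompact_Icc.prod (isCompact_Icc.prod isCompact_Icc))
  refine h1.mono_set ?_
  exact prod_mono Ico_subset_Icc_self (prod_mono Ico_subset_Icc_self Ico_subset_Icc_self)

private theorem m2_int_slice {F : R3 → ℝ} (hF : Continuous F) (x : ℝ) :
    Integrable (fun q : ℝ × ℝ => F (x, q)) (mu01.prod mu01) := by
  have hc : Continuous (fun q : ℝ × ℝ => F (x, q)) := hF.comp (by fun_prop)
  have h1 : IntegrableOn (fun q : ℝ × ℝ => F (x, q)) (Icc (0 : ℝ) 1 ×ˢ Icc (0 : ℝ) 1) :=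
    hc.continuousOn.integrableOn_compact (isCompact_Icc.prod isCompact_Icc)
  rw [← m2_restrict2]
  exact h1.mono_set (prod_mono Ico_subset_Icc_self Ico_subset_Icc_self)

/-- Cube integral, `x` innermost, for integrable functions. -/
private theorem m2_formA {F : R3 → ℝ} (hF : IntegrableOn F Q3) :
    ∫ p in Q3, F p = ∫ t in (0 : ℝ)..1, ∫ y in (0 : ℝ)..1, ∫ x in (0 : ℝ)..1, F (x, y, t) := by
  have hi : Integrable F (mu01.prod (mu01.prod mu01)) := by
    rw [← m2_restrict]
    exact hF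
  rw [m2_restrict, integral_prod_symm _ hi, integral_prod_symm _ hi.integral_prod_right, m2_ico]
  refine intervalIntegral.integral_congr fun t _ => ?_
  rw [m2_ico]
  refine intervalIntegral.integral_congr fun y _ => ?_
  rw [m2_ico]

/-- Cube integral, `y` innermost, for continuous functions. -/
private theorem m2_formB {F : R3 → ℝ} (hF : Continuous F) :
    ∫ p in Q3, F p = ∫ x in (0 : ℝ)..1, ∫ t in (0 : ℝ)..1, ∫ y in (0 : ℝ)..1, F (x, y, t) := by
  have hi : Integrable F (mu01.prod (mu01.prod mu01)) := by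
    rw [← m2_restrict]
    exact m2_int_cont hF
  rw [m2_restrict, integral_prod _ hi, m2_ico]
  refine intervalIntegral.integral_congr fun x _ => ?_
  rw [integral_prod_symm _ (m2_int_slice hF x), m2_ico]
  refine intervalIntegral.integral_congr fun t _ => ?_
  rw [m2_ico]

/-- Cube integral, `t` innermost, for continuous functions. -/
private theorem m2_formC {F : R3 → ℝ} (hF : Continuous F) :
    ∫ p in Q3, F p = ∫ x in (0 : ℝ)..1, ∫ y in (0 : ℝ)..1, ∫ t in (0 : ℝ)..1, F (x, y, t) := by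
  have hi : Integrable F (mu01.prod (mu01.prod mu01)) := by
    rw [← m2_restrict]
    exact m2_int_cont hF
  rw [m2_restrict, integral_prod _ hi, m2_ico]
  refine intervalIntegral.integral_congr fun x _ => ?_
  rw [integral_prod _ (m2_int_slice hF x), m2_ico]
  refine intervalIntegral.integral_congr fun y _ => ?_
  rw [m2_ico]

/-! ### one dimensional integration by parts -/

private theorem m2_ibp1 {f g : ℝ → ℝ} (hf : ContDiff ℝ 1 f) (hg : ContDiff ℝ 1 g)
    (pf : f 1 = f 0) (pg : g 1 = g 0) :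
    ∫ x in (0 : ℝ)..1, deriv f x * g x = -∫ x in (0 : ℝ)..1, f x * deriv g x := by
  have hfd : Continuous (deriv f) := hf.continuous_deriv le_rfl
  have hgd : Continuous (deriv g) := hg.continuous_deriv le_rfl
  have h := intervalIntegral.integral_deriv_mul_eq_sub (a := 0) (b := 1) (u := f) (v := g)
    (u' := deriv f) (v' := deriv g)
    (fun x _ => (hf.differentiable one_ne_zero x).hasDerivAt)
    (fun x _ => (hg.differentiable one_ne_zero x).hasDerivAt)
    (hfd.intervalIntegrable _ _) (hgd.intervalIntegrable _ _)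
  have hc1 : Continuous (fun x => deriv f x * g x) := hfd.mul hg.continuous
  have hc2 : Continuous (fun x => f x * deriv g x) := hf.continuous.mul hgd
  rw [intervalIntegral.integral_add (hc1.intervalIntegrable _ _) (hc2.intervalIntegrable _ _),
    pf, pg] at h
  linarith

/-! ### partial derivatives of `C¹` functions of three variables -/

private theorem m2_dx {u : R3 → ℝ} (hu : ContDiff ℝ 1 u) (x y t : ℝ) :
    HasDerivAt (fun s => u (s, y, t)) (fderiv ℝ u (x, y, t) ((1 : ℝ), (0 : ℝ), (0 : ℝ))) x := by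
  have h1 : HasFDerivAt u (fderiv ℝ u (x, y, t)) (x, y, t) :=
    (hu.differentiable one_ne_zero _).hasFDerivAt
  have h2 : HasDerivAt (fun s : ℝ => ((s, y, t) : R3)) ((1 : ℝ), (0 : ℝ), (0 : ℝ)) x :=
    (hasDerivAt_id x).prodMk ((hasDerivAt_const x y).prodMk (hasDerivAt_const x t))
  exact h1.comp_hasDerivAt x h2

private theorem m2_dy {u : R3 → ℝ} (hu : ContDiff ℝ 1 u) (x y t : ℝ) :
    HasDerivAt (fun s => u (x, s, t)) (fderiv ℝ u (x, y, t) ((0 : ℝ), (1 : ℝ), (0 : ℝ))) y := by
  have h1 : HasFDerivAt u (fderiv ℝ u (x, y, t)) (x, y, t) :=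
    (hu.differentiable one_ne_zero _).hasFDerivAt
  have h2 : HasDerivAt (fun s : ℝ => ((x, s, t) : R3)) ((0 : ℝ), (1 : ℝ), (0 : ℝ)) y :=
    (hasDerivAt_const y x).prodMk ((hasDerivAt_id y).prodMk (hasDerivAt_const y t))
  exact h1.comp_hasDerivAt y h2

private theorem m2_dt {u : R3 → ℝ} (hu : ContDiff ℝ 1 u) (x y t : ℝ) :
    HasDerivAt (fun s => u (x, y, s)) (fderiv ℝ u (x, y, t) ((0 : ℝ), (0 : ℝ), (1 : ℝ))) t := by
  have h1 : HasFDerivAt u (fderiv ℝ u (x, y, t)) (x, y, t) :=
    (hu.differentiable one_ne_zero _).hasFDerivAt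
  have h2 : HasDerivAt (fun s : ℝ => ((x, y, s) : R3)) ((0 : ℝ), (0 : ℝ), (1 : ℝ)) t :=
    (hasDerivAt_const t x).prodMk ((hasDerivAt_const t y).prodMk (hasDerivAt_id t))
  exact h1.comp_hasDerivAt t h2

private theorem m2_cont_dx {u : R3 → ℝ} (hu : ContDiff ℝ 1 u) :
    Continuous (fun p : R3 => deriv (fun s => u (s, p.2.1, p.2.2)) p.1) := by
  have : (fun p : R3 => deriv (fun s => u (s, p.2.1, p.2.2)) p.1) =
      fun p => fderiv ℝ u p ((1 : ℝ), (0 : ℝ), (0 : ℝ)) := by
    funext p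
    exact (m2_dx hu p.1 p.2.1 p.2.2).deriv
  rw [this]
  exact (hu.continuous_fderiv one_ne_zero).clm_apply continuous_const

private theorem m2_cont_dy {u : R3 → ℝ} (hu : ContDiff ℝ 1 u) :
    Continuous (fun p : R3 => deriv (fun s => u (p.1, s, p.2.2)) p.2.1) := by
  have : (fun p : R3 => deriv (fun s => u (p.1, s, p.2.2)) p.2.1) =
      fun p => fderiv ℝ u p ((0 : ℝ), (1 : ℝ), (0 : ℝ)) := by
    funext p
    exact (m2_dy hu p.1 p.2.1 p.2.2).deriv
  rw [this]
  exact (hu.continuous_fderiv one_ne_zero).clm_apply continuous_const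

private theorem m2_cont_dt {u : R3 → ℝ} (hu : ContDiff ℝ 1 u) :
    Continuous (fun p : R3 => deriv (fun s => u (p.1, p.2.1, s)) p.2.2) := by
  have : (fun p : R3 => deriv (fun s => u (p.1, p.2.1, s)) p.2.2) =
      fun p => fderiv ℝ u p ((0 : ℝ), (0 : ℝ), (1 : ℝ)) := by
    funext p
    exact (m2_dt hu p.1 p.2.1 p.2.2).deriv
  rw [this]
  exact (hu.continuous_fderiv one_ne_zero).clm_apply continuous_const

private theorem m2_line_x {u : R3 → ℝ} (hu : ContDiff ℝ 1 u) (y t : ℝ) :
    ContDiff ℝ 1 (fun s => u (s, y, t)) :=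
  hu.comp (contDiff_id.prodMk (contDiff_const.prodMk contDiff_const))

private theorem m2_line_y {u : R3 → ℝ} (hu : ContDiff ℝ 1 u) (x t : ℝ) :
    ContDiff ℝ 1 (fun s => u (x, s, t)) :=
  hu.comp (contDiff_const.prodMk (contDiff_id.prodMk contDiff_const))

private theorem m2_line_t {u : R3 → ℝ} (hu : ContDiff ℝ 1 u) (x y : ℝ) :
    ContDiff ℝ 1 (fun s => u (x, y, s)) :=
  hu.comp (contDiff_const.prodMk (contDiff_const.prodMk contDiff_id))

/-- M3a. Periodic integration by parts on the cube, in the three directions. -/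
theorem periodic_ibp_x {u ψ : R3 → ℝ} (hu : ContDiff ℝ 1 u) (hψ : ContDiff ℝ 1 ψ)
    (pu : IsZ3PeriodicFun u) (pψ : IsZ3PeriodicFun ψ) :
    ∫ p in Q3, deriv (fun s => u (s, p.2.1, p.2.2)) p.1 * ψ p =
      -∫ p in Q3, u p * deriv (fun s => ψ (s, p.2.1, p.2.2)) p.1 := by
  have hc1 : Continuous (fun p : R3 => deriv (fun s => u (s, p.2.1, p.2.2)) p.1 * ψ p) :=
    (m2_cont_dx hu).mul hψ.continuous
  have hc2 : Continuous (fun p : R3 => u p * deriv (fun s => ψ (s, p.2.1, p.2.2)) p.1) :=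
    hu.continuous.mul (m2_cont_dx hψ)
  rw [m2_formA (m2_int_cont hc1), m2_formA (m2_int_cont hc2), ← intervalIntegral.integral_neg]
  refine intervalIntegral.integral_congr fun t _ => ?_
  rw [← intervalIntegral.integral_neg]
  refine intervalIntegral.integral_congr fun y _ => ?_
  refine m2_ibp1 (m2_line_x hu y t) (m2_line_x hψ y t) ?_ ?_
  · simpa using pu.per_x 0 y t
  · simpa using pψ.per_x 0 y t

theorem periodic_ibp_y {u ψ : R3 → ℝ} (hu : ContDiff ℝ 1 u) (hψ : ContDiff ℝ 1 ψ)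
    (pu : IsZ3PeriodicFun u) (pψ : IsZ3PeriodicFun ψ) :
    ∫ p in Q3, deriv (fun s => u (p.1, s, p.2.2)) p.2.1 * ψ p =
      -∫ p in Q3, u p * deriv (fun s => ψ (p.1, s, p.2.2)) p.2.1 := by
  have hc1 : Continuous (fun p : R3 => deriv (fun s => u (p.1, s, p.2.2)) p.2.1 * ψ p) :=
    (m2_cont_dy hu).mul hψ.continuous
  have hc2 : Continuous (fun p : R3 => u p * deriv (fun s => ψ (p.1, s, p.2.2)) p.2.1) :=
    hu.continuous.mul (m2_cont_dy hψ)
  rw [m2_formB hc1, m2_formB hc2, ← intervalIntegral.integral_neg]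
  refine intervalIntegral.integral_congr fun x _ => ?_
  rw [← intervalIntegral.integral_neg]
  refine intervalIntegral.integral_congr fun t _ => ?_
  refine m2_ibp1 (m2_line_y hu x t) (m2_line_y hψ x t) ?_ ?_
  · simpa using pu.per_y x 0 t
  · simpa using pψ.per_y x 0 t

theorem periodic_ibp_t {u ψ : R3 → ℝ} (hu : ContDiff ℝ 1 u) (hψ : ContDiff ℝ 1 ψ)
    (pu : IsZ3PeriodicFun u) (pψ : IsZ3PeriodicFun ψ) :
    ∫ p in Q3, deriv (fun s => u (p.1, p.2.1, s)) p.2.2 * ψ p =
      -∫ p in Q3, u p * deriv (fun s => ψ (p.1, p.2.1, s)) p.2.2 := by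
  have hc1 : Continuous (fun p : R3 => deriv (fun s => u (p.1, p.2.1, s)) p.2.2 * ψ p) :=
    (m2_cont_dt hu).mul hψ.continuous
  have hc2 : Continuous (fun p : R3 => u p * deriv (fun s => ψ (p.1, p.2.1, s)) p.2.2) :=
    hu.continuous.mul (m2_cont_dt hψ)
  rw [m2_formC hc1, m2_formC hc2, ← intervalIntegral.integral_neg]
  refine intervalIntegral.integral_congr fun x _ => ?_
  rw [← intervalIntegral.integral_neg]
  refine intervalIntegral.integral_congr fun y _ => ?_
  refine m2_ibp1 (m2_line_t hu x y) (m2_line_t hψ x y) ?_ ?_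
  · simpa using pu.per_t x y 0
  · simpa using pψ.per_t x y 0

/-- The cube integral is the iterated integral. -/
theorem setIntegral_Q3 {F : R3 → ℝ} (hF : Continuous F) :
    ∫ p in Q3, F p = ∫ t in (0 : ℝ)..1, ∫ y in (0 : ℝ)..1, ∫ x in (0 : ℝ)..1, F (x, y, t) :=
  m2_formA (m2_int_cont hF)

/-- The volume is the iterated integral of the indicator. -/
theorem vol_ind (hE : MeasurableSet E) (hper : IsZ3Periodic E) :
    vol (ind E) = (volume (E ∩ Q3)).toReal := by
  have hQ3 : MeasurableSet Q3 :=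
    measurableSet_Ico.prod (measurableSet_Ico.prod measurableSet_Ico)
  have hQfin : volume Q3 < ⊤ := by
    have h1 : Q3 ⊆ (Icc (0 : ℝ) 1 ×ˢ (Icc (0 : ℝ) 1 ×ˢ Icc (0 : ℝ) 1)) :=
      prod_mono Ico_subset_Icc_self (prod_mono Ico_subset_Icc_self Ico_subset_Icc_self)
    exact lt_of_le_of_lt (measure_mono h1)
      (isCompact_Icc.prod (isCompact_Icc.prod isCompact_Icc)).measure_lt_top
  have hint : IntegrableOn (E.indicator (fun _ => (1 : ℝ))) Q3 :=
    (integrableOn_const hQfin.ne).indicator hE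
  have h1 := m2_formA hint
  have h2 : ∫ p in Q3, E.indicator (fun _ => (1 : ℝ)) p = (volume (E ∩ Q3)).toReal := by
    rw [setIntegral_indicator hE, setIntegral_const, smul_eq_mul, mul_one, Measure.real, inter_comm]
  rw [← h2, h1]
  rfl

end Vale.Agent.Lib.P232
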