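import Vale.Agent.Lib.P232.Mollify3

/-! JOB M4: the energy bound. -/

open MeasureTheory Set Filter Topology
open scoped ENNReal

noncomputable section

namespace Vale.Agent.Lib.P232

variable {E : Set R3}

/-- Unit vectors. -/
def m4e1 : R3 := (1, 0, 0)
def m4e2 : R3 := (0, 1, 0)
def m4e3 : R3 := (0, 0, 1)

theorem m4_dx {g : R3 → ℝ} (hg : Differentiable ℝ g) (p : R3) :
    deriv (fun s => g (s, p.2.1, p.2.2)) p.1 = fderiv ℝ g p m4e1 := by
  have h : HasDerivAt (fun s : ℝ => ((s, p.2.1, p.2.2) : R3)) m4e1 p.1 :=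
    (hasDerivAt_id p.1).prodMk (hasDerivAt_const p.1 (p.2.1, p.2.2))
  exact ((hg p).hasFDerivAt.comp_hasDerivAt p.1 h).deriv

theorem m4_dy {g : R3 → ℝ} (hg : Differentiable ℝ g) (p : R3) :
    deriv (fun s => g (p.1, s, p.2.2)) p.2.1 = fderiv ℝ g p m4e2 := by
  have h : HasDerivAt (fun s : ℝ => ((p.1, s, p.2.2) : R3)) m4e2 p.2.1 :=
    (hasDerivAt_const p.2.1 p.1).prodMk ((hasDerivAt_id p.2.1).prodMk (hasDerivAt_const p.2.1 p.2.2))
  exact ((hg p).hasFDerivAt.comp_hasDerivAt p.2.1 h).deriv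

theorem m4_dt {g : R3 → ℝ} (hg : Differentiable ℝ g) (p : R3) :
    deriv (fun s => g (p.1, p.2.1, s)) p.2.2 = fderiv ℝ g p m4e3 := by
  have h : HasDerivAt (fun s : ℝ => ((p.1, p.2.1, s) : R3)) m4e3 p.2.2 :=
    (hasDerivAt_const p.2.2 p.1).prodMk ((hasDerivAt_const p.2.2 p.2.1).prodMk (hasDerivAt_id p.2.2))
  exact ((hg p).hasFDerivAt.comp_hasDerivAt p.2.2 h).deriv

theorem m4_per_dx {u : R3 → ℝ} (pu : IsZ3PeriodicFun u) :
    IsZ3PeriodicFun (fun p : R3 => deriv (fun s => u (s, p.2.1, p.2.2)) p.1) where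
  per_x x y t := by
    have h : (fun s => u (s + 1, y, t)) = fun s => u (s, y, t) := funext fun s => pu.per_x s y t
    show deriv (fun s => u (s, y, t)) (x + 1) = deriv (fun s => u (s, y, t)) x
    rw [← deriv_comp_add_const (fun s => u (s, y, t)) 1 x, h]
  per_y x y t := by
    have h : (fun s => u (s, y + 1, t)) = fun s => u (s, y, t) := funext fun s => pu.per_y s y t
    show deriv (fun s => u (s, y + 1, t)) x = deriv (fun s => u (s, y, t)) x
    rw [h]
  per_t x y t := by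
    have h : (fun s => u (s, y, t + 1)) = fun s => u (s, y, t) := funext fun s => pu.per_t s y t
    show deriv (fun s => u (s, y, t + 1)) x = deriv (fun s => u (s, y, t)) x
    rw [h]

theorem m4_per_dy {u : R3 → ℝ} (pu : IsZ3PeriodicFun u) :
    IsZ3PeriodicFun (fun p : R3 => deriv (fun s => u (p.1, s, p.2.2)) p.2.1) where
  per_x x y t := by
    have h : (fun s => u (x + 1, s, t)) = fun s => u (x, s, t) := funext fun s => pu.per_x x s t
    show deriv (fun s => u (x + 1, s, t)) y = deriv (fun s => u (x, s, t)) y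
    rw [h]
  per_y x y t := by
    have h : (fun s => u (x, s + 1, t)) = fun s => u (x, s, t) := funext fun s => pu.per_y x s t
    show deriv (fun s => u (x, s, t)) (y + 1) = deriv (fun s => u (x, s, t)) y
    rw [← deriv_comp_add_const (fun s => u (x, s, t)) 1 y, h]
  per_t x y t := by
    have h : (fun s => u (x, s, t + 1)) = fun s => u (x, s, t) := funext fun s => pu.per_t x s t
    show deriv (fun s => u (x, s, t + 1)) y = deriv (fun s => u (x, s, t)) y
    rw [h]

theorem m4_per_dt {u : R3 → ℝ} (pu : IsZ3PeriodicFun u) :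
    IsZ3PeriodicFun (fun p : R3 => deriv (fun s => u (p.1, p.2.1, s)) p.2.2) where
  per_x x y t := by
    have h : (fun s => u (x + 1, y, s)) = fun s => u (x, y, s) := funext fun s => pu.per_x x y s
    show deriv (fun s => u (x + 1, y, s)) t = deriv (fun s => u (x, y, s)) t
    rw [h]
  per_y x y t := by
    have h : (fun s => u (x, y + 1, s)) = fun s => u (x, y, s) := funext fun s => pu.per_y x y s
    show deriv (fun s => u (x, y + 1, s)) t = deriv (fun s => u (x, y, s)) t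
    rw [h]
  per_t x y t := by
    have h : (fun s => u (x, y, s + 1)) = fun s => u (x, y, s) := funext fun s => pu.per_t x y s
    show deriv (fun s => u (x, y, s)) (t + 1) = deriv (fun s => u (x, y, s)) t
    rw [← deriv_comp_add_const (fun s => u (x, y, s)) 1 t, h]

theorem m4_integrableOn {f : R3 → ℝ} (hf : Continuous f) : IntegrableOn f Q3 := by
  have hK : IsCompact (Icc (0 : ℝ) 1 ×ˢ (Icc (0 : ℝ) 1 ×ˢ Icc (0 : ℝ) 1)) :=
    isCompact_Icc.prod (isCompact_Icc.prod isCompact_Icc)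
  refine (hf.continuousOn.integrableOn_compact hK).mono_set ?_
  exact prod_mono Ico_subset_Icc_self (prod_mono Ico_subset_Icc_self Ico_subset_Icc_self)

theorem m4_vol : volume Q3 = 1 := by
  unfold Q3
  rw [Measure.volume_eq_prod, Measure.prod_prod, Measure.volume_eq_prod, Measure.prod_prod]
  simp

/-- The main estimate for fixed `ε`. -/
theorem m4_step {ρ : R3 → ℝ} (hρ : IsKernel ρ) (hE : MeasurableSet E) (hper : IsZ3Periodic E)
    {P : ℝ} (hP : ∀ φ : TestField, ∫ p in E ∩ Q3, φ.div p ≤ P) {ε : ℝ} (hε : 0 < ε) :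
    ∫ p in Q3, Real.sqrt (deriv (fun s => moll ρ E s p.2.1 p.2.2) p.1 ^ 2 +
        deriv (fun s => moll ρ E p.1 s p.2.2) p.2.1 ^ 2 +
        deriv (fun s => moll ρ E p.1 p.2.1 s) p.2.2 ^ 2) ≤ P + ε := by
  set u : R3 → ℝ := fun p => moll ρ E p.1 p.2.1 p.2.2 with hu
  have hu2 : ContDiff ℝ 2 u := moll_contDiff hρ hE
  have hu1 : ContDiff ℝ 1 u := hu2.of_le (by norm_num)
  have hdu : Differentiable ℝ u := hu1.differentiable (by norm_num)
  have hC := moll_C1P3 hρ hE hper
  have pu : IsZ3PeriodicFun u := ⟨hC.per_x, hC.per_y, hC.per_t⟩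
  -- the partial derivatives
  set G₁ : R3 → ℝ := fun p => deriv (fun s => u (s, p.2.1, p.2.2)) p.1 with hG₁
  set G₂ : R3 → ℝ := fun p => deriv (fun s => u (p.1, s, p.2.2)) p.2.1 with hG₂
  set G₃ : R3 → ℝ := fun p => deriv (fun s => u (p.1, p.2.1, s)) p.2.2 with hG₃
  have hfd : ContDiff ℝ 1 (fderiv ℝ u) := hu2.fderiv_right (by norm_num)
  have cG₁ : ContDiff ℝ 1 G₁ := by
    have h : G₁ = fun p => fderiv ℝ u p m4e1 := funext fun p => m4_dx hdu p
    rw [h]; exact hfd.clm_apply contDiff_const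
  have cG₂ : ContDiff ℝ 1 G₂ := by
    have h : G₂ = fun p => fderiv ℝ u p m4e2 := funext fun p => m4_dy hdu p
    rw [h]; exact hfd.clm_apply contDiff_const
  have cG₃ : ContDiff ℝ 1 G₃ := by
    have h : G₃ = fun p => fderiv ℝ u p m4e3 := funext fun p => m4_dt hdu p
    rw [h]; exact hfd.clm_apply contDiff_const
  have pG₁ : IsZ3PeriodicFun G₁ := m4_per_dx pu
  have pG₂ : IsZ3PeriodicFun G₂ := m4_per_dy pu
  have pG₃ : IsZ3PeriodicFun G₃ := m4_per_dt pu
  -- the denominator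
  set R : R3 → ℝ := fun p => G₁ p ^ 2 + G₂ p ^ 2 + G₃ p ^ 2 + ε ^ 2 with hR
  have Rpos : ∀ p, 0 < R p := fun p => by
    have : 0 < ε ^ 2 := by positivity
    simp only [hR]; positivity
  set D : R3 → ℝ := fun p => Real.sqrt (R p) with hD
  have Dpos : ∀ p, 0 < D p := fun p => Real.sqrt_pos.mpr (Rpos p)
  have cR : ContDiff ℝ 1 R := ((cG₁.pow 2).add (cG₂.pow 2)).add (cG₃.pow 2) |>.add contDiff_const
  have cD : ContDiff ℝ 1 D := cR.sqrt (fun p => (Rpos p).ne')
  have pD : IsZ3PeriodicFun D := by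
    refine ⟨fun x y t => ?_, fun x y t => ?_, fun x y t => ?_⟩
    · simp only [hD, hR, pG₁.per_x, pG₂.per_x, pG₃.per_x]
    · simp only [hD, hR, pG₁.per_y, pG₂.per_y, pG₃.per_y]
    · simp only [hD, hR, pG₁.per_t, pG₂.per_t, pG₃.per_t]
  have hper_div : ∀ {G : R3 → ℝ}, IsZ3PeriodicFun G → IsZ3PeriodicFun (fun p => G p / D p) := by
    intro G pG
    refine ⟨fun x y t => ?_, fun x y t => ?_, fun x y t => ?_⟩
    · simp only [pG.per_x, pD.per_x]
    · simp only [pG.per_y, pD.per_y]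
    · simp only [pG.per_t, pD.per_t]
  have cψ : ∀ {G : R3 → ℝ}, ContDiff ℝ 1 G → ContDiff ℝ 1 (fun p => G p / D p) := fun hG =>
    hG.div cD (fun p => (Dpos p).ne')
  have hsq : ∀ p, D p ^ 2 = R p := fun p => Real.sq_sqrt (Rpos p).le
  -- the test field
  let φ : TestField :=
    { f₁ := fun p => G₁ p / D p
      f₂ := fun p => G₂ p / D p
      f₃ := fun p => G₃ p / D p
      c₁ := cψ cG₁
      c₂ := cψ cG₂
      c₃ := cψ cG₃
      p₁ := hper_div pG₁
      p₂ := hper_div pG₂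
      p₃ := hper_div pG₃
      norm_le := by
        intro p
        have h1 := Dpos p
        have h2 : (G₁ p / D p) ^ 2 + (G₂ p / D p) ^ 2 + (G₃ p / D p) ^ 2 =
            (G₁ p ^ 2 + G₂ p ^ 2 + G₃ p ^ 2) / D p ^ 2 := by
          field_simp
        rw [h2, div_le_one (by positivity), hsq p]
        have : 0 ≤ ε ^ 2 := by positivity
        simp only [hR]
        linarith }
  have hdual := moll_dual hρ hE hper hP φ
  -- partial derivatives of the field are continuous
  have cdx : ∀ {g : R3 → ℝ}, ContDiff ℝ 1 g →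
      Continuous (fun p : R3 => deriv (fun s => g (s, p.2.1, p.2.2)) p.1) := by
    intro g hg
    have h : (fun p : R3 => deriv (fun s => g (s, p.2.1, p.2.2)) p.1) =
        fun p => fderiv ℝ g p m4e1 := funext fun p => m4_dx (hg.differentiable (by norm_num)) p
    rw [h]
    exact (hg.continuous_fderiv (by norm_num)).clm_apply continuous_const
  have cdy : ∀ {g : R3 → ℝ}, ContDiff ℝ 1 g →
      Continuous (fun p : R3 => deriv (fun s => g (p.1, s, p.2.2)) p.2.1) := by
    intro g hg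
    have h : (fun p : R3 => deriv (fun s => g (p.1, s, p.2.2)) p.2.1) =
        fun p => fderiv ℝ g p m4e2 := funext fun p => m4_dy (hg.differentiable (by norm_num)) p
    rw [h]
    exact (hg.continuous_fderiv (by norm_num)).clm_apply continuous_const
  have cdt : ∀ {g : R3 → ℝ}, ContDiff ℝ 1 g →
      Continuous (fun p : R3 => deriv (fun s => g (p.1, p.2.1, s)) p.2.2) := by
    intro g hg
    have h : (fun p : R3 => deriv (fun s => g (p.1, p.2.1, s)) p.2.2) =
        fun p => fderiv ℝ g p m4e3 := funext fun p => m4_dt (hg.differentiable (by norm_num)) p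
    rw [h]
    exact (hg.continuous_fderiv (by norm_num)).clm_apply continuous_const
  have cu : Continuous u := hu1.continuous
  have cψ₁ := cψ cG₁
  have cψ₂ := cψ cG₂
  have cψ₃ := cψ cG₃
  -- integration by parts
  have ibp1 := periodic_ibp_x hu1 cψ₁ pu (hper_div pG₁)
  have ibp2 := periodic_ibp_y hu1 cψ₂ pu (hper_div pG₂)
  have ibp3 := periodic_ibp_t hu1 cψ₃ pu (hper_div pG₃)
  have i1 : IntegrableOn (fun p => G₁ p * (G₁ p / D p)) Q3 :=
    m4_integrableOn (cG₁.continuous.mul cψ₁.continuous)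
  have i2 : IntegrableOn (fun p => G₂ p * (G₂ p / D p)) Q3 :=
    m4_integrableOn (cG₂.continuous.mul cψ₂.continuous)
  have i3 : IntegrableOn (fun p => G₃ p * (G₃ p / D p)) Q3 :=
    m4_integrableOn (cG₃.continuous.mul cψ₃.continuous)
  have j1 : IntegrableOn (fun p => u p * deriv (fun s => G₁ (s, p.2.1, p.2.2) / D (s, p.2.1, p.2.2)) p.1) Q3 :=
    m4_integrableOn (cu.mul (cdx cψ₁))
  have j2 : IntegrableOn (fun p => u p * deriv (fun s => G₂ (p.1, s, p.2.2) / D (p.1, s, p.2.2)) p.2.1) Q3 :=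
    m4_integrableOn (cu.mul (cdy cψ₂))
  have j3 : IntegrableOn (fun p => u p * deriv (fun s => G₃ (p.1, p.2.1, s) / D (p.1, p.2.1, s)) p.2.2) Q3 :=
    m4_integrableOn (cu.mul (cdt cψ₃))
  -- the sum
  have hsum : ∫ p in Q3, (G₁ p * (G₁ p / D p) + G₂ p * (G₂ p / D p) + G₃ p * (G₃ p / D p)) =
      ∫ p in Q3, moll ρ E p.1 p.2.1 p.2.2 * (-φ.div p) := by
    have e1 : ∫ p in Q3, moll ρ E p.1 p.2.1 p.2.2 * (-φ.div p) =
        ∫ p in Q3, (-(u p * deriv (fun s => G₁ (s, p.2.1, p.2.2) / D (s, p.2.1, p.2.2)) p.1) -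
          u p * deriv (fun s => G₂ (p.1, s, p.2.2) / D (p.1, s, p.2.2)) p.2.1 -
          u p * deriv (fun s => G₃ (p.1, p.2.1, s) / D (p.1, p.2.1, s)) p.2.2) := by
      refine integral_congr_ae (Eventually.of_forall fun p => ?_)
      simp only [TestField.div, φ, hu]
      ring
    have i12 : IntegrableOn (fun p => G₁ p * (G₁ p / D p) + G₂ p * (G₂ p / D p)) Q3 := i1.add i2
    have j1n : IntegrableOn (fun p => -(u p * deriv (fun s => G₁ (s, p.2.1, p.2.2) / D (s, p.2.1, p.2.2)) p.1)) Q3 :=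
      j1.neg
    have j12 : IntegrableOn (fun p => -(u p * deriv (fun s => G₁ (s, p.2.1, p.2.2) / D (s, p.2.1, p.2.2)) p.1) -
        u p * deriv (fun s => G₂ (p.1, s, p.2.2) / D (p.1, s, p.2.2)) p.2.1) Q3 := j1n.sub j2
    have a1 := integral_add i12 i3
    have a2 := integral_add i1 i2
    have a3 := integral_sub j12 j3
    have a4 := integral_sub j1n j2
    have a5 := integral_neg (μ := volume.restrict Q3) (fun p : R3 => u p * deriv (fun s => G₁ (s, p.2.1, p.2.2) / D (s, p.2.1, p.2.2)) p.1)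
    rw [e1, a1, a2, a3, a4, a5]
    have e2 : ∫ p in Q3, G₁ p * (G₁ p / D p) = -∫ p in Q3, u p *
        deriv (fun s => G₁ (s, p.2.1, p.2.2) / D (s, p.2.1, p.2.2)) p.1 := ibp1
    have e3 : ∫ p in Q3, G₂ p * (G₂ p / D p) = -∫ p in Q3, u p *
        deriv (fun s => G₂ (p.1, s, p.2.2) / D (p.1, s, p.2.2)) p.2.1 := ibp2
    have e4 : ∫ p in Q3, G₃ p * (G₃ p / D p) = -∫ p in Q3, u p *
        deriv (fun s => G₃ (p.1, p.2.1, s) / D (p.1, p.2.1, s)) p.2.2 := ibp3
    rw [e2, e3, e4]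
    ring
  -- pointwise bound
  have hpt : ∀ p, Real.sqrt (G₁ p ^ 2 + G₂ p ^ 2 + G₃ p ^ 2) ≤
      (G₁ p * (G₁ p / D p) + G₂ p * (G₂ p / D p) + G₃ p * (G₃ p / D p)) + ε := by
    intro p
    set S := G₁ p ^ 2 + G₂ p ^ 2 + G₃ p ^ 2 with hS
    have hS0 : 0 ≤ S := by positivity
    set a := Real.sqrt S with ha
    have ha0 : 0 ≤ a := Real.sqrt_nonneg _
    have ha2 : a ^ 2 = S := Real.sq_sqrt hS0
    have hD' : D p ^ 2 = a ^ 2 + ε ^ 2 := by
      rw [hsq p, ha2]
    have hDpos := Dpos p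
    have h1 : G₁ p * (G₁ p / D p) + G₂ p * (G₂ p / D p) + G₃ p * (G₃ p / D p) = a ^ 2 / D p := by
      rw [ha2]
      field_simp
      exact hS.symm
    rw [h1]
    have h2 : D p ≤ a + ε := by
      have : D p ^ 2 ≤ (a + ε) ^ 2 := by
        rw [hD']
        nlinarith
      exact (pow_le_pow_iff_left₀ hDpos.le (by positivity) (by norm_num)).mp this
    have h3 : a - ε ≤ a ^ 2 / D p := by
      rw [le_div_iff₀ hDpos]
      by_cases hc : a ≤ ε
      · have : (a - ε) * D p ≤ 0 := mul_nonpos_of_nonpos_of_nonneg (by linarith) hDpos.le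
        nlinarith [sq_nonneg a]
      · push Not at hc
        have : (a - ε) * D p ≤ (a - ε) * (a + ε) :=
          mul_le_mul_of_nonneg_left h2 (by linarith)
        nlinarith [sq_nonneg ε]
    linarith
  -- integrate
  have cS : Continuous (fun p => Real.sqrt (G₁ p ^ 2 + G₂ p ^ 2 + G₃ p ^ 2)) :=
    (((cG₁.continuous.pow 2).add (cG₂.continuous.pow 2)).add (cG₃.continuous.pow 2)).sqrt
  have hconst : IntegrableOn (fun _ : R3 => ε) Q3 := m4_integrableOn continuous_const
  have i123 : IntegrableOn (fun p => G₁ p * (G₁ p / D p) + G₂ p * (G₂ p / D p) + G₃ p * (G₃ p / D p)) Q3 :=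
    (i1.add i2).add i3
  have ihc : IntegrableOn (fun p => (G₁ p * (G₁ p / D p) + G₂ p * (G₂ p / D p) + G₃ p * (G₃ p / D p)) + ε) Q3 :=
    i123.add hconst
  have hle : ∫ p in Q3, Real.sqrt (G₁ p ^ 2 + G₂ p ^ 2 + G₃ p ^ 2) ≤
      ∫ p in Q3, ((G₁ p * (G₁ p / D p) + G₂ p * (G₂ p / D p) + G₃ p * (G₃ p / D p)) + ε) :=
    integral_mono (m4_integrableOn cS) ihc hpt
  have hvol : ∫ _p in Q3, ε = ε := by
    simp [m4_vol, measureReal_def]
  have hadd : ∫ p in Q3, ((G₁ p * (G₁ p / D p) + G₂ p * (G₂ p / D p) + G₃ p * (G₃ p / D p)) + ε) =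
      (∫ p in Q3, (G₁ p * (G₁ p / D p) + G₂ p * (G₂ p / D p) + G₃ p * (G₃ p / D p))) + ε := by
    rw [integral_add i123 hconst, hvol]
  rw [hadd, hsum] at hle
  have hfin : ∫ p in Q3, Real.sqrt (G₁ p ^ 2 + G₂ p ^ 2 + G₃ p ^ 2) ≤ P + ε := by
    linarith [hle, hdual]
  exact hfin

/-- M4. The energy bound. For `ε > 0`, `ψ = ∇u / √(|∇u|² + ε²)` is a test field (`u` is `C²`),
`∫_Q ∇u·ψ = -∫_Q u div ψ ≤ P` by `periodic_ibp_*` and `moll_dual`, and `s²/√(s²+ε²) ≥ s - ε`. Then `ε → 0`.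
Convert the cube integral with `setIntegral_Q3`. -/
theorem moll_energy {ρ : R3 → ℝ} (hρ : IsKernel ρ) (hE : MeasurableSet E) (hper : IsZ3Periodic E)
    {P : ℝ} (hP : ∀ φ : TestField, ∫ p in E ∩ Q3, φ.div p ≤ P) : En3 (moll ρ E) ≤ P := by
  have hC := moll_C1P3 hρ hE hper
  have hu2 := moll_contDiff hρ hE
  have hcont : Continuous (fun p : R3 => Real.sqrt (deriv (fun s => moll ρ E s p.2.1 p.2.2) p.1 ^ 2 +
        deriv (fun s => moll ρ E p.1 s p.2.2) p.2.1 ^ 2 +
        deriv (fun s => moll ρ E p.1 p.2.1 s) p.2.2 ^ 2)) := by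
    have hd : Differentiable ℝ (fun p : R3 => moll ρ E p.1 p.2.1 p.2.2) :=
      hu2.differentiable (by norm_num)
    have hf : Continuous (fderiv ℝ (fun p : R3 => moll ρ E p.1 p.2.1 p.2.2)) :=
      hu2.continuous_fderiv (by norm_num)
    have h1 : Continuous (fun p : R3 => deriv (fun s => moll ρ E s p.2.1 p.2.2) p.1) := by
      have h : (fun p : R3 => deriv (fun s => moll ρ E s p.2.1 p.2.2) p.1) =
          fun p => fderiv ℝ (fun p : R3 => moll ρ E p.1 p.2.1 p.2.2) p m4e1 :=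
        funext fun p => m4_dx hd p
      rw [h]; exact hf.clm_apply continuous_const
    have h2 : Continuous (fun p : R3 => deriv (fun s => moll ρ E p.1 s p.2.2) p.2.1) := by
      have h : (fun p : R3 => deriv (fun s => moll ρ E p.1 s p.2.2) p.2.1) =
          fun p => fderiv ℝ (fun p : R3 => moll ρ E p.1 p.2.1 p.2.2) p m4e2 :=
        funext fun p => m4_dy hd p
      rw [h]; exact hf.clm_apply continuous_const
    have h3 : Continuous (fun p : R3 => deriv (fun s => moll ρ E p.1 p.2.1 s) p.2.2) := by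
      have h : (fun p : R3 => deriv (fun s => moll ρ E p.1 p.2.1 s) p.2.2) =
          fun p => fderiv ℝ (fun p : R3 => moll ρ E p.1 p.2.1 p.2.2) p m4e3 :=
        funext fun p => m4_dt hd p
      rw [h]; exact hf.clm_apply continuous_const
    exact (((h1.pow 2).add (h2.pow 2)).add (h3.pow 2)).sqrt
  have hEn : En3 (moll ρ E) = ∫ p in Q3, Real.sqrt (deriv (fun s => moll ρ E s p.2.1 p.2.2) p.1 ^ 2 +
        deriv (fun s => moll ρ E p.1 s p.2.2) p.2.1 ^ 2 +
        deriv (fun s => moll ρ E p.1 p.2.1 s) p.2.2 ^ 2) := by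
    rw [setIntegral_Q3 hcont]
    rfl
  rw [hEn]
  refine le_of_forall_pos_le_add fun ε hε => ?_
  exact m4_step hρ hE hper hP hε

end Vale.Agent.Lib.P232
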