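import Vale.Agent.Lib.P232.SlabCorner
import Vale.Agent.Lib.P232.ExtCells

/-!
# P232: the certificate for the slab range

A binary tree of boxes in `(h, k, V)`, where `h = √m`, `k = √M`; corners of the boxes are multiples
of `1/1024`.  On a leaf a fixed rational line for the profile `IT` has value at least `2`.
-/

namespace Vale.Agent.Lib.P232.Cells

open Real MeasureTheory Set intervalIntegral

/-- The tree of boxes. -/
inductive SlabTree where
  | none : SlabTree
  | triv : SlabTree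
  | corner : SlabTree
  | leaf (L B : ℤ) (st : ℕ) : SlabTree
  | splitH (mid : ℕ) (l r : SlabTree) : SlabTree
  | splitK (mid : ℕ) (l r : SlabTree) : SlabTree
  | splitV (mid : ℕ) (l r : SlabTree) : SlabTree

/-- The test on a leaf. -/
def slabLeaf (L B : ℤ) (st a b c d w1 w2 : ℕ) : Bool :=
  decide (a ≤ b) && decide (b < c) && decide (c ≤ d) && decide (d ≤ 1024) &&
    decide (qn L B a * 1024000000 ≤ ((tnode false a * 68719476736 : ℕ) : ℤ)) &&
    decide (qn L B d * 1024000000 ≤ ((tnode false d * 68719476736 : ℕ) : ℤ)) &&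
    decide (2251799813685248 * 1024 ≤ L * w1 * 17179869184 + gnumOf false L B st b c * 1024) &&
    decide (2251799813685248 * 1024 ≤ L * w2 * 17179869184 + gnumOf false L B st b c * 1024)

/-- The test on a tree. -/
def checkSlab : SlabTree → ℕ → ℕ → ℕ → ℕ → ℕ → ℕ → Bool
  | .none, a, _, _, d, w1, w2 => decide (w2 * 1024 < a * a) || decide (d * d < w1 * 1024)
  | .triv, a, _, _, d, _, _ => decide (578 ≤ a) && decide (d ≤ 845)
  | .corner, _, b, c, d, w1, w2 =>
    decide (b ≤ 4) && decide (1023 ≤ c) && decide (d ≤ 1024) && decide (369 ≤ w1) &&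
      decide (w2 ≤ 655)
  | .leaf L B st, a, b, c, d, w1, w2 => slabLeaf L B st a b c d w1 w2
  | .splitH mid l r, a, b, c, d, w1, w2 =>
    checkSlab l a mid c d w1 w2 && checkSlab r mid b c d w1 w2
  | .splitK mid l r, a, b, c, d, w1, w2 =>
    checkSlab l a b c mid w1 w2 && checkSlab r a b mid d w1 w2
  | .splitV mid l r, a, b, c, d, w1, w2 =>
    checkSlab l a b c d w1 mid && checkSlab r a b c d mid w2

lemma two_le_IT {s : ℝ} (h1 : (578 / 1024 : ℝ) ^ 2 ≤ s) (h2 : s ≤ (845 / 1024 : ℝ) ^ 2) :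
    2 ≤ IT s := by
  have hπ := Real.pi_gt_d4
  unfold IT
  refine le_min (le_min ?_ le_rfl) ?_
  · have : (1 : ℝ) ≤ √(π * s) := by
      apply Real.le_sqrt_of_sq_le
      norm_num at h1 hπ ⊢
      nlinarith
    linarith
  · have : (1 : ℝ) ≤ √(π * (1 - s)) := by
      apply Real.le_sqrt_of_sq_le
      norm_num at h2 hπ ⊢
      nlinarith
    linarith

/-- The line `q ≡ 2`. -/
lemma slab_triv {V m M : ℝ} (hmM : m ≤ M) (h1 : (578 / 1024 : ℝ) ^ 2 ≤ m)
    (h2 : M ≤ (845 / 1024 : ℝ) ^ 2) : SlabConcl V m M := by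
  refine ⟨0, 2, ?_, ?_⟩
  · intro s hs
    apply max_le
    · simpa using two_le_IT (h1.trans hs.1) (hs.2.trans h2)
    · exact IT_nonneg s
  · have h3 : 0 ≤ ∫ s in m..M, √(1 - (max (0 * s + 2) 0 / IT s) ^ 2) :=
      intervalIntegral.integral_nonneg hmM (fun s _ => Real.sqrt_nonneg _)
    unfold lineValue
    linarith

lemma slab_leaf_sound {L B : ℤ} {st a b c d w1 w2 : ℕ} (hOK : slabLeaf L B st a b c d w1 w2 = true)
    {h k V : ℝ} (h1 : (a : ℝ) / 1024 ≤ h) (h2 : h ≤ (b : ℝ) / 1024) (h3 : (c : ℝ) / 1024 ≤ k)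
    (h4 : k ≤ (d : ℝ) / 1024) (h5 : (w1 : ℝ) / 1024 ≤ V) (h6 : V ≤ (w2 : ℝ) / 1024) :
    SlabConcl V (h ^ 2) (k ^ 2) := by
  simp only [slabLeaf, Bool.and_eq_true, decide_eq_true_eq] at hOK
  obtain ⟨⟨⟨⟨⟨⟨⟨hab, hbc⟩, hcd⟩, hd⟩, hfa⟩, hfd⟩, hk1⟩, hk2⟩ := hOK
  have h0 : 0 ≤ h := le_trans (by positivity) h1
  have k0 : 0 ≤ k := le_trans (by positivity) h3
  have hadm : LineAdm (prof false) ((L : ℝ) / 65536) ((B : ℝ) / 65536) (h ^ 2) (k ^ 2) :=
    feasible_adm hd (sn_le_sq h1) (sq_le_sn k0 h4) hfa hfd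
  have hval := value_ge (ty := false) (L := L) (B := B) (st := st) hbc hcd hd h0 h2 h3 V
  simp only [Bool.false_eq_true, if_false, add_zero] at hval
  have hprof : prof false = IT := by simp [prof]
  rw [hprof] at hadm hval
  refine ⟨_, _, hadm, le_trans ?_ hval⟩
  obtain ⟨g, hg⟩ : ∃ g : ℤ, g = gnumOf false L B st b c := ⟨_, rfl⟩
  rw [← hg] at hk1 hk2 ⊢
  have hk1' : (2251799813685248 * 1024 : ℝ) ≤ L * w1 * 17179869184 + g * 1024 := by
    exact_mod_cast hk1
  have hk2' : (2251799813685248 * 1024 : ℝ) ≤ L * w2 * 17179869184 + g * 1024 := by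
    exact_mod_cast hk2
  have e : (2 : ℝ) * 1125899906842624 ≤ (L : ℝ) * V * 17179869184 + g := by
    rcases le_total 0 (L : ℝ) with hL | hL
    · have := mul_le_mul_of_nonneg_left h5 hL
      have e2 : (L : ℝ) * ((w1 : ℝ) / 1024) = L * w1 / 1024 := by ring
      rw [e2] at this
      nlinarith
    · have := mul_le_mul_of_nonpos_left h6 hL
      have e2 : (L : ℝ) * ((w2 : ℝ) / 1024) = L * w2 / 1024 := by ring
      rw [e2] at this
      nlinarith
  have e3 : (L : ℝ) / 65536 * V + (g : ℝ) / 1125899906842624 =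
      ((L : ℝ) * V * 17179869184 + g) / 1125899906842624 := by
    field_simp
    ring
  rw [e3, le_div_iff₀ (by norm_num)]
  linarith

/-- Soundness of the tree test. -/
theorem checkSlab_sound : ∀ (t : SlabTree) (a b c d w1 w2 : ℕ), checkSlab t a b c d w1 w2 = true →
    ∀ h k V : ℝ, (a : ℝ) / 1024 ≤ h → h ≤ (b : ℝ) / 1024 → (c : ℝ) / 1024 ≤ k → k ≤ (d : ℝ) / 1024 →
      (w1 : ℝ) / 1024 ≤ V → V ≤ (w2 : ℝ) / 1024 → h ^ 2 ≤ V → V ≤ k ^ 2 →
      SlabConcl V (h ^ 2) (k ^ 2) := by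
  intro t
  induction t with
  | none =>
    intro a b c d w1 w2 hOK h k V h1 h2 h3 h4 h5 h6 h7 h8
    exfalso
    simp only [checkSlab, Bool.or_eq_true, decide_eq_true_eq] at hOK
    have h0 : (0 : ℝ) ≤ (a : ℝ) / 1024 := by positivity
    have hd0 : (0 : ℝ) ≤ k := le_trans (by positivity) h3
    rcases hOK with e | e
    · have e' : (w2 : ℝ) * 1024 < (a : ℝ) * a := by exact_mod_cast e
      have := pow_le_pow_left₀ h0 h1 2
      have e2 : ((a : ℝ) / 1024) ^ 2 = (a : ℝ) * a / 1048576 := by ring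
      rw [e2] at this
      have h9 : (a : ℝ) * a / 1048576 ≤ (w2 : ℝ) / 1024 := by linarith
      rw [div_le_div_iff₀ (by norm_num) (by norm_num)] at h9
      linarith
    · have e' : (d : ℝ) * d < (w1 : ℝ) * 1024 := by exact_mod_cast e
      have := pow_le_pow_left₀ hd0 h4 2
      have e2 : ((d : ℝ) / 1024) ^ 2 = (d : ℝ) * d / 1048576 := by ring
      rw [e2] at this
      have h9 : (w1 : ℝ) / 1024 ≤ (d : ℝ) * d / 1048576 := by linarith
      rw [div_le_div_iff₀ (by norm_num) (by norm_num)] at h9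
      linarith
  | triv =>
    intro a b c d w1 w2 hOK h k V h1 h2 h3 h4 h5 h6 h7 h8
    simp only [checkSlab, Bool.and_eq_true, decide_eq_true_eq] at hOK
    obtain ⟨e1, e2⟩ := hOK
    have e1' : (578 : ℝ) ≤ a := by exact_mod_cast e1
    have e2' : (d : ℝ) ≤ 845 := by exact_mod_cast e2
    have hd0 : (0 : ℝ) ≤ k := le_trans (by positivity) h3
    apply slab_triv (h7.trans h8)
    · exact pow_le_pow_left₀ (by norm_num) (by linarith [div_le_div_of_nonneg_right e1' (by norm_num : (0 : ℝ) ≤ 1024)]) 2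
    · exact pow_le_pow_left₀ hd0 (by linarith [div_le_div_of_nonneg_right e2' (by norm_num : (0 : ℝ) ≤ 1024)]) 2
  | corner =>
    intro a b c d w1 w2 hOK h k V h1 h2 h3 h4 h5 h6 h7 h8
    simp only [checkSlab, Bool.and_eq_true, decide_eq_true_eq] at hOK
    obtain ⟨⟨⟨⟨e1, e2⟩, e3⟩, e4⟩, e5⟩ := hOK
    have e1' : (b : ℝ) ≤ 4 := by exact_mod_cast e1
    have e2' : (1023 : ℝ) ≤ c := by exact_mod_cast e2
    have e3' : (d : ℝ) ≤ 1024 := by exact_mod_cast e3
    have e4' : (369 : ℝ) ≤ w1 := by exact_mod_cast e4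
    have e5' : (w2 : ℝ) ≤ 655 := by exact_mod_cast e5
    have h0 : 0 ≤ h := le_trans (by positivity) h1
    have hd0 : (0 : ℝ) ≤ k := le_trans (by positivity) h3
    apply corner_slab (by positivity)
    · have : h ≤ 4 / 1024 := by linarith [div_le_div_of_nonneg_right e1' (by norm_num : (0 : ℝ) ≤ 1024)]
      have := pow_le_pow_left₀ h0 this 2
      norm_num at this ⊢
      linarith
    · have : (1023 : ℝ) / 1024 ≤ k := by linarith [div_le_div_of_nonneg_right e2' (by norm_num : (0 : ℝ) ≤ 1024)]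
      have := pow_le_pow_left₀ (by norm_num) this 2
      norm_num at this ⊢
      linarith
    · have : k ≤ 1 := by
        have : (d : ℝ) / 1024 ≤ 1 := by
          rw [div_le_one (by norm_num)]
          exact e3'
        linarith
      have := pow_le_pow_left₀ hd0 this 2
      simpa using this
    · have : (369 : ℝ) / 1024 ≤ V := by linarith [div_le_div_of_nonneg_right e4' (by norm_num : (0 : ℝ) ≤ 1024)]
      norm_num at this ⊢
      linarith
    · have : V ≤ (655 : ℝ) / 1024 := by linarith [div_le_div_of_nonneg_right e5' (by norm_num : (0 : ℝ) ≤ 1024)]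
      norm_num at this ⊢
      linarith
  | leaf L B st =>
    intro a b c d w1 w2 hOK h k V h1 h2 h3 h4 h5 h6 _ _
    exact slab_leaf_sound (by simpa [checkSlab] using hOK) h1 h2 h3 h4 h5 h6
  | splitH mid l r ihl ihr =>
    intro a b c d w1 w2 hOK h k V h1 h2 h3 h4 h5 h6 h7 h8
    simp only [checkSlab, Bool.and_eq_true] at hOK
    obtain ⟨e1, e2⟩ := hOK
    rcases le_total h ((mid : ℝ) / 1024) with hm | hm
    · exact ihl _ _ _ _ _ _ e1 h k V h1 hm h3 h4 h5 h6 h7 h8
    · exact ihr _ _ _ _ _ _ e2 h k V hm h2 h3 h4 h5 h6 h7 h8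
  | splitK mid l r ihl ihr =>
    intro a b c d w1 w2 hOK h k V h1 h2 h3 h4 h5 h6 h7 h8
    simp only [checkSlab, Bool.and_eq_true] at hOK
    obtain ⟨e1, e2⟩ := hOK
    rcases le_total k ((mid : ℝ) / 1024) with hm | hm
    · exact ihl _ _ _ _ _ _ e1 h k V h1 h2 h3 hm h5 h6 h7 h8
    · exact ihr _ _ _ _ _ _ e2 h k V h1 h2 hm h4 h5 h6 h7 h8
  | splitV mid l r ihl ihr =>
    intro a b c d w1 w2 hOK h k V h1 h2 h3 h4 h5 h6 h7 h8
    simp only [checkSlab, Bool.and_eq_true] at hOK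
    obtain ⟨e1, e2⟩ := hOK
    rcases le_total V ((mid : ℝ) / 1024) with hm | hm
    · exact ihl _ _ _ _ _ _ e1 h k V h1 h2 h3 h4 h5 hm h7 h8
    · exact ihr _ _ _ _ _ _ e2 h k V h1 h2 h3 h4 hm h6 h7 h8

end Vale.Agent.Lib.P232.Cells
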