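import Vale.Agent.Lib.P232.Basics

/-! JOB S: the generic slicing lemma. -/

open MeasureTheory Set Filter Topology
open scoped ENNReal

noncomputable section

namespace Vale.Agent.Lib.P232


open Real MeasureTheory Set Filter Topology

/-- Pointwise form: choosing `α = κ(a t)` and `β = ± g(a t)`. -/
lemma slice_pointwise {A' a' N' κ' g' : ℝ}
    (hN : ∀ α β : ℝ, 0 ≤ α → α ^ 2 + β ^ 2 ≤ 1 → α * A' + β * a' ≤ N')
    (hκ0 : 0 ≤ κ') (hκg : κ' ^ 2 + g' ^ 2 ≤ 1) :
    κ' * A' + g' * |a'| ≤ N' := by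
  rcases le_total 0 a' with h | h
  · rw [abs_of_nonneg h]
    exact hN κ' g' hκ0 hκg
  · rw [abs_of_nonpos h]
    have := hN κ' (-g') hκ0 (by nlinarith)
    nlinarith

/-- The arc inequality: going from `a x` to `a y` and back costs twice the `g`-integral. -/
lemma arc_inequality {a g : ℝ → ℝ} (ha : ContDiff ℝ 1 a) (hper : Function.Periodic a 1)
    (hg : Continuous g) (hg0 : ∀ s, 0 ≤ g s) (x y : ℝ) :
    2 * ∫ s in a x..a y, g s ≤ ∫ t in (0 : ℝ)..1, g (a t) * |deriv a t| := by
  have hda : Continuous (deriv a) := ha.continuous_deriv le_rfl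
  have hdiff : ∀ t, HasDerivAt a (deriv a t) t := fun t =>
    (ha.differentiable (by norm_num) t).hasDerivAt
  have hperd : Function.Periodic (deriv a) 1 := by
    intro t
    have : (fun s => a (s + 1)) = a := funext hper
    have h2 := deriv_comp_add_const a 1 t
    rw [this] at h2
    exact h2.symm
  set φ : ℝ → ℝ := fun t => g (a t) * |deriv a t| with hφ
  have hφc : Continuous φ := (hg.comp ha.continuous).mul hda.abs
  have hφper : Function.Periodic φ 1 := by
    intro t
    simp only [hφ, hper t, hperd t]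
  -- shift `y` into `[x, x + 1)`
  obtain ⟨n, hn, -⟩ := existsUnique_add_zsmul_mem_Ico (zero_lt_one' ℝ) y x
  set y' : ℝ := y + n • (1 : ℝ) with hy'
  have hy'1 : x ≤ y' := hn.1
  have hy'2 : y' ≤ x + 1 := by
    have := hn.2
    simp only [hy'] at this ⊢
    linarith
  have hay : a y' = a y := by
    have := hper.zsmul n y
    rw [hy']
    simpa using this
  have hax1 : a (x + 1) = a x := hper x
  have e1 : ∫ t in (0 : ℝ)..1, φ t = ∫ t in x..(x + 1), φ t := by
    have := hφper.intervalIntegral_add_eq 0 x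
    simpa using this
  have hint : ∀ u v, IntervalIntegrable φ volume u v := fun u v => hφc.intervalIntegrable u v
  have e2 : ∫ t in x..(x + 1), φ t = (∫ t in x..y', φ t) + ∫ t in y'..(x + 1), φ t :=
    (intervalIntegral.integral_add_adjacent_intervals (hint _ _) (hint _ _)).symm
  have hfirst : ∫ s in a x..a y, g s ≤ ∫ t in x..y', φ t := by
    have e3 : ∫ t in x..y', (g ∘ a) t * deriv a t = ∫ s in a x..a y', g s :=
      intervalIntegral.integral_comp_mul_deriv (fun t _ => hdiff t) hda.continuousOn hg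
    rw [← hay, ← e3]
    refine intervalIntegral.integral_mono_on hy'1 ?_ (hint _ _) ?_
    · exact (((hg.comp ha.continuous).mul hda)).intervalIntegrable _ _
    · intro t _
      simp only [Function.comp, hφ]
      exact mul_le_mul_of_nonneg_left (le_abs_self _) (hg0 _)
  have hsecond : ∫ s in a x..a y, g s ≤ ∫ t in y'..(x + 1), φ t := by
    have e3 : ∫ t in y'..(x + 1), (g ∘ a) t * deriv a t = ∫ s in a y'..a (x + 1), g s :=
      intervalIntegral.integral_comp_mul_deriv (fun t _ => hdiff t) hda.continuousOn hg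
    have e4 : ∫ s in a x..a y, g s = ∫ t in y'..(x + 1), -((g ∘ a) t * deriv a t) := by
      rw [intervalIntegral.integral_neg, e3, hax1, hay, intervalIntegral.integral_symm]
    rw [e4]
    refine intervalIntegral.integral_mono_on hy'2 ?_ (hint _ _) ?_
    · exact (((hg.comp ha.continuous).mul hda)).neg.intervalIntegrable _ _
    · intro t _
      simp only [Function.comp, hφ]
      rw [← mul_neg]
      exact mul_le_mul_of_nonneg_left (neg_le_abs _) (hg0 _)
  rw [e1, e2]
  linarith

/-- Monotonicity of the integral of a nonnegative function in the endpoints. -/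
lemma integral_le_of_endpoints {g : ℝ → ℝ} (hg : Continuous g) (hg0 : ∀ s, 0 ≤ g s)
    {p q p' q' : ℝ} (hp : p' ≤ p) (hq : q ≤ q') :
    ∫ s in p..q, g s ≤ ∫ s in p'..q', g s := by
  have hint : ∀ u v, IntervalIntegrable g volume u v := fun u v => hg.intervalIntegrable u v
  have e : ∫ s in p'..q', g s = (∫ s in p'..p, g s) + (∫ s in p..q, g s) + ∫ s in q..q', g s := by
    rw [intervalIntegral.integral_add_adjacent_intervals (hint _ _) (hint _ _),
      intervalIntegral.integral_add_adjacent_intervals (hint _ _) (hint _ _)]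
  have h1 : 0 ≤ ∫ s in p'..p, g s := intervalIntegral.integral_nonneg hp (fun s _ => hg0 s)
  have h2 : 0 ≤ ∫ s in q..q', g s := intervalIntegral.integral_nonneg hq (fun s _ => hg0 s)
  linarith

/-- Fatou in the form used here. -/
lemma fatou_interval {f : ℕ → ℝ → ℝ} {h : ℝ → ℝ} {L : ℝ}
    (hf : ∀ k, Continuous (f k)) (hf0 : ∀ k t, 0 ≤ f k t)
    (hhm : AEStronglyMeasurable h (volume.restrict (Ioc (0 : ℝ) 1))) (hh0 : ∀ t, 0 ≤ h t)
    (hlim : ∀ᵐ t, ∀ ρ < h t, ∀ᶠ k in atTop, ρ < f k t)
    (hL : ∀ᶠ k in atTop, ∫ t in (0 : ℝ)..1, f k t ≤ L) :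
    ∫ t in (0 : ℝ)..1, h t ≤ L := by
  have hL0 : 0 ≤ L := by
    obtain ⟨k, hk⟩ := hL.exists
    exact le_trans (intervalIntegral.integral_nonneg zero_le_one (fun t _ => hf0 k t)) hk
  set μ := volume.restrict (Ioc (0 : ℝ) 1) with hμ
  have e0 : ∫ t in (0 : ℝ)..1, h t = ∫ t, h t ∂μ := intervalIntegral.integral_of_le zero_le_one
  have hpt : ∀ᵐ t ∂μ, ENNReal.ofReal (h t) ≤ liminf (fun k => ENNReal.ofReal (f k t)) atTop := by
    have := ae_restrict_of_ae (s := Ioc (0 : ℝ) 1) hlim
    filter_upwards [this] with t ht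
    refine le_of_forall_lt_imp_le_of_dense ?_
    intro r hr
    have hr' : r.toReal < h t := (ENNReal.lt_ofReal_iff_toReal_lt (ne_top_of_lt hr)).1 hr
    have hev := ht r.toReal hr'
    have : ∀ᶠ k in atTop, r ≤ ENNReal.ofReal (f k t) := by
      filter_upwards [hev] with k hk
      have : r = ENNReal.ofReal r.toReal := (ENNReal.ofReal_toReal (ne_top_of_lt hr)).symm
      rw [this]
      exact ENNReal.ofReal_le_ofReal hk.le
    exact le_liminf_of_le (by isBoundedDefault) this
  have hmeas : ∀ k, Measurable (fun t => ENNReal.ofReal (f k t)) := fun k =>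
    ENNReal.measurable_ofReal.comp (hf k).measurable
  have hfat : ∫⁻ t, ENNReal.ofReal (h t) ∂μ ≤ ENNReal.ofReal L := by
    calc ∫⁻ t, ENNReal.ofReal (h t) ∂μ
        ≤ ∫⁻ t, liminf (fun k => ENNReal.ofReal (f k t)) atTop ∂μ := lintegral_mono_ae hpt
      _ ≤ liminf (fun k => ∫⁻ t, ENNReal.ofReal (f k t) ∂μ) atTop := lintegral_liminf_le hmeas
      _ ≤ ENNReal.ofReal L := by
        have hev : ∀ᶠ k in atTop, ∫⁻ t, ENNReal.ofReal (f k t) ∂μ ≤ ENNReal.ofReal L := by
          filter_upwards [hL] with k hk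
          have hint : Integrable (f k) μ :=
            ((hf k).intervalIntegrable 0 1).1
          rw [← ofReal_integral_eq_lintegral_ofReal hint (ae_of_all _ (hf0 k))]
          refine ENNReal.ofReal_le_ofReal ?_
          rw [← intervalIntegral.integral_of_le zero_le_one]
          exact hk
        exact liminf_le_of_frequently_le' hev.frequently
  rw [e0, integral_eq_lintegral_of_nonneg_ae (ae_of_all _ hh0) hhm]
  exact ENNReal.toReal_le_of_le_ofReal hL0 hfat

/-- **Generic slicing lemma.** -/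
theorem slicing {a A N : ℕ → ℝ → ℝ} {a0 c κ g : ℝ → ℝ} {m M P : ℝ}
    (ha : ∀ k, ContDiff ℝ 1 (a k)) (hper : ∀ k, Function.Periodic (a k) 1)
    (hlim : ∀ᵐ t, Tendsto (fun k => a k t) atTop (𝓝 (a0 t)))
    (hA : ∀ k, Continuous (A k)) (hA0 : ∀ k t, 0 ≤ A k t)
    (hNc : ∀ k, Continuous (N k))
    (hN : ∀ k t, ∀ α β : ℝ, 0 ≤ α → α ^ 2 + β ^ 2 ≤ 1 → α * A k t + β * deriv (a k) t ≤ N k t)
    (hκ : Continuous κ) (hg : Continuous g) (hκ0 : ∀ s, 0 ≤ κ s) (hg0 : ∀ s, 0 ≤ g s)
    (hκg : ∀ s, κ s ^ 2 + g s ^ 2 ≤ 1)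
    (hcm : AEStronglyMeasurable c (volume.restrict (Ioc (0 : ℝ) 1))) (hc0 : ∀ t, 0 ≤ c t)
    (hc : ∀ᵐ t, ∀ ρ < c t, ∀ᶠ k in atTop, ρ < A k t)
    (hm : ∀ ε > 0, 0 < volume {t | t ∈ Icc (0 : ℝ) 1 ∧ a0 t < m + ε})
    (hM : ∀ ε > 0, 0 < volume {t | t ∈ Icc (0 : ℝ) 1 ∧ M - ε < a0 t})
    (hP : ∀ k, ∫ t in (0 : ℝ)..1, N k t ≤ P) :
    (∫ t in (0 : ℝ)..1, κ (a0 t) * c t) + 2 * ∫ s in m..M, g s ≤ P := by
  -- measurability of the limit
  have ha0 : AEMeasurable a0 volume :=
    aemeasurable_of_tendsto_metrizable_ae atTop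
      (fun k => ((ha k).continuous.measurable.aemeasurable)) hlim
  -- the pointwise inequality and its integral
  have hda : ∀ k, Continuous (deriv (a k)) := fun k => (ha k).continuous_deriv le_rfl
  have hf : ∀ k, Continuous (fun t => κ (a k t) * A k t) := fun k =>
    (hκ.comp (ha k).continuous).mul (hA k)
  have hφ : ∀ k, Continuous (fun t => g (a k t) * |deriv (a k) t|) := fun k =>
    (hg.comp (ha k).continuous).mul (hda k).abs
  have hint : ∀ k, (∫ t in (0 : ℝ)..1, κ (a k t) * A k t) +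
      ∫ t in (0 : ℝ)..1, g (a k t) * |deriv (a k) t| ≤ P := by
    intro k
    refine le_trans ?_ (hP k)
    rw [← intervalIntegral.integral_add ((hf k).intervalIntegrable _ _)
      ((hφ k).intervalIntegrable _ _)]
    refine intervalIntegral.integral_mono_on zero_le_one
      (((hf k).add (hφ k)).intervalIntegrable _ _) ((hNc k).intervalIntegrable _ _) ?_
    intro t _
    exact slice_pointwise (hN k t) (hκ0 _) (hκg _)
  -- existence of points near the essential bounds
  have hpts : ∀ ε > 0, ∀ᶠ k in atTop, ∃ x y, a k x < m + ε ∧ M - ε < a k y := by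
    intro ε hε
    have hx : ∃ x, Tendsto (fun k => a k x) atTop (𝓝 (a0 x)) ∧ a0 x < m + ε := by
      have hpos := hm ε hε
      have : (volume {t | t ∈ Icc (0 : ℝ) 1 ∧ a0 t < m + ε} ≠ 0) := hpos.ne'
      obtain ⟨x, hx1, hx2⟩ := nonempty_of_measure_ne_zero
        (μ := volume) (s := {t | t ∈ Icc (0 : ℝ) 1 ∧ a0 t < m + ε} ∩
          {t | Tendsto (fun k => a k t) atTop (𝓝 (a0 t))}) (by
          intro h0
          apply this
          refine measure_mono_null ?_ (measure_union_null h0 (ae_iff.1 hlim))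
          intro t ht
          by_cases h : Tendsto (fun k => a k t) atTop (𝓝 (a0 t))
          · exact Or.inl ⟨ht, h⟩
          · exact Or.inr h)
      exact ⟨x, hx2, hx1.2⟩
    have hy : ∃ y, Tendsto (fun k => a k y) atTop (𝓝 (a0 y)) ∧ M - ε < a0 y := by
      have hpos := hM ε hε
      have : (volume {t | t ∈ Icc (0 : ℝ) 1 ∧ M - ε < a0 t} ≠ 0) := hpos.ne'
      obtain ⟨x, hx1, hx2⟩ := nonempty_of_measure_ne_zero
        (μ := volume) (s := {t | t ∈ Icc (0 : ℝ) 1 ∧ M - ε < a0 t} ∩
          {t | Tendsto (fun k => a k t) atTop (𝓝 (a0 t))}) (by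
          intro h0
          apply this
          refine measure_mono_null ?_ (measure_union_null h0 (ae_iff.1 hlim))
          intro t ht
          by_cases h : Tendsto (fun k => a k t) atTop (𝓝 (a0 t))
          · exact Or.inl ⟨ht, h⟩
          · exact Or.inr h)
      exact ⟨x, hx2, hx1.2⟩
    obtain ⟨x, hx1, hx2⟩ := hx
    obtain ⟨y, hy1, hy2⟩ := hy
    filter_upwards [hx1.eventually (gt_mem_nhds hx2), hy1.eventually (lt_mem_nhds hy2)] with k h1 h2
    exact ⟨x, y, h1, h2⟩
  -- the `g`-term, for each ε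
  have hgterm : ∀ ε > 0, ∀ᶠ k in atTop, 2 * (∫ s in (m + ε)..(M - ε), g s) ≤
      ∫ t in (0 : ℝ)..1, g (a k t) * |deriv (a k) t| := by
    intro ε hε
    filter_upwards [hpts ε hε] with k hk
    obtain ⟨x, y, hx, hy⟩ := hk
    have hφ0 : 0 ≤ ∫ t in (0 : ℝ)..1, g (a k t) * |deriv (a k) t| :=
      intervalIntegral.integral_nonneg zero_le_one
        (fun t _ => mul_nonneg (hg0 _) (abs_nonneg _))
    by_cases hle : m + ε ≤ M - ε
    · have h1 := integral_le_of_endpoints hg hg0 (p := m + ε) (q := M - ε)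
        (p' := a k x) (q' := a k y) hx.le hy.le
      have h2 := arc_inequality (ha k) (hper k) hg hg0 x y
      linarith
    · have hle' : M - ε ≤ m + ε := le_of_not_ge hle
      have : ∫ s in (m + ε)..(M - ε), g s ≤ 0 := by
        rw [intervalIntegral.integral_symm]
        have : 0 ≤ ∫ s in (M - ε)..(m + ε), g s :=
          intervalIntegral.integral_nonneg hle' (fun s _ => hg0 s)
        linarith
      linarith
  -- Fatou, for each ε
  have hfatou : ∀ ε > 0, ∫ t in (0 : ℝ)..1, κ (a0 t) * c t ≤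
      P - 2 * ∫ s in (m + ε)..(M - ε), g s := by
    intro ε hε
    refine fatou_interval (f := fun k t => κ (a k t) * A k t) hf
      (fun k t => mul_nonneg (hκ0 _) (hA0 _ _)) ?_ (fun t => mul_nonneg (hκ0 _) (hc0 _)) ?_ ?_
    · exact ((hκ.measurable.comp_aemeasurable ha0).mono_measure
        Measure.restrict_le_self).aestronglyMeasurable.mul hcm
    · filter_upwards [hlim, hc] with t ht1 ht2 ρ hρ
      have hκlim : Tendsto (fun k => κ (a k t)) atTop (𝓝 (κ (a0 t))) :=
        (hκ.tendsto _).comp ht1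
      rcases lt_or_ge ρ 0 with hneg | hnn
      · exact Eventually.of_forall (fun k => lt_of_lt_of_le hneg (mul_nonneg (hκ0 _) (hA0 _ _)))
      · -- here both factors are positive in the limit
        have hprod : 0 < κ (a0 t) * c t := lt_of_le_of_lt hnn hρ
        have hκpos : 0 < κ (a0 t) := by
          by_contra h
          have : κ (a0 t) = 0 := le_antisymm (not_lt.1 h) (hκ0 _)
          simp [this] at hprod
        have hcpos : 0 < c t := by
          by_contra h
          have : c t = 0 := le_antisymm (not_lt.1 h) (hc0 t)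
          simp [this] at hprod
        -- choose `c'' < c t` with `ρ < κ * c''`
        obtain ⟨c'', hc1, hc2⟩ : ∃ c'', c'' < c t ∧ ρ < κ (a0 t) * c'' := by
          refine ⟨(ρ / κ (a0 t) + c t) / 2, ?_, ?_⟩
          · have : ρ / κ (a0 t) < c t := by rwa [div_lt_iff₀' hκpos]
            linarith
          · have : ρ / κ (a0 t) < (ρ / κ (a0 t) + c t) / 2 := by
              have : ρ / κ (a0 t) < c t := by rwa [div_lt_iff₀' hκpos]
              linarith
            calc ρ = κ (a0 t) * (ρ / κ (a0 t)) := by field_simp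
              _ < _ := mul_lt_mul_of_pos_left this hκpos
        have hc''0 : 0 ≤ c'' := by
          by_contra h
          have : κ (a0 t) * c'' < 0 := mul_neg_of_pos_of_neg hκpos (not_le.1 h)
          linarith
        -- choose `κ' < κ` with `ρ < κ' * c''`
        have htend : Tendsto (fun k => κ (a k t) * c'') atTop (𝓝 (κ (a0 t) * c'')) :=
          hκlim.mul_const _
        filter_upwards [htend.eventually (lt_mem_nhds hc2), ht2 c'' hc1] with k hk1 hk2
        calc ρ < κ (a k t) * c'' := hk1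
          _ ≤ κ (a k t) * A k t := mul_le_mul_of_nonneg_left hk2.le (hκ0 _)
    · filter_upwards [hgterm ε hε] with k hk
      have := hint k
      show ∫ t in (0 : ℝ)..1, κ (a k t) * A k t ≤ _
      linarith
  -- let ε → 0
  have hint_g : ∀ u v, IntervalIntegrable g volume u v := fun u v => hg.intervalIntegrable u v
  have hcont : Tendsto (fun ε : ℝ => ∫ s in (m + ε)..(M - ε), g s) (𝓝[>] 0) (𝓝 (∫ s in m..M, g s)) := by
    have hc1 : Continuous (fun p : ℝ × ℝ => ∫ s in p.1..p.2, g s) := by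
      have hprim : Continuous (fun u => ∫ s in (0 : ℝ)..u, g s) :=
        intervalIntegral.continuous_primitive (fun u v => hint_g u v) 0
      have : (fun p : ℝ × ℝ => ∫ s in p.1..p.2, g s) =
          fun p => (∫ s in (0 : ℝ)..p.2, g s) - ∫ s in (0 : ℝ)..p.1, g s := by
        funext p
        rw [intervalIntegral.integral_interval_sub_left (hint_g _ _) (hint_g _ _)]
      rw [this]
      exact (hprim.comp continuous_snd).sub (hprim.comp continuous_fst)
    have hc2 : Continuous (fun ε : ℝ => ((m + ε, M - ε) : ℝ × ℝ)) := by fun_prop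
    have := (hc1.comp hc2).tendsto 0
    simp only [Function.comp, add_zero, sub_zero] at this
    exact this.mono_left nhdsWithin_le_nhds
  have hfinal : ∫ t in (0 : ℝ)..1, κ (a0 t) * c t ≤ P - 2 * ∫ s in m..M, g s := by
    refine ge_of_tendsto ((hcont.const_mul 2).const_sub P) ?_
    filter_upwards [self_mem_nhdsWithin] with ε hε
    exact hfatou ε hε
  linarith


/-- FTC on the two arcs of a periodic function: for `g ≥ 0` continuous and points `a`, `b`:
`∫₀¹ g(f) |f'| ≥ 2 ∫_{f a}^{f b} g` whenever `f a ≤ f b`. -/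
theorem arc_bound {f g : ℝ → ℝ} (hf : ContDiff ℝ 1 f) (hper : ∀ t, f (t + 1) = f t)
    (hg : Continuous g) (hg0 : ∀ s, 0 ≤ g s) (a b : ℝ) (_hab : f a ≤ f b) :
    2 * ∫ s in (f a)..(f b), g s ≤ ∫ t in (0 : ℝ)..1, g (f t) * |deriv f t| :=
  arc_inequality hf hper hg hg0 a b

/-- The generic slicing lemma. Take `α = κ(a_k t)`, `β = ± g(a_k t)` with the sign of `a_k'(t)`:
`N_k ≥ κ(a_k) A_k + g(a_k) |a_k'|`; `arc_bound` between points where `a_k` is almost `m` and almost
`M` (points of convergence in the positive measure sets `{a0 < m+ε}`, `{a0 > M-ε}`), Fatou for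
`κ(a_k) A_k` along a subsequence on which `∫ N_k ≤ P`, using `c_+`. -/
theorem generic_slice {a A N : ℕ → ℝ → ℝ} {a0 c κ g : ℝ → ℝ} {m M P C : ℝ}
    (ha : ∀ k, ContDiff ℝ 1 (a k)) (hper : ∀ k t, a k (t + 1) = a k t)
    (hconv : ∀ᵐ t, Tendsto (fun k => a k t) atTop (𝓝 (a0 t))) (ha0 : Measurable a0)
    (hA : ∀ k, Continuous (A k)) (hA0 : ∀ k t, 0 ≤ A k t) (hNc : ∀ k, Continuous (N k))
    (hN : ∀ k t α β, 0 ≤ α → α ^ 2 + β ^ 2 ≤ 1 → α * A k t + β * deriv (a k) t ≤ N k t)
    (hκ : Continuous κ) (hκ0 : ∀ s, 0 ≤ κ s) (hg : Continuous g) (hg0 : ∀ s, 0 ≤ g s)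
    (hκg : ∀ s, κ s ^ 2 + g s ^ 2 ≤ 1)
    (hcm : Measurable c) (hcb : ∀ t, |c t| ≤ C)
    (hc : ∀ᵐ t, ∀ ε > 0, ∀ᶠ k in atTop, c t - ε ≤ A k t)
    (hb : EssBounds a0 m M) (_hmM : m ≤ M)
    (hP : ∃ᶠ k in atTop, ∫ t in (0 : ℝ)..1, N k t ≤ P) :
    (∫ t in (0 : ℝ)..1, κ (a0 t) * c t) + 2 * ∫ s in m..M, g s ≤ P := by
  obtain ⟨φ, hφ, hφP⟩ := extraction_of_frequently_atTop hP
  have hφt : Tendsto φ atTop atTop := hφ.tendsto_atTop
  set cp : ℝ → ℝ := fun t => max (c t) 0 with hcp
  have hcpm : Measurable cp := hcm.max measurable_const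
  have key : (∫ t in (0 : ℝ)..1, κ (a0 t) * cp t) + 2 * ∫ s in m..M, g s ≤ P := by
    refine slicing (a := fun k => a (φ k)) (A := fun k => A (φ k)) (N := fun k => N (φ k))
      (a0 := a0) (c := cp) (κ := κ) (g := g) (m := m) (M := M) (P := P)
      (fun k => ha _) (fun k t => by simpa using hper (φ k) t) ?_ (fun k => hA _) (fun k t => hA0 _ t)
      (fun k => hNc _) (fun k t α β h1 h2 => hN _ t α β h1 h2) hκ hg hκ0 hg0 hκg
      hcpm.aestronglyMeasurable (fun t => le_max_right _ _) ?_ ?_ ?_ hφP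
    · filter_upwards [hconv] with t ht
      exact ht.comp hφt
    · filter_upwards [hc] with t ht ρ hρ
      rcases lt_or_ge ρ 0 with hneg | hnn
      · exact Eventually.of_forall (fun k => lt_of_lt_of_le hneg (hA0 _ _))
      · have hcρ : ρ < c t := by
          rcases lt_max_iff.1 hρ with h | h
          · exact h
          · exact absurd h (not_lt.2 hnn)
        have hε : 0 < (c t - ρ) / 2 := by linarith
        have := ht _ hε
        have h2 := hφt.eventually this
        filter_upwards [h2] with k hk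
        show ρ < A (φ k) t
        linarith
    · intro ε hε
      refine lt_of_lt_of_le (hb.near_m ε hε) (measure_mono ?_)
      rintro t ⟨ht1, ht2⟩
      exact ⟨Ioc_subset_Icc_self ht1, ht2⟩
    · intro ε hε
      refine lt_of_lt_of_le (hb.near_M ε hε) (measure_mono ?_)
      rintro t ⟨ht1, ht2⟩
      exact ⟨Ioc_subset_Icc_self ht1, ht2⟩
  refine le_trans (add_le_add_left ?_ _) key
  -- integrability: bounded measurable functions
  have hκ1 : ∀ s, |κ s| ≤ 1 := by
    intro s
    have := hκg s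
    rw [abs_le]
    constructor <;> nlinarith [hκ0 s, sq_nonneg (g s), sq_nonneg (κ s - 1)]
  have hC : 0 ≤ C := le_trans (abs_nonneg _) (hcb 0)
  have hbdd : ∀ (u : ℝ → ℝ), Measurable u → (∀ t, |u t| ≤ C) →
      IntervalIntegrable u volume 0 1 := by
    intro u hu hub
    rw [intervalIntegrable_iff_integrableOn_Ioc_of_le zero_le_one]
    refine Measure.integrableOn_of_bounded (M := C) (by simp) hu.aestronglyMeasurable ?_
    exact ae_of_all _ (fun t => by simpa using hub t)
  have hκm : Measurable (fun t => κ (a0 t)) := hκ.measurable.comp ha0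
  have hi1 : IntervalIntegrable (fun t => κ (a0 t) * c t) volume 0 1 := by
    refine hbdd _ (hκm.mul hcm) ?_
    intro t
    rw [abs_mul]
    calc |κ (a0 t)| * |c t| ≤ 1 * C := mul_le_mul (hκ1 _) (hcb t) (abs_nonneg _) zero_le_one
      _ = C := one_mul _
  have hi2 : IntervalIntegrable (fun t => κ (a0 t) * cp t) volume 0 1 := by
    refine hbdd _ (hκm.mul hcpm) ?_
    intro t
    rw [abs_mul]
    have : |cp t| ≤ C := by
      rw [abs_of_nonneg (le_max_right _ _)]
      exact max_le (le_trans (le_abs_self _) (hcb t)) hC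
    calc |κ (a0 t)| * |cp t| ≤ 1 * C := mul_le_mul (hκ1 _) this (abs_nonneg _) zero_le_one
      _ = C := one_mul _
  refine intervalIntegral.integral_mono_on zero_le_one hi1 hi2 ?_
  intro t _
  exact mul_le_mul_of_nonneg_left (le_max_left _ _) (hκ0 _)

end Vale.Agent.Lib.P232
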