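import Vale.Agent.Lib.P232.MonoFacts
import Vale.Agent.Lib.P232.Torus2c
import Vale.Agent.Lib.P232.Profiles3
import Vale.Agent.Lib.P232.T2Slices

/-! JOB SLICES2: the lower bounds for the perimeter of a monotone slice, by type.
`O`: `E2` with no penalty. `X`: the row inequality with `κ s = α s`, `g s = √(1-α²s²)`, levels `0, 1`;
mixed rows carry all the mass but the full rows.
`L`: complement. Stadium: same with the ess sup of the row mass of the complement, at most
`1 - deltaC`; for columns use the reflected set.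
Minkowski: as in the proof of `torus2_E2`. -/

open MeasureTheory Set Filter Topology
open scoped ENNReal

noncomputable section

namespace Vale.Agent.Lib.P232

variable {w : ℕ → ℝ → ℝ → ℝ} {χ : ℝ → ℝ → ℝ}

/-- Pass from a bound along subsequences to the eventual form. -/
private lemma sl_evt_of_bound (h : Approx2 w χ) {C : ℝ}
    (hb : ∀ φ : ℕ → ℕ, StrictMono φ → ∀ P : ℝ,
      (∀ k, T2.gradE (d1 (w (φ k))) (d2 (w (φ k))) ≤ P) → C ≤ P) :
    ∀ ε > 0, ∀ᶠ k in atTop, C - ε ≤ En2 (w k) := by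
  intro ε hε
  by_contra hcon
  rw [not_eventually] at hcon
  obtain ⟨φ, hφ, hlt⟩ := extraction_of_frequently_atTop hcon
  have := hb φ hφ (C - ε) (fun k => (not_le.mp (hlt k)).le)
  linarith

private lemma sl_T2 (h : Approx2 w χ) (φ : ℕ → ℕ) (hφ : StrictMono φ) :
    T2.Approx2 (fun k => w (φ k)) (fun k => d1 (w (φ k))) (fun k => d2 (w (φ k))) (lvl χ) :=
  (to_T2 h).comp φ hφ

private lemma sl_nearZero (hm : Mono2 χ) (hc : deltaC χ = 0) : T2.NearZero (lvl χ) := by
  intro ε hε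
  rw [rowMass_lvl hm.ind]
  simpa using hm.rows_small hc hε

private lemma sl_full_pos (hm : Mono2 χ) (hr : 0 < deltaR χ) :
    0 < volume {t | t ∈ Icc (0 : ℝ) 1 ∧ T2.rowMass (lvl χ) t = 1} := by
  rw [rowMass_lvl hm.ind]
  exact hm.full_rows_pos hr

/-- In the open unit interval the tent coordinate is below one. -/
private lemma sl_uu_lt {y : ℝ} (h0 : 0 < y) (h1 : y < 1) : uu y < 1 := by
  have hf : Int.fract y = y := Int.fract_eq_self.mpr ⟨h0.le, h1⟩
  unfold uu
  rw [hf, abs_lt]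
  constructor <;> linarith

/-- Almost every point of the unit interval is interior. -/
private lemma sl_ae_interior : ∀ᵐ t : ℝ, t ∈ Icc (0 : ℝ) 1 → 0 < t ∧ t < 1 := by
  have h0 : ∀ᵐ t : ℝ, t ≠ 0 := by simp [ae_iff]
  have h1 : ∀ᵐ t : ℝ, t ≠ 1 := by simp [ae_iff]
  filter_upwards [h0, h1] with t h0' h1' hmem
  exact ⟨lt_of_le_of_ne hmem.1 (Ne.symm h0'), lt_of_le_of_ne hmem.2 h1'⟩

private lemma sl_row_lower (hm : Mono2 χ) :
    ∀ᵐ t : ℝ, t ∈ Icc (0 : ℝ) 1 → deltaC χ ≤ T2.rowMass (lvl χ) t := by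
  filter_upwards [sl_ae_interior] with t ht hmem
  rw [rowMass_lvl hm.ind]
  exact hm.deltaC_le_rowM (sl_uu_lt (ht hmem).1 (ht hmem).2)

private lemma sl_no_empty (hm : Mono2 χ) (hc : 0 < deltaC χ) :
    volume {t | t ∈ Icc (0 : ℝ) 1 ∧ T2.rowMass (lvl χ) t = 0} = 0 := by
  rw [measure_eq_zero_iff_ae_notMem]
  filter_upwards [sl_row_lower hm] with t ht hmem
  have := ht hmem.1
  rw [hmem.2] at this
  linarith

/-- One family of full rows, no full columns. -/
theorem slice_Xr (h : Approx2 w χ) (hm : Mono2 χ) (hc : deltaC χ = 0) (hr : 0 < deltaR χ) {δ : ℝ}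
    (hδ : deltaR χ ≤ δ) : ∀ ε > 0, ∀ᶠ k in atTop, xhat (area χ - δ) - ε ≤ En2 (w k) := by
  apply sl_evt_of_bound h
  intro φ hφ P hP
  obtain ⟨j, hj, hx⟩ := exists_xline_eq (area χ - δ)
  rw [hx]
  have hα0 : (0 : ℝ) ≤ (j : ℝ) / 20 := by positivity
  have hα1 : (j : ℝ) / 20 ≤ 1 := by
    have : (j : ℝ) ≤ 20 := by exact_mod_cast hj
    linarith
  have key := (sl_T2 h φ hφ).alpha_bound hP (sl_nearZero hm hc) (sl_full_pos hm hr) hα0 hα1
  rw [area2_lvl hm.ind, fullRows_lvl hm.ind] at key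
  have hθ := thetaTab_le hj
  have hΘ : T2.Theta ((j : ℝ) / 20) = Theta ((j : ℝ) / 20) := rfl
  rw [hΘ] at key
  have hmul : (j : ℝ) / 20 * (area χ - δ) ≤ (j : ℝ) / 20 * (area χ - deltaR χ) :=
    mul_le_mul_of_nonneg_left (by linarith) hα0
  unfold xline
  nlinarith

/-- The reflected approximation has the same energy, area. -/
private lemma sl_swap_En (h : Approx2 w χ) (k : ℕ) : En2 (fun x y => w k y x) = En2 (w k) :=
  En2_swap (h.c1 k)

private lemma sl_swap_area (hi : Ind2 χ) : area (fun x y => χ y x) = area χ := by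
  rw [hi.area_eq_cols]
  rfl

private lemma sl_swap_evt (h : Approx2 w χ) {C : ℝ}
    (hb : ∀ ε > 0, ∀ᶠ k in atTop, C - ε ≤ En2 (fun x y => w k y x)) :
    ∀ ε > 0, ∀ᶠ k in atTop, C - ε ≤ En2 (w k) := by
  intro ε hε
  filter_upwards [hb ε hε] with k hk
  rwa [sl_swap_En h k] at hk

/-- One family of full columns, no full rows. -/
theorem slice_Xc (h : Approx2 w χ) (hm : Mono2 χ) (hr : deltaR χ = 0) (hc : 0 < deltaC χ) {δ : ℝ}
    (hδ : deltaC χ ≤ δ) : ∀ ε > 0, ∀ᶠ k in atTop, xhat (area χ - δ) - ε ≤ En2 (w k) := by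
  have key := slice_Xr h.swap hm.swap (χ := fun x y => χ y x) hr hc (δ := δ) hδ
  rw [sl_swap_area hm.ind] at key
  exact sl_swap_evt h key

/-- Both families: complement of a disc. -/
theorem slice_L (h : Approx2 w χ) (hm : Mono2 χ) (hr : 0 < deltaR χ) (hc : 0 < deltaC χ) :
    ∀ ε > 0, ∀ᶠ k in atTop, IL (area χ) - ε ≤ En2 (w k) := by
  apply sl_evt_of_bound h
  intro φ hφ P hP
  have key := (sl_T2 h φ hφ).compl_disc hP (sl_full_pos hm hr) (sl_no_empty hm hc)
  rw [area2_lvl hm.ind] at key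
  exact key

private lemma sl_CL_eq (s d : ℝ) : CL s d = 2 * T2.stad (1 - s) (1 - d) := by
  unfold CL T2.stad
  split_ifs <;> rfl

/-- Columns of width at least `d`: stadium bound. -/
private theorem slice_stadium_c (h : Approx2 w χ) (hm : Mono2 χ) (hr : 0 < deltaR χ)
    (hc : 0 < deltaC χ) {d : ℝ} (hd1 : d ≤ 9 / 10) (hd : d ≤ deltaC χ) :
    ∀ ε > 0, ∀ᶠ k in atTop, CL (area χ) d - ε ≤ En2 (w k) := by
  apply sl_evt_of_bound h
  intro φ hφ P hP
  have hlow : ∀ᵐ t : ℝ, t ∈ Icc (0 : ℝ) 1 → d ≤ T2.rowMass (lvl χ) t := by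
    filter_upwards [sl_row_lower hm] with t ht hmem
    exact hd.trans (ht hmem)
  have key := (sl_T2 h φ hφ).compl_stad hP (sl_full_pos hm hr) (sl_no_empty hm hc) hlow
    (by linarith)
  rw [area2_lvl hm.ind] at key
  rw [sl_CL_eq]
  exact key

/-- Both families, one of width at least `d ≤ 9/10`: stadium bound. -/
theorem slice_stadium (h : Approx2 w χ) (hm : Mono2 χ) (hr : 0 < deltaR χ) (hc : 0 < deltaC χ) {d : ℝ}
    (hd1 : d ≤ 9 / 10) (hd : d ≤ deltaR χ ∨ d ≤ deltaC χ) :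
    ∀ ε > 0, ∀ᶠ k in atTop, CL (area χ) d - ε ≤ En2 (w k) := by
  rcases hd with hd | hd
  · have key := slice_stadium_c h.swap hm.swap (χ := fun x y => χ y x) hc hr hd1 hd
    rw [sl_swap_area hm.ind] at key
    exact sl_swap_evt h key
  · exact slice_stadium_c h hm hr hc hd1 hd

/-- Both families: Minkowski. -/
theorem slice_mink (h : Approx2 w χ) (hm : Mono2 χ) (hr : 0 < deltaR χ) (hc : 0 < deltaC χ) :
    ∀ ε > 0, ∀ᶠ k in atTop, Real.sqrt 2 * (2 - deltaR χ - deltaC χ) - ε ≤ En2 (w k) := by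
  apply sl_evt_of_bound h
  intro φ hφ P hP
  have hZc : volume {t | t ∈ Icc (0 : ℝ) 1 ∧ T2.colMass (lvl χ) t = 0} = 0 := by
    have h1 := sl_no_empty hm.swap (χ := fun x y => χ y x) hr
    rw [rowMass_lvl hm.swap.ind] at h1
    rw [colMass_lvl hm.ind]
    exact h1
  have key := (sl_T2 h φ hφ).mink_no_empty hP (sl_no_empty hm hc) hZc
  rw [fullRows_lvl hm.ind, fullCols_lvl hm.ind] at key
  have hs : Real.sqrt 2 * Real.sqrt 2 = 2 := Real.mul_self_sqrt (by norm_num)
  have hs0 : 0 < Real.sqrt 2 := by positivity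
  have : Real.sqrt 2 * (Real.sqrt 2 * (2 - deltaR χ - deltaC χ)) ≤ Real.sqrt 2 * P := by
    rw [← mul_assoc, hs]
    linarith
  exact le_of_mul_le_mul_left this hs0

/-- Thin slices. -/
theorem slice_thin (h : Approx2 w χ) (hm : Mono2 χ) (hr : deltaR χ ≤ tstar) (hc : deltaC χ ≤ tstar) :
    ∀ ε > 0, ∀ᶠ k in atTop, ICp (area χ) - ε ≤ En2 (w k) := by
  have hr0 : 0 ≤ deltaR χ :=
    intervalIntegral.integral_nonneg zero_le_one fun y _ => by
      unfold fullInd; split_ifs <;> norm_num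
  have hc0 : 0 ≤ deltaC χ :=
    intervalIntegral.integral_nonneg zero_le_one fun y _ => by
      unfold fullInd; split_ifs <;> norm_num
  intro ε hε
  rcases hr0.eq_or_lt with hr1 | hr1
  · rcases hc0.eq_or_lt with hc1 | hc1
    · filter_upwards [E2 h ε hε] with k hk
      have h1 : ICp (area χ) ≤ IE (area χ) := min_le_left _ _
      rw [← hr1, ← hc1] at hk
      simp only [add_zero, mul_zero, sub_zero] at hk
      linarith
    · filter_upwards [slice_Xc h hm hr1.symm hc1 hc ε hε] with k hk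
      have h1 : ICp (area χ) ≤ xhat (area χ - tstar) :=
        (min_le_right _ _).trans (min_le_left _ _)
      linarith
  · rcases hc0.eq_or_lt with hc1 | hc1
    · filter_upwards [slice_Xr h hm hc1.symm hr1 hr ε hε] with k hk
      have h1 : ICp (area χ) ≤ xhat (area χ - tstar) :=
        (min_le_right _ _).trans (min_le_left _ _)
      linarith
    · filter_upwards [slice_mink h hm hr1 hc1 ε hε] with k hk
      have h1 : ICp (area χ) ≤ 2 * Real.sqrt 2 * (1 - tstar) :=
        (min_le_right _ _).trans (min_le_right _ _)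
      have hs0 : 0 < Real.sqrt 2 := by positivity
      have h2 : 2 * Real.sqrt 2 * (1 - tstar) ≤ Real.sqrt 2 * (2 - deltaR χ - deltaC χ) := by
        nlinarith
      linarith

end Vale.Agent.Lib.P232
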