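import Vale.Agent.Lib.P232.SteinerA

/-! JOB STEINER1: Steiner symmetrization in the first coordinate does not increase the perimeter. -/

open MeasureTheory Set Filter Topology
open scoped ENNReal

noncomputable section

namespace Vale.Agent.Lib.P232

namespace St1

/-! ### The inequality for the symmetral -/

section main

variable {U : ℕ → ℝ → ℝ → ℝ → ℝ} {χ : ℝ → ℝ → ℝ → ℝ}

theorem stXf_meas (h : Ind3 χ) : MeasurableSet (stXf χ) :=
  measurableSet_lt (measurable_uu.comp measurable_fst) ((measurable_lineX h).comp measurable_snd)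

theorem meas_pt {G : ℝ → ℝ → ℝ → ℝ} (hG : Continuous fun p : R3 => G p.1 p.2.1 p.2.2) (h : Ind3 χ) :
    Measurable fun q : ℝ × ℝ => G (lineX χ q.1 q.2) q.1 q.2 :=
  (show Measurable ((fun r : R3 => G r.1 r.2.1 r.2.2) ∘
    fun q : ℝ × ℝ => ((lineX χ q.1 q.2, q.1, q.2) : R3)) from
    hG.measurable.comp ((measurable_lineX h).prodMk (measurable_fst.prodMk measurable_snd)))

theorem PsiI_abs_le (φ : TestField) {B : ℝ} (hB : ∀ x y t, |gg2 φ x y t + gg3 φ x y t| ≤ B) {γ : ℝ}
    (h0 : 0 ≤ γ) (h1 : γ ≤ 1) (y t : ℝ) : |PsiI φ γ y t| ≤ B := by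
  unfold PsiI
  have hb := intervalIntegral.norm_integral_le_of_norm_le_const (a := 1 / 2 - γ / 2) (b := 1 / 2 + γ / 2)
    (C := B) (f := fun x => gg2 φ x y t + gg3 φ x y t) (fun x _ => hB x y t)
  have hB0 : 0 ≤ B := (abs_nonneg _).trans (hB 0 0 0)
  have e : |1 / 2 + γ / 2 - (1 / 2 - γ / 2)| = γ := by
    rw [show 1 / 2 + γ / 2 - (1 / 2 - γ / 2) = γ by ring, abs_of_nonneg h0]
  rw [Real.norm_eq_abs, e] at hb
  nlinarith

theorem f1_abs_le (φ : TestField) (p : R3) : |φ.f₁ p| ≤ 1 := by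
  have h := φ.norm_le p
  have h1 : φ.f₁ p ^ 2 ≤ 1 := by nlinarith [sq_nonneg (φ.f₂ p), sq_nonneg (φ.f₃ p)]
  rw [abs_le]
  constructor <;> nlinarith

theorem aOne_abs_le (φ : TestField) (γ y t : ℝ) : |aOne φ γ y t| ≤ 2 := by
  unfold aOne
  have h1 := f1_abs_le φ (1 / 2 + γ / 2, y, t)
  have h2 := f1_abs_le φ (1 / 2 - γ / 2, y, t)
  rw [abs_le] at *
  constructor <;> linarith [h1.1, h1.2, h2.1, h2.2]

theorem lineX_mem_C1 {W : ℝ → ℝ → ℝ → ℝ} (hW : C1P3 W) (y t : ℝ) :
    0 ≤ lineX W y t ∧ lineX W y t ≤ 1 := by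
  constructor
  · exact intervalIntegral.integral_nonneg zero_le_one fun x _ => hW.nonneg x y t
  · exact (le_abs_self _).trans (t3_abs_int_le fun x => t3_abs_le hW x y t)

/-- The divergence over the symmetral. -/
theorem div_formula (h : Ind3 χ) (φ : TestField) :
    ∫ p in stXf χ ∩ Q3, φ.div p =
      ∫ t in (0 : ℝ)..1, ∫ y in (0 : ℝ)..1, (aOne φ (lineX χ y t) y t + PsiI φ (lineX χ y t) y t) := by
  have hS := stXf_meas h
  have hi : IntegrableOn ((stXf χ).indicator φ.div) Q3 :=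
    (m4_integrableOn (m3_div_cont φ)).indicator hS
  rw [inter_comm, ← setIntegral_indicator hS, Q3_iter hi]
  refine intervalIntegral.integral_congr fun t _ => ?_
  refine intervalIntegral.integral_congr fun y _ => ?_
  obtain ⟨h0, h1⟩ := lineX_mem h y t
  show ∫ x in (0 : ℝ)..1, (stXf χ).indicator φ.div (x, y, t) = _
  have e : ∀ x, (stXf χ).indicator φ.div (x, y, t) =
      {x | uu x < lineX χ y t}.indicator (fun x => φ.div (x, y, t)) x := fun x => rfl
  simp only [e]
  rw [section_int h0 h1, int_div]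

theorem cont_jump (φ : TestField) {W : ℝ → ℝ → ℝ → ℝ} (hW : C1P3 W) :
    Continuous fun q : ℝ × ℝ =>
      alp φ (lineX W q.1 q.2) q.1 q.2 * ∫ x in (0 : ℝ)..1, |dX W x q.1 q.2| :=
  (show Continuous ((fun r : R3 => alp φ r.1 r.2.1 r.2.2) ∘
    fun q : ℝ × ℝ => ((lineX W q.1 q.2, q.1, q.2) : R3)) from (cont_alp φ).comp (cont_pt hW)).mul
    (cont_line (G := fun x y t => |dX W x y t|) hW.continuous_dX.abs)

theorem cont_psi (φ : TestField) {W : ℝ → ℝ → ℝ → ℝ} (hW : C1P3 W) :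
    Continuous fun q : ℝ × ℝ => PsiI φ (lineX W q.1 q.2) q.1 q.2 :=
  (show Continuous ((fun r : R3 => PsiI φ r.1 r.2.1 r.2.2) ∘
    fun q : ℝ × ℝ => ((lineX W q.1 q.2, q.1, q.2) : R3)) from (cont_PsiI φ).comp (cont_pt hW))

/-- Convergence of the flux term. -/
theorem tendsto_flux (h : Approx3 U χ) (φ : TestField) :
    Tendsto (fun k => ∫ t in (0 : ℝ)..1, ∫ y in (0 : ℝ)..1, PsiI φ (lineX (U k) y t) y t) atTop
      (𝓝 (∫ t in (0 : ℝ)..1, ∫ y in (0 : ℝ)..1, PsiI φ (lineX χ y t) y t)) := by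
  obtain ⟨B, hB⟩ := exists_bound_gg φ
  have hbd : ∀ k y t, |PsiI φ (lineX (U k) y t) y t| ≤ B := fun k y t =>
    PsiI_abs_le φ hB (lineX_mem_C1 (h.c1 k) y t).1 (lineX_mem_C1 (h.c1 k) y t).2 y t
  refine dct_bdd (C := B) (F := fun k t => ∫ y in (0 : ℝ)..1, PsiI φ (lineX (U k) y t) y t)
    (fun k => cont_outer (f := fun y t => PsiI φ (lineX (U k) y t) y t) (cont_psi φ (h.c1 k)))
    (fun k t => inner_abs_le fun y => hbd k y t) ?_
  filter_upwards [iter_ae_lines h] with t ht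
  refine dct_bdd (C := B) (F := fun k y => PsiI φ (lineX (U k) y t) y t)
    (fun k => cont_row2 (f := fun y t => PsiI φ (lineX (U k) y t) y t) (cont_psi φ (h.c1 k)) t)
    (fun k y => hbd k y t) ?_
  filter_upwards [ht] with y hy
  exact cont_tendsto (G := PsiI φ) (cont_PsiI φ) y t (conv_line h hy)

/-- The positive part of the jump is controlled in the limit. -/
theorem jump_le (h : Approx3 U χ) {P : ℝ} (hP : ∀ k, En3 (U k) ≤ P) (φ : TestField) :
    (∫ t in (0 : ℝ)..1, ∫ y in (0 : ℝ)..1, max (aOne φ (lineX χ y t) y t) 0) ≤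
      P - ∫ t in (0 : ℝ)..1, ∫ y in (0 : ℝ)..1, PsiI φ (lineX χ y t) y t := by
  have mA : Measurable fun q : ℝ × ℝ => aOne φ (lineX χ q.1 q.2) q.1 q.2 :=
    meas_pt (G := aOne φ) (cont_aOne φ) h.ind
  have mAm : Measurable fun q : ℝ × ℝ => max (aOne φ (lineX χ q.1 q.2) q.1 q.2) 0 :=
    mA.max measurable_const
  have hT := tendsto_flux h φ
  refine le_of_forall_pos_le_add fun ε hε => ?_
  refine fatou_interval
    (f := fun k t => ∫ y in (0 : ℝ)..1, alp φ (lineX (U k) y t) y t * ∫ x in (0 : ℝ)..1, |dX (U k) x y t|)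
    (h := fun t => ∫ y in (0 : ℝ)..1, max (aOne φ (lineX χ y t) y t) 0) ?_ ?_ ?_ ?_ ?_ ?_
  · exact fun k => cont_outer (f := fun y t => alp φ (lineX (U k) y t) y t *
      ∫ x in (0 : ℝ)..1, |dX (U k) x y t|) (cont_jump φ (h.c1 k))
  · refine fun k t => intervalIntegral.integral_nonneg zero_le_one fun y _ => ?_
    exact mul_nonneg (alp_nonneg φ _ y t)
      (intervalIntegral.integral_nonneg zero_le_one fun x _ => abs_nonneg _)
  · exact (measurable_intervalIntegral_param (F := fun t y => max (aOne φ (lineX χ y t) y t) 0)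
      (mAm.comp measurable_swap)).aestronglyMeasurable
  · exact fun t => intervalIntegral.integral_nonneg zero_le_one fun y _ => le_max_right _ _
  · filter_upwards [iter_ae_lines h] with t ht
    refine fatou_lt (g := fun k y => alp φ (lineX (U k) y t) y t * ∫ x in (0 : ℝ)..1, |dX (U k) x y t|)
      (a := fun y => max (aOne φ (lineX χ y t) y t) 0) ?_ ?_ ?_ ?_ ?_
    · exact fun k => cont_row2 (f := fun y t => alp φ (lineX (U k) y t) y t *
        ∫ x in (0 : ℝ)..1, |dX (U k) x y t|) (cont_jump φ (h.c1 k)) t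
    · exact fun k y => mul_nonneg (alp_nonneg φ _ y t)
        (intervalIntegral.integral_nonneg zero_le_one fun x _ => abs_nonneg _)
    · exact (mAm.comp (measurable_id.prodMk measurable_const)).aestronglyMeasurable
    · exact fun y => le_max_right _ _
    · filter_upwards [ht] with y hy
      exact line_lower h φ hy
  · filter_upwards [hT.eventually (lt_mem_nhds (show
      (∫ t in (0 : ℝ)..1, ∫ y in (0 : ℝ)..1, PsiI φ (lineX χ y t) y t) - ε <
        ∫ t in (0 : ℝ)..1, ∫ y in (0 : ℝ)..1, PsiI φ (lineX χ y t) y t by linarith))] with k hk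
    have h1 := level_k φ (h.c1 k)
    have h2 := hP k
    linarith

theorem iter2_add_le_max {a S : ℝ → ℝ → ℝ} (ma : Measurable fun q : ℝ × ℝ => a q.1 q.2)
    (mS : Measurable fun q : ℝ × ℝ => S q.1 q.2) {C D : ℝ} (ha : ∀ y t, |a y t| ≤ C)
    (hS : ∀ y t, |S y t| ≤ D) (hC : 0 ≤ C) :
    (∫ t in (0 : ℝ)..1, ∫ y in (0 : ℝ)..1, (a y t + S y t)) ≤
      (∫ t in (0 : ℝ)..1, ∫ y in (0 : ℝ)..1, max (a y t) 0) +
        ∫ t in (0 : ℝ)..1, ∫ y in (0 : ℝ)..1, S y t := by
  have mAm : Measurable fun q : ℝ × ℝ => max (a q.1 q.2) 0 := ma.max measurable_const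
  have bAm : ∀ y t, |max (a y t) 0| ≤ C := fun y t => by
    rw [abs_of_nonneg (le_max_right _ _)]
    exact max_le ((le_abs_self _).trans (ha y t)) hC
  rw [← iter2_add_mble (f := fun y t => max (a y t) 0) (g := S) mAm mS bAm hS]
  refine iter2_mono_mble (f := fun y t => a y t + S y t) (g := fun y t => max (a y t) 0 + S y t)
    (C := C + D) (D := C + D) (ma.add mS) (mAm.add mS) ?_ ?_ ?_
  · exact fun y t => (abs_add_le _ _).trans (add_le_add (ha y t) (hS y t))
  · exact fun y t => (abs_add_le _ _).trans (add_le_add (bAm y t) (hS y t))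
  · exact fun y t => add_le_add (le_max_left _ _) le_rfl

/-- The main inequality. -/
theorem st_div_le (h : Approx3 U χ) {P : ℝ} (hP : ∀ k, En3 (U k) ≤ P) (φ : TestField) :
    ∫ p in stXf χ ∩ Q3, φ.div p ≤ P := by
  obtain ⟨B, hB⟩ := exists_bound_gg φ
  have mA : Measurable fun q : ℝ × ℝ => aOne φ (lineX χ q.1 q.2) q.1 q.2 :=
    meas_pt (G := aOne φ) (cont_aOne φ) h.ind
  have mS : Measurable fun q : ℝ × ℝ => PsiI φ (lineX χ q.1 q.2) q.1 q.2 :=
    meas_pt (G := PsiI φ) (cont_PsiI φ) h.ind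
  have bA : ∀ y t, |aOne φ (lineX χ y t) y t| ≤ 2 := fun y t => aOne_abs_le φ _ y t
  have bS : ∀ y t, |PsiI φ (lineX χ y t) y t| ≤ B := fun y t =>
    PsiI_abs_le φ hB (lineX_mem h.ind y t).1 (lineX_mem h.ind y t).2 y t
  have h3 : (∫ t in (0 : ℝ)..1, ∫ y in (0 : ℝ)..1,
      (aOne φ (lineX χ y t) y t + PsiI φ (lineX χ y t) y t)) ≤
      (∫ t in (0 : ℝ)..1, ∫ y in (0 : ℝ)..1, max (aOne φ (lineX χ y t) y t) 0) +
      ∫ t in (0 : ℝ)..1, ∫ y in (0 : ℝ)..1, PsiI φ (lineX χ y t) y t :=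
    iter2_add_le_max (a := fun y t => aOne φ (lineX χ y t) y t)
      (S := fun y t => PsiI φ (lineX χ y t) y t) mA mS bA bS (by norm_num)
  rw [div_formula h.ind φ]
  exact h3.trans (le_sub_iff_add_le.1 (jump_le h hP φ))

end main

end St1

/-! ### Steiner symmetrization of a set -/

open St1

variable {E : Set R3}

theorem measurableSet_stX (hE : MeasurableSet E) (hper : IsZ3Periodic E) : MeasurableSet (stX E) :=
  stXf_meas (ind3_ind hE hper)

theorem periodic_stX (hE : MeasurableSet E) (hper : IsZ3Periodic E) : IsZ3Periodic (stX E) := by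
  have h := ind3_ind hE hper
  refine ⟨fun x y t => ?_, fun x y t => ?_, fun x y t => ?_⟩
  · show uu (x + 1) < _ ↔ uu x < _
    rw [uu_add_one]
  · have e : lineX (ind E) (y + 1) t = lineX (ind E) y t := by
      unfold lineX
      simp only [h.per_y]
    show uu x < lineX (ind E) (y + 1) t ↔ uu x < lineX (ind E) y t
    rw [e]
  · have e : lineX (ind E) y (t + 1) = lineX (ind E) y t := by
      unfold lineX
      simp only [h.per_t]
    show uu x < lineX (ind E) y (t + 1) ↔ uu x < lineX (ind E) y t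
    rw [e]

/-- The symmetral has the volume of the set. -/
theorem vol_stX (hE : MeasurableSet E) (hper : IsZ3Periodic E) : vol (ind (stX E)) = vol (ind E) := by
  unfold vol massT area slc
  refine intervalIntegral.integral_congr fun t _ => ?_
  refine intervalIntegral.integral_congr fun y _ => ?_
  obtain ⟨h0, h1⟩ := lineX_mem (ind3_ind hE hper) y t
  show ∫ x in (0 : ℝ)..1, ind (stX E) x y t = lineX (ind E) y t
  have e : ∀ x, ind (stX E) x y t = {x | uu x < lineX (ind E) y t}.indicator (fun _ => (1 : ℝ)) x :=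
    fun x => rfl
  simp only [e]
  rw [section_int h0 h1]
  simp

/-- The perimeter does not increase. -/
theorem perim_stX (hE : MeasurableSet E) (hper : IsZ3Periodic E) : Perim (stX E) ≤ Perim E := by
  by_cases htop : Perim E = ⊤
  · rw [htop]
    exact le_top
  set P := (Perim E).toReal with hPdef
  have hPE : ENNReal.ofReal P = Perim E := ENNReal.ofReal_toReal htop
  have hφ : ∀ φ : TestField, ∫ p in E ∩ Q3, φ.div p ≤ P := by
    intro φ
    have h1 : ENNReal.ofReal (∫ p in E ∩ Q3, φ.div p) ≤ Perim E :=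
      le_iSup (fun φ : TestField => ENNReal.ofReal (∫ p in E ∩ Q3, φ.div p)) φ
    exact (ENNReal.ofReal_le_iff_le_toReal htop).1 h1
  obtain ⟨ρ, hρ, hA⟩ := exists_kernels hE hper
  rw [← hPE]
  exact iSup_le fun φ => ENNReal.ofReal_le_ofReal
    (st_div_le hA (fun k => moll_energy (hρ k) hE hper hφ) φ)

end Vale.Agent.Lib.P232
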