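import Vale.Agent.Lib.P232.S3Defs

/-! JOB STEINER1, first part: the smooth inequality and the limit along lines. -/

open MeasureTheory Set Filter Topology
open scoped ENNReal

noncomputable section

namespace Vale.Agent.Lib.P232.St1

theorem uu_add_one (x : ℝ) : uu (x + 1) = uu x := by
  simp [uu]

theorem measurable_uu : Measurable uu := by
  unfold uu
  exact ((measurable_fract.const_mul 2).sub_const 1).abs

/-- Mass of the `x`-line through `(y,t)`. -/
def lineX (χ : ℝ → ℝ → ℝ → ℝ) (y t : ℝ) : ℝ := ∫ x in (0 : ℝ)..1, χ x y t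

/-- The symmetrized set of a function. -/
def stXf (χ : ℝ → ℝ → ℝ → ℝ) : Set R3 := {p | uu p.1 < lineX χ p.2.1 p.2.2}

/-! ### The section of the symmetral -/

theorem section_eq {c : ℝ} (hc1 : c ≤ 1) :
    {x | uu x < c} ∩ Ioc (0 : ℝ) 1 = Ioo (1 / 2 - c / 2) (1 / 2 + c / 2) := by
  ext x
  simp only [mem_inter_iff, mem_ofPred_eq, mem_Ioc, mem_Ioo]
  constructor
  · rintro ⟨h1, h2, h3⟩
    rcases eq_or_lt_of_le h3 with rfl | h3
    · have : uu 1 = 1 := by simp [uu]
      rw [this] at h1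
      linarith
    · have hf : Int.fract x = x := Int.fract_eq_self.2 ⟨h2.le, h3⟩
      unfold uu at h1
      rw [hf, abs_lt] at h1
      constructor <;> linarith [h1.1, h1.2]
  · rintro ⟨h1, h2⟩
    have h3 : 0 < x := by linarith
    have h4 : x < 1 := by linarith
    refine ⟨?_, h3, h4.le⟩
    have hf : Int.fract x = x := Int.fract_eq_self.2 ⟨h3.le, h4⟩
    unfold uu
    rw [hf, abs_lt]
    constructor <;> linarith

theorem section_int {c : ℝ} (hc0 : 0 ≤ c) (hc1 : c ≤ 1) (G : ℝ → ℝ) :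
    ∫ x in (0 : ℝ)..1, {x | uu x < c}.indicator G x = ∫ x in (1 / 2 - c / 2)..(1 / 2 + c / 2), G x := by
  have hS : MeasurableSet {x | uu x < c} := measurableSet_lt measurable_uu measurable_const
  rw [intervalIntegral.integral_of_le zero_le_one, setIntegral_indicator hS, inter_comm,
    section_eq hc1, intervalIntegral.integral_of_le (by linarith), integral_Ioc_eq_integral_Ioo]

/-! ### Differentiation of integrals with moving limits -/

theorem hasDerivAt_param2 {F F' : ℝ → ℝ → ℝ} (hF : Continuous (fun p : ℝ × ℝ => F p.1 p.2))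
    (hF' : Continuous (fun p : ℝ × ℝ => F' p.1 p.2)) (hd : ∀ x t, HasDerivAt (fun s => F x s) (F' x t) t)
    (a b t : ℝ) : HasDerivAt (fun s => ∫ x in a..b, F x s) (∫ x in a..b, F' x t) t := by
  have hcomp : IsCompact (uIcc a b ×ˢ Icc (t - 1) (t + 1)) := isCompact_uIcc.prod isCompact_Icc
  obtain ⟨C, hC⟩ := hcomp.exists_bound_of_continuousOn hF'.continuousOn
  have hFs : ∀ s, Continuous (fun x => F x s) := fun s =>
    hF.comp (continuous_id.prodMk continuous_const)
  have hFs' : ∀ s, Continuous (fun x => F' x s) := fun s =>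
    hF'.comp (continuous_id.prodMk continuous_const)
  have hs : Icc (t - 1) (t + 1) ∈ 𝓝 t := Icc_mem_nhds (by linarith) (by linarith)
  refine (intervalIntegral.hasDerivAt_integral_of_dominated_loc_of_deriv_le
    (F := fun s x => F x s) (F' := fun s x => F' x s) (bound := fun _ => C) (x₀ := t)
    (μ := volume) (a := a) (b := b) hs ?_ ?_ ?_ ?_ ?_ ?_).2
  · exact Filter.Eventually.of_forall fun s => (hFs s).aestronglyMeasurable
  · exact (hFs t).intervalIntegrable _ _
  · exact (hFs' t).aestronglyMeasurable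
  · refine Filter.Eventually.of_forall fun x hx s hs' => ?_
    exact hC (x, s) ⟨uIoc_subset_uIcc hx, hs'⟩
  · exact intervalIntegrable_const
  · exact Filter.Eventually.of_forall fun x _ s _ => hd x s

theorem prim_hasDerivAt {F F' : ℝ → ℝ → ℝ} (hF : Continuous (fun p : ℝ × ℝ => F p.1 p.2))
    (hF' : Continuous (fun p : ℝ × ℝ => F' p.1 p.2)) (hd : ∀ x t, HasDerivAt (fun s => F x s) (F' x t) t)
    (a : ℝ) {b : ℝ → ℝ} {b' s0 : ℝ} (hb : HasDerivAt b b' s0) :
    HasDerivAt (fun s => ∫ x in a..b s, F x s) (b' * F (b s0) s0 + ∫ x in a..b s0, F' x s0) s0 := by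
  let f : ℝ → ℝ → ℝ := fun u s => ∫ x in a..u, F x s
  let f₁ : ℝ → ℝ → ℝ →L[ℝ] ℝ := fun u s => (F u s) • ContinuousLinearMap.id ℝ ℝ
  let f₂ : ℝ → ℝ → ℝ →L[ℝ] ℝ := fun u s => (∫ x in a..u, F' x s) • ContinuousLinearMap.id ℝ ℝ
  have hFs : ∀ s, Continuous (fun x => F x s) := fun s =>
    hF.comp (continuous_id.prodMk continuous_const)
  have df₁ : ∀ v : ℝ × ℝ, HasFDerivAt (fun u => f u v.2) (Function.uncurry f₁ v) v.1 := by
    intro v
    have h1 := intervalIntegral.integral_hasDerivAt_right ((hFs v.2).intervalIntegrable a v.1)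
      ((hFs v.2).stronglyMeasurableAtFilter _ _) (hFs v.2).continuousAt
    have e : Function.uncurry f₁ v = ContinuousLinearMap.toSpanSingleton ℝ (F v.1 v.2) := by
      ext
      simp [f₁, Function.uncurry]
    rw [e]
    exact h1.hasFDerivAt
  have df₂ : ∀ v : ℝ × ℝ, HasFDerivAt (fun s => f v.1 s) (Function.uncurry f₂ v) v.2 := by
    intro v
    have h1 := hasDerivAt_param2 hF hF' hd a v.1 v.2
    have e : Function.uncurry f₂ v = ContinuousLinearMap.toSpanSingleton ℝ (∫ x in a..v.1, F' x v.2) := by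
      ext
      simp [f₂, Function.uncurry]
    rw [e]
    exact h1.hasFDerivAt
  have cf₁ : Continuous (Function.uncurry f₁) := by
    have : Function.uncurry f₁ = fun p : ℝ × ℝ => F p.1 p.2 • ContinuousLinearMap.id ℝ ℝ := by
      funext p; rfl
    rw [this]
    exact hF.smul continuous_const
  have cf₂ : Continuous (Function.uncurry f₂) := by
    have h0 : Continuous (fun p : ℝ × ℝ => ∫ x in a..p.1, F' x p.2) := by
      have h1 := intervalIntegral.continuous_parametric_primitive_of_continuous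
        (μ := (volume : Measure ℝ)) (f := fun (s x : ℝ) => F' x s) (a₀ := a)
        (show Continuous (Function.uncurry fun (s x : ℝ) => F' x s) from
          hF'.comp (continuous_snd.prodMk continuous_fst))
      exact h1.comp (continuous_snd.prodMk continuous_fst)
    have : Function.uncurry f₂ = fun p : ℝ × ℝ => (∫ x in a..p.1, F' x p.2) • ContinuousLinearMap.id ℝ ℝ := by
      funext p; rfl
    rw [this]
    exact h0.smul continuous_const
  have key := hasStrictFDerivAt_uncurry_coprod (𝕜 := ℝ) (u := ((b s0, s0) : ℝ × ℝ)) (f := f) (f₁ := f₁)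
    (f₂ := f₂) (Filter.Eventually.of_forall df₁) (Filter.Eventually.of_forall df₂)
    cf₁.continuousAt cf₂.continuousAt
  have hcurve : HasDerivAt (fun s => ((b s, s) : ℝ × ℝ)) (b', 1) s0 := hb.prodMk (hasDerivAt_id s0)
  have h3 : HasDerivAt (fun s => ∫ x in a..b s, F x s)
      (((Function.uncurry f₁ (b s0, s0)).coprod (Function.uncurry f₂ (b s0, s0))) (b', 1)) s0 :=
    HasFDerivAt.comp_hasDerivAt (f := fun s => ((b s, s) : ℝ × ℝ)) s0 key.hasFDerivAt hcurve
  refine h3.congr_deriv ?_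
  simp [f₁, f₂, Function.uncurry, mul_comm]

/-- The lower and upper limits of the section. -/
theorem sym_hasDerivAt {F F' : ℝ → ℝ → ℝ} (hF : Continuous (fun p : ℝ × ℝ => F p.1 p.2))
    (hF' : Continuous (fun p : ℝ × ℝ => F' p.1 p.2)) (hd : ∀ x t, HasDerivAt (fun s => F x s) (F' x t) t)
    {γ : ℝ → ℝ} {γ' s0 : ℝ} (hγ : HasDerivAt γ γ' s0) :
    HasDerivAt (fun s => ∫ x in (1 / 2 - γ s / 2)..(1 / 2 + γ s / 2), F x s)
      (γ' / 2 * (F (1 / 2 + γ s0 / 2) s0 + F (1 / 2 - γ s0 / 2) s0) +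
        ∫ x in (1 / 2 - γ s0 / 2)..(1 / 2 + γ s0 / 2), F' x s0) s0 := by
  have hFs : ∀ s, Continuous (fun x => F x s) := fun s =>
    hF.comp (continuous_id.prodMk continuous_const)
  have hFs' : ∀ s, Continuous (fun x => F' x s) := fun s =>
    hF'.comp (continuous_id.prodMk continuous_const)
  have h1 := prim_hasDerivAt hF hF' hd (1 / 2) (b := fun s => 1 / 2 + γ s / 2) (b' := γ' / 2) (s0 := s0)
    ((hγ.div_const 2).const_add _)
  have h2 := prim_hasDerivAt hF hF' hd (1 / 2) (b := fun s => 1 / 2 - γ s / 2) (b' := -(γ' / 2)) (s0 := s0)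
    ((hγ.div_const 2).const_sub _)
  have h3 := h1.sub h2
  have e : (fun s => ∫ x in (1 / 2 - γ s / 2)..(1 / 2 + γ s / 2), F x s) =
      (fun s => ∫ x in (1 / 2 : ℝ)..(1 / 2 + γ s / 2), F x s) -
        fun s => ∫ x in (1 / 2 : ℝ)..(1 / 2 - γ s / 2), F x s := by
    funext s
    simp only [Pi.sub_apply]
    rw [intervalIntegral.integral_interval_sub_left ((hFs s).intervalIntegrable _ _)
      ((hFs s).intervalIntegrable _ _)]
  rw [e]
  refine h3.congr_deriv ?_
  have e2 := intervalIntegral.integral_interval_sub_left (μ := (volume : Measure ℝ))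
    (a := 1 / 2) (b := 1 / 2 + γ s0 / 2) (c := 1 / 2 - γ s0 / 2) (f := fun x => F' x s0)
    ((hFs' s0).intervalIntegrable _ _) ((hFs' s0).intervalIntegrable _ _)
  rw [← e2]
  ring

/-- Continuity of the integral over the section in all variables. -/
theorem cont_sym3 {G : ℝ → ℝ → ℝ → ℝ} (hG : Continuous (fun p : R3 => G p.1 p.2.1 p.2.2)) :
    Continuous (fun q : R3 => ∫ x in (1 / 2 - q.1 / 2)..(1 / 2 + q.1 / 2), G x q.2.1 q.2.2) := by
  have hGs : ∀ q : R3, Continuous (fun x => G x q.2.1 q.2.2) := fun q =>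
    hG.comp (continuous_id.prodMk continuous_const)
  have hu : Continuous (Function.uncurry fun (q : R3) (x : ℝ) => G x q.2.1 q.2.2) :=
    (show Continuous ((fun p : R3 => G p.1 p.2.1 p.2.2) ∘
      fun r : R3 × ℝ => ((r.2, r.1.2.1, r.1.2.2) : R3)) from hG.comp (by fun_prop))
  have h1 := intervalIntegral.continuous_parametric_intervalIntegral_of_continuous
    (μ := (volume : Measure ℝ)) (f := fun (q : R3) (x : ℝ) => G x q.2.1 q.2.2) (a₀ := 1 / 2) hu
    (s := fun q : R3 => 1 / 2 + q.1 / 2) (by fun_prop)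
  have h2 := intervalIntegral.continuous_parametric_intervalIntegral_of_continuous
    (μ := (volume : Measure ℝ)) (f := fun (q : R3) (x : ℝ) => G x q.2.1 q.2.2) (a₀ := 1 / 2) hu
    (s := fun q : R3 => 1 / 2 - q.1 / 2) (by fun_prop)
  have e : (fun q : R3 => ∫ x in (1 / 2 - q.1 / 2)..(1 / 2 + q.1 / 2), G x q.2.1 q.2.2) =
      fun q : R3 => (∫ x in (1 / 2 : ℝ)..(1 / 2 + q.1 / 2), G x q.2.1 q.2.2) -
        ∫ x in (1 / 2 : ℝ)..(1 / 2 - q.1 / 2), G x q.2.1 q.2.2 := by
    funext q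
    rw [intervalIntegral.integral_interval_sub_left ((hGs q).intervalIntegrable _ _)
      ((hGs q).intervalIntegrable _ _)]
  rw [e]
  exact h1.sub h2

/-- The periodic identity: the flux through the two sides equals the integral of the derivative. -/
theorem per_zero {F F' : ℝ → ℝ → ℝ} (hF : Continuous (fun p : ℝ × ℝ => F p.1 p.2))
    (hF' : Continuous (fun p : ℝ × ℝ => F' p.1 p.2)) (hd : ∀ x t, HasDerivAt (fun s => F x s) (F' x t) t)
    (hFp : ∀ x, F x 1 = F x 0) {γ γ' : ℝ → ℝ} (hγ : ∀ s, HasDerivAt γ (γ' s) s) (hγc : Continuous γ')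
    (hγp : γ 1 = γ 0) :
    ∫ s in (0 : ℝ)..1, (-(F (1 / 2 + γ s / 2) s + F (1 / 2 - γ s / 2) s) / 2) * γ' s =
      ∫ s in (0 : ℝ)..1, ∫ x in (1 / 2 - γ s / 2)..(1 / 2 + γ s / 2), F' x s := by
  have hγ0 : Continuous γ := continuous_iff_continuousAt.2 fun s => (hγ s).continuousAt
  have hI : Continuous (fun s => ∫ x in (1 / 2 - γ s / 2)..(1 / 2 + γ s / 2), F' x s) := by
    have h := cont_sym3 (G := fun x y _ => F' x y)
      (hF'.comp (continuous_fst.prodMk (continuous_fst.comp continuous_snd)))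
    exact h.comp (hγ0.prodMk (continuous_id.prodMk continuous_const) :
      Continuous fun s => ((γ s, s, (0 : ℝ)) : R3))
  have hFF : Continuous (fun s => F (1 / 2 + γ s / 2) s + F (1 / 2 - γ s / 2) s) := by
    have h1 : Continuous (fun s => F (1 / 2 + γ s / 2) s) :=
      hF.comp ((continuous_const.add (hγ0.div_const 2)).prodMk continuous_id)
    have h2 : Continuous (fun s => F (1 / 2 - γ s / 2) s) :=
      hF.comp ((continuous_const.sub (hγ0.div_const 2)).prodMk continuous_id)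
    exact h1.add h2
  have hD : Continuous (fun s => γ' s / 2 * (F (1 / 2 + γ s / 2) s + F (1 / 2 - γ s / 2) s) +
      ∫ x in (1 / 2 - γ s / 2)..(1 / 2 + γ s / 2), F' x s) :=
    ((hγc.div_const 2).mul hFF).add hI
  have hftc : (∫ s in (0 : ℝ)..1, (γ' s / 2 * (F (1 / 2 + γ s / 2) s + F (1 / 2 - γ s / 2) s) +
      ∫ x in (1 / 2 - γ s / 2)..(1 / 2 + γ s / 2), F' x s)) =
      (∫ x in (1 / 2 - γ 1 / 2)..(1 / 2 + γ 1 / 2), F x 1) -
        ∫ x in (1 / 2 - γ 0 / 2)..(1 / 2 + γ 0 / 2), F x 0 :=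
    intervalIntegral.integral_eq_sub_of_hasDerivAt
      (f := fun s => ∫ x in (1 / 2 - γ s / 2)..(1 / 2 + γ s / 2), F x s)
      (fun s _ => sym_hasDerivAt hF hF' hd (hγ s)) (hD.intervalIntegrable _ _)
  have hzero : (∫ x in (1 / 2 - γ 1 / 2)..(1 / 2 + γ 1 / 2), F x 1) -
      ∫ x in (1 / 2 - γ 0 / 2)..(1 / 2 + γ 0 / 2), F x 0 = 0 := by
    rw [hγp]
    simp only [hFp]
    ring
  have hA : Continuous (fun s => γ' s / 2 * (F (1 / 2 + γ s / 2) s + F (1 / 2 - γ s / 2) s)) :=
    (hγc.div_const 2).mul hFF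
  rw [hzero, intervalIntegral.integral_add (hA.intervalIntegrable _ _)
    (hI.intervalIntegrable _ _)] at hftc
  have e : (∫ s in (0 : ℝ)..1, (-(F (1 / 2 + γ s / 2) s + F (1 / 2 - γ s / 2) s) / 2) * γ' s) =
      -∫ s in (0 : ℝ)..1, γ' s / 2 * (F (1 / 2 + γ s / 2) s + F (1 / 2 - γ s / 2) s) := by
    rw [← intervalIntegral.integral_neg]
    refine intervalIntegral.integral_congr fun s _ => ?_
    show (-(F (1 / 2 + γ s / 2) s + F (1 / 2 - γ s / 2) s) / 2) * γ' s =
      -(γ' s / 2 * (F (1 / 2 + γ s / 2) s + F (1 / 2 - γ s / 2) s))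
    ring
  rw [e]
  linarith


/-- Composition with a triple of continuous functions. -/
theorem comp3 {X : Type*} [TopologicalSpace X] {G : ℝ → ℝ → ℝ → ℝ}
    (hG : Continuous fun p : R3 => G p.1 p.2.1 p.2.2) {a b c : X → ℝ} (ha : Continuous a)
    (hb : Continuous b) (hc : Continuous c) : Continuous fun r => G (a r) (b r) (c r) :=
  (show Continuous ((fun p : R3 => G p.1 p.2.1 p.2.2) ∘ fun r => ((a r, b r, c r) : R3)) from
    hG.comp (ha.prodMk (hb.prodMk hc)))

/-! ### The field on the two sides of the section -/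

section field

variable (φ : TestField)

/-- Jump of the first component across the section. -/
def aOne (γ y t : ℝ) : ℝ := φ.f₁ (1 / 2 + γ / 2, y, t) - φ.f₁ (1 / 2 - γ / 2, y, t)

/-- The coefficient of the variation along the line. -/
def alp (γ y t : ℝ) : ℝ := max (aOne φ γ y t / 2) 0

/-- The coefficient of the `y`-derivative of the mass. -/
def bTwo (γ y t : ℝ) : ℝ := -(φ.f₂ (1 / 2 + γ / 2, y, t) + φ.f₂ (1 / 2 - γ / 2, y, t)) / 2

/-- The coefficient of the `t`-derivative of the mass. -/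
def bThree (γ y t : ℝ) : ℝ := -(φ.f₃ (1 / 2 + γ / 2, y, t) + φ.f₃ (1 / 2 - γ / 2, y, t)) / 2

/-- The derivatives of the field. -/
def gg1 (x y t : ℝ) : ℝ := deriv (fun s => φ.f₁ (s, y, t)) x
/-- The derivatives of the field. -/
def gg2 (x y t : ℝ) : ℝ := deriv (fun s => φ.f₂ (x, s, t)) y
/-- The derivatives of the field. -/
def gg3 (x y t : ℝ) : ℝ := deriv (fun s => φ.f₃ (x, y, s)) t

/-- The integral over the section of the last two derivatives. -/
def PsiI (γ y t : ℝ) : ℝ := ∫ x in (1 / 2 - γ / 2)..(1 / 2 + γ / 2), (gg2 φ x y t + gg3 φ x y t)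

theorem alp_nonneg (γ y t : ℝ) : 0 ≤ alp φ γ y t := le_max_right _ _

theorem coef_sq (γ y t : ℝ) : alp φ γ y t ^ 2 + bTwo φ γ y t ^ 2 + bThree φ γ y t ^ 2 ≤ 1 := by
  have h1 := φ.norm_le (1 / 2 + γ / 2, y, t)
  have h2 := φ.norm_le (1 / 2 - γ / 2, y, t)
  have h3 : alp φ γ y t ^ 2 ≤ (aOne φ γ y t / 2) ^ 2 := by
    unfold alp
    rcases le_total (aOne φ γ y t / 2) 0 with h | h
    · rw [max_eq_right h]
      nlinarith [sq_nonneg (aOne φ γ y t / 2)]
    · rw [max_eq_left h]
  unfold aOne at h3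
  unfold bTwo bThree
  set v1 := φ.f₁ (1 / 2 + γ / 2, y, t)
  set w1 := φ.f₁ (1 / 2 - γ / 2, y, t)
  set v2 := φ.f₂ (1 / 2 + γ / 2, y, t)
  set w2 := φ.f₂ (1 / 2 - γ / 2, y, t)
  set v3 := φ.f₃ (1 / 2 + γ / 2, y, t)
  set w3 := φ.f₃ (1 / 2 - γ / 2, y, t)
  nlinarith [sq_nonneg (v1 + w1), sq_nonneg (v2 - w2), sq_nonneg (v3 - w3)]

theorem cont_side {f : R3 → ℝ} (hf : Continuous f) (e : ℝ) :
    Continuous (fun q : R3 => f (1 / 2 + e * (q.1 / 2), q.2.1, q.2.2)) :=
  hf.comp (by fun_prop)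

theorem cont_aOne : Continuous (fun q : R3 => aOne φ q.1 q.2.1 q.2.2) := by
  unfold aOne
  have h1 : Continuous (fun q : R3 => φ.f₁ (1 / 2 + q.1 / 2, q.2.1, q.2.2)) :=
    φ.c₁.continuous.comp (by fun_prop)
  have h2 : Continuous (fun q : R3 => φ.f₁ (1 / 2 - q.1 / 2, q.2.1, q.2.2)) :=
    φ.c₁.continuous.comp (by fun_prop)
  exact h1.sub h2

theorem cont_alp : Continuous (fun q : R3 => alp φ q.1 q.2.1 q.2.2) :=
  ((cont_aOne φ).div_const 2).max continuous_const

theorem cont_bTwo : Continuous (fun q : R3 => bTwo φ q.1 q.2.1 q.2.2) := by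
  unfold bTwo
  have h1 : Continuous (fun q : R3 => φ.f₂ (1 / 2 + q.1 / 2, q.2.1, q.2.2)) :=
    φ.c₂.continuous.comp (by fun_prop)
  have h2 : Continuous (fun q : R3 => φ.f₂ (1 / 2 - q.1 / 2, q.2.1, q.2.2)) :=
    φ.c₂.continuous.comp (by fun_prop)
  exact (h1.add h2).neg.div_const 2

theorem cont_bThree : Continuous (fun q : R3 => bThree φ q.1 q.2.1 q.2.2) := by
  unfold bThree
  have h1 : Continuous (fun q : R3 => φ.f₃ (1 / 2 + q.1 / 2, q.2.1, q.2.2)) :=
    φ.c₃.continuous.comp (by fun_prop)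
  have h2 : Continuous (fun q : R3 => φ.f₃ (1 / 2 - q.1 / 2, q.2.1, q.2.2)) :=
    φ.c₃.continuous.comp (by fun_prop)
  exact (h1.add h2).neg.div_const 2

theorem cont_gg1 : Continuous (fun p : R3 => gg1 φ p.1 p.2.1 p.2.2) := by
  have e : (fun p : R3 => gg1 φ p.1 p.2.1 p.2.2) = fun p => fderiv ℝ φ.f₁ p (1, 0, 0) :=
    funext fun p => m3_dx φ.c₁ p
  rw [e]
  exact (φ.c₁.continuous_fderiv one_ne_zero).clm_apply continuous_const

theorem cont_gg2 : Continuous (fun p : R3 => gg2 φ p.1 p.2.1 p.2.2) := by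
  have e : (fun p : R3 => gg2 φ p.1 p.2.1 p.2.2) = fun p => fderiv ℝ φ.f₂ p (0, 1, 0) :=
    funext fun p => m3_dy φ.c₂ p
  rw [e]
  exact (φ.c₂.continuous_fderiv one_ne_zero).clm_apply continuous_const

theorem cont_gg3 : Continuous (fun p : R3 => gg3 φ p.1 p.2.1 p.2.2) := by
  have e : (fun p : R3 => gg3 φ p.1 p.2.1 p.2.2) = fun p => fderiv ℝ φ.f₃ p (0, 0, 1) :=
    funext fun p => m3_dt φ.c₃ p
  rw [e]
  exact (φ.c₃.continuous_fderiv one_ne_zero).clm_apply continuous_const

theorem hd_gg1 (x y t : ℝ) : HasDerivAt (fun s => φ.f₁ (s, y, t)) (gg1 φ x y t) x := by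
  have h1 : HasDerivAt (fun s : ℝ => ((s, y, t) : R3)) ((1, 0, 0) : R3) x :=
    (hasDerivAt_id x).prodMk (hasDerivAt_const _ _)
  have h2 : HasFDerivAt φ.f₁ (fderiv ℝ φ.f₁ (x, y, t)) ((x, y, t) : R3) :=
    (φ.c₁.differentiable one_ne_zero _).hasFDerivAt
  exact (HasFDerivAt.comp_hasDerivAt (f := fun s : ℝ => ((s, y, t) : R3)) x h2 h1).differentiableAt.hasDerivAt

theorem hd_gg2 (x y t : ℝ) : HasDerivAt (fun s => φ.f₂ (x, s, t)) (gg2 φ x y t) y := by
  have h1 : HasDerivAt (fun s : ℝ => ((x, s, t) : R3)) ((0, 1, 0) : R3) y :=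
    (hasDerivAt_const _ _).prodMk ((hasDerivAt_id y).prodMk (hasDerivAt_const _ _))
  have h2 : HasFDerivAt φ.f₂ (fderiv ℝ φ.f₂ (x, y, t)) ((x, y, t) : R3) :=
    (φ.c₂.differentiable one_ne_zero _).hasFDerivAt
  exact (HasFDerivAt.comp_hasDerivAt (f := fun s : ℝ => ((x, s, t) : R3)) y h2 h1).differentiableAt.hasDerivAt

theorem hd_gg3 (x y t : ℝ) : HasDerivAt (fun s => φ.f₃ (x, y, s)) (gg3 φ x y t) t := by
  have h1 : HasDerivAt (fun s : ℝ => ((x, y, s) : R3)) ((0, 0, 1) : R3) t :=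
    (hasDerivAt_const _ _).prodMk ((hasDerivAt_const _ _).prodMk (hasDerivAt_id t))
  have h2 : HasFDerivAt φ.f₃ (fderiv ℝ φ.f₃ (x, y, t)) ((x, y, t) : R3) :=
    (φ.c₃.differentiable one_ne_zero _).hasFDerivAt
  exact (HasFDerivAt.comp_hasDerivAt (f := fun s : ℝ => ((x, y, s) : R3)) t h2 h1).differentiableAt.hasDerivAt

theorem cont_PsiI : Continuous (fun q : R3 => PsiI φ q.1 q.2.1 q.2.2) :=
  cont_sym3 (G := fun x y t => gg2 φ x y t + gg3 φ x y t) ((cont_gg2 φ).add (cont_gg3 φ))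

/-- A bound for the last two derivatives. -/
theorem exists_bound_gg : ∃ B, ∀ x y t, |gg2 φ x y t + gg3 φ x y t| ≤ B := by
  have hp : IsZ3PeriodicFun (fun p : R3 => gg2 φ p.1 p.2.1 p.2.2 + gg3 φ p.1 p.2.1 p.2.2) := by
    have h2 := m4_per_dy φ.p₂
    have h3 := m4_per_dt φ.p₃
    refine ⟨fun x y t => ?_, fun x y t => ?_, fun x y t => ?_⟩
    · exact congrArg₂ (· + ·) (h2.per_x x y t) (h3.per_x x y t)
    · exact congrArg₂ (· + ·) (h2.per_y x y t) (h3.per_y x y t)
    · exact congrArg₂ (· + ·) (h2.per_t x y t) (h3.per_t x y t)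
  obtain ⟨B, hB⟩ := m3_bdd ((cont_gg2 φ).add (cont_gg3 φ)) hp
  exact ⟨B, fun x y t => hB (x, y, t)⟩

/-- The integral of the first derivative over the section. -/
theorem int_gg1 (γ y t : ℝ) :
    ∫ x in (1 / 2 - γ / 2)..(1 / 2 + γ / 2), gg1 φ x y t = aOne φ γ y t := by
  have hc : Continuous (fun x => gg1 φ x y t) :=
    comp3 (G := gg1 φ) (cont_gg1 φ) continuous_id continuous_const continuous_const
  exact intervalIntegral.integral_eq_sub_of_hasDerivAt (f := fun s => φ.f₁ (s, y, t))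
    (fun x _ => hd_gg1 φ x y t) (hc.intervalIntegrable _ _)

/-- The divergence over the section. -/
theorem int_div (γ y t : ℝ) :
    ∫ x in (1 / 2 - γ / 2)..(1 / 2 + γ / 2), φ.div (x, y, t) = aOne φ γ y t + PsiI φ γ y t := by
  have hc1 : Continuous (fun x => gg1 φ x y t) :=
    comp3 (G := gg1 φ) (cont_gg1 φ) continuous_id continuous_const continuous_const
  have hc2 : Continuous (fun x => gg2 φ x y t + gg3 φ x y t) :=
    (comp3 (G := gg2 φ) (cont_gg2 φ) continuous_id continuous_const continuous_const).add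
      (comp3 (G := gg3 φ) (cont_gg3 φ) continuous_id continuous_const continuous_const)
  have e : ∀ x, φ.div (x, y, t) = gg1 φ x y t + (gg2 φ x y t + gg3 φ x y t) := by
    intro x
    show gg1 φ x y t + gg2 φ x y t + gg3 φ x y t = _
    ring
  simp only [e]
  rw [intervalIntegral.integral_add (hc1.intervalIntegrable _ _) (hc2.intervalIntegrable _ _),
    int_gg1]
  rfl

theorem aOne_zero (y t : ℝ) : aOne φ 0 y t = 0 := by
  simp [aOne]

theorem aOne_one (y t : ℝ) : aOne φ 1 y t = 0 := by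
  unfold aOne
  have h := φ.p₁.per_x 0 y t
  norm_num at h ⊢
  linarith

end field

/-! ### The inequality for one smooth function -/

theorem cont_line {G : ℝ → ℝ → ℝ → ℝ} (hG : Continuous (fun p : R3 => G p.1 p.2.1 p.2.2)) :
    Continuous (fun q : ℝ × ℝ => ∫ x in (0 : ℝ)..1, G x q.1 q.2) := by
  have hu : Continuous (Function.uncurry fun (q : ℝ × ℝ) (x : ℝ) => G x q.1 q.2) :=
    (show Continuous ((fun p : R3 => G p.1 p.2.1 p.2.2) ∘
      fun r : (ℝ × ℝ) × ℝ => ((r.2, r.1.1, r.1.2) : R3)) from hG.comp (by fun_prop))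
  exact intervalIntegral.continuous_parametric_intervalIntegral_of_continuous'
    (μ := (volume : Measure ℝ)) hu 0 1

/-- Three terms against the Euclidean norm. -/
theorem cs3 {α β γ X Y T : ℝ} (h : α ^ 2 + β ^ 2 + γ ^ 2 ≤ 1) :
    α * |X| + β * Y + γ * T ≤ Real.sqrt (X ^ 2 + Y ^ 2 + T ^ 2) := by
  refine (le_abs_self _).trans (Real.abs_le_sqrt ?_)
  have hX : |X| ^ 2 = X ^ 2 := sq_abs X
  set a := |X| with ha
  rw [← hX]
  nlinarith [sq_nonneg (α * Y - β * a), sq_nonneg (α * T - γ * a), sq_nonneg (β * T - γ * Y),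
    mul_nonneg (sub_nonneg.2 h) (add_nonneg (add_nonneg (sq_nonneg a) (sq_nonneg Y)) (sq_nonneg T))]

section level

variable (φ : TestField) {W : ℝ → ℝ → ℝ → ℝ}

theorem cont_lineX (hW : C1P3 W) : Continuous (fun q : ℝ × ℝ => lineX W q.1 q.2) :=
  cont_line (G := W) hW.smooth.continuous

theorem hd_W_y (hW : C1P3 W) (x y t : ℝ) : HasDerivAt (fun s => W x s t) (dY W x y t) y := by
  have h1 : HasDerivAt (fun s : ℝ => ((x, s, t) : R3)) ((0, 1, 0) : R3) y :=
    (hasDerivAt_const _ _).prodMk ((hasDerivAt_id y).prodMk (hasDerivAt_const _ _))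
  have h2 := (hW.smooth.differentiable one_ne_zero ((x, y, t) : R3)).hasFDerivAt
  exact (HasFDerivAt.comp_hasDerivAt (f := fun s : ℝ => ((x, s, t) : R3)) y h2 h1).differentiableAt.hasDerivAt

theorem hd_W_t (hW : C1P3 W) (x y t : ℝ) : HasDerivAt (fun s => W x y s) (dT W x y t) t := by
  have h1 : HasDerivAt (fun s : ℝ => ((x, y, s) : R3)) ((0, 0, 1) : R3) t :=
    (hasDerivAt_const _ _).prodMk ((hasDerivAt_const _ _).prodMk (hasDerivAt_id t))
  have h2 := (hW.smooth.differentiable one_ne_zero ((x, y, t) : R3)).hasFDerivAt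
  exact (HasFDerivAt.comp_hasDerivAt (f := fun s : ℝ => ((x, y, s) : R3)) t h2 h1).differentiableAt.hasDerivAt

theorem hd_line_y (hW : C1P3 W) (y t : ℝ) :
    HasDerivAt (fun s => lineX W s t) (∫ x in (0 : ℝ)..1, dY W x y t) y := by
  refine hasDerivAt_param (F := fun x s => W x s t) (F' := fun x s => dY W x s t) ?_ ?_
    (fun x s => hd_W_y hW x s t) y
  · exact comp3 (G := W) hW.smooth.continuous continuous_fst continuous_snd continuous_const
  · exact comp3 (G := dY W) hW.continuous_dY continuous_fst continuous_snd continuous_const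

theorem hd_line_t (hW : C1P3 W) (y t : ℝ) :
    HasDerivAt (fun s => lineX W y s) (∫ x in (0 : ℝ)..1, dT W x y t) t := by
  refine hasDerivAt_param (F := fun x s => W x y s) (F' := fun x s => dT W x y s) ?_ ?_
    (fun x s => hd_W_t hW x y s) t
  · exact comp3 (G := W) hW.smooth.continuous continuous_fst continuous_const continuous_snd
  · exact comp3 (G := dT W) hW.continuous_dT continuous_fst continuous_const continuous_snd

/-- The point of the section as a continuous function of `(y,t)`. -/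
theorem cont_pt (hW : C1P3 W) :
    Continuous (fun q : ℝ × ℝ => ((lineX W q.1 q.2, q.1, q.2) : R3)) :=
  (cont_lineX hW).prodMk (continuous_fst.prodMk continuous_snd)

/-- The flux of the second component. -/
theorem flux_two (hW : C1P3 W) (t : ℝ) :
    ∫ y in (0 : ℝ)..1, bTwo φ (lineX W y t) y t * ∫ x in (0 : ℝ)..1, dY W x y t =
      ∫ y in (0 : ℝ)..1, ∫ x in (1 / 2 - lineX W y t / 2)..(1 / 2 + lineX W y t / 2), gg2 φ x y t := by
  have hc : Continuous (fun y => ∫ x in (0 : ℝ)..1, dY W x y t) :=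
    (cont_line (G := dY W) hW.continuous_dY).comp (continuous_id.prodMk continuous_const)
  refine per_zero (F := fun x s => φ.f₂ (x, s, t)) (F' := fun x s => gg2 φ x s t) ?_ ?_
    (fun x s => hd_gg2 φ x s t) ?_ (γ := fun s => lineX W s t) (fun s => hd_line_y hW s t) hc ?_
  · exact comp3 (G := fun a b c => φ.f₂ (a, b, c)) φ.c₂.continuous continuous_fst continuous_snd
      continuous_const
  · exact comp3 (G := gg2 φ) (cont_gg2 φ) continuous_fst continuous_snd continuous_const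
  · intro x
    have := φ.p₂.per_y x 0 t
    simpa using this
  · unfold lineX
    have : ∀ x, W x 1 t = W x 0 t := fun x => by simpa using hW.per_y x 0 t
    simp only [this]

/-- The flux of the third component, for fixed `y`. -/
theorem flux_three (hW : C1P3 W) (y : ℝ) :
    ∫ t in (0 : ℝ)..1, bThree φ (lineX W y t) y t * ∫ x in (0 : ℝ)..1, dT W x y t =
      ∫ t in (0 : ℝ)..1, ∫ x in (1 / 2 - lineX W y t / 2)..(1 / 2 + lineX W y t / 2), gg3 φ x y t := by
  have hc : Continuous (fun t => ∫ x in (0 : ℝ)..1, dT W x y t) :=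
    (cont_line (G := dT W) hW.continuous_dT).comp (continuous_const.prodMk continuous_id)
  refine per_zero (F := fun x s => φ.f₃ (x, y, s)) (F' := fun x s => gg3 φ x y s) ?_ ?_
    (fun x s => hd_gg3 φ x y s) ?_ (γ := fun s => lineX W y s) (fun s => hd_line_t hW y s) hc ?_
  · exact comp3 (G := fun a b c => φ.f₃ (a, b, c)) φ.c₃.continuous continuous_fst continuous_const
      continuous_snd
  · exact comp3 (G := gg3 φ) (cont_gg3 φ) continuous_fst continuous_const continuous_snd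
  · intro x
    have := φ.p₃.per_t x y 0
    simpa using this
  · unfold lineX
    have : ∀ x, W x y 1 = W x y 0 := fun x => by simpa using hW.per_t x y 0
    simp only [this]

end level

/-! ### The energy bound at the smooth level -/

section level2

variable (φ : TestField) {W : ℝ → ℝ → ℝ → ℝ}

theorem cont_outer {f : ℝ → ℝ → ℝ} (hf : Continuous fun q : ℝ × ℝ => f q.1 q.2) :
    Continuous fun t => ∫ y in (0 : ℝ)..1, f y t := by
  have hu : Continuous (Function.uncurry fun (t y : ℝ) => f y t) := hf.comp continuous_swap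
  exact intervalIntegral.continuous_parametric_intervalIntegral_of_continuous'
    (μ := (volume : Measure ℝ)) hu 0 1

theorem cont_row2 {f : ℝ → ℝ → ℝ} (hf : Continuous fun q : ℝ × ℝ => f q.1 q.2) (t : ℝ) :
    Continuous fun y => f y t :=
  (show Continuous ((fun q : ℝ × ℝ => f q.1 q.2) ∘ fun y => ((y, t) : ℝ × ℝ)) from
    hf.comp (continuous_id.prodMk continuous_const))

theorem iter2_add_cont {f g : ℝ → ℝ → ℝ} (hf : Continuous fun q : ℝ × ℝ => f q.1 q.2)
    (hg : Continuous fun q : ℝ × ℝ => g q.1 q.2) :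
    (∫ t in (0 : ℝ)..1, ∫ y in (0 : ℝ)..1, (f y t + g y t)) =
      (∫ t in (0 : ℝ)..1, ∫ y in (0 : ℝ)..1, f y t) + ∫ t in (0 : ℝ)..1, ∫ y in (0 : ℝ)..1, g y t := by
  have e : ∀ t, (∫ y in (0 : ℝ)..1, (f y t + g y t)) =
      (∫ y in (0 : ℝ)..1, f y t) + ∫ y in (0 : ℝ)..1, g y t := fun t =>
    intervalIntegral.integral_add ((cont_row2 hf t).intervalIntegrable _ _)
      ((cont_row2 hg t).intervalIntegrable _ _)
  simp only [e]
  exact intervalIntegral.integral_add ((cont_outer hf).intervalIntegrable _ _)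
    ((cont_outer hg).intervalIntegrable _ _)

theorem cont_section {G : ℝ → ℝ → ℝ → ℝ} (hG : Continuous fun p : R3 => G p.1 p.2.1 p.2.2)
    (hW : C1P3 W) :
    Continuous fun q : ℝ × ℝ =>
      ∫ x in (1 / 2 - lineX W q.1 q.2 / 2)..(1 / 2 + lineX W q.1 q.2 / 2), G x q.1 q.2 :=
  (show Continuous ((fun r : R3 => ∫ x in (1 / 2 - r.1 / 2)..(1 / 2 + r.1 / 2), G x r.2.1 r.2.2) ∘
      fun q : ℝ × ℝ => ((lineX W q.1 q.2, q.1, q.2) : R3)) from
    (cont_sym3 hG).comp (cont_pt hW))

/-- The inequality along one line. -/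
theorem level_x (hW : C1P3 W) (y t : ℝ) :
    alp φ (lineX W y t) y t * (∫ x in (0 : ℝ)..1, |dX W x y t|) +
      bTwo φ (lineX W y t) y t * (∫ x in (0 : ℝ)..1, dY W x y t) +
      bThree φ (lineX W y t) y t * (∫ x in (0 : ℝ)..1, dT W x y t) ≤
      ∫ x in (0 : ℝ)..1, t3Nr W x y t := by
  have c1 : Continuous fun x => |dX W x y t| :=
    (comp3 (G := dX W) hW.continuous_dX continuous_id continuous_const continuous_const).abs
  have c2 : Continuous fun x => dY W x y t :=
    comp3 (G := dY W) hW.continuous_dY continuous_id continuous_const continuous_const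
  have c3 : Continuous fun x => dT W x y t :=
    comp3 (G := dT W) hW.continuous_dT continuous_id continuous_const continuous_const
  have c4 : Continuous fun x => t3Nr W x y t :=
    comp3 (G := t3Nr W) (t3_cont_Nr hW) continuous_id continuous_const continuous_const
  set a := alp φ (lineX W y t) y t
  set b := bTwo φ (lineX W y t) y t
  set c := bThree φ (lineX W y t) y t
  have hsq : a ^ 2 + b ^ 2 + c ^ 2 ≤ 1 := coef_sq φ _ y t
  have e : a * (∫ x in (0 : ℝ)..1, |dX W x y t|) + b * (∫ x in (0 : ℝ)..1, dY W x y t) +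
      c * (∫ x in (0 : ℝ)..1, dT W x y t) =
      ∫ x in (0 : ℝ)..1, (a * |dX W x y t| + b * dY W x y t + c * dT W x y t) := by
    have c12 : Continuous fun x => a * |dX W x y t| + b * dY W x y t :=
      (c1.const_mul a).add (c2.const_mul b)
    have e1 := intervalIntegral.integral_add (μ := volume) (a := 0) (b := 1)
      (c12.intervalIntegrable _ _) ((c3.const_mul c).intervalIntegrable _ _)
    have e2 := intervalIntegral.integral_add (μ := volume) (a := 0) (b := 1)
      ((c1.const_mul a).intervalIntegrable _ _) ((c2.const_mul b).intervalIntegrable _ _)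
    rw [e1, e2, intervalIntegral.integral_const_mul, intervalIntegral.integral_const_mul,
      intervalIntegral.integral_const_mul]
  rw [e]
  refine intervalIntegral.integral_mono_on zero_le_one
    ((((c1.const_mul a).add (c2.const_mul b)).add (c3.const_mul c)).intervalIntegrable _ _)
    (c4.intervalIntegrable _ _) fun x _ => ?_
  exact cs3 hsq

/-- The energy controls the jump term and the flux term. -/
theorem level_k (hW : C1P3 W) :
    (∫ t in (0 : ℝ)..1, ∫ y in (0 : ℝ)..1, alp φ (lineX W y t) y t * ∫ x in (0 : ℝ)..1, |dX W x y t|) +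
      (∫ t in (0 : ℝ)..1, ∫ y in (0 : ℝ)..1, PsiI φ (lineX W y t) y t) ≤ En3 W := by
  have cA0 : Continuous fun q : ℝ × ℝ => alp φ (lineX W q.1 q.2) q.1 q.2 :=
    (show Continuous ((fun r : R3 => alp φ r.1 r.2.1 r.2.2) ∘
      fun q : ℝ × ℝ => ((lineX W q.1 q.2, q.1, q.2) : R3)) from (cont_alp φ).comp (cont_pt hW))
  have cB0 : Continuous fun q : ℝ × ℝ => bTwo φ (lineX W q.1 q.2) q.1 q.2 :=
    (show Continuous ((fun r : R3 => bTwo φ r.1 r.2.1 r.2.2) ∘
      fun q : ℝ × ℝ => ((lineX W q.1 q.2, q.1, q.2) : R3)) from (cont_bTwo φ).comp (cont_pt hW))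
  have cC0 : Continuous fun q : ℝ × ℝ => bThree φ (lineX W q.1 q.2) q.1 q.2 :=
    (show Continuous ((fun r : R3 => bThree φ r.1 r.2.1 r.2.2) ∘
      fun q : ℝ × ℝ => ((lineX W q.1 q.2, q.1, q.2) : R3)) from (cont_bThree φ).comp (cont_pt hW))
  have cA : Continuous fun q : ℝ × ℝ =>
      alp φ (lineX W q.1 q.2) q.1 q.2 * ∫ x in (0 : ℝ)..1, |dX W x q.1 q.2| :=
    cA0.mul (cont_line (G := fun x y t => |dX W x y t|) hW.continuous_dX.abs)
  have cB : Continuous fun q : ℝ × ℝ =>
      bTwo φ (lineX W q.1 q.2) q.1 q.2 * ∫ x in (0 : ℝ)..1, dY W x q.1 q.2 :=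
    cB0.mul (cont_line (G := dY W) hW.continuous_dY)
  have cC : Continuous fun q : ℝ × ℝ =>
      bThree φ (lineX W q.1 q.2) q.1 q.2 * ∫ x in (0 : ℝ)..1, dT W x q.1 q.2 :=
    cC0.mul (cont_line (G := dT W) hW.continuous_dT)
  have cN : Continuous fun q : ℝ × ℝ => ∫ x in (0 : ℝ)..1, t3Nr W x q.1 q.2 :=
    cont_line (G := t3Nr W) (t3_cont_Nr hW)
  have cS2 := cont_section (G := gg2 φ) (cont_gg2 φ) hW
  have cS3 := cont_section (G := gg3 φ) (cont_gg3 φ) hW
  -- the flux of the third component, with the order of the integrals restored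
  have hE3 : (∫ t in (0 : ℝ)..1, ∫ y in (0 : ℝ)..1,
        bThree φ (lineX W y t) y t * ∫ x in (0 : ℝ)..1, dT W x y t) =
      ∫ t in (0 : ℝ)..1, ∫ y in (0 : ℝ)..1,
        ∫ x in (1 / 2 - lineX W y t / 2)..(1 / 2 + lineX W y t / 2), gg3 φ x y t := by
    rw [T2.cont_fubini (f := fun y t => bThree φ (lineX W y t) y t * ∫ x in (0 : ℝ)..1, dT W x y t) cC,
      T2.cont_fubini (f := fun y t => ∫ x in (1 / 2 - lineX W y t / 2)..(1 / 2 + lineX W y t / 2),
        gg3 φ x y t) cS3]
    exact intervalIntegral.integral_congr fun y _ => flux_three φ hW y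
  have hE2 : (∫ t in (0 : ℝ)..1, ∫ y in (0 : ℝ)..1,
        bTwo φ (lineX W y t) y t * ∫ x in (0 : ℝ)..1, dY W x y t) =
      ∫ t in (0 : ℝ)..1, ∫ y in (0 : ℝ)..1,
        ∫ x in (1 / 2 - lineX W y t / 2)..(1 / 2 + lineX W y t / 2), gg2 φ x y t :=
    intervalIntegral.integral_congr fun t _ => flux_two φ hW t
  have hPsi : (∫ t in (0 : ℝ)..1, ∫ y in (0 : ℝ)..1, PsiI φ (lineX W y t) y t) =
      (∫ t in (0 : ℝ)..1, ∫ y in (0 : ℝ)..1,
        ∫ x in (1 / 2 - lineX W y t / 2)..(1 / 2 + lineX W y t / 2), gg2 φ x y t) +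
      ∫ t in (0 : ℝ)..1, ∫ y in (0 : ℝ)..1,
        ∫ x in (1 / 2 - lineX W y t / 2)..(1 / 2 + lineX W y t / 2), gg3 φ x y t := by
    have e : ∀ y t, PsiI φ (lineX W y t) y t =
        (∫ x in (1 / 2 - lineX W y t / 2)..(1 / 2 + lineX W y t / 2), gg2 φ x y t) +
        ∫ x in (1 / 2 - lineX W y t / 2)..(1 / 2 + lineX W y t / 2), gg3 φ x y t := by
      intro y t
      unfold PsiI
      have h2 : Continuous fun x => gg2 φ x y t :=
        comp3 (G := gg2 φ) (cont_gg2 φ) continuous_id continuous_const continuous_const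
      have h3 : Continuous fun x => gg3 φ x y t :=
        comp3 (G := gg3 φ) (cont_gg3 φ) continuous_id continuous_const continuous_const
      exact intervalIntegral.integral_add (h2.intervalIntegrable _ _) (h3.intervalIntegrable _ _)
    simp only [e]
    exact iter2_add_cont (f := fun y t => ∫ x in (1 / 2 - lineX W y t / 2)..(1 / 2 + lineX W y t / 2),
      gg2 φ x y t) (g := fun y t => ∫ x in (1 / 2 - lineX W y t / 2)..(1 / 2 + lineX W y t / 2),
      gg3 φ x y t) cS2 cS3
  have hmono : (∫ t in (0 : ℝ)..1, ∫ y in (0 : ℝ)..1,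
      (alp φ (lineX W y t) y t * (∫ x in (0 : ℝ)..1, |dX W x y t|) +
        bTwo φ (lineX W y t) y t * (∫ x in (0 : ℝ)..1, dY W x y t) +
        bThree φ (lineX W y t) y t * (∫ x in (0 : ℝ)..1, dT W x y t))) ≤ En3 W := by
    rw [t3_En3]
    refine intervalIntegral.integral_mono_on zero_le_one
      ((cont_outer (f := fun y t => alp φ (lineX W y t) y t * (∫ x in (0 : ℝ)..1, |dX W x y t|) +
        bTwo φ (lineX W y t) y t * (∫ x in (0 : ℝ)..1, dY W x y t) +
        bThree φ (lineX W y t) y t * (∫ x in (0 : ℝ)..1, dT W x y t)) ((cA.add cB).add cC)).intervalIntegrable _ _)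
      ((cont_outer (f := fun y t => ∫ x in (0 : ℝ)..1, t3Nr W x y t) cN).intervalIntegrable _ _) fun t _ => ?_
    refine intervalIntegral.integral_mono_on zero_le_one
      ((cont_row2 (f := fun y t => alp φ (lineX W y t) y t * (∫ x in (0 : ℝ)..1, |dX W x y t|) +
        bTwo φ (lineX W y t) y t * (∫ x in (0 : ℝ)..1, dY W x y t) +
        bThree φ (lineX W y t) y t * (∫ x in (0 : ℝ)..1, dT W x y t)) ((cA.add cB).add cC) t).intervalIntegrable _ _)
      ((cont_row2 (f := fun y t => ∫ x in (0 : ℝ)..1, t3Nr W x y t) cN t).intervalIntegrable _ _)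
      fun y _ => ?_
    exact level_x φ hW y t
  have hsplit : (∫ t in (0 : ℝ)..1, ∫ y in (0 : ℝ)..1,
      (alp φ (lineX W y t) y t * (∫ x in (0 : ℝ)..1, |dX W x y t|) +
        bTwo φ (lineX W y t) y t * (∫ x in (0 : ℝ)..1, dY W x y t) +
        bThree φ (lineX W y t) y t * (∫ x in (0 : ℝ)..1, dT W x y t))) =
      (∫ t in (0 : ℝ)..1, ∫ y in (0 : ℝ)..1, alp φ (lineX W y t) y t * ∫ x in (0 : ℝ)..1, |dX W x y t|) +
      (∫ t in (0 : ℝ)..1, ∫ y in (0 : ℝ)..1, bTwo φ (lineX W y t) y t * ∫ x in (0 : ℝ)..1, dY W x y t) +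
      (∫ t in (0 : ℝ)..1, ∫ y in (0 : ℝ)..1, bThree φ (lineX W y t) y t * ∫ x in (0 : ℝ)..1, dT W x y t) := by
    rw [iter2_add_cont (f := fun y t => alp φ (lineX W y t) y t * (∫ x in (0 : ℝ)..1, |dX W x y t|) +
        bTwo φ (lineX W y t) y t * (∫ x in (0 : ℝ)..1, dY W x y t))
        (g := fun y t => bThree φ (lineX W y t) y t * (∫ x in (0 : ℝ)..1, dT W x y t))
        (cA.add cB) cC,
      iter2_add_cont (f := fun y t => alp φ (lineX W y t) y t * (∫ x in (0 : ℝ)..1, |dX W x y t|))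
        (g := fun y t => bTwo φ (lineX W y t) y t * (∫ x in (0 : ℝ)..1, dY W x y t)) cA cB]
  rw [hsplit, hE2, hE3] at hmono
  linarith [hmono, hPsi]

end level2

/-! ### Fatou along lines -/

/-- Fatou in the form of eventual strict lower bounds. -/
theorem fatou_lt {g : ℕ → ℝ → ℝ} {a : ℝ → ℝ} (hg : ∀ k, Continuous (g k)) (hg0 : ∀ k y, 0 ≤ g k y)
    (ham : AEStronglyMeasurable a (volume.restrict (Ioc (0 : ℝ) 1))) (ha0 : ∀ y, 0 ≤ a y)
    (hlim : ∀ᵐ y, ∀ ρ < a y, ∀ᶠ k in atTop, ρ < g k y) :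
    ∀ ρ < ∫ y in (0 : ℝ)..1, a y, ∀ᶠ k in atTop, ρ < ∫ y in (0 : ℝ)..1, g k y := by
  intro ρ hρ
  by_contra hcon
  have hfreq : ∃ᶠ k in atTop, ∫ y in (0 : ℝ)..1, g k y ≤ ρ :=
    (Filter.not_eventually.1 hcon).mono fun k hk => not_lt.1 hk
  obtain ⟨s, hs, hsρ⟩ := extraction_of_frequently_atTop hfreq
  have hL := fatou_interval (f := fun n => g (s n)) (h := a) (L := ρ) (fun n => hg _)
    (fun n y => hg0 _ y) ham ha0 (by
      filter_upwards [hlim] with y hy r hr
      exact hs.tendsto_atTop.eventually (hy r hr)) (Eventually.of_forall hsρ)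
  linarith

/-- Dominated convergence on the unit interval for bounded continuous functions. -/
theorem dct_bdd {F : ℕ → ℝ → ℝ} {f : ℝ → ℝ} {C : ℝ} (hF : ∀ n, Continuous (F n))
    (hb : ∀ n x, |F n x| ≤ C) (hlim : ∀ᵐ x : ℝ, Tendsto (fun n => F n x) atTop (𝓝 (f x))) :
    Tendsto (fun n => ∫ x in (0 : ℝ)..1, F n x) atTop (𝓝 (∫ x in (0 : ℝ)..1, f x)) := by
  refine intervalIntegral.tendsto_integral_filter_of_dominated_convergence (fun _ => C) ?_ ?_
    intervalIntegrable_const ?_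
  · exact Eventually.of_forall fun n => (hF n).aestronglyMeasurable
  · exact Eventually.of_forall fun n => Eventually.of_forall fun x _ => hb n x
  · filter_upwards [hlim] with x hx _
    exact hx

theorem cont_tendsto {G : ℝ → ℝ → ℝ → ℝ} (hG : Continuous fun p : R3 => G p.1 p.2.1 p.2.2)
    {a : ℕ → ℝ} {a0 : ℝ} (y t : ℝ) (ha : Tendsto a atTop (𝓝 a0)) :
    Tendsto (fun k => G (a k) y t) atTop (𝓝 (G a0 y t)) := by
  have h1 : Continuous fun s => G s y t :=
    comp3 (G := G) hG continuous_id continuous_const continuous_const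
  exact (h1.tendsto a0).comp ha

section limit

variable {U : ℕ → ℝ → ℝ → ℝ → ℝ} {χ : ℝ → ℝ → ℝ → ℝ}

theorem lineX_mem (h : Ind3 χ) (y t : ℝ) : 0 ≤ lineX χ y t ∧ lineX χ y t ≤ 1 :=
  (h.slice_ind t).rowM_mem y

theorem hd_W_x {W : ℝ → ℝ → ℝ → ℝ} (hW : C1P3 W) (x y t : ℝ) :
    HasDerivAt (fun s => W s y t) (dX W x y t) x := by
  have h1 : HasDerivAt (fun s : ℝ => ((s, y, t) : R3)) ((1, 0, 0) : R3) x :=
    (hasDerivAt_id x).prodMk (hasDerivAt_const _ _)
  have h2 := (hW.smooth.differentiable one_ne_zero ((x, y, t) : R3)).hasFDerivAt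
  exact (HasFDerivAt.comp_hasDerivAt (f := fun s : ℝ => ((s, y, t) : R3)) x h2 h1).differentiableAt.hasDerivAt

theorem conv_line (h : Approx3 U χ) {y t : ℝ}
    (hl : ∀ᵐ x : ℝ, Tendsto (fun k => U k x y t) atTop (𝓝 (χ x y t))) :
    Tendsto (fun k => lineX (U k) y t) atTop (𝓝 (lineX χ y t)) :=
  t3_dct (F := fun k x => U k x y t) (fun k => t3_cont_col (h.c1 k).smooth.continuous y t)
    (fun k x => t3_abs_le (h.c1 k) x y t) hl

/-- The lower bound along one line. -/
theorem line_lower (h : Approx3 U χ) (φ : TestField) {y t : ℝ}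
    (hl : ∀ᵐ x : ℝ, Tendsto (fun k => U k x y t) atTop (𝓝 (χ x y t))) :
    ∀ ρ < max (aOne φ (lineX χ y t) y t) 0, ∀ᶠ k in atTop,
      ρ < alp φ (lineX (U k) y t) y t * ∫ x in (0 : ℝ)..1, |dX (U k) x y t| := by
  intro ρ hρ
  have hconv := conv_line h hl
  obtain ⟨hc0, hc1⟩ := lineX_mem h.ind y t
  by_cases hmix : 0 < lineX χ y t ∧ lineX χ y t < 1
  · obtain ⟨x₀, hx₀, hg₀, hn₀⟩ := T2.Approx2.exists_pt (f := fun x => χ x y t) hl hmix.1.ne'
    have hint1 : ∫ x in (0 : ℝ)..1, (1 - χ x y t) ≠ 0 := by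
      have e := rowM_compl (h.ind.slice_ind t) y
      have e2 : ∫ x in (0 : ℝ)..1, (1 - χ x y t) = 1 - lineX χ y t := e
      rw [e2]
      linarith [hmix.2]
    obtain ⟨x₁, hx₁, hg₁, hn₁⟩ := T2.Approx2.exists_pt hl hint1
    have hχ₀ : χ x₀ y t = 1 := (h.ind.bool x₀ y t).resolve_left hn₀
    have hχ₁ : χ x₁ y t = 0 := by
      rcases h.ind.bool x₁ y t with h0 | h0
      · exact h0
      · exact absurd (by rw [h0]; ring) hn₁
    rw [hχ₀] at hg₀
    rw [hχ₁] at hg₁
    have halp : Tendsto (fun k => alp φ (lineX (U k) y t) y t) atTop (𝓝 (alp φ (lineX χ y t) y t)) :=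
      cont_tendsto (G := alp φ) (cont_alp φ) y t hconv
    have hosc : Tendsto (fun k => 2 * |U k x₀ y t - U k x₁ y t|) atTop (𝓝 (2 * |(1 : ℝ) - 0|)) :=
      ((hg₀.sub hg₁).abs).const_mul 2
    have hprod := halp.mul hosc
    have hval : alp φ (lineX χ y t) y t * (2 * |(1 : ℝ) - 0|) = max (aOne φ (lineX χ y t) y t) 0 := by
      unfold alp
      rcases le_total (aOne φ (lineX χ y t) y t) 0 with h0 | h0
      · rw [max_eq_right h0, max_eq_right (by linarith)]
        simp
      · rw [max_eq_left h0, max_eq_left (by linarith)]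
        simp
    rw [hval] at hprod
    filter_upwards [hprod.eventually (lt_mem_nhds hρ)] with k hk
    refine lt_of_lt_of_le hk ?_
    refine mul_le_mul_of_nonneg_left ?_ (alp_nonneg φ _ y t)
    exact T2.two_osc_le_variation (fun x => U k x y t) (fun x => dX (U k) x y t)
      (fun x => hd_W_x (h.c1 k) x y t)
      (comp3 (G := dX (U k)) (h.c1 k).continuous_dX continuous_id continuous_const continuous_const)
      (fun x => (h.c1 k).per_x x y t) x₀ x₁ hx₀ hx₁
  · have hb : lineX χ y t = 0 ∨ lineX χ y t = 1 := by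
      by_cases h0 : lineX χ y t = 0
      · exact Or.inl h0
      · right
        have h1 : 0 < lineX χ y t := lt_of_le_of_ne hc0 (Ne.symm h0)
        by_contra h2
        exact hmix ⟨h1, lt_of_le_of_ne hc1 h2⟩
    have hzero : aOne φ (lineX χ y t) y t = 0 := by
      rcases hb with h0 | h0 <;> rw [h0]
      · exact aOne_zero φ y t
      · exact aOne_one φ y t
    rw [hzero, max_self] at hρ
    refine Eventually.of_forall fun k => lt_of_lt_of_le hρ ?_
    refine mul_nonneg (alp_nonneg φ _ y t) ?_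
    exact intervalIntegral.integral_nonneg zero_le_one fun x _ => abs_nonneg _

theorem measurable_lineX (h : Ind3 χ) : Measurable (fun q : ℝ × ℝ => lineX χ q.1 q.2) :=
  measurable_intervalIntegral_param (F := fun (q : ℝ × ℝ) x => χ x q.1 q.2)
    (h.meas.comp (measurable_snd.prodMk
      ((measurable_fst.comp measurable_fst).prodMk (measurable_snd.comp measurable_fst))))

end limit

/-! ### Iterated integrals -/

theorem iter_ae_lines {U : ℕ → ℝ → ℝ → ℝ → ℝ} {χ : ℝ → ℝ → ℝ → ℝ} (h : Approx3 U χ) :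
    ∀ᵐ t : ℝ, ∀ᵐ y : ℝ, ∀ᵐ x : ℝ, Tendsto (fun k => U k x y t) atTop (𝓝 (χ x y t)) := by
  have h1 := ae_slices (P := fun x y t => Tendsto (fun k => U k x y t) atTop (𝓝 (χ x y t))) h.conv
  filter_upwards [h1] with t ht
  exact ae_rows (P := fun x y => Tendsto (fun k => U k x y t) atTop (𝓝 (χ x y t))) ht

/-- Cube integral, `x` innermost, for integrable functions. -/
theorem Q3_iter {F : R3 → ℝ} (hF : IntegrableOn F Q3) :
    ∫ p in Q3, F p = ∫ t in (0 : ℝ)..1, ∫ y in (0 : ℝ)..1, ∫ x in (0 : ℝ)..1, F (x, y, t) := by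
  let μ : Measure ℝ := volume.restrict (Ico (0 : ℝ) 1)
  have hi0 : ∀ f : ℝ → ℝ, ∫ x, f x ∂μ = ∫ x in (0 : ℝ)..1, f x := fun f => by
    rw [intervalIntegral.integral_of_le zero_le_one, integral_Ico_eq_integral_Ioo,
      integral_Ioc_eq_integral_Ioo]
  have hr : volume.restrict Q3 = μ.prod (μ.prod μ) := by
    unfold Q3
    rw [Measure.prod_restrict, Measure.prod_restrict]
    rfl
  have hi : Integrable F (μ.prod (μ.prod μ)) := by
    rw [← hr]
    exact hF
  rw [hr, integral_prod_symm _ hi, integral_prod_symm _ hi.integral_prod_right, hi0]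
  refine intervalIntegral.integral_congr fun t _ => ?_
  rw [hi0]
  refine intervalIntegral.integral_congr fun y _ => ?_
  rw [hi0]

/-- Bounded measurable functions on the square: the inner integral. -/
theorem inner_abs_le {f : ℝ → ℝ} {C : ℝ} (hb : ∀ x, |f x| ≤ C) : |∫ x in (0 : ℝ)..1, f x| ≤ C := by
  have := intervalIntegral.norm_integral_le_of_norm_le_const (a := (0 : ℝ)) (b := 1) (f := f) (C := C)
    (fun x _ => hb x)
  simpa using this

theorem iter2_add_mble {f g : ℝ → ℝ → ℝ} (hf : Measurable fun q : ℝ × ℝ => f q.1 q.2)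
    (hg : Measurable fun q : ℝ × ℝ => g q.1 q.2) {C D : ℝ} (hfb : ∀ y t, |f y t| ≤ C)
    (hgb : ∀ y t, |g y t| ≤ D) :
    (∫ t in (0 : ℝ)..1, ∫ y in (0 : ℝ)..1, (f y t + g y t)) =
      (∫ t in (0 : ℝ)..1, ∫ y in (0 : ℝ)..1, f y t) + ∫ t in (0 : ℝ)..1, ∫ y in (0 : ℝ)..1, g y t := by
  have rf : ∀ t, Measurable fun y => f y t := fun t =>
    hf.comp (measurable_id.prodMk measurable_const)
  have rg : ∀ t, Measurable fun y => g y t := fun t =>
    hg.comp (measurable_id.prodMk measurable_const)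
  have e : ∀ t, (∫ y in (0 : ℝ)..1, (f y t + g y t)) =
      (∫ y in (0 : ℝ)..1, f y t) + ∫ y in (0 : ℝ)..1, g y t := fun t =>
    intervalIntegral.integral_add (intervalIntegrable_of_bdd (rf t) fun y => hfb y t)
      (intervalIntegrable_of_bdd (rg t) fun y => hgb y t)
  simp only [e]
  have mf : Measurable fun t => ∫ y in (0 : ℝ)..1, f y t :=
    measurable_intervalIntegral_param (F := fun t y => f y t) (hf.comp measurable_swap)
  have mg : Measurable fun t => ∫ y in (0 : ℝ)..1, g y t :=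
    measurable_intervalIntegral_param (F := fun t y => g y t) (hg.comp measurable_swap)
  exact intervalIntegral.integral_add
    (intervalIntegrable_of_bdd mf fun t => inner_abs_le fun y => hfb y t)
    (intervalIntegrable_of_bdd mg fun t => inner_abs_le fun y => hgb y t)

theorem iter2_mono_mble {f g : ℝ → ℝ → ℝ} (hf : Measurable fun q : ℝ × ℝ => f q.1 q.2)
    (hg : Measurable fun q : ℝ × ℝ => g q.1 q.2) {C D : ℝ} (hfb : ∀ y t, |f y t| ≤ C)
    (hgb : ∀ y t, |g y t| ≤ D) (hle : ∀ y t, f y t ≤ g y t) :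
    (∫ t in (0 : ℝ)..1, ∫ y in (0 : ℝ)..1, f y t) ≤ ∫ t in (0 : ℝ)..1, ∫ y in (0 : ℝ)..1, g y t := by
  have rf : ∀ t, Measurable fun y => f y t := fun t =>
    hf.comp (measurable_id.prodMk measurable_const)
  have rg : ∀ t, Measurable fun y => g y t := fun t =>
    hg.comp (measurable_id.prodMk measurable_const)
  have mf : Measurable fun t => ∫ y in (0 : ℝ)..1, f y t :=
    measurable_intervalIntegral_param (F := fun t y => f y t) (hf.comp measurable_swap)
  have mg : Measurable fun t => ∫ y in (0 : ℝ)..1, g y t :=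
    measurable_intervalIntegral_param (F := fun t y => g y t) (hg.comp measurable_swap)
  refine intervalIntegral.integral_mono_on zero_le_one
    (intervalIntegrable_of_bdd mf fun t => inner_abs_le fun y => hfb y t)
    (intervalIntegrable_of_bdd mg fun t => inner_abs_le fun y => hgb y t) fun t _ => ?_
  exact intervalIntegral.integral_mono_on zero_le_one
    (intervalIntegrable_of_bdd (rf t) fun y => hfb y t)
    (intervalIntegrable_of_bdd (rg t) fun y => hgb y t) fun y _ => hle y t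

end Vale.Agent.Lib.P232.St1
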