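import Mathlib

/-!
# P232, Level 1: the total variation of a periodic function

For a `C¹` one-periodic function `v` and two points of `[0,1]`, the total variation over one
period is at least twice the oscillation between the two points.
-/

namespace Vale.Agent.Lib.P232.T2

open Real MeasureTheory Set Filter Topology

private lemma deriv_periodic (v v' : ℝ → ℝ) (hd : ∀ x, HasDerivAt v (v' x) x)
    (hp : ∀ x, v (x + 1) = v x) (x : ℝ) : v' (x + 1) = v' x := by
  have h1 : HasDerivAt (fun x => v (x + 1)) (v' (x + 1)) x := by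
    simpa using (hd (x + 1)).comp_add_const x 1
  have h2 : (fun x => v (x + 1)) = v := funext hp
  rw [h2] at h1
  exact h1.unique (hd x)

private lemma osc_aux (v v' : ℝ → ℝ) (hd : ∀ x, HasDerivAt v (v' x) x) (hc : Continuous v')
    (hp : ∀ x, v (x + 1) = v x) (x₀ x₁ : ℝ) (h01 : x₀ ≤ x₁) (h1 : x₁ ≤ x₀ + 1) :
    2 * |v x₀ - v x₁| ≤ ∫ x in (0 : ℝ)..1, |v' x| := by
  have hper : Function.Periodic (fun x => |v' x|) 1 := fun x => by
    simp only [deriv_periodic v v' hd hp x]
  have hca : Continuous fun x => |v' x| := hc.abs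
  have hF (a b : ℝ) : ∫ x in a..b, v' x = v b - v a :=
    intervalIntegral.integral_eq_sub_of_hasDerivAt (fun x _ => hd x)
      (hc.intervalIntegrable _ _)
  have h2 : |v x₁ - v x₀| ≤ ∫ x in x₀..x₁, |v' x| := by
    rw [← hF]; exact intervalIntegral.abs_integral_le_integral_abs h01
  have h3 : |v (x₀ + 1) - v x₁| ≤ ∫ x in x₁..(x₀ + 1), |v' x| := by
    rw [← hF]; exact intervalIntegral.abs_integral_le_integral_abs h1
  have h4 : (∫ x in x₀..x₁, |v' x|) + ∫ x in x₁..(x₀ + 1), |v' x| = ∫ x in x₀..(x₀ + 1), |v' x| :=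
    intervalIntegral.integral_add_adjacent_intervals (hca.intervalIntegrable _ _)
      (hca.intervalIntegrable _ _)
  have h5 : ∫ x in x₀..(x₀ + 1), |v' x| = ∫ x in (0 : ℝ)..1, |v' x| := by
    have := hper.intervalIntegral_add_eq x₀ 0
    simpa using this
  rw [hp] at h3
  rw [abs_sub_comm] at h2
  linarith

/-- **Level 1.** The variation over a period is at least twice any oscillation. -/
theorem two_osc_le_variation (v v' : ℝ → ℝ) (hd : ∀ x, HasDerivAt v (v' x) x)
    (hc : Continuous v') (hp : ∀ x, v (x + 1) = v x) (x₀ x₁ : ℝ) (h₀ : x₀ ∈ Icc (0 : ℝ) 1)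
    (h₁ : x₁ ∈ Icc (0 : ℝ) 1) :
    2 * |v x₀ - v x₁| ≤ ∫ x in (0 : ℝ)..1, |v' x| := by
  rcases le_total x₀ x₁ with h | h
  · exact osc_aux v v' hd hc hp x₀ x₁ h (by linarith [h₁.2, h₀.1])
  · rw [abs_sub_comm]
    exact osc_aux v v' hd hc hp x₁ x₀ h (by linarith [h₀.2, h₁.1])

end Vale.Agent.Lib.P232.T2
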