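import Mathlib
import Vale.Agent.Lib.P232.T2Line
import Vale.Agent.Lib.P232.Slice

/-!
# P232, Level 2, part A: smooth approximations on the two-torus, rows and columns
-/

namespace Vale.Agent.Lib.P232.T2

open Real MeasureTheory Set Filter Topology

/-- `w k` are `C¹`, doubly one-periodic, `[0,1]`-valued functions with derivatives
`wx k`, `wy k`, converging a.e. on `ℝ²` to the indicator of the measurable set `F`. -/
structure Approx2 (w wx wy : ℕ → ℝ → ℝ → ℝ) (F : Set (ℝ × ℝ)) : Prop where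
  cw : ∀ k, Continuous (fun p : ℝ × ℝ => w k p.1 p.2)
  cx : ∀ k, Continuous (fun p : ℝ × ℝ => wx k p.1 p.2)
  cy : ∀ k, Continuous (fun p : ℝ × ℝ => wy k p.1 p.2)
  dx : ∀ k x y, HasDerivAt (fun x => w k x y) (wx k x y) x
  dy : ∀ k x y, HasDerivAt (fun y => w k x y) (wy k x y) y
  perx : ∀ k x y, w k (x + 1) y = w k x y
  pery : ∀ k x y, w k x (y + 1) = w k x y
  range : ∀ k x y, 0 ≤ w k x y ∧ w k x y ≤ 1
  meas : MeasurableSet F
  lim : ∀ᵐ p : ℝ × ℝ, Tendsto (fun k => w k p.1 p.2) atTop (𝓝 (F.indicator (fun _ => (1 : ℝ)) p))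

/-- Mass of the row (`x`-line) at height `y`. -/
noncomputable def rowMass (F : Set (ℝ × ℝ)) (y : ℝ) : ℝ :=
  ∫ x in (0 : ℝ)..1, F.indicator (fun _ => (1 : ℝ)) (x, y)

/-- Mass of the column (`y`-line) at abscissa `x`. -/
noncomputable def colMass (F : Set (ℝ × ℝ)) (x : ℝ) : ℝ :=
  ∫ y in (0 : ℝ)..1, F.indicator (fun _ => (1 : ℝ)) (x, y)

/-- Area of `F` in the unit square. -/
noncomputable def area2 (F : Set (ℝ × ℝ)) : ℝ := ∫ y in (0 : ℝ)..1, rowMass F y

/-- Measure of the full rows in the unit period. -/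
noncomputable def fullRows (F : Set (ℝ × ℝ)) : ℝ :=
  ∫ y in (0 : ℝ)..1, {y | rowMass F y = 1}.indicator (fun _ => (1 : ℝ)) y

/-- Measure of the full columns in the unit period. -/
noncomputable def fullCols (F : Set (ℝ × ℝ)) : ℝ :=
  ∫ x in (0 : ℝ)..1, {x | colMass F x = 1}.indicator (fun _ => (1 : ℝ)) x

/-- The `L¹` norm of a gradient over the unit square. -/
noncomputable def gradE (wx wy : ℝ → ℝ → ℝ) : ℝ :=
  ∫ y in (0 : ℝ)..1, ∫ x in (0 : ℝ)..1, √(wx x y ^ 2 + wy x y ^ 2)

/-! ### Elementary facts -/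

lemma ii_of_bdd {f : ℝ → ℝ} (hf : Measurable f) (hb : ∀ x, |f x| ≤ 1) (a b : ℝ) :
    IntervalIntegrable f volume a b := by
  rw [intervalIntegrable_iff]
  refine Measure.integrableOn_of_bounded (M := 1) ?_ hf.aestronglyMeasurable ?_
  · simp [uIoc]
  · exact Eventually.of_forall fun x => by simpa using hb x

lemma ind_meas {F : Set (ℝ × ℝ)} (hF : MeasurableSet F) :
    Measurable (F.indicator (fun _ => (1 : ℝ))) :=
  measurable_const.indicator hF

lemma ind_abs (F : Set (ℝ × ℝ)) (p : ℝ × ℝ) : |F.indicator (fun _ => (1 : ℝ)) p| ≤ 1 := by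
  by_cases h : p ∈ F <;> simp [h]

lemma ind_sec_meas {F : Set (ℝ × ℝ)} (hF : MeasurableSet F) (y : ℝ) :
    Measurable (fun x => F.indicator (fun _ => (1 : ℝ)) (x, y)) :=
  (ind_meas hF).comp (measurable_id.prodMk measurable_const)

lemma rowMass_measurable {F : Set (ℝ × ℝ)} (hF : MeasurableSet F) : Measurable (rowMass F) := by
  have : rowMass F = fun y => ∫ x in Set.Ioc (0 : ℝ) 1, F.indicator (fun _ => (1 : ℝ)) (x, y) := by
    funext y
    exact intervalIntegral.integral_of_le zero_le_one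
  rw [this]
  have h := (ind_meas hF).stronglyMeasurable
  have h2 : StronglyMeasurable (Function.uncurry
      fun (x y : ℝ) => F.indicator (fun _ => (1 : ℝ)) (x, y)) := by
    have h3 : (Function.uncurry fun (x y : ℝ) => F.indicator (fun _ => (1 : ℝ)) (x, y)) =
        F.indicator (fun _ => (1 : ℝ)) := by
      funext ⟨a, b⟩; rfl
    rw [h3]; exact h
  exact (StronglyMeasurable.integral_prod_left (μ := volume.restrict (Set.Ioc (0 : ℝ) 1)) h2).measurable

lemma rowMass_nonneg (F : Set (ℝ × ℝ)) (y : ℝ) : 0 ≤ rowMass F y := by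
  apply intervalIntegral.integral_nonneg zero_le_one
  intro x _
  exact indicator_nonneg (fun _ _ => zero_le_one) _

lemma rowMass_le_one {F : Set (ℝ × ℝ)} (hF : MeasurableSet F) (y : ℝ) : rowMass F y ≤ 1 := by
  have h : rowMass F y ≤ ∫ _x in (0 : ℝ)..1, (1 : ℝ) := by
    apply intervalIntegral.integral_mono_on zero_le_one
    · exact ii_of_bdd (ind_sec_meas hF y) (fun x => ind_abs F (x, y)) 0 1
    · exact intervalIntegrable_const
    · intro x _
      by_cases hx : (x, y) ∈ F <;> simp [hx]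
  simpa using h

lemma rowMass_abs {F : Set (ℝ × ℝ)} (hF : MeasurableSet F) (y : ℝ) : |rowMass F y| ≤ 1 := by
  rw [abs_of_nonneg (rowMass_nonneg F y)]; exact rowMass_le_one hF y

/-- The reflected set: rows of `swapSet F` are the columns of `F`. -/
def swapSet (F : Set (ℝ × ℝ)) : Set (ℝ × ℝ) := Prod.swap ⁻¹' F

lemma swapSet_meas {F : Set (ℝ × ℝ)} (hF : MeasurableSet F) : MeasurableSet (swapSet F) :=
  measurable_swap hF

lemma swapSet_ind (F : Set (ℝ × ℝ)) (x y : ℝ) :
    (swapSet F).indicator (fun _ => (1 : ℝ)) (x, y) = F.indicator (fun _ => (1 : ℝ)) (y, x) := by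
  by_cases h : (y, x) ∈ F
  · have h' : (x, y) ∈ swapSet F := h
    simp [h, h']
  · have h' : (x, y) ∉ swapSet F := h
    simp [h, h']

lemma rowMass_swap (F : Set (ℝ × ℝ)) : rowMass (swapSet F) = colMass F := by
  funext y
  simp only [rowMass, colMass, swapSet_ind]

lemma colMass_swap (F : Set (ℝ × ℝ)) : colMass (swapSet F) = rowMass F := by
  funext y
  simp only [rowMass, colMass, swapSet_ind]

lemma fullRows_swap (F : Set (ℝ × ℝ)) : fullRows (swapSet F) = fullCols F := by
  simp only [fullRows, fullCols, rowMass_swap]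

/-- Fubini on the unit square for bounded measurable functions. -/
lemma unit_fubini {f : ℝ → ℝ → ℝ} (hf : Measurable (Function.uncurry f))
    (hb : ∀ x y, |f x y| ≤ 1) :
    ∫ y in (0 : ℝ)..1, ∫ x in (0 : ℝ)..1, f x y = ∫ x in (0 : ℝ)..1, ∫ y in (0 : ℝ)..1, f x y := by
  simp only [intervalIntegral.integral_of_le (zero_le_one (α := ℝ))]
  symm
  have hi : Integrable (Function.uncurry f)
      ((volume.restrict (Set.Ioc (0 : ℝ) 1)).prod (volume.restrict (Set.Ioc (0 : ℝ) 1))) :=
    Integrable.of_bound hf.aestronglyMeasurable 1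
      (Eventually.of_forall fun x => by
        obtain ⟨a, b⟩ := x
        simpa [Function.uncurry] using hb a b)
  exact integral_integral_swap hi

lemma area2_swap {F : Set (ℝ × ℝ)} (hF : MeasurableSet F) : area2 (swapSet F) = area2 F := by
  simp only [area2, rowMass, swapSet_ind]
  have h := unit_fubini (f := fun x y => F.indicator (fun _ => (1 : ℝ)) (y, x))
    ((ind_meas hF).comp measurable_swap) (fun x y => ind_abs F (y, x))
  rw [h]

end Vale.Agent.Lib.P232.T2
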