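import Mathlib
import Vale.Agent.Lib.P232.T2A

/-!
# P232, Level 2, part B: the row inequality
-/

namespace Vale.Agent.Lib.P232.T2

open Real MeasureTheory Set Filter Topology

variable {w wx wy : ℕ → ℝ → ℝ → ℝ} {F : Set (ℝ × ℝ)}

/-- The slicing lemma in the form used below: the two levels are given only by positive measure
conditions. -/
theorem slice (a : ℕ → ℝ → ℝ) (a0 c : ℝ → ℝ) (A N : ℕ → ℝ → ℝ) (κ g : ℝ → ℝ) (m M P : ℝ)
    (ha : ∀ k, ContDiff ℝ 1 (a k)) (hper : ∀ k t, a k (t + 1) = a k t)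
    (hlim : ∀ᵐ t, Tendsto (fun k => a k t) atTop (𝓝 (a0 t)))
    (ha0 : Measurable a0) (ha0b : ∀ t, |a0 t| ≤ 1)
    (hA : ∀ k, Continuous (A k)) (hN : ∀ k, Continuous (N k)) (hA0 : ∀ k t, 0 ≤ A k t)
    (hAN : ∀ k t α β, 0 ≤ α → α ^ 2 + β ^ 2 ≤ 1 → α * A k t + β * deriv (a k) t ≤ N k t)
    (hκ : Continuous κ) (hg : Continuous g) (hκ0 : ∀ s, 0 ≤ κ s) (hg0 : ∀ s, 0 ≤ g s)
    (hκg : ∀ s, κ s ^ 2 + g s ^ 2 ≤ 1)
    (hc : Measurable c) (hc0 : ∀ t, 0 ≤ c t) (hcb : ∀ t, c t ≤ 2)
    (hcA : ∀ᵐ t, ∀ ε > 0, ∀ᶠ k in atTop, c t - ε ≤ A k t)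
    (hm : ∀ ε > 0, 0 < volume {t | t ∈ Icc (0 : ℝ) 1 ∧ a0 t < m + ε})
    (hM : ∀ ε > 0, 0 < volume {t | t ∈ Icc (0 : ℝ) 1 ∧ M - ε < a0 t})
    (hP : ∀ k, ∫ t in (0 : ℝ)..1, N k t ≤ P) :
    (∫ t in (0 : ℝ)..1, κ (a0 t) * c t) + 2 * ∫ s in m..M, g s ≤ P := by
  obtain ⟨m', M', hmM', hb⟩ := exists_essBounds ha0 ha0b
  have key := generic_slice (C := 2) ha hper hlim ha0 hA hA0 hN hAN hκ hκ0 hg hg0 hκg hc
    (fun t => by rw [abs_of_nonneg (hc0 t)]; exact hcb t) hcA hb hmM'
    (Eventually.frequently (Eventually.of_forall hP))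
  have hzero : volume ({0} : Set ℝ) = 0 := by simp
  have hm' : m' ≤ m := by
    by_contra hlt
    push Not at hlt
    have h1 := hm (m' - m) (by linarith)
    have h2 : volume {t | t ∈ Icc (0 : ℝ) 1 ∧ a0 t < m + (m' - m)} = 0 := by
      have h3 := hb.ge_m
      rw [ae_restrict_iff' measurableSet_Ioc] at h3
      rw [← nonpos_iff_eq_zero, ← hzero]
      apply measure_mono_ae
      filter_upwards [h3] with t ht hmem
      obtain ⟨hmem1, hmem2⟩ := hmem
      rcases eq_or_lt_of_le hmem1.1 with h0 | h0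
      · exact h0.symm
      · have := ht ⟨h0, hmem1.2⟩
        have h5 : a0 t < m' := by linarith
        exact absurd this (not_le.mpr h5)
    rw [h2] at h1
    exact lt_irrefl _ h1
  have hM' : M ≤ M' := by
    by_contra hlt
    push Not at hlt
    have h1 := hM (M - M') (by linarith)
    have h2 : volume {t | t ∈ Icc (0 : ℝ) 1 ∧ M - (M - M') < a0 t} = 0 := by
      have h3 := hb.le_M
      rw [ae_restrict_iff' measurableSet_Ioc] at h3
      rw [← nonpos_iff_eq_zero, ← hzero]
      apply measure_mono_ae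
      filter_upwards [h3] with t ht hmem
      obtain ⟨hmem1, hmem2⟩ := hmem
      rcases eq_or_lt_of_le hmem1.1 with h0 | h0
      · exact h0.symm
      · have := ht ⟨h0, hmem1.2⟩
        have h5 : M' < a0 t := by linarith
        exact absurd this (not_le.mpr h5)
    rw [h2] at h1
    exact lt_irrefl _ h1
  have hnn : 0 ≤ ∫ s in m'..M', g s := intervalIntegral.integral_nonneg hmM' fun s _ => hg0 s
  have hle : ∫ s in m..M, g s ≤ ∫ s in m'..M', g s := by
    rcases le_total m M with hmM | hmM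
    · exact intervalIntegral.integral_mono_interval hm' hmM hM'
        (Eventually.of_forall fun s => hg0 s) (hg.intervalIntegrable _ _)
    · rw [intervalIntegral.integral_symm]
      have : 0 ≤ ∫ s in M..m, g s := intervalIntegral.integral_nonneg hmM fun s _ => hg0 s
      linarith
  linarith

namespace Approx2

/-- `wx` is periodic in both variables. -/
lemma wx_perx (h : Approx2 w wx wy F) (k : ℕ) (x y : ℝ) : wx k (x + 1) y = wx k x y := by
  have h1 : HasDerivAt (fun x => w k (x + 1) y) (wx k (x + 1) y) x := by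
    simpa using (h.dx k (x + 1) y).comp_add_const x 1
  have h2 : (fun x => w k (x + 1) y) = fun x => w k x y := funext fun x => h.perx k x y
  rw [h2] at h1
  exact h1.unique (h.dx k x y)

lemma wx_pery (h : Approx2 w wx wy F) (k : ℕ) (x y : ℝ) : wx k x (y + 1) = wx k x y := by
  have h1 := h.dx k x (y + 1)
  have h2 : (fun x => w k x (y + 1)) = fun x => w k x y := funext fun x => h.pery k x y
  rw [h2] at h1
  exact h1.unique (h.dx k x y)

lemma wy_pery (h : Approx2 w wx wy F) (k : ℕ) (x y : ℝ) : wy k x (y + 1) = wy k x y := by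
  have h1 : HasDerivAt (fun y => w k x (y + 1)) (wy k x (y + 1)) y := by
    simpa using (h.dy k x (y + 1)).comp_add_const y 1
  have h2 : (fun y => w k x (y + 1)) = fun y => w k x y := funext fun y => h.pery k x y
  rw [h2] at h1
  exact h1.unique (h.dy k x y)

/-- The reflected approximation. -/
lemma swap (h : Approx2 w wx wy F) :
    Approx2 (fun k x y => w k y x) (fun k x y => wy k y x) (fun k x y => wx k y x) (swapSet F) where
  cw k := (h.cw k).comp continuous_swap
  cx k := (h.cy k).comp continuous_swap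
  cy k := (h.cx k).comp continuous_swap
  dx k x y := h.dy k y x
  dy k x y := h.dx k y x
  perx k x y := h.pery k y x
  pery k x y := h.perx k y x
  range k x y := h.range k y x
  meas := swapSet_meas h.meas
  lim := by
    have h1 := h.lim
    rw [Measure.volume_eq_prod] at h1 ⊢
    have h2 := (Measure.measurePreserving_swap (μ := (volume : Measure ℝ))
      (ν := (volume : Measure ℝ))).quasiMeasurePreserving.ae h1
    filter_upwards [h2] with p hp
    obtain ⟨a, b⟩ := p
    simpa [swapSet_ind] using hp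

/-- The complementary approximation. -/
lemma compl (h : Approx2 w wx wy F) :
    Approx2 (fun k x y => 1 - w k x y) (fun k x y => -wx k x y) (fun k x y => -wy k x y) Fᶜ where
  cw k := continuous_const.sub (h.cw k)
  cx k := (h.cx k).neg
  cy k := (h.cy k).neg
  dx k x y := by simpa using (h.dx k x y).const_sub 1
  dy k x y := by simpa using (h.dy k x y).const_sub 1
  perx k x y := by simp [h.perx]
  pery k x y := by simp [h.pery]
  range k x y := by constructor <;> linarith [(h.range k x y).1, (h.range k x y).2]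
  meas := h.meas.compl
  lim := by
    filter_upwards [h.lim] with p hp
    have h2 := (tendsto_const_nhds (x := (1 : ℝ))).sub hp
    convert h2 using 2
    by_cases hq : p ∈ F <;> simp [hq]

/-- Subsequences. -/
lemma comp (h : Approx2 w wx wy F) (φ : ℕ → ℕ) (hφ : StrictMono φ) :
    Approx2 (fun k => w (φ k)) (fun k => wx (φ k)) (fun k => wy (φ k)) F where
  cw k := h.cw _
  cx k := h.cx _
  cy k := h.cy _
  dx k := h.dx _
  dy k := h.dy _
  perx k := h.perx _
  pery k := h.pery _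
  range k := h.range _
  meas := h.meas
  lim := by
    filter_upwards [h.lim] with p hp
    exact hp.comp hφ.tendsto_atTop

/-- Section-wise convergence. -/
lemma ae_row (h : Approx2 w wx wy F) :
    ∀ᵐ y : ℝ, ∀ᵐ x : ℝ, Tendsto (fun k => w k x y) atTop
      (𝓝 (F.indicator (fun _ => (1 : ℝ)) (x, y))) := by
  have h1 := h.swap.lim
  rw [Measure.volume_eq_prod] at h1
  have h2 := Measure.ae_ae_of_ae_prod h1
  filter_upwards [h2] with y hy
  filter_upwards [hy] with x hx
  simpa [swapSet_ind] using hx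

end Approx2

/-- Row average. -/
noncomputable def aRow (w : ℝ → ℝ → ℝ) (y : ℝ) : ℝ := ∫ x in (0 : ℝ)..1, w x y
/-- Row variation. -/
noncomputable def ARow (wx : ℝ → ℝ → ℝ) (y : ℝ) : ℝ := ∫ x in (0 : ℝ)..1, |wx x y|
/-- Row gradient norm. -/
noncomputable def NRow (wx wy : ℝ → ℝ → ℝ) (y : ℝ) : ℝ :=
  ∫ x in (0 : ℝ)..1, √(wx x y ^ 2 + wy x y ^ 2)

namespace Approx2

lemma cont_sec_y {f : ℝ → ℝ → ℝ} (hf : Continuous fun p : ℝ × ℝ => f p.1 p.2) (y : ℝ) :
    Continuous fun x => f x y :=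
  hf.comp (continuous_id.prodMk continuous_const)

lemma cont_param {f : ℝ → ℝ → ℝ} (hf : Continuous fun p : ℝ × ℝ => f p.1 p.2) :
    Continuous fun y => ∫ x in (0 : ℝ)..1, f x y := by
  apply intervalIntegral.continuous_parametric_intervalIntegral_of_continuous'
  exact hf.comp continuous_swap

lemma hasDerivAt_aRow (h : Approx2 w wx wy F) (k : ℕ) (y : ℝ) :
    HasDerivAt (aRow (w k)) (∫ x in (0 : ℝ)..1, wy k x y) y := by
  have hcomp : IsCompact (Icc (0 : ℝ) 1 ×ˢ Icc (y - 1) (y + 1)) := isCompact_Icc.prod isCompact_Icc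
  obtain ⟨C, hC⟩ := hcomp.exists_bound_of_continuousOn (h.cy k).continuousOn
  have key := intervalIntegral.hasDerivAt_integral_of_dominated_loc_of_deriv_le
    (μ := volume) (a := (0 : ℝ)) (b := 1) (F := fun y x => w k x y) (F' := fun y x => wy k x y)
    (x₀ := y) (s := Metric.ball y 1) (bound := fun _ => C) (Metric.ball_mem_nhds y one_pos)
    (Eventually.of_forall fun y' => (cont_sec_y (h.cw k) y').aestronglyMeasurable)
    ((cont_sec_y (h.cw k) y).intervalIntegrable _ _)
    (cont_sec_y (h.cy k) y).aestronglyMeasurable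
    (Eventually.of_forall fun x hx y' hy' => by
      rw [uIoc_of_le zero_le_one] at hx
      have h1 : |y' - y| < 1 := by simpa [Real.dist_eq] using hy'
      have h2 := abs_lt.mp h1
      exact hC (x, y') ⟨⟨hx.1.le, hx.2⟩, ⟨by linarith [h2.1], by linarith [h2.2]⟩⟩)
    intervalIntegrable_const
    (Eventually.of_forall fun x _ y' _ => h.dy k x y')
  exact key.2

lemma contDiff_aRow (h : Approx2 w wx wy F) (k : ℕ) : ContDiff ℝ 1 (aRow (w k)) := by
  rw [contDiff_one_iff_deriv]
  refine ⟨fun y => (h.hasDerivAt_aRow k y).differentiableAt, ?_⟩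
  have : deriv (aRow (w k)) = fun y => ∫ x in (0 : ℝ)..1, wy k x y :=
    funext fun y => (h.hasDerivAt_aRow k y).deriv
  rw [this]
  exact cont_param (h.cy k)

lemma aRow_per (h : Approx2 w wx wy F) (k : ℕ) (y : ℝ) : aRow (w k) (y + 1) = aRow (w k) y := by
  simp only [aRow, h.pery]

lemma aRow_range (h : Approx2 w wx wy F) (k : ℕ) (y : ℝ) :
    0 ≤ aRow (w k) y ∧ aRow (w k) y ≤ 1 := by
  constructor
  · exact intervalIntegral.integral_nonneg zero_le_one fun x _ => (h.range k x y).1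
  · have h1 : aRow (w k) y ≤ ∫ _x in (0 : ℝ)..1, (1 : ℝ) :=
      intervalIntegral.integral_mono_on zero_le_one
        ((cont_sec_y (h.cw k) y).intervalIntegrable _ _) intervalIntegrable_const
        fun x _ => (h.range k x y).2
    simpa using h1

lemma cont_ARow (h : Approx2 w wx wy F) (k : ℕ) : Continuous (ARow (wx k)) :=
  cont_param (f := fun x y => |wx k x y|) (h.cx k).abs

lemma cont_grad (h : Approx2 w wx wy F) (k : ℕ) :
    Continuous fun p : ℝ × ℝ => √(wx k p.1 p.2 ^ 2 + wy k p.1 p.2 ^ 2) :=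
  (((h.cx k).pow 2).add ((h.cy k).pow 2)).sqrt

lemma cont_NRow (h : Approx2 w wx wy F) (k : ℕ) : Continuous (NRow (wx k) (wy k)) :=
  cont_param (f := fun x y => √(wx k x y ^ 2 + wy k x y ^ 2)) (h.cont_grad k)

lemma ARow_nonneg (k : ℕ) (y : ℝ) : 0 ≤ ARow (wx k) y :=
  intervalIntegral.integral_nonneg zero_le_one fun _ _ => abs_nonneg _

lemma ARow_per (h : Approx2 w wx wy F) (k : ℕ) (y : ℝ) : ARow (wx k) (y + 1) = ARow (wx k) y := by
  simp only [ARow, h.wx_pery]

lemma NRow_per (h : Approx2 w wx wy F) (k : ℕ) (y : ℝ) :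
    NRow (wx k) (wy k) (y + 1) = NRow (wx k) (wy k) y := by
  simp only [NRow, h.wx_pery, h.wy_pery]

/-- Cauchy-Schwarz for `α|u| + βv ≤ √(u² + v²)`. -/
lemma cs_aux (α β u v : ℝ) (hα : 0 ≤ α) (h : α ^ 2 + β ^ 2 ≤ 1) :
    α * |u| + β * v ≤ √(u ^ 2 + v ^ 2) := by
  apply Real.le_sqrt_of_sq_le
  have h1 : (α * |u| + β * v) ^ 2 ≤ (α ^ 2 + β ^ 2) * (|u| ^ 2 + v ^ 2) := by
    nlinarith [sq_nonneg (α * v - β * |u|)]
  have h2 : |u| ^ 2 = u ^ 2 := sq_abs u
  rw [h2] at h1
  have h3 : (α ^ 2 + β ^ 2) * (u ^ 2 + v ^ 2) ≤ 1 * (u ^ 2 + v ^ 2) :=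
    mul_le_mul_of_nonneg_right h (by positivity)
  linarith

lemma AN_ineq (h : Approx2 w wx wy F) (k : ℕ) (y α β : ℝ) (hα : 0 ≤ α) (hαβ : α ^ 2 + β ^ 2 ≤ 1) :
    α * ARow (wx k) y + β * deriv (aRow (w k)) y ≤ NRow (wx k) (wy k) y := by
  rw [(h.hasDerivAt_aRow k y).deriv]
  simp only [ARow, NRow]
  have hi1 : IntervalIntegrable (fun x => |wx k x y|) volume 0 1 :=
    ((cont_sec_y (h.cx k) y).abs).intervalIntegrable _ _
  have hi2 : IntervalIntegrable (fun x => wy k x y) volume 0 1 :=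
    (cont_sec_y (h.cy k) y).intervalIntegrable _ _
  rw [← intervalIntegral.integral_const_mul, ← intervalIntegral.integral_const_mul,
    ← intervalIntegral.integral_add (hi1.const_mul _) (hi2.const_mul _)]
  apply intervalIntegral.integral_mono_on zero_le_one
    (((hi1.const_mul _).add (hi2.const_mul _)))
    ((cont_sec_y (f := fun x y => √(wx k x y ^ 2 + wy k x y ^ 2)) (h.cont_grad k) y).intervalIntegrable _ _)
  intro x _
  exact cs_aux α β _ _ hα hαβ

/-- Row averages converge to the row mass. -/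
lemma tendsto_aRow (h : Approx2 w wx wy F) :
    ∀ᵐ y : ℝ, Tendsto (fun k => aRow (w k) y) atTop (𝓝 (rowMass F y)) := by
  filter_upwards [h.ae_row] with y hy
  apply intervalIntegral.tendsto_integral_filter_of_dominated_convergence (fun _ => (1 : ℝ))
  · exact Eventually.of_forall fun k => (cont_sec_y (h.cw k) y).aestronglyMeasurable
  · refine Eventually.of_forall fun k => Eventually.of_forall fun x _ => ?_
    rw [Real.norm_eq_abs, abs_of_nonneg (h.range k x y).1]
    exact (h.range k x y).2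
  · exact intervalIntegrable_const
  · filter_upwards [hy] with x hx _
    exact hx

/-- A point of positive mass. -/
lemma exists_pt {f : ℝ → ℝ} {good : ℝ → Prop} (hg : ∀ᵐ x : ℝ, good x)
    (hint : ∫ x in (0 : ℝ)..1, f x ≠ 0) : ∃ x ∈ Icc (0 : ℝ) 1, good x ∧ f x ≠ 0 := by
  by_contra hcon
  push Not at hcon
  apply hint
  have : ∫ x in (0 : ℝ)..1, f x = ∫ _x in (0 : ℝ)..1, (0 : ℝ) := by
    apply intervalIntegral.integral_congr_ae
    filter_upwards [hg] with x hx hx2
    rw [uIoc_of_le zero_le_one] at hx2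
    exact hcon x ⟨hx2.1.le, hx2.2⟩ hx
  rw [this]; simp

/-- The mixed-row weight: `2` on rows which are neither empty nor full. -/
noncomputable def mixW (F : Set (ℝ × ℝ)) (y : ℝ) : ℝ :=
  {y | 0 < rowMass F y ∧ rowMass F y < 1}.indicator (fun _ => (2 : ℝ)) y

lemma mixW_meas (hF : MeasurableSet F) : Measurable (mixW F) := by
  apply measurable_const.indicator
  exact (measurableSet_lt measurable_const (rowMass_measurable hF)).inter
    (measurableSet_lt (rowMass_measurable hF) measurable_const)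

lemma mixW_nonneg (y : ℝ) : 0 ≤ mixW F y :=
  indicator_nonneg (fun _ _ => by norm_num) _

lemma mixW_le (y : ℝ) : mixW F y ≤ 2 := by
  unfold mixW
  by_cases hy : y ∈ {y | 0 < rowMass F y ∧ rowMass F y < 1}
  · rw [indicator_of_mem hy]
  · rw [indicator_of_notMem hy]; norm_num

/-- Level 1 for rows: a mixed row has variation at least `2` in the limit. -/
lemma mix_le_liminf (h : Approx2 w wx wy F) :
    ∀ᵐ y : ℝ, ∀ ε > 0, ∀ᶠ k in atTop, mixW F y - ε ≤ ARow (wx k) y := by
  filter_upwards [h.ae_row] with y hy ε hε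
  by_cases hmix : 0 < rowMass F y ∧ rowMass F y < 1
  · have hm : mixW F y = 2 := by
      unfold mixW
      rw [indicator_of_mem (show y ∈ {y | 0 < rowMass F y ∧ rowMass F y < 1} from hmix)]
    obtain ⟨x₀, hx₀, hg₀, hn₀⟩ := exists_pt (f := fun x => F.indicator (fun _ => (1 : ℝ)) (x, y))
      hy hmix.1.ne'
    have hint1 : ∫ x in (0 : ℝ)..1, (1 - F.indicator (fun _ => (1 : ℝ)) (x, y)) ≠ 0 := by
      rw [intervalIntegral.integral_sub intervalIntegrable_const
        (ii_of_bdd (ind_sec_meas h.meas y) (fun x => ind_abs F (x, y)) 0 1)]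
      have : ∫ x in (0 : ℝ)..1, F.indicator (fun _ => (1 : ℝ)) (x, y) = rowMass F y := rfl
      rw [this]
      simp
      linarith [hmix.2]
    obtain ⟨x₁, hx₁, hg₁, hn₁⟩ := exists_pt hy hint1
    have hF₀ : (x₀, y) ∈ F := by
      by_contra hcon
      exact hn₀ (by simp [hcon])
    have hF₁ : (x₁, y) ∉ F := by
      intro hcon
      apply hn₁
      simp [hcon]
    have hl₀ : Tendsto (fun k => w k x₀ y) atTop (𝓝 1) := by simpa [hF₀] using hg₀
    have hl₁ : Tendsto (fun k => w k x₁ y) atTop (𝓝 0) := by simpa [hF₁] using hg₁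
    have e₀ := hl₀.eventually (lt_mem_nhds (show 1 - ε / 4 < 1 by linarith))
    have e₁ := hl₁.eventually (gt_mem_nhds (show (0 : ℝ) < ε / 4 by linarith))
    filter_upwards [e₀, e₁] with k hk₀ hk₁
    rw [hm]
    have h2 := two_osc_le_variation (fun x => w k x y) (fun x => wx k x y)
      (fun x => h.dx k x y) (cont_sec_y (h.cx k) y) (fun x => h.perx k x y) x₀ x₁ hx₀ hx₁
    have h3 : 1 - ε / 2 ≤ |w k x₀ y - w k x₁ y| := by
      apply le_trans _ (le_abs_self _)
      linarith
    have h4 : ARow (wx k) y = ∫ x in (0 : ℝ)..1, |wx k x y| := rfl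
    rw [h4]
    linarith
  · have hm : mixW F y = 0 := by
      unfold mixW
      rw [indicator_of_notMem]
      exact hmix
    refine Eventually.of_forall fun k => ?_
    rw [hm]
    linarith [ARow_nonneg (wx := wx) k y]

/-- **The row inequality (R).** -/
theorem row_ineq (h : Approx2 w wx wy F) {P : ℝ}
    (hP : ∀ k, gradE (wx k) (wy k) ≤ P) (κ g : ℝ → ℝ) (hκ : Continuous κ) (hg : Continuous g)
    (hκ0 : ∀ s, 0 ≤ κ s) (hg0 : ∀ s, 0 ≤ g s) (hκg : ∀ s, κ s ^ 2 + g s ^ 2 ≤ 1) (m M : ℝ)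
    (hm : ∀ ε > 0, 0 < volume {t | t ∈ Icc (0 : ℝ) 1 ∧ rowMass F t < m + ε})
    (hM : ∀ ε > 0, 0 < volume {t | t ∈ Icc (0 : ℝ) 1 ∧ M - ε < rowMass F t}) :
    (∫ y in (0 : ℝ)..1, κ (rowMass F y) * mixW F y) + 2 * ∫ s in m..M, g s ≤ P := by
  exact slice (fun k => aRow (w k)) (rowMass F) (mixW F) (fun k => ARow (wx k))
    (fun k => NRow (wx k) (wy k)) κ g m M P
    h.contDiff_aRow h.aRow_per h.tendsto_aRow (rowMass_measurable h.meas) (rowMass_abs h.meas)
    h.cont_ARow h.cont_NRow ARow_nonneg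
    (fun k t α β hα hαβ => h.AN_ineq k t α β hα hαβ)
    hκ hg hκ0 hg0 hκg (mixW_meas h.meas) mixW_nonneg mixW_le h.mix_le_liminf hm hM hP

end Approx2

end Vale.Agent.Lib.P232.T2
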