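import Mathlib
import Vale.Agent.Lib.P232.T2B

/-!
# P232, Level 2, part C: the two-torus inequalities (E1) and (E2')
-/

namespace Vale.Agent.Lib.P232.T2

open Real MeasureTheory Set Filter Topology

variable {w wx wy : ℕ → ℝ → ℝ → ℝ} {F : Set (ℝ × ℝ)}

/-- `∫₀¹ √(1-x²) = π/4`. -/
lemma integral_sqrt_half : ∫ x in (0 : ℝ)..1, √(1 - x ^ 2) = π / 4 := by
  have h1 := integral_sqrt_one_sub_sq
  have hc : Continuous fun x : ℝ => √(1 - x ^ 2) := by fun_prop
  have h2 := intervalIntegral.integral_add_adjacent_intervals (μ := volume)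
    (hc.intervalIntegrable (-1) 0) (hc.intervalIntegrable 0 1)
  have h3 : ∫ x in (-1 : ℝ)..0, √(1 - x ^ 2) = ∫ x in (0 : ℝ)..1, √(1 - x ^ 2) := by
    have := intervalIntegral.integral_comp_neg (a := (0 : ℝ)) (b := 1) (fun x : ℝ => √(1 - x ^ 2))
    simp only [neg_zero, even_two, Even.neg_pow] at this
    exact this.symm
  linarith

/-- The clamped slope. -/
noncomputable def kapM (M s : ℝ) : ℝ := min 1 (max 0 (s / M))
/-- The conjugate weight. -/
noncomputable def gM (M s : ℝ) : ℝ := √(1 - kapM M s ^ 2)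

lemma kapM_cont (M : ℝ) : Continuous (kapM M) := by
  unfold kapM; fun_prop

lemma gM_cont (M : ℝ) : Continuous (gM M) := by
  have := kapM_cont M
  unfold gM; fun_prop

lemma kapM_nonneg (M s : ℝ) : 0 ≤ kapM M s := le_min zero_le_one (le_max_left _ _)
lemma kapM_le_one (M s : ℝ) : kapM M s ≤ 1 := min_le_left _ _
lemma gM_nonneg (M s : ℝ) : 0 ≤ gM M s := Real.sqrt_nonneg _

lemma kapM_gM (M s : ℝ) : kapM M s ^ 2 + gM M s ^ 2 ≤ 1 := by
  have h1 := kapM_nonneg M s
  have h2 := kapM_le_one M s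
  have h3 : 0 ≤ 1 - kapM M s ^ 2 := by nlinarith
  unfold gM
  rw [Real.sq_sqrt h3]
  linarith

lemma kapM_eq {M s : ℝ} (hs : 0 ≤ s) (hsM : s ≤ M) (hM : 0 < M) : kapM M s = s / M := by
  have h0 : 0 ≤ s / M := div_nonneg hs hM.le
  have h1 : s / M ≤ 1 := (div_le_one hM).2 hsM
  unfold kapM
  rw [max_eq_right h0, min_eq_right h1]

lemma integral_gM {M : ℝ} (hM : 0 < M) : ∫ s in (0 : ℝ)..M, gM M s = M * (π / 4) := by
  have h1 : ∫ s in (0 : ℝ)..M, gM M s = ∫ s in (0 : ℝ)..M, √(1 - (s / M) ^ 2) := by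
    apply intervalIntegral.integral_congr
    intro s hs
    rw [uIcc_of_le hM.le] at hs
    simp only [gM, kapM_eq hs.1 hs.2 hM]
  rw [h1]
  have h2 := intervalIntegral.integral_comp_div (a := (0 : ℝ)) (b := M)
    (fun x : ℝ => √(1 - x ^ 2)) hM.ne'
  rw [h2]
  simp only [zero_div, div_self hM.ne', integral_sqrt_half, smul_eq_mul]

/-- An essential supremum on the unit period. -/
lemma exists_essSup {c : ℝ → ℝ} (hc : Measurable c) (h0 : ∀ t, 0 ≤ c t) (h1 : ∀ t, c t ≤ 1) :
    ∃ M : ℝ, 0 ≤ M ∧ M ≤ 1 ∧ (∀ᵐ t : ℝ, t ∈ Icc (0 : ℝ) 1 → c t ≤ M) ∧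
      ∀ ε > 0, 0 < volume {t | t ∈ Icc (0 : ℝ) 1 ∧ M - ε < c t} := by
  set S : Set ℝ := {r | volume {t | t ∈ Icc (0 : ℝ) 1 ∧ r < c t} = 0} with hS
  have hvol : volume (Icc (0 : ℝ) 1) ≠ 0 := by simp
  have h1S : (1 : ℝ) ∈ S := by
    have : {t | t ∈ Icc (0 : ℝ) 1 ∧ (1 : ℝ) < c t} = ∅ := by
      ext t
      constructor
      · rintro ⟨_, hlt⟩
        exact absurd (h1 t) (not_le.mpr hlt)
      · intro hf
        exact absurd hf (notMem_empty t)
    show volume {t | t ∈ Icc (0 : ℝ) 1 ∧ (1 : ℝ) < c t} = 0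
    rw [this]; simp
  have hlow : ∀ r ∈ S, 0 ≤ r := by
    intro r hr
    by_contra hneg
    push Not at hneg
    apply hvol
    have hsub : Icc (0 : ℝ) 1 ⊆ {t | t ∈ Icc (0 : ℝ) 1 ∧ r < c t} :=
      fun t ht => ⟨ht, lt_of_lt_of_le hneg (h0 t)⟩
    exact measure_mono_null hsub hr
  have hbdd : BddBelow S := ⟨0, hlow⟩
  refine ⟨sInf S, le_csInf ⟨1, h1S⟩ hlow, csInf_le hbdd h1S, ?_, ?_⟩
  · have hnull : volume {t | t ∈ Icc (0 : ℝ) 1 ∧ sInf S < c t} = 0 := by
      have hU : {t | t ∈ Icc (0 : ℝ) 1 ∧ sInf S < c t} ⊆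
          ⋃ n : ℕ, {t | t ∈ Icc (0 : ℝ) 1 ∧ sInf S + 1 / ((n : ℝ) + 1) < c t} := by
        rintro t ⟨ht, hlt⟩
        obtain ⟨n, hn⟩ := exists_nat_one_div_lt (sub_pos.mpr hlt)
        exact mem_iUnion.mpr ⟨n, ht, by linarith⟩
      refine measure_mono_null hU (measure_iUnion_null fun n => ?_)
      have hpos : (0 : ℝ) < 1 / ((n : ℝ) + 1) := by positivity
      obtain ⟨r, hr, hrlt⟩ := exists_lt_of_csInf_lt ⟨1, h1S⟩ (lt_add_of_pos_right (sInf S) hpos)
      refine measure_mono_null ?_ hr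
      rintro t ⟨ht, hlt⟩
      exact ⟨ht, by linarith⟩
    rw [measure_eq_zero_iff_ae_notMem] at hnull
    filter_upwards [hnull] with t ht hmem
    by_contra hcon
    exact ht ⟨hmem, not_le.mp hcon⟩
  · intro ε hε
    have hnot : sInf S - ε ∉ S := fun hmem => by
      have := csInf_le hbdd hmem
      linarith
    exact pos_iff_ne_zero.mpr hnot

/-- `2√(xy) ≤ x + y` in the form we need. -/
lemma two_sqrt_le {A x y : ℝ} (hx : 0 ≤ x) (hy : 0 ≤ y) (h : x * y = A) :
    2 * √A ≤ x + y := by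
  have h1 : √A ≤ (x + y) / 2 := by
    apply Real.sqrt_le_iff.mpr
    constructor
    · positivity
    · nlinarith [sq_nonneg (x - y)]
  linarith

namespace Approx2

lemma gradE_nonneg (a b : ℝ → ℝ → ℝ) : 0 ≤ gradE a b :=
  intervalIntegral.integral_nonneg zero_le_one fun _ _ =>
    intervalIntegral.integral_nonneg zero_le_one fun _ _ => Real.sqrt_nonneg _

lemma area2_nonneg (F : Set (ℝ × ℝ)) : 0 ≤ area2 F :=
  intervalIntegral.integral_nonneg zero_le_one fun y _ => rowMass_nonneg F y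

lemma rowMass_ii (hF : MeasurableSet F) (a b : ℝ) : IntervalIntegrable (rowMass F) volume a b :=
  ii_of_bdd (rowMass_measurable hF) (rowMass_abs hF) a b

lemma fullInd_meas (hF : MeasurableSet F) :
    Measurable ({y | rowMass F y = 1}.indicator (fun _ => (1 : ℝ))) :=
  measurable_const.indicator (measurableSet_eq_fun (rowMass_measurable hF) measurable_const)

lemma fullInd_ii (hF : MeasurableSet F) (a b : ℝ) :
    IntervalIntegrable ({y | rowMass F y = 1}.indicator (fun _ => (1 : ℝ))) volume a b :=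
  ii_of_bdd (fullInd_meas hF) (fun x => by
    by_cases h : x ∈ {y | rowMass F y = 1}
    · rw [indicator_of_mem h]; simp
    · rw [indicator_of_notMem h]; simp) a b

lemma fullRows_nonneg (F : Set (ℝ × ℝ)) : 0 ≤ fullRows F :=
  intervalIntegral.integral_nonneg zero_le_one fun _ _ =>
    indicator_nonneg (fun _ _ => zero_le_one) _

/-- **(R1)** An empty row of positive measure and no full rows: the disc bound. -/
theorem disc_of_empty_row (h : Approx2 w wx wy F) {P : ℝ} (hP : ∀ k, gradE (wx k) (wy k) ≤ P)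
    (hZ : 0 < volume {t | t ∈ Icc (0 : ℝ) 1 ∧ rowMass F t = 0})
    (hO : volume {t | t ∈ Icc (0 : ℝ) 1 ∧ rowMass F t = 1} = 0) :
    2 * √(π * area2 F) ≤ P := by
  have hP0 : 0 ≤ P := (gradE_nonneg _ _).trans (hP 0)
  have hc := rowMass_measurable h.meas
  obtain ⟨M, hM0, hM1, hle, hpos⟩ := exists_essSup hc (rowMass_nonneg F) (rowMass_le_one h.meas)
  have hm : ∀ ε > 0, 0 < volume {t | t ∈ Icc (0 : ℝ) 1 ∧ rowMass F t < 0 + ε} := by
    intro ε hε
    refine lt_of_lt_of_le hZ (measure_mono ?_)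
    rintro t ⟨ht, h0⟩
    exact ⟨ht, by rw [h0]; linarith⟩
  have hO' : ∀ᵐ t : ℝ, t ∈ Icc (0 : ℝ) 1 → rowMass F t ≠ 1 := by
    rw [measure_eq_zero_iff_ae_notMem] at hO
    filter_upwards [hO] with t ht hmem heq
    exact ht ⟨hmem, heq⟩
  rcases hM0.eq_or_lt with hM | hM
  · -- the set is null
    have ha : area2 F = 0 := by
      have : area2 F = ∫ _y in (0 : ℝ)..1, (0 : ℝ) := by
        apply intervalIntegral.integral_congr_ae
        filter_upwards [hle] with y hy hy2
        rw [uIoc_of_le zero_le_one] at hy2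
        have := hy ⟨hy2.1.le, hy2.2⟩
        have := rowMass_nonneg F y
        linarith
      rw [this]; simp
    rw [ha]; simpa using hP0
  · have key := h.row_ineq hP (kapM M) (gM M) (kapM_cont M) (gM_cont M) (kapM_nonneg M)
      (gM_nonneg M) (kapM_gM M) 0 M hm hpos
    rw [integral_gM hM] at key
    have hint : ∫ y in (0 : ℝ)..1, kapM M (rowMass F y) * mixW F y = 2 / M * area2 F := by
      have : ∫ y in (0 : ℝ)..1, kapM M (rowMass F y) * mixW F y =
          ∫ y in (0 : ℝ)..1, 2 / M * rowMass F y := by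
        apply intervalIntegral.integral_congr_ae
        filter_upwards [hle, hO'] with y hy1 hy2 hy3
        rw [uIoc_of_le zero_le_one] at hy3
        have hy4 : y ∈ Icc (0 : ℝ) 1 := ⟨hy3.1.le, hy3.2⟩
        have hcy0 := rowMass_nonneg F y
        have hcy1 := rowMass_le_one h.meas y
        rw [kapM_eq hcy0 (hy1 hy4) hM]
        rcases hcy0.eq_or_lt with hz | hz
        · rw [← hz]; simp
        · have hmix : y ∈ {y | 0 < rowMass F y ∧ rowMass F y < 1} :=
            ⟨hz, lt_of_le_of_ne hcy1 (hy2 hy4)⟩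
          simp only [mixW, indicator_of_mem hmix]
          ring
      rw [this, intervalIntegral.integral_const_mul]
      rfl
    rw [hint] at key
    have hA := area2_nonneg F
    have hfin : 2 * √(π * area2 F) ≤ 2 / M * area2 F + 2 * (M * (π / 4)) := by
      apply two_sqrt_le (by positivity) (by positivity)
      field_simp
      ring
    linarith

/-- `∫ κ(c) mix` for the identity slope. -/
lemma integral_id_mix (hF : MeasurableSet F) :
    ∫ y in (0 : ℝ)..1, kapM 1 (rowMass F y) * mixW F y = 2 * area2 F - 2 * fullRows F := by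
  have : ∫ y in (0 : ℝ)..1, kapM 1 (rowMass F y) * mixW F y =
      ∫ y in (0 : ℝ)..1, (2 * rowMass F y -
        2 * {y | rowMass F y = 1}.indicator (fun _ => (1 : ℝ)) y) := by
    apply intervalIntegral.integral_congr
    intro y _
    have hcy0 := rowMass_nonneg F y
    have hcy1 := rowMass_le_one hF y
    simp only
    rw [kapM_eq hcy0 hcy1 one_pos, div_one]
    rcases hcy1.eq_or_lt with h1 | h1
    · have hno : y ∉ {y | 0 < rowMass F y ∧ rowMass F y < 1} := fun hh => by
        have := hh.2; linarith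
      have hye : y ∈ {y | rowMass F y = 1} := h1
      simp only [mixW, indicator_of_notMem hno, indicator_of_mem hye, h1]
      ring
    · have hno : y ∉ {y | rowMass F y = 1} := fun hh => by
        have : rowMass F y = 1 := hh
        linarith
      rw [indicator_of_notMem hno]
      rcases hcy0.eq_or_lt with hz | hz
      · have hno2 : y ∉ {y | 0 < rowMass F y ∧ rowMass F y < 1} := fun hh => by
          have := hh.1; linarith
        simp only [mixW, indicator_of_notMem hno2, ← hz]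
        ring
      · have hmix : y ∈ {y | 0 < rowMass F y ∧ rowMass F y < 1} := ⟨hz, h1⟩
        simp only [mixW, indicator_of_mem hmix]
        ring
  rw [this, intervalIntegral.integral_sub ((rowMass_ii hF 0 1).const_mul 2)
    ((fullInd_ii hF 0 1).const_mul 2), intervalIntegral.integral_const_mul,
    intervalIntegral.integral_const_mul]
  rfl

/-- **(R3)** Empty and full rows of positive measure. -/
theorem penal_of_empty_full (h : Approx2 w wx wy F) {P : ℝ} (hP : ∀ k, gradE (wx k) (wy k) ≤ P)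
    (hZ : 0 < volume {t | t ∈ Icc (0 : ℝ) 1 ∧ rowMass F t = 0})
    (hO : 0 < volume {t | t ∈ Icc (0 : ℝ) 1 ∧ rowMass F t = 1}) :
    2 * √(π * area2 F) - 2 * fullRows F ≤ P := by
  have hm : ∀ ε > 0, 0 < volume {t | t ∈ Icc (0 : ℝ) 1 ∧ rowMass F t < 0 + ε} := by
    intro ε hε
    refine lt_of_lt_of_le hZ (measure_mono ?_)
    rintro t ⟨ht, h0⟩
    exact ⟨ht, by rw [h0]; linarith⟩
  have hM : ∀ ε > 0, 0 < volume {t | t ∈ Icc (0 : ℝ) 1 ∧ 1 - ε < rowMass F t} := by
    intro ε hε
    refine lt_of_lt_of_le hO (measure_mono ?_)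
    rintro t ⟨ht, h0⟩
    exact ⟨ht, by rw [h0]; linarith⟩
  have key := h.row_ineq hP (kapM 1) (gM 1) (kapM_cont 1) (gM_cont 1) (kapM_nonneg 1)
      (gM_nonneg 1) (kapM_gM 1) 0 1 hm hM
  rw [integral_gM one_pos, integral_id_mix h.meas] at key
  have hA := area2_nonneg F
  have hfin : 2 * √(π * area2 F) ≤ 2 * area2 F + π / 2 := by
    apply two_sqrt_le (by positivity) (by positivity)
    ring
  linarith

/-- `2 ≤ P` with a nontrivial line range. -/
theorem two_of_empty_full (h : Approx2 w wx wy F) {P : ℝ} (hP : ∀ k, gradE (wx k) (wy k) ≤ P)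
    (hZ : 0 < volume {t | t ∈ Icc (0 : ℝ) 1 ∧ rowMass F t = 0})
    (hO : 0 < volume {t | t ∈ Icc (0 : ℝ) 1 ∧ rowMass F t = 1}) : 2 ≤ P := by
  have hm : ∀ ε > 0, 0 < volume {t | t ∈ Icc (0 : ℝ) 1 ∧ rowMass F t < 0 + ε} := by
    intro ε hε
    refine lt_of_lt_of_le hZ (measure_mono ?_)
    rintro t ⟨ht, h0⟩
    exact ⟨ht, by rw [h0]; linarith⟩
  have hM : ∀ ε > 0, 0 < volume {t | t ∈ Icc (0 : ℝ) 1 ∧ 1 - ε < rowMass F t} := by
    intro ε hε
    refine lt_of_lt_of_le hO (measure_mono ?_)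
    rintro t ⟨ht, h0⟩
    exact ⟨ht, by rw [h0]; linarith⟩
  have key := h.row_ineq hP (fun _ => 0) (fun _ => 1) continuous_const continuous_const
    (fun _ => le_rfl) (fun _ => zero_le_one) (fun _ => by norm_num) 0 1 hm hM
  simpa using key

/-- Trivial level bounds: for levels beyond the range every positive-measure condition holds. -/
lemma trivial_m (hF : MeasurableSet F) :
    ∀ ε > 0, 0 < volume {t | t ∈ Icc (0 : ℝ) 1 ∧ rowMass F t < 1 + ε} := by
  intro ε hε
  have hvol : 0 < volume (Icc (0 : ℝ) 1) := by simp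
  refine lt_of_lt_of_le hvol (measure_mono ?_)
  intro t ht
  exact ⟨ht, by linarith [rowMass_le_one hF t]⟩

lemma trivial_M :
    ∀ ε > 0, 0 < volume {t | t ∈ Icc (0 : ℝ) 1 ∧ 0 - ε < rowMass F t} := by
  intro ε hε
  have hvol : 0 < volume (Icc (0 : ℝ) 1) := by simp
  refine lt_of_lt_of_le hvol (measure_mono ?_)
  intro t ht
  exact ⟨ht, by linarith [rowMass_nonneg F t]⟩

/-- If almost no row is empty, the mixed weight has integral `2(1-δ)`. -/
lemma integral_mix_of_no_empty (hF : MeasurableSet F)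
    (hZ : volume {t | t ∈ Icc (0 : ℝ) 1 ∧ rowMass F t = 0} = 0) :
    ∫ y in (0 : ℝ)..1, mixW F y = 2 * (1 - fullRows F) := by
  have hZ' : ∀ᵐ t : ℝ, t ∈ Icc (0 : ℝ) 1 → rowMass F t ≠ 0 := by
    rw [measure_eq_zero_iff_ae_notMem] at hZ
    filter_upwards [hZ] with t ht hmem heq
    exact ht ⟨hmem, heq⟩
  have : ∫ y in (0 : ℝ)..1, mixW F y =
      ∫ y in (0 : ℝ)..1, (2 - 2 * {y | rowMass F y = 1}.indicator (fun _ => (1 : ℝ)) y) := by
    apply intervalIntegral.integral_congr_ae
    filter_upwards [hZ'] with y hy hy2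
    rw [uIoc_of_le zero_le_one] at hy2
    have hy4 : y ∈ Icc (0 : ℝ) 1 := ⟨hy2.1.le, hy2.2⟩
    have hcy0 := rowMass_nonneg F y
    have hcy1 := rowMass_le_one hF y
    have hz : 0 < rowMass F y := lt_of_le_of_ne hcy0 (Ne.symm (hy hy4))
    rcases hcy1.eq_or_lt with h1 | h1
    · have hno : y ∉ {y | 0 < rowMass F y ∧ rowMass F y < 1} := fun hh => by
        have := hh.2; linarith
      have hye : y ∈ {y | rowMass F y = 1} := h1
      simp only [mixW, indicator_of_notMem hno, indicator_of_mem hye]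
      ring
    · have hno : y ∉ {y | rowMass F y = 1} := fun hh => by
        have : rowMass F y = 1 := hh
        linarith
      have hmix : y ∈ {y | 0 < rowMass F y ∧ rowMass F y < 1} := ⟨hz, h1⟩
      simp only [mixW, indicator_of_mem hmix, indicator_of_notMem hno]
      ring
  rw [this, intervalIntegral.integral_sub intervalIntegrable_const
    ((fullInd_ii hF 0 1).const_mul 2), intervalIntegral.integral_const_mul]
  simp only [intervalIntegral.integral_const, sub_zero, one_smul]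
  unfold fullRows
  ring

/-- Fatou in the form we need, from the slicing lemma with constant levels. -/
lemma fatou_row (h : Approx2 w wx wy F) {Q : ℝ}
    (hQ : ∀ k, ∫ y in (0 : ℝ)..1, ARow (wx k) y ≤ Q) :
    ∫ y in (0 : ℝ)..1, mixW F y ≤ Q := by
  have hvol : 0 < volume (Icc (0 : ℝ) 1) := by simp
  have key := slice (fun _ _ => 0) (fun _ => 0) (mixW F) (fun k => ARow (wx k)) (fun k => ARow (wx k))
    (fun _ => 1) (fun _ => 0) 0 0 Q (fun _ => contDiff_const) (fun _ _ => rfl)
    (Eventually.of_forall fun _ => tendsto_const_nhds) measurable_const (fun _ => by simp)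
    h.cont_ARow h.cont_ARow ARow_nonneg
    (fun k t α β hα hαβ => by
      have h1 : α ≤ 1 := by nlinarith [sq_nonneg β]
      have h2 := ARow_nonneg (wx := wx) k t
      have h3 : deriv (fun _ : ℝ => (0 : ℝ)) t = 0 := by simp
      simp only [h3, mul_zero, add_zero]
      nlinarith)
    continuous_const continuous_const (fun _ => zero_le_one) (fun _ => le_rfl)
    (fun _ => by norm_num) (mixW_meas h.meas) mixW_nonneg mixW_le h.mix_le_liminf
    (fun ε hε => lt_of_lt_of_le hvol (measure_mono fun t ht => ⟨ht, by simpa using hε⟩))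
    (fun ε hε => lt_of_lt_of_le hvol (measure_mono fun t ht => ⟨ht, by simpa using hε⟩)) hQ
  simpa using key

/-- Eventual form of Fatou. -/
lemma eventually_row (h : Approx2 w wx wy F) {ε : ℝ} (hε : 0 < ε) :
    ∀ᶠ k in atTop, (∫ y in (0 : ℝ)..1, mixW F y) - ε ≤ ∫ y in (0 : ℝ)..1, ARow (wx k) y := by
  by_contra hcon
  rw [not_eventually] at hcon
  obtain ⟨φ, hφ, hlt⟩ := extraction_of_frequently_atTop hcon
  have := (h.comp φ hφ).fatou_row (Q := (∫ y in (0 : ℝ)..1, mixW F y) - ε)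
    (fun k => (not_le.mp (hlt k)).le)
  linarith

end Approx2

end Vale.Agent.Lib.P232.T2
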