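import Mathlib
import Vale.Agent.Lib.P232.T2C

/-!
# P232, Level 2: the two-torus inequalities (E1) and (E2')

For `C¹` doubly periodic `[0,1]`-valued approximations `w k` of the indicator of `F`:

* (E1) `IT (area2 F) ≤ P` whenever all gradient energies are `≤ P`;
* (E2') `IE (area2 F) - 2 (fullRows F + fullCols F) ≤ P`;

and the eventual forms.
-/

namespace Vale.Agent.Lib.P232.T2

open Real MeasureTheory Set Filter Topology

variable {w wx wy : ℕ → ℝ → ℝ → ℝ} {F : Set (ℝ × ℝ)}

/-- Fubini on the unit square for continuous functions. -/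
lemma cont_fubini {f : ℝ → ℝ → ℝ} (hf : Continuous fun p : ℝ × ℝ => f p.1 p.2) :
    ∫ y in (0 : ℝ)..1, ∫ x in (0 : ℝ)..1, f x y = ∫ x in (0 : ℝ)..1, ∫ y in (0 : ℝ)..1, f x y := by
  simp only [intervalIntegral.integral_of_le (zero_le_one (α := ℝ))]
  symm
  have hi : Integrable (Function.uncurry f)
      ((volume.restrict (Set.Ioc (0 : ℝ) 1)).prod (volume.restrict (Set.Ioc (0 : ℝ) 1))) := by
    rw [Measure.prod_restrict, ← Measure.volume_eq_prod]
    have h1 : IntegrableOn (fun p : ℝ × ℝ => f p.1 p.2) (Icc (0 : ℝ) 1 ×ˢ Icc (0 : ℝ) 1) volume :=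
      hf.continuousOn.integrableOn_compact (isCompact_Icc.prod isCompact_Icc)
    exact h1.mono_set (prod_mono Ioc_subset_Icc_self Ioc_subset_Icc_self)
  exact integral_integral_swap hi

namespace Approx2

lemma rowMass_compl (hF : MeasurableSet F) (y : ℝ) : rowMass Fᶜ y = 1 - rowMass F y := by
  have h : ∀ x, Fᶜ.indicator (fun _ => (1 : ℝ)) (x, y) = 1 - F.indicator (fun _ => (1 : ℝ)) (x, y) := by
    intro x
    by_cases hq : (x, y) ∈ F <;> simp [hq]
  simp only [rowMass, h]
  rw [intervalIntegral.integral_sub intervalIntegrable_const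
    (ii_of_bdd (ind_sec_meas hF y) (fun x => ind_abs F (x, y)) 0 1)]
  simp

lemma area2_compl (hF : MeasurableSet F) : area2 Fᶜ = 1 - area2 F := by
  simp only [area2, rowMass_compl hF]
  rw [intervalIntegral.integral_sub intervalIntegrable_const (rowMass_ii hF 0 1)]
  simp

lemma gradE_compl (a b : ℝ → ℝ → ℝ) :
    gradE (fun x y => -a x y) (fun x y => -b x y) = gradE a b := by
  simp only [gradE, neg_sq]

lemma gradE_swap (h : Approx2 w wx wy F) (k : ℕ) :
    gradE (fun x y => wy k y x) (fun x y => wx k y x) = gradE (wx k) (wy k) := by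
  have hc := cont_grad h k
  have h1 := cont_fubini (f := fun x y => √(wx k x y ^ 2 + wy k x y ^ 2)) hc
  unfold gradE
  rw [h1]
  apply intervalIntegral.integral_congr
  intro a _
  apply intervalIntegral.integral_congr
  intro b _
  simp only [add_comm]

/-- The statement of (E1). -/
theorem torus2_E1 (h : Approx2 w wx wy F) {P : ℝ} (hP : ∀ k, gradE (wx k) (wy k) ≤ P) :
    IT (area2 F) ≤ P := by
  set Z := volume {t | t ∈ Icc (0 : ℝ) 1 ∧ rowMass F t = 0} with hZdef
  set O := volume {t | t ∈ Icc (0 : ℝ) 1 ∧ rowMass F t = 1} with hOdef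
  have hle1 : IT (area2 F) ≤ 2 * √(π * area2 F) := (min_le_left _ _).trans (min_le_left _ _)
  have hle2 : IT (area2 F) ≤ 2 := (min_le_left _ _).trans (min_le_right _ _)
  have hle3 : IT (area2 F) ≤ 2 * √(π * (1 - area2 F)) := min_le_right _ _
  by_cases hZ : Z = 0
  · by_cases hO : O = 0
    · -- all rows mixed
      refine hle2.trans ?_
      have key := h.row_ineq hP (fun _ => 1) (fun _ => 0) continuous_const continuous_const
        (fun _ => zero_le_one) (fun _ => le_rfl) (fun _ => by norm_num) 1 0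
        (trivial_m h.meas) trivial_M
      simp only [one_mul, intervalIntegral.integral_zero, mul_zero, add_zero] at key
      rw [integral_mix_of_no_empty h.meas hZ] at key
      have hfull : fullRows F = 0 := by
        have : fullRows F = ∫ _y in (0 : ℝ)..1, (0 : ℝ) := by
          apply intervalIntegral.integral_congr_ae
          have hO' : ∀ᵐ t : ℝ, t ∈ Icc (0 : ℝ) 1 → rowMass F t ≠ 1 := by
            have hO2 := hO
            rw [hOdef, measure_eq_zero_iff_ae_notMem] at hO2
            filter_upwards [hO2] with t ht hmem heq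
            exact ht ⟨hmem, heq⟩
          filter_upwards [hO'] with y hy hy2
          rw [uIoc_of_le zero_le_one] at hy2
          have hy4 : y ∈ Icc (0 : ℝ) 1 := ⟨hy2.1.le, hy2.2⟩
          have hno : y ∉ {y | rowMass F y = 1} := hy hy4
          rw [indicator_of_notMem hno]
        rw [this]; simp
      rw [hfull] at key
      linarith
    · -- complement
      refine hle3.trans ?_
      have hZc : 0 < volume {t | t ∈ Icc (0 : ℝ) 1 ∧ rowMass Fᶜ t = 0} := by
        have : {t | t ∈ Icc (0 : ℝ) 1 ∧ rowMass Fᶜ t = 0} = {t | t ∈ Icc (0 : ℝ) 1 ∧ rowMass F t = 1} := by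
          ext t
          simp only [Set.mem_ofPred, rowMass_compl h.meas]
          constructor
          · rintro ⟨ht, h1⟩; exact ⟨ht, by linarith⟩
          · rintro ⟨ht, h1⟩; exact ⟨ht, by linarith⟩
        rw [this]
        exact pos_iff_ne_zero.mpr hO
      have hOc : volume {t | t ∈ Icc (0 : ℝ) 1 ∧ rowMass Fᶜ t = 1} = 0 := by
        have : {t | t ∈ Icc (0 : ℝ) 1 ∧ rowMass Fᶜ t = 1} = {t | t ∈ Icc (0 : ℝ) 1 ∧ rowMass F t = 0} := by
          ext t
          simp only [Set.mem_ofPred, rowMass_compl h.meas]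
          constructor
          · rintro ⟨ht, h1⟩; exact ⟨ht, by linarith⟩
          · rintro ⟨ht, h1⟩; exact ⟨ht, by linarith⟩
        rw [this]
        exact hZ
      have key := h.compl.disc_of_empty_row (P := P)
        (fun k => by rw [gradE_compl]; exact hP k) hZc hOc
      rwa [area2_compl h.meas] at key
  · have hZ' : 0 < Z := pos_iff_ne_zero.mpr hZ
    by_cases hO : O = 0
    · exact hle1.trans (h.disc_of_empty_row hP hZ' hO)
    · exact hle2.trans (h.two_of_empty_full hP hZ' (pos_iff_ne_zero.mpr hO))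

/-- Rows alone: a positive measure of empty rows gives the penalised disc bound. -/
theorem penal_of_empty (h : Approx2 w wx wy F) {P : ℝ} (hP : ∀ k, gradE (wx k) (wy k) ≤ P)
    (hZ : 0 < volume {t | t ∈ Icc (0 : ℝ) 1 ∧ rowMass F t = 0}) :
    2 * √(π * area2 F) - 2 * fullRows F ≤ P := by
  by_cases hO : volume {t | t ∈ Icc (0 : ℝ) 1 ∧ rowMass F t = 1} = 0
  · have := h.disc_of_empty_row hP hZ hO
    linarith [fullRows_nonneg F]
  · exact h.penal_of_empty_full hP hZ (pos_iff_ne_zero.mpr hO)

lemma sqrt_two_mul (a b : ℝ) : |a| + |b| ≤ √2 * √(a ^ 2 + b ^ 2) := by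
  rw [← Real.sqrt_mul (by norm_num)]
  apply Real.le_sqrt_of_sq_le
  nlinarith [sq_nonneg (|a| - |b|), sq_abs a, sq_abs b]

/-- The Minkowski bound. -/
lemma mink_bound (h : Approx2 w wx wy F) (k : ℕ) :
    (∫ y in (0 : ℝ)..1, ARow (wx k) y) +
      ∫ y in (0 : ℝ)..1, ARow (fun x y => wy k y x) y ≤ √2 * gradE (wx k) (wy k) := by
  have hY : ∫ y in (0 : ℝ)..1, ARow (fun x y => wy k y x) y =
      ∫ y in (0 : ℝ)..1, ∫ x in (0 : ℝ)..1, |wy k x y| := by
    simp only [ARow]
    exact (cont_fubini (f := fun x y => |wy k x y|) (h.cy k).abs).symm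
  have hcX : Continuous fun y => ∫ x in (0 : ℝ)..1, |wx k x y| :=
    cont_param (f := fun x y => |wx k x y|) (h.cx k).abs
  have hcY : Continuous fun y => ∫ x in (0 : ℝ)..1, |wy k x y| :=
    cont_param (f := fun x y => |wy k x y|) (h.cy k).abs
  have hcN : Continuous fun y => ∫ x in (0 : ℝ)..1, √(wx k x y ^ 2 + wy k x y ^ 2) :=
    cont_param (f := fun x y => √(wx k x y ^ 2 + wy k x y ^ 2)) (h.cont_grad k)
  rw [hY]
  simp only [ARow, gradE]
  rw [← intervalIntegral.integral_const_mul, ← intervalIntegral.integral_add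
    (hcX.intervalIntegrable _ _) (hcY.intervalIntegrable _ _)]
  apply intervalIntegral.integral_mono_on zero_le_one
    ((hcX.add hcY).intervalIntegrable _ _) ((hcN.const_mul _).intervalIntegrable _ _)
  intro y _
  have hi1 : IntervalIntegrable (fun x => |wx k x y|) volume 0 1 :=
    ((cont_sec_y (h.cx k) y).abs).intervalIntegrable _ _
  have hi2 : IntervalIntegrable (fun x => |wy k x y|) volume 0 1 :=
    ((cont_sec_y (h.cy k) y).abs).intervalIntegrable _ _
  simp only [Pi.add_apply]
  rw [← intervalIntegral.integral_const_mul, ← intervalIntegral.integral_add hi1 hi2]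
  apply intervalIntegral.integral_mono_on zero_le_one (hi1.add hi2)
    ((cont_sec_y (f := fun x y => √(wx k x y ^ 2 + wy k x y ^ 2)) (h.cont_grad k)
      y).const_mul _ |>.intervalIntegrable _ _)
  intro x _
  exact sqrt_two_mul _ _

/-- The statement of (E2'). -/
theorem torus2_E2 (h : Approx2 w wx wy F) {P : ℝ} (hP : ∀ k, gradE (wx k) (wy k) ≤ P) :
    IE (area2 F) - 2 * (fullRows F + fullCols F) ≤ P := by
  have hδr := fullRows_nonneg F
  have hδc : 0 ≤ fullCols F := by
    rw [← fullRows_swap]; exact fullRows_nonneg _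
  have hle1 : IE (area2 F) ≤ 2 * √(π * area2 F) := min_le_left _ _
  have hle2 : IE (area2 F) ≤ 2 * √2 := min_le_right _ _
  by_cases hZr : volume {t | t ∈ Icc (0 : ℝ) 1 ∧ rowMass F t = 0} = 0
  · by_cases hZc : volume {t | t ∈ Icc (0 : ℝ) 1 ∧ colMass F t = 0} = 0
    · -- no empty rows, no empty columns
      have hZc' : volume {t | t ∈ Icc (0 : ℝ) 1 ∧ rowMass (swapSet F) t = 0} = 0 := by
        rw [rowMass_swap]; exact hZc
      have h1 := integral_mix_of_no_empty h.meas hZr
      have h2 := integral_mix_of_no_empty (swapSet_meas h.meas) hZc'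
      rw [fullRows_swap] at h2
      have hs : √2 * √2 = 2 := Real.mul_self_sqrt (by norm_num)
      have hs0 : 0 < √2 := by positivity
      have hs1 : √2 ≤ 2 := by nlinarith
      have hmain : 4 - 2 * (fullRows F + fullCols F) ≤ √2 * P := by
        apply le_of_forall_pos_le_add
        intro ε hε
        have e1 := h.eventually_row (ε := ε / 2) (by positivity)
        have e2 := h.swap.eventually_row (ε := ε / 2) (by positivity)
        obtain ⟨k, hk1, hk2⟩ := (e1.and e2).exists
        rw [h1] at hk1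
        rw [h2] at hk2
        have hm := h.mink_bound k
        have hPk := mul_le_mul_of_nonneg_left (hP k) hs0.le
        linarith
      have hfin : 2 * √2 - 2 * (fullRows F + fullCols F) ≤ P := by
        have hδ := add_nonneg hδr hδc
        have h3 := mul_le_mul_of_nonneg_left hmain hs0.le
        have h4 : √2 * (√2 * P) = 2 * P := by rw [← mul_assoc, hs]
        rw [h4] at h3
        have h5 : √2 * (fullRows F + fullCols F) ≤ 2 * (fullRows F + fullCols F) :=
          mul_le_mul_of_nonneg_right hs1 hδ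
        nlinarith
      linarith
    · have hZc' : 0 < volume {t | t ∈ Icc (0 : ℝ) 1 ∧ rowMass (swapSet F) t = 0} := by
        rw [rowMass_swap]; exact pos_iff_ne_zero.mpr hZc
      have key := h.swap.penal_of_empty (P := P)
        (fun k => by rw [h.gradE_swap k]; exact hP k) hZc'
      rw [area2_swap h.meas, fullRows_swap] at key
      linarith
  · have key := h.penal_of_empty hP (pos_iff_ne_zero.mpr hZr)
    linarith

/-- Eventual form of (E1). -/
theorem torus2_E1_evt (h : Approx2 w wx wy F) {ε : ℝ} (hε : 0 < ε) :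
    ∀ᶠ k in atTop, IT (area2 F) - ε ≤ gradE (wx k) (wy k) := by
  by_contra hcon
  rw [not_eventually] at hcon
  obtain ⟨φ, hφ, hlt⟩ := extraction_of_frequently_atTop hcon
  have := (h.comp φ hφ).torus2_E1 (P := IT (area2 F) - ε) (fun k => (not_le.mp (hlt k)).le)
  linarith

/-- Eventual form of (E2'). -/
theorem torus2_E2_evt (h : Approx2 w wx wy F) {ε : ℝ} (hε : 0 < ε) :
    ∀ᶠ k in atTop, IE (area2 F) - 2 * (fullRows F + fullCols F) - ε ≤ gradE (wx k) (wy k) := by
  by_contra hcon
  rw [not_eventually] at hcon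
  obtain ⟨φ, hφ, hlt⟩ := extraction_of_frequently_atTop hcon
  have := (h.comp φ hφ).torus2_E2 (P := IE (area2 F) - 2 * (fullRows F + fullCols F) - ε)
    (fun k => (not_le.mp (hlt k)).le)
  linarith

end Approx2

end Vale.Agent.Lib.P232.T2
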